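import Mathlib

/-!
Row 299 / S0453 — the abstract "Caputo step" (helper20).

Setting: a finite state space `ι`, a finite family `β` of symmetric idempotent operators
`A b` on `ι → ℝ` (orthogonal projections for the counting inner product).
Put `X = ∑ b, A b`.  If

* `hcross` : `X² ≥ X` as quadratic forms, i.e. `∑_{b ≠ b'} ⟨A b f, A b' f⟩ ≥ 0` for all `f`
  (this is `O + D ≥ 0` in the notation of the row-299 board posts), and
* `hker`   : only the constants are killed by every `A b` (connectivity),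

then `Var f ≤ ⟨f, X f⟩ = ∑ b, ‖A b f‖²` (the spectrum of `X` lies in `{0} ∪ [1, ∞)` and the
kernel is the constants), written without division as

  `|ι| · ∑ f² − (∑ f)² ≤ |ι| · ∑ b, ∑ i, (A b f i)²`.

No spectral theorem is used: for `u = X h` one has `‖u‖⁴ = ⟨h, X u⟩² ≤ q(h) q(u)` (Cauchy–Schwarz
for the form `q(f) = ⟨f, X f⟩`) and `q(h) ≤ ‖u‖²` (`hcross`), hence `‖u‖² ≤ q(u)`; and
`range X ⊕ ker X` is everything by rank–nullity.

Only Mathlib is imported; nothing here depends on the switch chain.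
-/

set_option autoImplicit false
open Finset

namespace Crest.Agent.S0453.Caputo20

variable {ι β : Type*} [Fintype ι] [Fintype β]

/-- the counting inner product on `ι → ℝ` -/
def ip (f g : ι → ℝ) : ℝ := ∑ i, f i * g i

lemma ip_comm (f g : ι → ℝ) : ip f g = ip g f := by
  unfold ip; exact sum_congr rfl fun i _ => mul_comm _ _

lemma ip_sum_left {κ : Type*} (s : Finset κ) (F : κ → ι → ℝ) (h : ι → ℝ) :
    ip (∑ b ∈ s, F b) h = ∑ b ∈ s, ip (F b) h := by
  unfold ip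
  rw [sum_comm]
  refine sum_congr rfl fun i _ => ?_
  rw [Finset.sum_apply, sum_mul]

lemma ip_sum_right {κ : Type*} (s : Finset κ) (F : κ → ι → ℝ) (h : ι → ℝ) :
    ip h (∑ b ∈ s, F b) = ∑ b ∈ s, ip h (F b) := by
  rw [ip_comm, ip_sum_left]
  exact sum_congr rfl fun b _ => ip_comm _ _

lemma ip_self_nonneg (f : ι → ℝ) : 0 ≤ ip f f :=
  sum_nonneg fun i _ => mul_self_nonneg (f i)

lemma ip_self_eq_zero {f : ι → ℝ} (h : ip f f = 0) : f = 0 := by
  funext i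
  have := (sum_eq_zero_iff_of_nonneg (fun i _ => mul_self_nonneg (f i))).1 h i (mem_univ i)
  simpa using this

lemma ip_zero_left (g : ι → ℝ) : ip (0 : ι → ℝ) g = 0 := by
  unfold ip; simp

section abstract

variable (A : β → ((ι → ℝ) →ₗ[ℝ] (ι → ℝ)))

/-- `X = ∑ b, A b` -/
def X : (ι → ℝ) →ₗ[ℝ] (ι → ℝ) := ∑ b, A b

/-- the quadratic form `q f = ∑ b, ‖A b f‖²` (`= ⟨f, X f⟩`) -/
def q (f : ι → ℝ) : ℝ := ∑ b, ip (A b f) (A b f)

omit [Fintype ι] in
lemma X_apply (f : ι → ℝ) : X A f = ∑ b, A b f := by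
  unfold X; rw [LinearMap.sum_apply]

lemma q_nonneg (f : ι → ℝ) : 0 ≤ q A f := sum_nonneg fun _ _ => ip_self_nonneg _

variable {A}

omit [Fintype β] in
/-- `⟨A b f, g⟩ = ⟨A b f, A b g⟩` for a symmetric idempotent -/
lemma ip_A (hsym : ∀ b f g, ip (A b f) g = ip f (A b g)) (hidem : ∀ b f, A b (A b f) = A b f)
    (b : β) (f g : ι → ℝ) : ip (A b f) g = ip (A b f) (A b g) := by
  rw [← hsym b (A b f) g, hidem]

lemma ip_X (hsym : ∀ b f g, ip (A b f) g = ip f (A b g)) (hidem : ∀ b f, A b (A b f) = A b f)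
    (f g : ι → ℝ) : ip (X A f) g = ∑ b, ip (A b f) (A b g) := by
  rw [X_apply, ip_sum_left]
  exact sum_congr rfl fun b _ => ip_A hsym hidem b f g

lemma ip_X_symm (hsym : ∀ b f g, ip (A b f) g = ip f (A b g))
    (hidem : ∀ b f, A b (A b f) = A b f) (f g : ι → ℝ) : ip (X A f) g = ip f (X A g) := by
  rw [ip_X hsym hidem, ip_comm f, ip_X hsym hidem]
  exact sum_congr rfl fun b _ => ip_comm _ _

lemma q_eq (hsym : ∀ b f g, ip (A b f) g = ip f (A b g)) (hidem : ∀ b f, A b (A b f) = A b f)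
    (f : ι → ℝ) : q A f = ip (X A f) f := by
  rw [ip_X hsym hidem]; rfl

/-- `‖X f‖² = q f + ∑_{b ≠ b'} ⟨A b f, A b' f⟩` -/
lemma ip_X_X [DecidableEq β] (f : ι → ℝ) :
    ip (X A f) (X A f) = q A f + ∑ b, ∑ b' ∈ univ.erase b, ip (A b f) (A b' f) := by
  rw [X_apply, ip_sum_left]
  unfold q
  rw [← sum_add_distrib]
  refine sum_congr rfl fun b _ => ?_
  rw [ip_sum_right, ← add_sum_erase univ _ (mem_univ b)]

/-- Cauchy–Schwarz for the form `∑ b, ⟨A b f, A b g⟩` -/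
lemma cs (f g : ι → ℝ) : (∑ b, ip (A b f) (A b g)) ^ 2 ≤ q A f * q A g := by
  have h := Finset.sum_mul_sq_le_sq_mul_sq (univ : Finset (β × ι))
    (fun x => A x.1 f x.2) (fun x => A x.1 g x.2)
  rw [Fintype.sum_prod_type, Fintype.sum_prod_type, Fintype.sum_prod_type] at h
  have e : ∀ u v : ι → ℝ, ∀ b : β, ip (A b u) (A b v) = ∑ i, A b u i * A b v i := fun _ _ _ => rfl
  have e2 : ∀ u : ι → ℝ, q A u = ∑ b, ∑ i, A b u i ^ 2 := fun u =>
    sum_congr rfl fun b _ => sum_congr rfl fun i _ => (sq _).symm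
  rw [e2, e2]
  simpa only [e] using h

/-- on the range of `X` the form `q` dominates the norm: `‖X h‖² ≤ q (X h)` -/
lemma norm_le_q_on_range [DecidableEq β] (hsym : ∀ b f g, ip (A b f) g = ip f (A b g))
    (hidem : ∀ b f, A b (A b f) = A b f)
    (hcross : ∀ f, 0 ≤ ∑ b, ∑ b' ∈ univ.erase b, ip (A b f) (A b' f)) (h : ι → ℝ) :
    ip (X A h) (X A h) ≤ q A (X A h) := by
  set u := X A h with hu
  have h1 : q A h ≤ ip u u := by
    rw [hu, ip_X_X]; linarith [hcross h]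
  have h2 : (ip u u) ^ 2 ≤ q A h * q A u := by
    have := cs (A := A) h u
    rwa [← ip_X hsym hidem h u, ← hu] at this
  have h0 : 0 ≤ q A h := q_nonneg A h
  have h3 : 0 ≤ q A u := q_nonneg A u
  by_contra hlt
  replace hlt := not_le.1 hlt
  have hpos : 0 < ip u u := lt_of_le_of_lt h3 hlt
  have h4 : q A h * q A u ≤ ip u u * q A u := mul_le_mul_of_nonneg_right h1 h3
  have h5 : ip u u * q A u < ip u u * ip u u := mul_lt_mul_of_pos_left hlt hpos
  nlinarith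

/-- `range X + ker X` is everything -/
lemma exists_decomp (hsym : ∀ b f g, ip (A b f) g = ip f (A b g))
    (hidem : ∀ b f, A b (A b f) = A b f) (f : ι → ℝ) :
    ∃ h k : ι → ℝ, f = X A h + k ∧ X A k = 0 := by
  have hd : Disjoint (LinearMap.range (X A)) (LinearMap.ker (X A)) := by
    rw [Submodule.disjoint_def]
    rintro u ⟨h, rfl⟩ hu
    apply ip_self_eq_zero
    have hu' : X A (X A h) = 0 := LinearMap.mem_ker.1 hu
    rw [ip_X_symm hsym hidem h (X A h), hu']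
    unfold ip; simp
  have htop : LinearMap.range (X A) ⊔ LinearMap.ker (X A) = ⊤ :=
    Submodule.eq_top_of_disjoint _ _ (by rw [LinearMap.finrank_range_add_finrank_ker]) hd
  have hf : f ∈ LinearMap.range (X A) ⊔ LinearMap.ker (X A) := by rw [htop]; trivial
  obtain ⟨u, ⟨h, rfl⟩, k, hk, rfl⟩ := Submodule.mem_sup.1 hf
  exact ⟨h, k, rfl, LinearMap.mem_ker.1 hk⟩

end abstract

/-- **Abstract Caputo step.**  `A b` symmetric idempotents, `X = ∑ b, A b`
with `X² ≥ X` (`hcross`) and `ker X` = constants (`hker`).  Then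
`|ι| ∑ f² − (∑ f)² ≤ |ι| ∑ b, ∑ i, (A b f i)²`, i.e. `Var f ≤ ⟨f, X f⟩`. -/
theorem caputo_poincare [DecidableEq β] (A : β → ((ι → ℝ) →ₗ[ℝ] (ι → ℝ)))
    (hsym : ∀ b f g, ∑ i, A b f i * g i = ∑ i, f i * A b g i)
    (hidem : ∀ b f, A b (A b f) = A b f)
    (hcross : ∀ f, 0 ≤ ∑ b, ∑ b' ∈ univ.erase b, ∑ i, A b f i * A b' f i)
    (hker : ∀ f, (∀ b, A b f = 0) → ∀ i j, f i = f j) (f : ι → ℝ) :
    (Fintype.card ι : ℝ) * ∑ i, f i ^ 2 - (∑ i, f i) ^ 2 ≤
      (Fintype.card ι : ℝ) * ∑ b, ∑ i, (A b f i) ^ 2 := by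
  have hsym' : ∀ b f g, ip (A b f) g = ip f (A b g) := hsym
  have hcross' : ∀ f, 0 ≤ ∑ b, ∑ b' ∈ univ.erase b, ip (A b f) (A b' f) := hcross
  rcases isEmpty_or_nonempty ι with hι | hι
  · simp
  obtain ⟨h, k, rfl, hk⟩ := exists_decomp hsym' hidem f
  -- `k` is killed by every `A b`, hence constant
  have hqk : q A k = 0 := by
    rw [q_eq hsym' hidem, hk]; exact ip_zero_left k
  have hAk : ∀ b, A b k = 0 := fun b =>
    ip_self_eq_zero ((sum_eq_zero_iff_of_nonneg (fun b _ => ip_self_nonneg _)).1 hqk b (mem_univ b))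
  have hconst := hker k hAk
  obtain ⟨i₀⟩ := hι
  set c : ℝ := k i₀ with hc
  have hkc : ∀ i, k i = c := fun i => hconst i i₀
  set u := X A h with hu
  have hA : ∀ b, A b (u + k) = A b u := fun b => by rw [map_add, hAk b, add_zero]
  have hq : ∑ b, ∑ i, (A b (u + k) i) ^ 2 = q A u := by
    refine sum_congr rfl fun b _ => ?_
    rw [hA b]
    exact sum_congr rfl fun i _ => sq _
  have hmain : ip u u ≤ q A u := norm_le_q_on_range hsym' hidem hcross' h
  rw [hq]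
  have hN : (0 : ℝ) ≤ (Fintype.card ι : ℝ) := Nat.cast_nonneg _
  have e1 : ∑ i, (u + k) i ^ 2 = ip u u + 2 * c * ∑ i, u i + (Fintype.card ι : ℝ) * c ^ 2 := by
    have : ∀ i, (u + k) i ^ 2 = u i * u i + 2 * c * u i + c ^ 2 := fun i => by
      rw [Pi.add_apply, hkc i]; ring
    rw [sum_congr rfl fun i _ => this i, sum_add_distrib, sum_add_distrib, ← mul_sum]
    simp [ip]
  have e2 : ∑ i, (u + k) i = ∑ i, u i + (Fintype.card ι : ℝ) * c := by
    have : ∀ i, (u + k) i = u i + c := fun i => by rw [Pi.add_apply, hkc i]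
    rw [sum_congr rfl fun i _ => this i, sum_add_distrib]
    simp
  rw [e1, e2]
  nlinarith [mul_le_mul_of_nonneg_left hmain hN, sq_nonneg (∑ i, u i)]


/-! ### Class averages: the case `A b = 1 - E[· | classes of r b]` -/

section rel

variable {ι β : Type*} [Fintype ι] [Fintype β]

/-- average of `f` over the `r`-class of `i` -/
noncomputable def avg (r : ι → ι → Prop) [DecidableRel r] (f : ι → ℝ) (i : ι) : ℝ :=
  (∑ j ∈ univ.filter (r i), f j) / ((univ.filter (r i)).card : ℝ)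

/-- `avg r` as a linear map -/
noncomputable def avgL (r : ι → ι → Prop) [DecidableRel r] : (ι → ℝ) →ₗ[ℝ] (ι → ℝ) where
  toFun f := avg r f
  map_add' f g := by
    funext i
    simp only [avg, Pi.add_apply, sum_add_distrib, add_div]
  map_smul' c f := by
    funext i
    simp only [avg, Pi.smul_apply, smul_eq_mul, ← mul_sum, mul_div_assoc, RingHom.id_apply]

variable {r : ι → ι → Prop} [DecidableRel r]

lemma avgL_apply (f : ι → ℝ) : avgL r f = avg r f := rfl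

lemma filter_eq_of_rel (hr : Equivalence r) {i j : ι} (h : r i j) :
    univ.filter (r i) = univ.filter (r j) := by
  ext k
  simp only [mem_filter, mem_univ, true_and]
  exact ⟨fun hik => hr.trans (hr.symm h) hik, fun hjk => hr.trans h hjk⟩

lemma avg_eq_of_rel (hr : Equivalence r) (f : ι → ℝ) {i j : ι} (h : r i j) :
    avg r f i = avg r f j := by
  unfold avg; rw [filter_eq_of_rel hr h]

lemma card_class_pos (hr : Equivalence r) (i : ι) : 0 < ((univ.filter (r i)).card : ℝ) := by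
  have : i ∈ univ.filter (r i) := by simp [hr.refl i]
  exact_mod_cast Finset.card_pos.2 ⟨i, this⟩

lemma avg_avg (hr : Equivalence r) (f : ι → ℝ) : avg r (avg r f) = avg r f := by
  funext i
  have h1 : ∑ j ∈ univ.filter (r i), avg r f j = ∑ j ∈ univ.filter (r i), avg r f i :=
    sum_congr rfl fun j hj => (avg_eq_of_rel hr f (mem_filter.1 hj).2).symm
  have hc := (card_class_pos hr i).ne'
  show (∑ j ∈ univ.filter (r i), avg r f j) / _ = _
  rw [h1, sum_const, nsmul_eq_mul]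
  field_simp

lemma avg_symm (hr : Equivalence r) (f g : ι → ℝ) :
    ∑ i, avg r f i * g i = ∑ i, f i * avg r g i := by
  have e1 : ∀ i, avg r f i * g i
      = ∑ j, if r i j then f j * g i / ((univ.filter (r i)).card : ℝ) else 0 := by
    intro i
    unfold avg
    rw [div_mul_eq_mul_div, sum_mul, sum_div, sum_filter]
  have e2 : ∀ i, f i * avg r g i
      = ∑ j, if r i j then f i * g j / ((univ.filter (r i)).card : ℝ) else 0 := by
    intro i
    unfold avg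
    rw [← mul_div_assoc, mul_sum, sum_div, sum_filter]
  rw [sum_congr rfl fun i _ => e1 i, sum_congr rfl fun i _ => e2 i, sum_comm]
  refine sum_congr rfl fun j _ => sum_congr rfl fun i _ => ?_
  by_cases h : r i j
  · rw [if_pos h, if_pos (hr.symm h), filter_eq_of_rel hr h]
  · rw [if_neg h, if_neg fun h' => h (hr.symm h')]

/-- **Caputo step for class averages** (`Fintype` form).  `r b` equivalence relations on `ι`,
`E_b = avg (r b)`.  If `∑_{b ≠ b'} ⟨f - E_b f, f - E_b' f⟩ ≥ 0` for all `f`, and a function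
constant on all classes of all `r b` is constant, then
`|ι| ∑ f² − (∑ f)² ≤ |ι| ∑ b, ∑ i, (f i − E_b f i)²`. -/
theorem caputo_poincare_rel [DecidableEq β] (r : β → ι → ι → Prop) [∀ b, DecidableRel (r b)]
    (hr : ∀ b, Equivalence (r b))
    (hcross : ∀ f : ι → ℝ, 0 ≤ ∑ b, ∑ b' ∈ univ.erase b,
        ∑ i, (f i - avg (r b) f i) * (f i - avg (r b') f i))
    (hconn : ∀ f : ι → ℝ, (∀ b i j, r b i j → f i = f j) → ∀ i j, f i = f j) (f : ι → ℝ) :
    (Fintype.card ι : ℝ) * ∑ i, f i ^ 2 - (∑ i, f i) ^ 2 ≤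
      (Fintype.card ι : ℝ) * ∑ b, ∑ i, (f i - avg (r b) f i) ^ 2 := by
  have hA : ∀ b (f : ι → ℝ) (i : ι),
      ((LinearMap.id - avgL (r b) : (ι → ℝ) →ₗ[ℝ] (ι → ℝ)) f) i = f i - avg (r b) f i :=
    fun _ _ _ => rfl
  have key := caputo_poincare (fun b => LinearMap.id - avgL (r b)) ?_ ?_ ?_ ?_ f
  · simpa only [hA] using key
  · intro b f g
    simp only [hA, sub_mul, mul_sub, sum_sub_distrib]
    rw [avg_symm (hr b)]
  · intro b f
    funext i
    rw [hA, hA]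
    have h2 : avg (r b) (fun j => ((LinearMap.id - avgL (r b) : (ι → ℝ) →ₗ[ℝ] (ι → ℝ)) f) j) i
        = 0 := by
      have : (fun j => ((LinearMap.id - avgL (r b) : (ι → ℝ) →ₗ[ℝ] (ι → ℝ)) f) j)
          = f - avg (r b) f := by
        funext j; rw [hA]; rfl
      rw [this]
      have h3 : avgL (r b) (f - avg (r b) f) = avgL (r b) f - avgL (r b) (avg (r b) f) :=
        map_sub _ _ _
      rw [avgL_apply, avgL_apply, avgL_apply, avg_avg (hr b), sub_self] at h3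
      rw [h3]; rfl
    rw [h2, sub_zero]
  · intro f
    simpa only [hA] using hcross f
  · intro f hf
    refine hconn f fun b i j hij => ?_
    have hi : f i = avg (r b) f i := by
      have := congrFun (hf b) i
      rw [hA] at this
      exact sub_eq_zero.1 this
    have hj : f j = avg (r b) f j := by
      have := congrFun (hf b) j
      rw [hA] at this
      exact sub_eq_zero.1 this
    rw [hi, hj, avg_eq_of_rel (hr b) f hij]

end rel

/-! ### The same on a `Finset Ω` of an ambient type (the shape used for `realizations d`) -/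

section on

variable {α β : Type*} [Fintype β]

/-- average of `f` over the part of the `r`-class of `x` inside `Ω` -/
noncomputable def avgOn (Ω : Finset α) (r : α → α → Prop) [DecidableRel r] (f : α → ℝ) (x : α) : ℝ :=
  (∑ y ∈ Ω.filter (r x), f y) / ((Ω.filter (r x)).card : ℝ)

/-- the relation induced on the subtype `↥Ω` -/
def subRel (Ω : Finset α) (r : α → α → Prop) : ↥Ω → ↥Ω → Prop := fun i j => r i.1 j.1

instance subRelDecidable (Ω : Finset α) (r : α → α → Prop) [DecidableRel r] :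
    DecidableRel (subRel Ω r) :=
  fun i j => inferInstanceAs (Decidable (r i.1 j.1))

lemma avg_subRel (Ω : Finset α) (r : α → α → Prop) [DecidableRel r] (F : α → ℝ) (i : ↥Ω) :
    avg (subRel Ω r) (fun j => F j.1) i = avgOn Ω r F i.1 := by
  unfold avg avgOn
  congr 1
  · rw [sum_filter, sum_filter]
    exact Finset.sum_coe_sort Ω (fun y => if r i.1 y then F y else 0)
  · rw [Finset.cast_card, Finset.cast_card, sum_filter, sum_filter]
    exact Finset.sum_coe_sort Ω (fun y => if r i.1 y then (1 : ℝ) else 0)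

/-- **Caputo step for class averages on a finset** `Ω` (e.g. `Ω = realizations d`,
`r b G G'` = "`G` and `G'` agree off the stars of the pair `b`").  `r b` equivalence relations on
`Ω`, `E_b = avgOn Ω (r b)`.  If `∑_{b ≠ b'} ⟨f − E_b f, f − E_b' f⟩_Ω ≥ 0` for all `f` (this is
`O + D ≥ 0`), and every function constant on all classes is constant on `Ω` (connectivity), then
`|Ω| ∑_Ω f² − (∑_Ω f)² ≤ |Ω| ∑ b, ∑_{x ∈ Ω} (f x − E_b f x)²`. -/
theorem caputo_poincare_on [DecidableEq β] (Ω : Finset α) (r : β → α → α → Prop)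
    [∀ b, DecidableRel (r b)]
    (hrefl : ∀ b, ∀ x ∈ Ω, r b x x)
    (hsymm : ∀ b, ∀ x ∈ Ω, ∀ y ∈ Ω, r b x y → r b y x)
    (htrans : ∀ b, ∀ x ∈ Ω, ∀ y ∈ Ω, ∀ z ∈ Ω, r b x y → r b y z → r b x z)
    (hcross : ∀ f : α → ℝ, 0 ≤ ∑ b, ∑ b' ∈ univ.erase b, ∑ x ∈ Ω,
        (f x - avgOn Ω (r b) f x) * (f x - avgOn Ω (r b') f x))
    (hconn : ∀ f : α → ℝ, (∀ b, ∀ x ∈ Ω, ∀ y ∈ Ω, r b x y → f x = f y) →
        ∀ x ∈ Ω, ∀ y ∈ Ω, f x = f y)
    (f : α → ℝ) :
    (Ω.card : ℝ) * ∑ x ∈ Ω, f x ^ 2 - (∑ x ∈ Ω, f x) ^ 2 ≤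
      (Ω.card : ℝ) * ∑ b, ∑ x ∈ Ω, (f x - avgOn Ω (r b) f x) ^ 2 := by
  classical
  -- extension by zero of a function on the subtype
  let ext : (↥Ω → ℝ) → α → ℝ := fun g x => if h : x ∈ Ω then g ⟨x, h⟩ else 0
  have hext : ∀ (g : ↥Ω → ℝ) (i : ↥Ω), ext g i.1 = g i := fun g i => by
    show (if h : i.1 ∈ Ω then g ⟨i.1, h⟩ else 0) = g i
    rw [dif_pos i.2]
  have hext' : ∀ g : ↥Ω → ℝ, (fun j : ↥Ω => ext g j.1) = g := fun g => funext (hext g)
  have key := caputo_poincare_rel (ι := ↥Ω) (fun b => subRel Ω (r b)) ?_ ?_ ?_ (fun i => f i.1)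
  · rw [Fintype.card_coe] at key
    rw [← Finset.sum_coe_sort Ω (fun x => f x ^ 2), ← Finset.sum_coe_sort Ω f]
    have e : ∀ b, ∑ x ∈ Ω, (f x - avgOn Ω (r b) f x) ^ 2
        = ∑ i : ↥Ω, (f i.1 - avg (subRel Ω (r b)) (fun j => f j.1) i) ^ 2 := by
      intro b
      rw [← Finset.sum_coe_sort Ω (fun x => (f x - avgOn Ω (r b) f x) ^ 2)]
      exact sum_congr rfl fun i _ => by rw [avg_subRel]
    rw [sum_congr rfl fun b _ => e b]
    exact key
  · intro b
    exact ⟨fun i => hrefl b i.1 i.2, fun {i j} h => hsymm b i.1 i.2 j.1 j.2 h,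
      fun {i j k} h h' => htrans b i.1 i.2 j.1 j.2 k.1 k.2 h h'⟩
  · intro g
    have := hcross (ext g)
    have e : ∀ b b', ∑ x ∈ Ω, (ext g x - avgOn Ω (r b) (ext g) x) *
          (ext g x - avgOn Ω (r b') (ext g) x)
        = ∑ i : ↥Ω, (g i - avg (subRel Ω (r b)) g i) * (g i - avg (subRel Ω (r b')) g i) := by
      intro b b'
      rw [← Finset.sum_coe_sort Ω (fun x => (ext g x - avgOn Ω (r b) (ext g) x) *
          (ext g x - avgOn Ω (r b') (ext g) x))]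
      refine sum_congr rfl fun i _ => ?_
      rw [← avg_subRel, ← avg_subRel, hext', hext]
    rw [sum_congr rfl fun b _ => sum_congr rfl fun b' _ => e b b'] at this
    exact this
  · intro g hg i j
    have := hconn (ext g) (fun b x hx y hy hxy => by
      have := hg b ⟨x, hx⟩ ⟨y, hy⟩ hxy
      rw [← hext g ⟨x, hx⟩, ← hext g ⟨y, hy⟩] at this
      exact this) i.1 i.2 j.1 j.2
    rw [hext, hext] at this
    exact this

/-- `caputo_poincare_on` with the index family given as a finset `B` of an arbitrary type. -/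
theorem caputo_poincare_on' {γ : Type*} [DecidableEq γ] (Ω : Finset α) (B : Finset γ)
    (r : γ → α → α → Prop) [∀ b, DecidableRel (r b)]
    (hrefl : ∀ b ∈ B, ∀ x ∈ Ω, r b x x)
    (hsymm : ∀ b ∈ B, ∀ x ∈ Ω, ∀ y ∈ Ω, r b x y → r b y x)
    (htrans : ∀ b ∈ B, ∀ x ∈ Ω, ∀ y ∈ Ω, ∀ z ∈ Ω, r b x y → r b y z → r b x z)
    (hcross : ∀ f : α → ℝ, 0 ≤ ∑ b ∈ B, ∑ b' ∈ B.erase b, ∑ x ∈ Ω,
        (f x - avgOn Ω (r b) f x) * (f x - avgOn Ω (r b') f x))
    (hconn : ∀ f : α → ℝ, (∀ b ∈ B, ∀ x ∈ Ω, ∀ y ∈ Ω, r b x y → f x = f y) →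
        ∀ x ∈ Ω, ∀ y ∈ Ω, f x = f y)
    (f : α → ℝ) :
    (Ω.card : ℝ) * ∑ x ∈ Ω, f x ^ 2 - (∑ x ∈ Ω, f x) ^ 2 ≤
      (Ω.card : ℝ) * ∑ b ∈ B, ∑ x ∈ Ω, (f x - avgOn Ω (r b) f x) ^ 2 := by
  have key := caputo_poincare_on (β := ↥B) Ω (fun b => r b.1) (fun b => hrefl b.1 b.2)
    (fun b => hsymm b.1 b.2) (fun b => htrans b.1 b.2) ?_ ?_ f
  · rw [Finset.sum_coe_sort B (fun b => ∑ x ∈ Ω, (f x - avgOn Ω (r b) f x) ^ 2)] at key
    exact key
  · intro g
    have h := hcross g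
    have e : ∀ b : ↥B, ∑ b' ∈ (univ : Finset ↥B).erase b, ∑ x ∈ Ω,
          (g x - avgOn Ω (r b.1) g x) * (g x - avgOn Ω (r b'.1) g x)
        = ∑ b' ∈ B.erase b.1, ∑ x ∈ Ω,
          (g x - avgOn Ω (r b.1) g x) * (g x - avgOn Ω (r b') g x) := by
      intro b
      rw [Finset.sum_erase_eq_sub (mem_univ b), Finset.sum_erase_eq_sub b.2,
        Finset.sum_coe_sort B (fun b' => ∑ x ∈ Ω,
          (g x - avgOn Ω (r b.1) g x) * (g x - avgOn Ω (r b') g x))]
    rw [sum_congr rfl fun b _ => e b, Finset.sum_coe_sort B (fun b => ∑ b' ∈ B.erase b, ∑ x ∈ Ω,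
          (g x - avgOn Ω (r b) g x) * (g x - avgOn Ω (r b') g x))]
    exact h
  · intro g hg
    exact hconn g fun b hb => hg ⟨b, hb⟩

end on


/-! ### Tools for bounding `∑_Ω (f − E f)²` class by class (entry point for Johnson–Poincaré) -/

section onLemmas

variable {α : Type*} (Ω : Finset α) (r : α → α → Prop) [DecidableRel r]

lemma filter_eq_of_relOn (hsymm : ∀ x ∈ Ω, ∀ y ∈ Ω, r x y → r y x)
    (htrans : ∀ x ∈ Ω, ∀ y ∈ Ω, ∀ z ∈ Ω, r x y → r y z → r x z) {x y : α}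
    (hx : x ∈ Ω) (hy : y ∈ Ω) (h : r x y) : Ω.filter (r x) = Ω.filter (r y) := by
  ext z
  simp only [mem_filter]
  exact ⟨fun ⟨hz, hxz⟩ => ⟨hz, htrans y hy x hx z hz (hsymm x hx y hy h) hxz⟩,
    fun ⟨hz, hyz⟩ => ⟨hz, htrans x hx y hy z hz h hyz⟩⟩

lemma avgOn_eq_of_relOn (hsymm : ∀ x ∈ Ω, ∀ y ∈ Ω, r x y → r y x)
    (htrans : ∀ x ∈ Ω, ∀ y ∈ Ω, ∀ z ∈ Ω, r x y → r y z → r x z) (f : α → ℝ) {x y : α}
    (hx : x ∈ Ω) (hy : y ∈ Ω) (h : r x y) : avgOn Ω r f x = avgOn Ω r f y := by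
  unfold avgOn; rw [filter_eq_of_relOn Ω r hsymm htrans hx hy h]

lemma card_classOn_pos (hrefl : ∀ x ∈ Ω, r x x) {x : α} (hx : x ∈ Ω) :
    0 < ((Ω.filter (r x)).card : ℝ) := by
  have : x ∈ Ω.filter (r x) := mem_filter.2 ⟨hx, hrefl x hx⟩
  exact_mod_cast Finset.card_pos.2 ⟨x, this⟩

/-- averaging over classes does not change the total sum -/
lemma sum_eq_sum_class_avg (hrefl : ∀ x ∈ Ω, r x x) (hsymm : ∀ x ∈ Ω, ∀ y ∈ Ω, r x y → r y x)
    (htrans : ∀ x ∈ Ω, ∀ y ∈ Ω, ∀ z ∈ Ω, r x y → r y z → r x z) (g : α → ℝ) :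
    ∑ x ∈ Ω, g x = ∑ x ∈ Ω, (∑ y ∈ Ω.filter (r x), g y) / ((Ω.filter (r x)).card : ℝ) := by
  have e : ∀ x ∈ Ω, (∑ y ∈ Ω.filter (r x), g y) / ((Ω.filter (r x)).card : ℝ)
      = ∑ y ∈ Ω, if r x y then g y / ((Ω.filter (r x)).card : ℝ) else 0 := by
    intro x _; rw [sum_div, sum_filter]
  rw [sum_congr rfl e, sum_comm]
  refine sum_congr rfl fun y hy => ?_
  have e2 : ∀ x ∈ Ω, (if r x y then g y / ((Ω.filter (r x)).card : ℝ) else 0)
      = if r y x then g y / ((Ω.filter (r y)).card : ℝ) else 0 := by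
    intro x hx
    by_cases h : r x y
    · rw [if_pos h, if_pos (hsymm x hx y hy h), filter_eq_of_relOn Ω r hsymm htrans hx hy h]
    · rw [if_neg h, if_neg fun h' => h (hsymm y hy x hx h')]
  rw [sum_congr rfl e2, ← sum_filter, sum_const, nsmul_eq_mul]
  have hc := (card_classOn_pos Ω r hrefl hy).ne'
  field_simp

omit [DecidableRel r] in
/-- variance identity on one finite set: `2 |C| ∑_C (f − mean)² = ∑_{y,z ∈ C} (f y − f z)²` -/
lemma two_card_mul_sum_sq_sub_mean (C : Finset α) (f : α → ℝ) :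
    2 * (C.card : ℝ) * ∑ y ∈ C, (f y - (∑ z ∈ C, f z) / (C.card : ℝ)) ^ 2
      = ∑ y ∈ C, ∑ z ∈ C, (f y - f z) ^ 2 := by
  rcases C.eq_empty_or_nonempty with rfl | hC
  · simp
  have hc : (C.card : ℝ) ≠ 0 := by exact_mod_cast hC.card_pos.ne'
  have e1 : ∑ y ∈ C, (f y - (∑ z ∈ C, f z) / (C.card : ℝ)) ^ 2
      = ∑ z ∈ C, f z ^ 2 - 2 * ((∑ z ∈ C, f z) / (C.card : ℝ)) * ∑ z ∈ C, f z
        + (C.card : ℝ) * ((∑ z ∈ C, f z) / (C.card : ℝ)) ^ 2 := by
    have : ∀ y ∈ C, (f y - (∑ z ∈ C, f z) / (C.card : ℝ)) ^ 2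
        = f y ^ 2 - 2 * ((∑ z ∈ C, f z) / (C.card : ℝ)) * f y
          + ((∑ z ∈ C, f z) / (C.card : ℝ)) ^ 2 := fun y _ => by ring
    rw [sum_congr rfl this, sum_add_distrib, sum_sub_distrib, ← mul_sum, sum_const, nsmul_eq_mul]
  have e2 : ∑ y ∈ C, ∑ z ∈ C, (f y - f z) ^ 2
      = 2 * (C.card : ℝ) * ∑ z ∈ C, f z ^ 2 - 2 * (∑ z ∈ C, f z) * ∑ z ∈ C, f z := by
    have : ∀ y ∈ C, ∑ z ∈ C, (f y - f z) ^ 2
        = (C.card : ℝ) * f y ^ 2 - 2 * f y * (∑ z ∈ C, f z) + ∑ z ∈ C, f z ^ 2 := by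
      intro y _
      have : ∀ z ∈ C, (f y - f z) ^ 2 = f y ^ 2 - 2 * f y * f z + f z ^ 2 := fun z _ => by ring
      rw [sum_congr rfl this, sum_add_distrib, sum_sub_distrib, ← mul_sum, sum_const,
        nsmul_eq_mul]
    rw [sum_congr rfl this, sum_add_distrib, sum_sub_distrib, ← mul_sum, sum_const, nsmul_eq_mul,
      ← sum_mul, ← mul_sum]
    ring
  rw [e1, e2]
  field_simp
  ring

/-- to bound `∑_Ω (f − E f)²` by `∑_Ω g` it suffices to do so on every class -/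
lemma sum_sq_sub_avgOn_le (hrefl : ∀ x ∈ Ω, r x x) (hsymm : ∀ x ∈ Ω, ∀ y ∈ Ω, r x y → r y x)
    (htrans : ∀ x ∈ Ω, ∀ y ∈ Ω, ∀ z ∈ Ω, r x y → r y z → r x z) (f g : α → ℝ)
    (h : ∀ x ∈ Ω, ∑ y ∈ Ω.filter (r x), (f y - avgOn Ω r f x) ^ 2 ≤ ∑ y ∈ Ω.filter (r x), g y) :
    ∑ x ∈ Ω, (f x - avgOn Ω r f x) ^ 2 ≤ ∑ x ∈ Ω, g x := by
  rw [sum_eq_sum_class_avg Ω r hrefl hsymm htrans (fun x => (f x - avgOn Ω r f x) ^ 2),
    sum_eq_sum_class_avg Ω r hrefl hsymm htrans g]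
  refine sum_le_sum fun x hx => ?_
  apply div_le_div_of_nonneg_right _ (Nat.cast_nonneg _)
  calc ∑ y ∈ Ω.filter (r x), (f y - avgOn Ω r f y) ^ 2
      = ∑ y ∈ Ω.filter (r x), (f y - avgOn Ω r f x) ^ 2 :=
        sum_congr rfl fun y hy => by
          rw [avgOn_eq_of_relOn Ω r hsymm htrans f hx (mem_filter.1 hy).1 (mem_filter.1 hy).2]
    _ ≤ _ := h x hx

/-- pair form: if on every class `C`, `∑_{y,z ∈ C} (f y − f z)² ≤ 2 |C| ∑_{y ∈ C} g y`, then
`∑_Ω (f − E f)² ≤ ∑_Ω g`.  (With the Johnson Poincaré inequality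
`2 ∑_{A,B} (F A − F B)² ≤ |C| · EE_ordered(F)` take `g y = (1/4) ∑_{z ~ y} (f y − f z)²`.) -/
lemma sum_sq_sub_avgOn_le_of_pairs (hrefl : ∀ x ∈ Ω, r x x)
    (hsymm : ∀ x ∈ Ω, ∀ y ∈ Ω, r x y → r y x)
    (htrans : ∀ x ∈ Ω, ∀ y ∈ Ω, ∀ z ∈ Ω, r x y → r y z → r x z) (f g : α → ℝ)
    (h : ∀ x ∈ Ω, ∑ y ∈ Ω.filter (r x), ∑ z ∈ Ω.filter (r x), (f y - f z) ^ 2
        ≤ 2 * ((Ω.filter (r x)).card : ℝ) * ∑ y ∈ Ω.filter (r x), g y) :
    ∑ x ∈ Ω, (f x - avgOn Ω r f x) ^ 2 ≤ ∑ x ∈ Ω, g x := by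
  refine sum_sq_sub_avgOn_le Ω r hrefl hsymm htrans f g fun x hx => ?_
  have hc := card_classOn_pos Ω r hrefl hx
  have h1 := two_card_mul_sum_sq_sub_mean (Ω.filter (r x)) f
  have h2 := h x hx
  rw [← h1] at h2
  have h3 : (0 : ℝ) < 2 * ((Ω.filter (r x)).card : ℝ) := by positivity
  exact le_of_mul_le_mul_left h2 h3

end onLemmas

end Crest.Agent.S0453.Caputo20
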