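import Mathlib
import Crest.Prelude.Def_SwitchChain
import Crest.Agent.S0453.Caputo20

/-!
Row 299 / S0453 — canonical definitions for the Caputo route (helper20, at the driver's request,
board post 1020): ONE source for the class-average operator and the pair/triple classes.

* `avgOn Ω r f x`   : average of `f` over `{y ∈ Ω | r x y}` (re-exported from `Caputo20.lean`);
* `EquivOn Ω r`     : `r` is an equivalence relation on the finset `Ω`;
* `sameOff U G G'`  : `G` and `G'` have the same edges among those avoiding the vertex set `U`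
                      ("`G − U = G' − U`");
* `E d U f`         : `avgOn (realizations d) (sameOff U) f` = `E[f | G − U]` on `Ω(d)`
                      (`U` a pair `b`: the Johnson pair class; `U` a triple `T`: the operator `P_T`);
* `pairs n`         : `(univ : Finset (Fin n)).powersetCard 2`.

Basic lemmas (general `avgOn_*` for an `EquivOn`, and `E_*` on `realizations d`): congruence,
linearity, constants, symmetry, idempotence, `E f = f ↔ f` class-constant, tower property for a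
coarser relation, sum preservation, Pythagoras.

`caputo_pairs`: the Caputo step in the exact shape used by the assembly:
`hcross` (= `O + D ≥ 0`) and `hconn` (= connectivity) give
`|Ω| ∑ f² − (∑ f)² ≤ |Ω| ∑_{b ∈ pairs n} ∑_{G ∈ Ω} (f G − E d b f G)²`.
-/

set_option autoImplicit false
open Finset

namespace Crest.Agent.S0453R

open Crest.SwitchChain

export Crest.Agent.S0453.Caputo20 (avgOn caputo_poincare caputo_poincare_rel caputo_poincare_on
  caputo_poincare_on' two_card_mul_sum_sq_sub_mean)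

/-! ### General class averages on a finset -/

section general

variable {α : Type*}

/-- `r` is an equivalence relation on the finset `Ω` -/
structure EquivOn (Ω : Finset α) (r : α → α → Prop) : Prop where
  refl : ∀ x ∈ Ω, r x x
  symm : ∀ x ∈ Ω, ∀ y ∈ Ω, r x y → r y x
  trans : ∀ x ∈ Ω, ∀ y ∈ Ω, ∀ z ∈ Ω, r x y → r y z → r x z

lemma EquivOn.of_equivalence {r : α → α → Prop} (h : Equivalence r) (Ω : Finset α) :
    EquivOn Ω r :=
  ⟨fun x _ => h.refl x, fun _ _ _ _ hxy => h.symm hxy, fun _ _ _ _ _ _ hxy hyz => h.trans hxy hyz⟩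

variable {Ω : Finset α} {r : α → α → Prop} [DecidableRel r]

lemma avgOn_def (Ω : Finset α) (r : α → α → Prop) [DecidableRel r] (f : α → ℝ) (x : α) :
    avgOn Ω r f x = (∑ y ∈ Ω.filter (r x), f y) / ((Ω.filter (r x)).card : ℝ) := rfl

lemma avgOn_congr {f g : α → ℝ} (h : ∀ y ∈ Ω, f y = g y) (x : α) :
    avgOn Ω r f x = avgOn Ω r g x := by
  rw [avgOn_def, avgOn_def, sum_congr rfl fun y hy => h y (mem_filter.1 hy).1]

lemma avgOn_add (f g : α → ℝ) (x : α) :
    avgOn Ω r (fun y => f y + g y) x = avgOn Ω r f x + avgOn Ω r g x := by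
  simp only [avgOn_def, sum_add_distrib, add_div]

lemma avgOn_sub (f g : α → ℝ) (x : α) :
    avgOn Ω r (fun y => f y - g y) x = avgOn Ω r f x - avgOn Ω r g x := by
  simp only [avgOn_def, sum_sub_distrib, sub_div]

lemma avgOn_const_mul (c : ℝ) (f : α → ℝ) (x : α) :
    avgOn Ω r (fun y => c * f y) x = c * avgOn Ω r f x := by
  simp only [avgOn_def, ← mul_sum, mul_div_assoc]

lemma avgOn_neg (f : α → ℝ) (x : α) :
    avgOn Ω r (fun y => - f y) x = - avgOn Ω r f x := by
  simp only [avgOn_def, sum_neg_distrib, neg_div]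

lemma card_class_pos (h : EquivOn Ω r) {x : α} (hx : x ∈ Ω) :
    0 < ((Ω.filter (r x)).card : ℝ) :=
  Crest.Agent.S0453.Caputo20.card_classOn_pos Ω r h.refl hx

lemma class_eq_of_rel (h : EquivOn Ω r) {x y : α} (hx : x ∈ Ω) (hy : y ∈ Ω) (hxy : r x y) :
    Ω.filter (r x) = Ω.filter (r y) :=
  Crest.Agent.S0453.Caputo20.filter_eq_of_relOn Ω r h.symm h.trans hx hy hxy

/-- the class average is constant on classes -/
lemma avgOn_eq_of_rel (h : EquivOn Ω r) (f : α → ℝ) {x y : α} (hx : x ∈ Ω) (hy : y ∈ Ω)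
    (hxy : r x y) : avgOn Ω r f x = avgOn Ω r f y := by
  rw [avgOn_def, avgOn_def, class_eq_of_rel h hx hy hxy]

/-- the average of a function that is constant on the class of `x` -/
lemma avgOn_eq_of_const_on_class (h : EquivOn Ω r) {f : α → ℝ} {x : α} (hx : x ∈ Ω)
    (hf : ∀ y ∈ Ω, r x y → f y = f x) : avgOn Ω r f x = f x := by
  have hc := (card_class_pos h hx).ne'
  rw [avgOn_def, sum_congr rfl fun y hy => hf y (mem_filter.1 hy).1 (mem_filter.1 hy).2,
    sum_const, nsmul_eq_mul]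
  field_simp

lemma avgOn_const (h : EquivOn Ω r) (c : ℝ) {x : α} (hx : x ∈ Ω) :
    avgOn Ω r (fun _ => c) x = c :=
  avgOn_eq_of_const_on_class h (f := fun _ => c) hx fun _ _ _ => rfl

/-- idempotence -/
lemma avgOn_idem (h : EquivOn Ω r) (f : α → ℝ) {x : α} (hx : x ∈ Ω) :
    avgOn Ω r (avgOn Ω r f) x = avgOn Ω r f x :=
  avgOn_eq_of_const_on_class h hx fun _ hy hxy => (avgOn_eq_of_rel h f hx hy hxy).symm

/-- `E f = f` on `Ω` iff `f` is constant on the classes -/
lemma avgOn_eq_self_iff (h : EquivOn Ω r) (f : α → ℝ) :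
    (∀ x ∈ Ω, avgOn Ω r f x = f x) ↔ ∀ x ∈ Ω, ∀ y ∈ Ω, r x y → f x = f y := by
  constructor
  · intro hf x hx y hy hxy
    rw [← hf x hx, ← hf y hy, avgOn_eq_of_rel h f hx hy hxy]
  · intro hf x hx
    exact avgOn_eq_of_const_on_class h hx fun y hy hxy => (hf x hx y hy hxy).symm

/-- symmetry (self-adjointness for the counting inner product on `Ω`) -/
lemma avgOn_symm (h : EquivOn Ω r) (f g : α → ℝ) :
    ∑ x ∈ Ω, avgOn Ω r f x * g x = ∑ x ∈ Ω, f x * avgOn Ω r g x := by
  have e1 : ∀ x ∈ Ω, avgOn Ω r f x * g x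
      = ∑ y ∈ Ω, if r x y then f y * g x / ((Ω.filter (r x)).card : ℝ) else 0 := by
    intro x _
    rw [avgOn_def, div_mul_eq_mul_div, sum_mul, sum_div, sum_filter]
  have e2 : ∀ x ∈ Ω, f x * avgOn Ω r g x
      = ∑ y ∈ Ω, if r x y then f x * g y / ((Ω.filter (r x)).card : ℝ) else 0 := by
    intro x _
    rw [avgOn_def, ← mul_div_assoc, mul_sum, sum_div, sum_filter]
  rw [sum_congr rfl e1, sum_congr rfl e2, sum_comm]
  refine sum_congr rfl fun y hy => sum_congr rfl fun x hx => ?_
  by_cases hxy : r x y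
  · rw [if_pos hxy, if_pos (h.symm x hx y hy hxy), class_eq_of_rel h hx hy hxy]
  · rw [if_neg hxy, if_neg fun h' => hxy (h.symm y hy x hx h')]

/-- averaging over classes preserves the total sum -/
lemma sum_avgOn (h : EquivOn Ω r) (f : α → ℝ) : ∑ x ∈ Ω, avgOn Ω r f x = ∑ x ∈ Ω, f x :=
  (Crest.Agent.S0453.Caputo20.sum_eq_sum_class_avg Ω r h.refl h.symm h.trans f).symm

/-- `⟨E f, g − E g⟩ = 0` -/
lemma sum_avgOn_mul_sub (h : EquivOn Ω r) (f g : α → ℝ) :
    ∑ x ∈ Ω, avgOn Ω r f x * (g x - avgOn Ω r g x) = 0 := by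
  have e : ∑ x ∈ Ω, avgOn Ω r f x * avgOn Ω r g x = ∑ x ∈ Ω, avgOn Ω r f x * g x := by
    rw [avgOn_symm h f (avgOn Ω r g), avgOn_symm h f g]
    exact sum_congr rfl fun x hx => by rw [avgOn_idem h g hx]
  simp only [mul_sub, sum_sub_distrib]
  rw [e, sub_self]

/-- Pythagoras: `‖f − E f‖² = ⟨f, f − E f⟩` -/
lemma sum_sq_sub_avgOn (h : EquivOn Ω r) (f : α → ℝ) :
    ∑ x ∈ Ω, (f x - avgOn Ω r f x) ^ 2 = ∑ x ∈ Ω, f x * (f x - avgOn Ω r f x) := by
  have e := sum_avgOn_mul_sub h f f
  have : ∀ x ∈ Ω, (f x - avgOn Ω r f x) ^ 2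
      = f x * (f x - avgOn Ω r f x) - avgOn Ω r f x * (f x - avgOn Ω r f x) := fun x _ => by ring
  rw [sum_congr rfl this, sum_sub_distrib, e, sub_zero]

/-- `‖f − E f‖² = ‖f‖² − ‖E f‖²` -/
lemma sum_sq_sub_avgOn' (h : EquivOn Ω r) (f : α → ℝ) :
    ∑ x ∈ Ω, (f x - avgOn Ω r f x) ^ 2 = ∑ x ∈ Ω, f x ^ 2 - ∑ x ∈ Ω, avgOn Ω r f x ^ 2 := by
  have e := sum_avgOn_mul_sub h f f
  simp only [mul_sub, sum_sub_distrib] at e
  have : ∀ x ∈ Ω, (f x - avgOn Ω r f x) ^ 2
      = f x ^ 2 - 2 * (avgOn Ω r f x * f x) + avgOn Ω r f x * avgOn Ω r f x := fun x _ => by ring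
  rw [sum_congr rfl this, sum_add_distrib, sum_sub_distrib, ← mul_sum]
  have e3 : ∑ x ∈ Ω, avgOn Ω r f x ^ 2 = ∑ x ∈ Ω, avgOn Ω r f x * avgOn Ω r f x :=
    sum_congr rfl fun x _ => sq _
  rw [e3]
  linarith

variable {r' : α → α → Prop} [DecidableRel r']

/-- tower property: for `r ⊆ r'` (finer ⊆ coarser), `E' (E f) = E' f` -/
lemma avgOn_avgOn_of_le (h : EquivOn Ω r) (h' : EquivOn Ω r')
    (hle : ∀ x ∈ Ω, ∀ y ∈ Ω, r x y → r' x y) (f : α → ℝ) {x : α} (hx : x ∈ Ω) :
    avgOn Ω r' (avgOn Ω r f) x = avgOn Ω r' f x := by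
  rw [avgOn_def, avgOn_def]
  congr 1
  -- on `Ω' = ` the `r'`-class of `x`, `r` is still an equivalence with the same classes
  set Ω' := Ω.filter (r' x) with hΩ'
  have hsub : ∀ y ∈ Ω', y ∈ Ω := fun y hy => (mem_filter.1 hy).1
  have hE : EquivOn Ω' r :=
    ⟨fun y hy => h.refl y (hsub y hy), fun y hy z hz => h.symm y (hsub y hy) z (hsub z hz),
      fun y hy z hz w hw => h.trans y (hsub y hy) z (hsub z hz) w (hsub w hw)⟩
  have hcls : ∀ y ∈ Ω', Ω'.filter (r y) = Ω.filter (r y) := by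
    intro y hy
    ext z
    simp only [hΩ', mem_filter]
    constructor
    · rintro ⟨⟨hz, _⟩, hyz⟩; exact ⟨hz, hyz⟩
    · rintro ⟨hz, hyz⟩
      exact ⟨⟨hz, h'.trans x hx y (hsub y hy) z hz (mem_filter.1 hy).2
        (hle y (hsub y hy) z hz hyz)⟩, hyz⟩
  have e : ∀ y ∈ Ω', avgOn Ω r f y = avgOn Ω' r f y := fun y hy => by
    rw [avgOn_def, avgOn_def, hcls y hy]
  rw [sum_congr rfl e, sum_avgOn hE f]

/-- for `r ⊆ r'`, `E (E' f) = E' f` -/
lemma avgOn_avgOn_of_ge (h : EquivOn Ω r) (h' : EquivOn Ω r')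
    (hle : ∀ x ∈ Ω, ∀ y ∈ Ω, r x y → r' x y) (f : α → ℝ) {x : α} (hx : x ∈ Ω) :
    avgOn Ω r (avgOn Ω r' f) x = avgOn Ω r' f x :=
  avgOn_eq_of_const_on_class h hx fun y hy hxy =>
    (avgOn_eq_of_rel h' f hx hy (hle x hx y hy hxy)).symm

end general

/-! ### Pair / triple classes of graphs -/

variable {n : ℕ}

/-- `G` and `G'` contain the same edges among those avoiding the vertex set `U`
("`G − U = G' − U`"). -/
def sameOff (U : Finset (Fin n)) (G G' : Finset (Edge n)) : Prop :=
  ∀ e : Edge n, (∀ u ∈ U, u ∉ e.1) → (e ∈ G ↔ e ∈ G')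

instance sameOff.instDecidableRel (U : Finset (Fin n)) : DecidableRel (sameOff U) :=
  fun G G' => by unfold sameOff; infer_instance

lemma sameOff_refl (U : Finset (Fin n)) (G : Finset (Edge n)) : sameOff U G G :=
  fun _ _ => Iff.rfl

lemma sameOff_symm {U : Finset (Fin n)} {G G' : Finset (Edge n)} (h : sameOff U G G') :
    sameOff U G' G := fun e he => (h e he).symm

lemma sameOff_trans {U : Finset (Fin n)} {G G' G'' : Finset (Edge n)} (h : sameOff U G G')
    (h' : sameOff U G' G'') : sameOff U G G'' := fun e he => (h e he).trans (h' e he)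

lemma sameOff_equivalence (U : Finset (Fin n)) : Equivalence (sameOff U) :=
  ⟨sameOff_refl U, sameOff_symm, sameOff_trans⟩

/-- a larger deleted set gives a coarser relation -/
lemma sameOff_mono {U V : Finset (Fin n)} (hUV : U ⊆ V) {G G' : Finset (Edge n)}
    (h : sameOff U G G') : sameOff V G G' := fun e he => h e fun u hu => he u (hUV hu)

lemma sameOff_equivOn (Ω : Finset (Finset (Edge n))) (U : Finset (Fin n)) :
    EquivOn Ω (sameOff U) := EquivOn.of_equivalence (sameOff_equivalence U) Ω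

/-- the conditional expectation `E[f | G − U]` on `realizations d`
(`U` a pair: average over the Johnson pair class; `U` a triple `T`: the operator `P_T`). -/
noncomputable def E (d : Fin n → ℕ) (U : Finset (Fin n)) (f : Finset (Edge n) → ℝ)
    (G : Finset (Edge n)) : ℝ :=
  avgOn (realizations d) (sameOff U) f G

/-- the unordered pairs of vertices -/
def pairs (n : ℕ) : Finset (Finset (Fin n)) := (univ : Finset (Fin n)).powersetCard 2

variable (d : Fin n → ℕ) (U : Finset (Fin n))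

lemma E_def (f : Finset (Edge n) → ℝ) (G : Finset (Edge n)) :
    E d U f G = (∑ G' ∈ (realizations d).filter (sameOff U G), f G')
      / (((realizations d).filter (sameOff U G)).card : ℝ) := rfl

lemma E_eq_avgOn (f : Finset (Edge n) → ℝ) :
    E d U f = avgOn (realizations d) (sameOff U) f := rfl

lemma E_congr {f g : Finset (Edge n) → ℝ} (h : ∀ G ∈ realizations d, f G = g G)
    (G : Finset (Edge n)) : E d U f G = E d U g G := avgOn_congr h G

lemma E_add (f g : Finset (Edge n) → ℝ) (G : Finset (Edge n)) :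
    E d U (fun H => f H + g H) G = E d U f G + E d U g G := avgOn_add f g G

lemma E_sub (f g : Finset (Edge n) → ℝ) (G : Finset (Edge n)) :
    E d U (fun H => f H - g H) G = E d U f G - E d U g G := avgOn_sub f g G

lemma E_const_mul (c : ℝ) (f : Finset (Edge n) → ℝ) (G : Finset (Edge n)) :
    E d U (fun H => c * f H) G = c * E d U f G := avgOn_const_mul c f G

lemma E_neg (f : Finset (Edge n) → ℝ) (G : Finset (Edge n)) :
    E d U (fun H => - f H) G = - E d U f G := avgOn_neg f G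

lemma E_const (c : ℝ) {G : Finset (Edge n)} (hG : G ∈ realizations d) :
    E d U (fun _ => c) G = c := avgOn_const (sameOff_equivOn _ U) c hG

/-- `E d U f` is constant on the `U`-classes -/
lemma E_eq_of_sameOff (f : Finset (Edge n) → ℝ) {G G' : Finset (Edge n)}
    (hG : G ∈ realizations d) (hG' : G' ∈ realizations d) (h : sameOff U G G') :
    E d U f G = E d U f G' := avgOn_eq_of_rel (sameOff_equivOn _ U) f hG hG' h

lemma E_eq_of_const_on_class {f : Finset (Edge n) → ℝ} {G : Finset (Edge n)}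
    (hG : G ∈ realizations d) (hf : ∀ G' ∈ realizations d, sameOff U G G' → f G' = f G) :
    E d U f G = f G := avgOn_eq_of_const_on_class (sameOff_equivOn _ U) hG hf

/-- idempotence on `Ω` -/
lemma E_idem (f : Finset (Edge n) → ℝ) {G : Finset (Edge n)} (hG : G ∈ realizations d) :
    E d U (E d U f) G = E d U f G := avgOn_idem (sameOff_equivOn _ U) f hG

/-- `E f = f` on `Ω` iff `f` is constant on the `U`-classes -/
lemma E_eq_self_iff (f : Finset (Edge n) → ℝ) :
    (∀ G ∈ realizations d, E d U f G = f G) ↔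
      ∀ G ∈ realizations d, ∀ G' ∈ realizations d, sameOff U G G' → f G = f G' :=
  avgOn_eq_self_iff (sameOff_equivOn _ U) f

/-- symmetry -/
lemma E_symm (f g : Finset (Edge n) → ℝ) :
    ∑ G ∈ realizations d, E d U f G * g G = ∑ G ∈ realizations d, f G * E d U g G :=
  avgOn_symm (sameOff_equivOn _ U) f g

/-- sum preservation -/
lemma sum_E (f : Finset (Edge n) → ℝ) :
    ∑ G ∈ realizations d, E d U f G = ∑ G ∈ realizations d, f G :=
  sum_avgOn (sameOff_equivOn _ U) f

/-- `⟨E f, g − E g⟩ = 0` -/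
lemma sum_E_mul_sub (f g : Finset (Edge n) → ℝ) :
    ∑ G ∈ realizations d, E d U f G * (g G - E d U g G) = 0 :=
  sum_avgOn_mul_sub (sameOff_equivOn _ U) f g

/-- Pythagoras: `∑ (f − E f)² = ∑ f (f − E f)` -/
lemma sum_sq_sub_E (f : Finset (Edge n) → ℝ) :
    ∑ G ∈ realizations d, (f G - E d U f G) ^ 2
      = ∑ G ∈ realizations d, f G * (f G - E d U f G) :=
  sum_sq_sub_avgOn (sameOff_equivOn _ U) f

/-- `∑ (f − E f)² = ∑ f² − ∑ (E f)²` -/
lemma sum_sq_sub_E' (f : Finset (Edge n) → ℝ) :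
    ∑ G ∈ realizations d, (f G - E d U f G) ^ 2
      = ∑ G ∈ realizations d, f G ^ 2 - ∑ G ∈ realizations d, E d U f G ^ 2 :=
  sum_sq_sub_avgOn' (sameOff_equivOn _ U) f

variable {U}

/-- tower property: for `U ⊆ V`, `E_V (E_U f) = E_V f` on `Ω` -/
lemma E_E_of_subset {V : Finset (Fin n)} (hUV : U ⊆ V) (f : Finset (Edge n) → ℝ)
    {G : Finset (Edge n)} (hG : G ∈ realizations d) : E d V (E d U f) G = E d V f G :=
  avgOn_avgOn_of_le (sameOff_equivOn _ U) (sameOff_equivOn _ V)
    (fun _ _ _ _ h => sameOff_mono hUV h) f hG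

/-- for `U ⊆ V`, `E_U (E_V f) = E_V f` on `Ω` -/
lemma E_E_of_superset {V : Finset (Fin n)} (hUV : U ⊆ V) (f : Finset (Edge n) → ℝ)
    {G : Finset (Edge n)} (hG : G ∈ realizations d) : E d U (E d V f) G = E d V f G :=
  avgOn_avgOn_of_ge (sameOff_equivOn _ U) (sameOff_equivOn _ V)
    (fun _ _ _ _ h => sameOff_mono hUV h) f hG

/-- to bound `∑_Ω (f − E_U f)²` by `∑_Ω g` it suffices, on every `U`-class `C`, to have
`∑_{G, G' ∈ C} (f G − f G')² ≤ 2 |C| ∑_{G ∈ C} g G` (entry point for Johnson–Poincaré). -/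
lemma sum_sq_sub_E_le_of_pairs (U : Finset (Fin n)) (f g : Finset (Edge n) → ℝ)
    (h : ∀ G ∈ realizations d,
      ∑ G₁ ∈ (realizations d).filter (sameOff U G), ∑ G₂ ∈ (realizations d).filter (sameOff U G),
          (f G₁ - f G₂) ^ 2
        ≤ 2 * (((realizations d).filter (sameOff U G)).card : ℝ)
            * ∑ G₁ ∈ (realizations d).filter (sameOff U G), g G₁) :
    ∑ G ∈ realizations d, (f G - E d U f G) ^ 2 ≤ ∑ G ∈ realizations d, g G :=
  Crest.Agent.S0453.Caputo20.sum_sq_sub_avgOn_le_of_pairs (realizations d) (sameOff U)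
    (sameOff_equivOn _ U).refl (sameOff_equivOn _ U).symm (sameOff_equivOn _ U).trans f g h

/-- **Caputo step for the pair operators** `E_b`, `b ∈ pairs n`, in the shape used by the
assembly.  `hcross` is `O + D ≥ 0` (all ordered pairs `b ≠ b'` of pairs), `hconn` is connectivity
(a function constant on all pair classes is constant on `Ω`). -/
theorem caputo_pairs
    (hcross : ∀ f : Finset (Edge n) → ℝ, 0 ≤ ∑ b ∈ pairs n, ∑ b' ∈ (pairs n).erase b,
        ∑ G ∈ realizations d, (f G - E d b f G) * (f G - E d b' f G))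
    (hconn : ∀ f : Finset (Edge n) → ℝ,
        (∀ b ∈ pairs n, ∀ G ∈ realizations d, ∀ G' ∈ realizations d, sameOff b G G' → f G = f G') →
        ∀ G ∈ realizations d, ∀ G' ∈ realizations d, f G = f G')
    (f : Finset (Edge n) → ℝ) :
    ((realizations d).card : ℝ) * ∑ G ∈ realizations d, f G ^ 2 - (∑ G ∈ realizations d, f G) ^ 2
      ≤ ((realizations d).card : ℝ) *
          ∑ b ∈ pairs n, ∑ G ∈ realizations d, (f G - E d b f G) ^ 2 :=
  caputo_poincare_on' (realizations d) (pairs n) (fun b => sameOff b)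
    (fun b _ => (sameOff_equivOn _ b).refl) (fun b _ => (sameOff_equivOn _ b).symm)
    (fun b _ => (sameOff_equivOn _ b).trans) hcross hconn f

end Crest.Agent.S0453R
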