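import Mathlib
import Crest.Prelude.Def_SwitchChain

/-!
Row 299 / S0453, route-independent bookkeeping (helper33), part 1:
the perfect matchings `pmSet S` of a four-element vertex set.
-/

set_option autoImplicit false
open Finset

namespace Crest.Agent.S0453R

open Crest.SwitchChain

variable {n : ℕ}

/-- the edge `{x,y}` for `x ≠ y` -/
def mkE (x y : Fin n) (h : x ≠ y) : Edge n := ⟨s(x, y), by simpa using h⟩

@[simp] lemma mem_mkE {x y v : Fin n} (h : x ≠ y) : v ∈ (mkE x y h).1 ↔ v = x ∨ v = y :=
  Sym2.mem_iff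

lemma mkE_eq_iff {x y x' y' : Fin n} (h : x ≠ y) (h' : x' ≠ y') :
    mkE x y h = mkE x' y' h' ↔ (x = x' ∧ y = y') ∨ (x = y' ∧ y = x') := by
  simp [mkE, Subtype.ext_iff]

lemma mem_pmSet {S : Finset (Fin n)} {F : Finset (Edge n)} :
    F ∈ pmSet S ↔ F.card = 2 ∧ (∀ e ∈ F, ∀ v : Fin n, v ∈ e.1 → v ∈ S) ∧
      ∀ v ∈ S, (F.filter fun e => v ∈ e.1).card = 1 := by
  simp [pmSet, mem_powersetCard]

/-- membership of the explicit matching -/
lemma pair_mem_pmSet {a x c d : Fin n} (hax : a ≠ x) (hac : a ≠ c) (had : a ≠ d)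
    (hxc : x ≠ c) (hxd : x ≠ d) (hcd : c ≠ d) :
    ({mkE a x hax, mkE c d hcd} : Finset (Edge n)) ∈ pmSet ({a, x, c, d} : Finset (Fin n)) := by
  rw [mem_pmSet]
  have hne : mkE a x hax ≠ mkE c d hcd := by
    rw [Ne, mkE_eq_iff]; tauto
  refine ⟨card_pair hne, ?_, ?_⟩
  · intro e he v hv
    simp only [mem_insert, mem_singleton] at he ⊢
    rcases he with rfl | rfl <;> simp only [mem_mkE] at hv <;> tauto
  · intro v hv
    simp only [mem_insert, mem_singleton] at hv
    rw [card_eq_one]
    rcases hv with rfl | rfl | rfl | rfl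
    · refine ⟨mkE v x hax, ?_⟩
      ext e
      simp only [mem_filter, mem_insert, mem_singleton]
      constructor
      · rintro ⟨rfl | rfl, h⟩
        · rfl
        · simp only [mem_mkE] at h; tauto
      · rintro rfl; simp
    · refine ⟨mkE a v hax, ?_⟩
      ext e
      simp only [mem_filter, mem_insert, mem_singleton]
      constructor
      · rintro ⟨rfl | rfl, h⟩
        · rfl
        · simp only [mem_mkE] at h; tauto
      · rintro rfl; simp
    · refine ⟨mkE v d hcd, ?_⟩
      ext e
      simp only [mem_filter, mem_insert, mem_singleton]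
      constructor
      · rintro ⟨rfl | rfl, h⟩
        · simp only [mem_mkE] at h; exfalso; rcases h with h | h
          · exact hac h.symm
          · exact hxc h.symm
        · rfl
      · rintro rfl; simp
    · refine ⟨mkE c v hcd, ?_⟩
      ext e
      simp only [mem_filter, mem_insert, mem_singleton]
      constructor
      · rintro ⟨rfl | rfl, h⟩
        · simp only [mem_mkE] at h; exfalso; rcases h with h | h
          · exact had h.symm
          · exact hxd h.symm
        · rfl
      · rintro rfl; simp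

/-- a matching of `{a,x,c,d}` containing the edge `ax` is `{ax, cd}` -/
lemma eq_pair_of_mem_pmSet {a x c d : Fin n} (hax : a ≠ x) (hac : a ≠ c) (had : a ≠ d)
    (hxc : x ≠ c) (hxd : x ≠ d) (hcd : c ≠ d) {F : Finset (Edge n)}
    (hF : F ∈ pmSet ({a, x, c, d} : Finset (Fin n))) (he : mkE a x hax ∈ F) :
    F = {mkE a x hax, mkE c d hcd} := by
  rw [mem_pmSet] at hF
  obtain ⟨hcard, -, hV⟩ := hF
  -- the other edge
  obtain ⟨e1, e2, h12, rfl⟩ := card_eq_two.mp hcard
  -- wlog e1 = mkE a x
  have key : ∀ e' : Edge n, e' ≠ mkE a x hax →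
      (∀ v ∈ ({a, x, c, d} : Finset (Fin n)),
        (({mkE a x hax, e'} : Finset (Edge n)).filter fun e => v ∈ e.1).card = 1) →
      e' = mkE c d hcd := by
    intro e' hne hV'
    have hc : c ∈ e'.1 := by
      have := hV' c (by simp)
      obtain ⟨e0, h0⟩ := card_eq_one.mp this
      have hmem : e0 ∈ ({mkE a x hax, e'} : Finset (Edge n)).filter fun e => c ∈ e.1 := by
        rw [h0]; simp
      simp only [mem_filter, mem_insert, mem_singleton] at hmem
      rcases hmem with ⟨rfl | rfl, h⟩
      · simp only [mem_mkE] at h; exfalso; rcases h with h | h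
        · exact hac h.symm
        · exact hxc h.symm
      · exact h
    have hd : d ∈ e'.1 := by
      have := hV' d (by simp)
      obtain ⟨e0, h0⟩ := card_eq_one.mp this
      have hmem : e0 ∈ ({mkE a x hax, e'} : Finset (Edge n)).filter fun e => d ∈ e.1 := by
        rw [h0]; simp
      simp only [mem_filter, mem_insert, mem_singleton] at hmem
      rcases hmem with ⟨rfl | rfl, h⟩
      · simp only [mem_mkE] at h; exfalso; rcases h with h | h
        · exact had h.symm
        · exact hxd h.symm
      · exact h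
    have := (Sym2.mem_and_mem_iff hcd).mp ⟨hc, hd⟩
    exact Subtype.ext this
  simp only [mem_insert, mem_singleton] at he
  rcases he with h | h
  · subst h
    rw [key e2 (Ne.symm h12) hV]
  · subst h
    have hV' : ∀ v ∈ ({a, x, c, d} : Finset (Fin n)),
        (({mkE a x hax, e1} : Finset (Edge n)).filter fun e => v ∈ e.1).card = 1 := by
      intro v hv; rw [pair_comm]; exact hV v hv
    rw [key e1 h12 hV', pair_comm]


lemma exists_four {S : Finset (Fin n)} (hS : S.card = 4) :
    ∃ a b c d : Fin n, a ≠ b ∧ a ≠ c ∧ a ≠ d ∧ b ≠ c ∧ b ≠ d ∧ c ≠ d ∧ S = {a, b, c, d} := by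
  obtain ⟨a, t, hat, rfl, ht⟩ := card_eq_succ.mp hS
  obtain ⟨b, c, d, hbc, hbd, hcd, rfl⟩ := card_eq_three.mp ht
  simp only [mem_insert, mem_singleton, not_or] at hat
  exact ⟨a, b, c, d, hat.1, hat.2.1, hat.2.2, hbc, hbd, hcd, rfl⟩

/-- the three perfect matchings of `{a,b,c,d}` -/
lemma pmSet_eq {a b c d : Fin n} (hab : a ≠ b) (hac : a ≠ c) (had : a ≠ d)
    (hbc : b ≠ c) (hbd : b ≠ d) (hcd : c ≠ d) :
    pmSet ({a, b, c, d} : Finset (Fin n)) =
      {{mkE a b hab, mkE c d hcd}, {mkE a c hac, mkE b d hbd}, {mkE a d had, mkE b c hbc}} := by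
  have e2 : ({a, b, c, d} : Finset (Fin n)) = {a, c, b, d} := by
    ext v; simp only [mem_insert, mem_singleton]; tauto
  have e3 : ({a, b, c, d} : Finset (Fin n)) = {a, d, b, c} := by
    ext v; simp only [mem_insert, mem_singleton]; tauto
  ext F
  simp only [mem_insert, mem_singleton]
  constructor
  · intro hF
    have hF' := mem_pmSet.mp hF
    obtain ⟨-, hE, hV⟩ := hF'
    obtain ⟨e, he⟩ := card_eq_one.mp (hV a (by simp))
    have hmem : e ∈ F.filter fun e => a ∈ e.1 := by rw [he]; simp
    rw [mem_filter] at hmem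
    obtain ⟨heF, hae⟩ := hmem
    obtain ⟨x, hx⟩ := Sym2.mem_iff_exists.mp hae
    have hxa : a ≠ x := by
      intro h; apply e.2; rw [hx, h]; simp
    have hxS : x ∈ ({a, b, c, d} : Finset (Fin n)) := hE e heF x (by rw [hx]; simp)
    have hee : e = mkE a x hxa := Subtype.ext hx
    simp only [mem_insert, mem_singleton] at hxS
    rcases hxS with h | h | h | h
    · exact absurd h.symm hxa
    · subst h
      left
      exact eq_pair_of_mem_pmSet hab hac had hbc hbd hcd hF (hee ▸ heF)
    · subst h
      right; left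
      rw [e2] at hF
      exact eq_pair_of_mem_pmSet hac hab had hbc.symm hcd hbd hF (hee ▸ heF)
    · subst h
      right; right
      rw [e3] at hF
      exact eq_pair_of_mem_pmSet had hab hac hbd.symm hcd.symm hbc hF (hee ▸ heF)
  · rintro (rfl | rfl | rfl)
    · exact pair_mem_pmSet hab hac had hbc hbd hcd
    · rw [e2]; exact pair_mem_pmSet hac hab had hbc.symm hcd hbd
    · rw [e3]; exact pair_mem_pmSet had hab hac hbd.symm hcd.symm hbc

lemma pmSet_card {S : Finset (Fin n)} (hS : S.card = 4) : (pmSet S).card = 3 := by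
  obtain ⟨a, b, c, d, hab, hac, had, hbc, hbd, hcd, rfl⟩ := exists_four hS
  rw [pmSet_eq hab hac had hbc hbd hcd, card_eq_three]
  refine ⟨_, _, _, ?_, ?_, ?_, rfl⟩
  · intro h
    have : mkE a b hab ∈ ({mkE a c hac, mkE b d hbd} : Finset (Edge n)) := by rw [← h]; simp
    simp only [mem_insert, mem_singleton, mkE_eq_iff] at this
    tauto
  · intro h
    have : mkE a b hab ∈ ({mkE a d had, mkE b c hbc} : Finset (Edge n)) := by rw [← h]; simp
    simp only [mem_insert, mem_singleton, mkE_eq_iff] at this
    tauto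
  · intro h
    have : mkE a c hac ∈ ({mkE a d had, mkE b c hbc} : Finset (Edge n)) := by rw [← h]; simp
    simp only [mem_insert, mem_singleton, mkE_eq_iff] at this
    tauto

lemma pmSet_disjoint {S : Finset (Fin n)} (hS : S.card = 4) {F F' : Finset (Edge n)}
    (hF : F ∈ pmSet S) (hF' : F' ∈ pmSet S) (hne : F ≠ F') : Disjoint F F' := by
  obtain ⟨a, b, c, d, hab, hac, had, hbc, hbd, hcd, rfl⟩ := exists_four hS
  rw [pmSet_eq hab hac had hbc hbd hcd] at hF hF'
  simp only [mem_insert, mem_singleton] at hF hF'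
  rcases hF with rfl | rfl | rfl <;> rcases hF' with rfl | rfl | rfl <;>
    first
    | exact absurd rfl hne
    | (simp only [disjoint_insert_left, disjoint_singleton_left, mem_insert, mem_singleton,
        mkE_eq_iff]; tauto)

/-- every vertex of `S` lies on exactly one edge of a matching, other vertices on none -/
lemma pm_filter_card {S : Finset (Fin n)} {F : Finset (Edge n)} (hF : F ∈ pmSet S) (v : Fin n) :
    (F.filter fun e => v ∈ e.1).card = if v ∈ S then 1 else 0 := by
  obtain ⟨-, hE, hV⟩ := mem_pmSet.mp hF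
  split_ifs with h
  · exact hV v h
  · rw [card_eq_zero, filter_eq_empty_iff]
    intro e he hv
    exact h (hE e he v hv)

end Crest.Agent.S0453R
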