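import Mathlib
import Crest.Prelude.Def_SwitchChain
import Crest.Agent.S0453.PM

/-!
Row 299 / S0453, route-independent bookkeeping (helper33), part 2:
the switch move preserves degrees, proposals are reversible, the kernel is symmetric, stochastic
and leaves every degree class invariant.
-/

set_option autoImplicit false
open Finset

namespace Crest.Agent.S0453R

open Crest.SwitchChain

variable {n : ℕ}

lemma switchResult_of_cond {E F F' : Finset (Edge n)} (h : F ⊆ E ∧ Disjoint F' E) :
    switchResult E F F' = E \ F ∪ F' := by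
  simp [switchResult, h]

lemma switchResult_of_not {E F F' : Finset (Edge n)} (h : ¬ (F ⊆ E ∧ Disjoint F' E)) :
    switchResult E F F' = E := by
  simp [switchResult, h]

/-- a switch on a four-set does not change any degree -/
lemma deg_switchResult {S : Finset (Fin n)} {E F F' : Finset (Edge n)}
    (hF : F ∈ pmSet S) (hF' : F' ∈ pmSet S) (v : Fin n) :
    deg (switchResult E F F') v = deg E v := by
  by_cases h : F ⊆ E ∧ Disjoint F' E
  · rw [switchResult_of_cond h]
    obtain ⟨hFE, hdis⟩ := h
    unfold deg
    have h1 : ((E \ F ∪ F').filter fun e => v ∈ e.1).card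
        = ((E \ F).filter fun e => v ∈ e.1).card + (F'.filter fun e => v ∈ e.1).card := by
      rw [filter_union]
      apply card_union_of_disjoint
      apply disjoint_filter_filter
      exact (disjoint_of_subset_left sdiff_subset hdis.symm)
    have h2 : (E.filter fun e => v ∈ e.1).card
        = ((E \ F).filter fun e => v ∈ e.1).card + (F.filter fun e => v ∈ e.1).card := by
      conv_lhs => rw [← sdiff_union_of_subset hFE]
      rw [filter_union]
      apply card_union_of_disjoint
      apply disjoint_filter_filter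
      exact sdiff_disjoint
    rw [h1, h2, pm_filter_card hF v, pm_filter_card hF' v]
  · rw [switchResult_of_not h]

lemma switchResult_mem_realizations {d : Fin n → ℕ} {S : Finset (Fin n)}
    {E F F' : Finset (Edge n)} (hF : F ∈ pmSet S) (hF' : F' ∈ pmSet S)
    (hE : E ∈ realizations d) : switchResult E F F' ∈ realizations d := by
  simp only [realizations, mem_filter, mem_univ, true_and] at hE ⊢
  intro v
  rw [deg_switchResult hF hF', hE v]

/-- reversing a successful proposal -/
lemma switchResult_rev {S : Finset (Fin n)} (hS : S.card = 4) {E E' F F' : Finset (Edge n)}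
    (hF : F ∈ pmSet S) (hF' : F' ∈ pmSet S) (hne : F ≠ F') (hEE : E ≠ E')
    (h : switchResult E F F' = E') : switchResult E' F' F = E := by
  by_cases hc : F ⊆ E ∧ Disjoint F' E
  · rw [switchResult_of_cond hc] at h
    obtain ⟨hFE, hdis⟩ := hc
    have hFF : Disjoint F F' := pmSet_disjoint hS hF hF' hne
    subst h
    have hc' : F' ⊆ E \ F ∪ F' ∧ Disjoint F (E \ F ∪ F') := by
      refine ⟨subset_union_right, ?_⟩
      rw [disjoint_union_right]
      exact ⟨disjoint_sdiff, hFF⟩
    rw [switchResult_of_cond hc']
    ext e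
    have h1 := @hFE e
    have h2 : e ∈ F' → e ∉ E := fun h => disjoint_left.mp hdis h
    have h3 : e ∈ F → e ∉ F' := fun h => disjoint_left.mp hFF h
    simp only [mem_union, mem_sdiff]
    tauto
  · rw [switchResult_of_not hc] at h
    exact absurd h hEE

lemma sum_erase_comm {α β : Type*} [DecidableEq α] [AddCommMonoid β] (A : Finset α)
    (g : α → α → β) :
    ∑ x ∈ A, ∑ y ∈ A.erase x, g x y = ∑ y ∈ A, ∑ x ∈ A.erase y, g x y := by
  have h1 : ∀ x ∈ A, ∑ y ∈ A.erase x, g x y = ∑ y ∈ A, if y ≠ x then g x y else 0 := by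
    intro x _
    rw [← filter_ne' A x, sum_filter]
  have h2 : ∀ y ∈ A, ∑ x ∈ A.erase y, g x y = ∑ x ∈ A, if x ≠ y then g x y else 0 := by
    intro y _
    rw [← filter_ne' A y, sum_filter]
  rw [sum_congr rfl h1, sum_congr rfl h2, sum_comm]
  refine sum_congr rfl fun y _ => sum_congr rfl fun x _ => ?_
  by_cases h : x = y
  · simp [h]
  · simp [h, Ne.symm h]

lemma proposalCount_symm (E E' : Finset (Edge n)) : proposalCount E E' = proposalCount E' E := by
  by_cases hEE : E = E'
  · rw [hEE]
  unfold proposalCount
  refine sum_congr rfl fun S hS => ?_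
  have hS4 : S.card = 4 := (mem_powersetCard.mp hS).2
  rw [sum_erase_comm (pmSet S) (fun F F' => if switchResult E' F F' = E then 1 else 0)]
  refine sum_congr rfl fun F hF => sum_congr rfl fun F' hF' => ?_
  have hF'' : F' ∈ pmSet S := mem_of_mem_erase hF'
  have hne : F ≠ F' := (ne_of_mem_erase hF').symm
  by_cases h : switchResult E F F' = E'
  · rw [if_pos h, if_pos (switchResult_rev hS4 hF hF'' hne hEE h)]
  · rw [if_neg h, if_neg]
    intro h'
    exact h (switchResult_rev hS4 hF'' hF hne.symm (Ne.symm hEE) h')

/-- summing a function against the proposal counts = summing over the proposals -/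
lemma sum_proposalCount_mul (E : Finset (Edge n)) (h : Finset (Edge n) → ℝ) :
    ∑ E', (proposalCount E E' : ℝ) * h E' =
      ∑ S ∈ (univ : Finset (Fin n)).powersetCard 4, ∑ F ∈ pmSet S, ∑ F' ∈ (pmSet S).erase F,
        h (switchResult E F F') := by
  unfold proposalCount
  simp only [Nat.cast_sum, sum_mul]
  rw [sum_comm]
  refine sum_congr rfl fun S _ => ?_
  rw [sum_comm]
  refine sum_congr rfl fun F _ => ?_
  rw [sum_comm]
  refine sum_congr rfl fun F' _ => ?_
  simp

lemma sum_proposalCount (E : Finset (Edge n)) :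
    ∑ E', (proposalCount E E' : ℝ) = 6 * (n.choose 4 : ℝ) := by
  have := sum_proposalCount_mul E (fun _ => (1 : ℝ))
  simp only [mul_one] at this
  rw [this]
  have h6 : ∀ S ∈ (univ : Finset (Fin n)).powersetCard 4,
      ∑ F ∈ pmSet S, ∑ _F' ∈ (pmSet S).erase F, (1 : ℝ) = 6 := by
    intro S hS
    have hS4 : S.card = 4 := (mem_powersetCard.mp hS).2
    have : ∀ F ∈ pmSet S, ∑ _F' ∈ (pmSet S).erase F, (1 : ℝ) = 2 := by
      intro F hF
      rw [sum_const, card_erase_of_mem hF, pmSet_card hS4]; norm_num
    rw [sum_congr rfl this, sum_const, pmSet_card hS4]; norm_num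
  rw [sum_congr rfl h6, sum_const, card_powersetCard, card_univ, Fintype.card_fin]
  simp [mul_comm]

lemma proposalCount_eq_zero_of_not_mem {d : Fin n → ℕ} {E E' : Finset (Edge n)}
    (hE : E ∈ realizations d) (hE' : E' ∉ realizations d) : proposalCount E E' = 0 := by
  unfold proposalCount
  refine sum_eq_zero fun S _ => sum_eq_zero fun F hF => sum_eq_zero fun F' hF' => ?_
  rw [if_neg]
  intro h
  exact hE' (h ▸ switchResult_mem_realizations hF (mem_of_mem_erase hF') hE)

/-! ### the kernel -/

lemma kernel_symm (E E' : Finset (Edge n)) : kernel n E E' = kernel n E' E := by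
  unfold kernel
  rw [proposalCount_symm E E']
  by_cases h : E = E'
  · simp [h]
  · simp [h, Ne.symm h]

lemma kernel_nonneg (E E' : Finset (Edge n)) : 0 ≤ kernel n E E' := by
  unfold kernel
  positivity

lemma choose_four_pos (hn : 4 ≤ n) : (0 : ℝ) < (n.choose 4 : ℝ) := by
  exact_mod_cast Nat.choose_pos hn

lemma kernel_row_sum (hn : 4 ≤ n) (E : Finset (Edge n)) : ∑ E', kernel n E E' = 1 := by
  unfold kernel
  rw [sum_add_distrib, ← sum_div, sum_proposalCount]
  have hc := choose_four_pos hn
  simp only [sum_ite_eq, mem_univ, if_true]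
  field_simp
  norm_num

lemma kernel_eq_zero_of_not_mem {d : Fin n → ℕ} {E E' : Finset (Edge n)}
    (hE : E ∈ realizations d) (hE' : E' ∉ realizations d) : kernel n E E' = 0 := by
  unfold kernel
  have hne : E ≠ E' := fun h => hE' (h ▸ hE)
  rw [proposalCount_eq_zero_of_not_mem hE hE']
  simp [hne]

lemma kernel_eq_zero_of_not_mem' {d : Fin n → ℕ} {E E' : Finset (Edge n)}
    (hE : E ∉ realizations d) (hE' : E' ∈ realizations d) : kernel n E E' = 0 := by
  rw [kernel_symm]; exact kernel_eq_zero_of_not_mem hE' hE

/-- on a degree class the kernel is stochastic -/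
lemma kernel_row_sum_class (hn : 4 ≤ n) {d : Fin n → ℕ} {E : Finset (Edge n)}
    (hE : E ∈ realizations d) : ∑ E' ∈ realizations d, kernel n E E' = 1 := by
  rw [← kernel_row_sum hn E]
  apply sum_subset (subset_univ _)
  intro E' _ hE'
  exact kernel_eq_zero_of_not_mem hE hE'

end Crest.Agent.S0453R
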