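import Mathlib
import Crest.Prelude.Def_SwitchChain
import Crest.Agent.S0453.PM
import Crest.Agent.S0453.Kernel

/-!
Row 299 / S0453, route-independent reduction (helper33), part 3:

* `Core n d`     : the spectral-gap inequality in switch-pair form
                   `Var f ≤ 2 n² · (1/|Ω|) · ∑_{unordered switch pairs} (Δf)²`;
* `Poincare n d` : the second conjunct of the frozen statement;
* `poincare_of_core`, `tv_of_poincare`, `result_of_core`.
-/

set_option autoImplicit false
open Finset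

namespace Crest.Agent.S0453R

open Crest.SwitchChain

variable {n : ℕ}

/-- The second conjunct of the frozen statement S0453. -/
def Poincare (n : ℕ) (d : Fin n → ℕ) : Prop :=
  ∀ f : Finset (Edge n) → ℝ,
    ((realizations d).card : ℝ) * (∑ G ∈ realizations d, f G ^ 2) -
        (∑ G ∈ realizations d, f G) ^ 2 ≤
      24 * (n : ℝ) ^ 2 * (n.choose 4 : ℝ) * (realizations d).card *
        ∑ G ∈ realizations d,
          f G * (f G - ∑ G' ∈ realizations d, kernel n G G' * f G')

/-- The core inequality: `|Ω| ∑ f² - (∑ f)² ≤ n² |Ω| ∑_{G ∈ Ω} ∑_{proposals} (f G - f (G after the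
proposal))²`.  Every ordered switch pair `(G, G')` is counted exactly once on the right, so this is
`Var f ≤ 2 n² · (1/|Ω|) ∑_{unordered switch pairs} (f G - f G')²`, i.e. `λ₂ ≥ 1/(2n²)` for the
unit-rate switch Laplacian. -/
def Core (n : ℕ) (d : Fin n → ℕ) : Prop :=
  ∀ f : Finset (Edge n) → ℝ,
    ((realizations d).card : ℝ) * (∑ G ∈ realizations d, f G ^ 2) -
        (∑ G ∈ realizations d, f G) ^ 2 ≤
      (n : ℝ) ^ 2 * (realizations d).card *
        ∑ G ∈ realizations d, ∑ S ∈ (univ : Finset (Fin n)).powersetCard 4,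
          ∑ F ∈ pmSet S, ∑ F' ∈ (pmSet S).erase F, (f G - f (switchResult G F F')) ^ 2

/-- Dirichlet form of the lazy kernel = sum over proposals. -/
lemma dirichlet_identity (hn : 4 ≤ n) (d : Fin n → ℕ) (f : Finset (Edge n) → ℝ) :
    ∑ G ∈ realizations d, f G * (f G - ∑ G' ∈ realizations d, kernel n G G' * f G')
      = (1 / (24 * (n.choose 4 : ℝ))) *
        ∑ G ∈ realizations d, ∑ S ∈ (univ : Finset (Fin n)).powersetCard 4,
          ∑ F ∈ pmSet S, ∑ F' ∈ (pmSet S).erase F, (f G - f (switchResult G F F')) ^ 2 := by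
  have hc := choose_four_pos hn
  set Ω := realizations d with hΩ
  -- step 1
  have h1 : ∑ G ∈ Ω, f G * (f G - ∑ G' ∈ Ω, kernel n G G' * f G')
      = ∑ G ∈ Ω, ∑ G' ∈ Ω, kernel n G G' * (f G * (f G - f G')) := by
    refine sum_congr rfl fun G hG => ?_
    have hrow := kernel_row_sum_class hn hG
    calc f G * (f G - ∑ G' ∈ Ω, kernel n G G' * f G')
        = f G * ((∑ G' ∈ Ω, kernel n G G') * f G - ∑ G' ∈ Ω, kernel n G G' * f G') := by
          rw [hrow, one_mul]
      _ = ∑ G' ∈ Ω, kernel n G G' * (f G * (f G - f G')) := by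
          rw [sum_mul, ← sum_sub_distrib, mul_sum]
          refine sum_congr rfl fun G' _ => ?_
          ring
  -- step 2: symmetrise
  have h2 : ∑ G ∈ Ω, ∑ G' ∈ Ω, kernel n G G' * (f G * (f G - f G'))
      = ∑ G ∈ Ω, ∑ G' ∈ Ω, kernel n G G' * (f G' * (f G' - f G)) := by
    rw [sum_comm]
    refine sum_congr rfl fun G _ => sum_congr rfl fun G' _ => ?_
    rw [kernel_symm]
  have h3 : 2 * ∑ G ∈ Ω, ∑ G' ∈ Ω, kernel n G G' * (f G * (f G - f G'))
      = ∑ G ∈ Ω, ∑ G' ∈ Ω, kernel n G G' * (f G - f G') ^ 2 := by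
    rw [two_mul]
    nth_rewrite 2 [h2]
    rw [← sum_add_distrib]
    refine sum_congr rfl fun G _ => ?_
    rw [← sum_add_distrib]
    refine sum_congr rfl fun G' _ => ?_
    ring
  -- step 3: proposals
  have h4 : ∀ G ∈ Ω, ∑ G' ∈ Ω, kernel n G G' * (f G - f G') ^ 2
      = (1 / (12 * (n.choose 4 : ℝ))) * ∑ S ∈ (univ : Finset (Fin n)).powersetCard 4,
          ∑ F ∈ pmSet S, ∑ F' ∈ (pmSet S).erase F, (f G - f (switchResult G F F')) ^ 2 := by
    intro G hG
    have e1 : ∑ G' ∈ Ω, kernel n G G' * (f G - f G') ^ 2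
        = ∑ G', kernel n G G' * (f G - f G') ^ 2 := by
      apply sum_subset (subset_univ _)
      intro G' _ hG'
      rw [kernel_eq_zero_of_not_mem hG hG', zero_mul]
    rw [e1, ← sum_proposalCount_mul G (fun G' => (f G - f G') ^ 2), mul_sum]
    refine sum_congr rfl fun G' _ => ?_
    unfold kernel
    by_cases h : G = G'
    · subst h; simp
    · simp only [h, if_false, zero_add]; ring
  rw [h1]
  have h5 : ∑ G ∈ Ω, ∑ G' ∈ Ω, kernel n G G' * (f G * (f G - f G'))
      = (1 / 2) * ∑ G ∈ Ω, ∑ G' ∈ Ω, kernel n G G' * (f G - f G') ^ 2 := by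
    rw [← h3]; ring
  rw [h5, sum_congr rfl h4, ← mul_sum]
  field_simp
  ring

theorem poincare_of_core (hn : 4 ≤ n) {d : Fin n → ℕ} (core : Core n d) : Poincare n d := by
  intro f
  have hc := choose_four_pos hn
  rw [dirichlet_identity hn d f]
  have := core f
  calc _ ≤ _ := this
    _ = _ := by field_simp

/-! ### From the Poincaré inequality to the mixing time -/

/-- a symmetric stochastic nonnegative matrix contracts the `ℓ²` norm -/
lemma stoch_contract {ι : Type*} [Fintype ι] (q : ι → ι → ℝ) (hq : ∀ i j, 0 ≤ q i j)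
    (hrow : ∀ i, ∑ j, q i j = 1) (hsymm : ∀ i j, q i j = q j i) (v : ι → ℝ) :
    ∑ i, (∑ j, q i j * v j) ^ 2 ≤ ∑ i, v i ^ 2 := by
  have h1 : ∀ i, (∑ j, q i j * v j) ^ 2 ≤ ∑ j, q i j * v j ^ 2 := by
    intro i
    obtain ⟨m, hm⟩ : ∃ m : ℝ, m = ∑ k, q i k * v k := ⟨_, rfl⟩
    have h0 : 0 ≤ ∑ j, q i j * (v j - m) ^ 2 :=
      sum_nonneg fun j _ => mul_nonneg (hq i j) (sq_nonneg _)
    have h2 : ∑ j, q i j * (v j - m) ^ 2
        = ∑ j, (q i j * v j ^ 2 - 2 * m * (q i j * v j) + m ^ 2 * q i j) :=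
      sum_congr rfl fun j _ => by ring
    rw [h2, sum_add_distrib, sum_sub_distrib, ← mul_sum, ← mul_sum, hrow, ← hm] at h0
    rw [← hm]
    nlinarith
  calc ∑ i, (∑ j, q i j * v j) ^ 2 ≤ ∑ i, ∑ j, q i j * v j ^ 2 := sum_le_sum fun i _ => h1 i
    _ = ∑ j, ∑ i, q i j * v j ^ 2 := sum_comm
    _ = ∑ j, v j ^ 2 := by
        refine sum_congr rfl fun j _ => ?_
        rw [← sum_mul]
        have : ∑ i, q i j = 1 := by
          rw [← hrow j]; exact sum_congr rfl fun i _ => hsymm i j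
        rw [this, one_mul]

lemma mulVec_apply' (M : Matrix (Finset (Edge n)) (Finset (Edge n)) ℝ)
    (v : Finset (Edge n) → ℝ) (G : Finset (Edge n)) :
    M.mulVec v G = ∑ G', M G G' * v G' := rfl

/-- the lazy kernel: `‖K v‖² ≤ ⟨v, K v⟩` -/
lemma kernel_contract (hn : 4 ≤ n) (v : Finset (Edge n) → ℝ) :
    ∑ G, ((kernel n).mulVec v G) ^ 2 ≤ ∑ G, v G * (kernel n).mulVec v G := by
  have hc := choose_four_pos hn
  let q : Finset (Edge n) → Finset (Edge n) → ℝ :=
    fun G G' => (proposalCount G G' : ℝ) / (6 * (n.choose 4 : ℝ))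
  let w : Finset (Edge n) → ℝ := fun G => ∑ G', q G G' * v G'
  have hK : ∀ G, (kernel n).mulVec v G = (1 / 2) * v G + (1 / 2) * w G := by
    intro G
    rw [mulVec_apply']
    show _ = (1 / 2) * v G + (1 / 2) * ∑ G', q G G' * v G'
    rw [mul_sum]
    have : ∀ G', kernel n G G' * v G'
        = (if G = G' then (1 / 2) * v G' else 0) + 1 / 2 * (q G G' * v G') := by
      intro G'
      show ((if G = G' then 1 / 2 else 0) + (proposalCount G G' : ℝ) / (12 * (n.choose 4 : ℝ)))
          * v G' = _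
      show _ = (if G = G' then (1 / 2) * v G' else 0)
          + 1 / 2 * ((proposalCount G G' : ℝ) / (6 * (n.choose 4 : ℝ)) * v G')
      by_cases h : G = G'
      · simp only [h, if_true]; field_simp; ring
      · simp only [h, if_false]; field_simp; ring
    rw [sum_congr rfl fun G' _ => this G', sum_add_distrib, sum_ite_eq]
    simp
  have hcontr : ∑ G, w G ^ 2 ≤ ∑ G, v G ^ 2 := by
    refine stoch_contract q (fun i j => by positivity) (fun i => ?_) (fun i j => ?_) v
    · show ∑ j, (proposalCount i j : ℝ) / (6 * (n.choose 4 : ℝ)) = 1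
      rw [← sum_div, sum_proposalCount]
      field_simp
    · show (proposalCount i j : ℝ) / (6 * (n.choose 4 : ℝ))
        = (proposalCount j i : ℝ) / (6 * (n.choose 4 : ℝ))
      rw [proposalCount_symm]
  simp only [hK]
  have : ∑ G, v G * ((1 / 2) * v G + (1 / 2) * w G) - ∑ G, ((1 / 2) * v G + (1 / 2) * w G) ^ 2
      = (1 / 4) * (∑ G, v G ^ 2 - ∑ G, w G ^ 2) := by
    rw [← sum_sub_distrib, ← sum_sub_distrib, mul_sum]
    refine sum_congr rfl fun G _ => ?_
    ring
  linarith

lemma mulVec_supp (d : Fin n → ℕ) {v : Finset (Edge n) → ℝ}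
    (hv : ∀ G ∉ realizations d, v G = 0) :
    ∀ G ∉ realizations d, (kernel n).mulVec v G = 0 := by
  intro G hG
  rw [mulVec_apply']
  refine sum_eq_zero fun G' _ => ?_
  by_cases hG' : G' ∈ realizations d
  · rw [kernel_eq_zero_of_not_mem' hG hG', zero_mul]
  · rw [hv G' hG', mul_zero]

lemma sum_mulVec (hn : 4 ≤ n) (v : Finset (Edge n) → ℝ) :
    ∑ G, (kernel n).mulVec v G = ∑ G, v G := by
  simp only [mulVec_apply']
  rw [sum_comm]
  refine sum_congr rfl fun G' _ => ?_
  rw [← sum_mul]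
  have : ∑ G, kernel n G G' = 1 := by
    rw [← kernel_row_sum hn G']; exact sum_congr rfl fun G _ => kernel_symm G G'
  rw [this, one_mul]

/-- the spectral gap constant `γ = 1 / (24 n² C(n,4))` -/
noncomputable def gap (n : ℕ) : ℝ := 1 / (24 * (n : ℝ) ^ 2 * (n.choose 4 : ℝ))

lemma gap_pos (hn : 4 ≤ n) : 0 < gap n := by
  have hc := choose_four_pos hn
  have hn0 : (0 : ℝ) < (n : ℝ) := by exact_mod_cast (by omega : 0 < n)
  unfold gap
  positivity

lemma gap_le_one (hn : 4 ≤ n) : gap n ≤ 1 := by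
  have hc : (1 : ℝ) ≤ (n.choose 4 : ℝ) := by exact_mod_cast Nat.choose_pos hn
  have hn0 : (4 : ℝ) ≤ (n : ℝ) := by exact_mod_cast hn
  unfold gap
  rw [div_le_one (by positivity)]
  nlinarith

/-- `n⁻⁶ ≤ γ` -/
lemma gap_ge (hn : 4 ≤ n) : 1 ≤ (n : ℝ) ^ 6 * gap n := by
  have hc := choose_four_pos hn
  have hn0 : (0 : ℝ) < (n : ℝ) := by exact_mod_cast (by omega : 0 < n)
  have h4 : (n.choose 4 : ℝ) ≤ ((n : ℝ) ^ 4) / (Nat.factorial 4 : ℝ) := Nat.choose_le_pow_div 4 n
  have hf : ((Nat.factorial 4 : ℕ) : ℝ) = 24 := by norm_num [Nat.factorial]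
  rw [hf, le_div_iff₀ (by norm_num)] at h4
  unfold gap
  rw [mul_one_div, le_div_iff₀ (by positivity)]
  nlinarith [pow_pos hn0 2]

/-- one step of the chain contracts mean-zero functions supported on the class -/
lemma poincare_step (hn : 4 ≤ n) {d : Fin n → ℕ} (hd : (realizations d).Nonempty)
    (P : Poincare n d) {v : Finset (Edge n) → ℝ} (hv : ∀ G ∉ realizations d, v G = 0)
    (hmean : ∑ G, v G = 0) :
    ∑ G, ((kernel n).mulVec v G) ^ 2 ≤ (1 - gap n) * ∑ G, v G ^ 2 := by
  have hc := choose_four_pos hn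
  have hN : (0 : ℝ) < (realizations d).card := by exact_mod_cast card_pos.mpr hd
  have hn0 : (0 : ℝ) < (n : ℝ) := by exact_mod_cast (by omega : 0 < n)
  have hsum : ∀ h : Finset (Edge n) → ℝ, (∀ G ∉ realizations d, h G = 0) →
      ∑ G ∈ realizations d, h G = ∑ G, h G := by
    intro h hh
    exact sum_subset (subset_univ _) fun G _ hG => hh G hG
  have hP := P v
  have e1 : ∑ G ∈ realizations d, v G = 0 := by rw [hsum v hv, hmean]
  have e2 : ∑ G ∈ realizations d, v G ^ 2 = ∑ G, v G ^ 2 :=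
    hsum _ (fun G hG => by rw [hv G hG]; ring)
  have e3 : ∑ G ∈ realizations d, v G * (v G - ∑ G' ∈ realizations d, kernel n G G' * v G')
      = ∑ G, v G ^ 2 - ∑ G, v G * (kernel n).mulVec v G := by
    have : ∀ G, ∑ G' ∈ realizations d, kernel n G G' * v G' = (kernel n).mulVec v G := by
      intro G
      rw [mulVec_apply']
      exact sum_subset (subset_univ _) fun G' _ hG' => by rw [hv G' hG', mul_zero]
    simp only [this]
    rw [hsum (fun G => v G * (v G - (kernel n).mulVec v G))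
      (fun G hG => by simp [hv G hG]), ← sum_sub_distrib]
    refine sum_congr rfl fun G _ => ?_
    ring
  rw [e1, e2, e3] at hP
  have hcontr := kernel_contract hn v
  have hpos : (0 : ℝ) < 24 * (n : ℝ) ^ 2 * (n.choose 4 : ℝ) := by positivity
  have h1 : ∑ G, v G ^ 2 ≤ 24 * (n : ℝ) ^ 2 * (n.choose 4 : ℝ) *
      (∑ G, v G ^ 2 - ∑ G, v G * (kernel n).mulVec v G) := by
    have : ((realizations d).card : ℝ) * ∑ G, v G ^ 2 ≤ ((realizations d).card : ℝ) *
        (24 * (n : ℝ) ^ 2 * (n.choose 4 : ℝ) *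
          (∑ G, v G ^ 2 - ∑ G, v G * (kernel n).mulVec v G)) := by
      have e : ((realizations d).card : ℝ) * (24 * (n : ℝ) ^ 2 * (n.choose 4 : ℝ) *
          (∑ G, v G ^ 2 - ∑ G, v G * (kernel n).mulVec v G))
          = 24 * (n : ℝ) ^ 2 * (n.choose 4 : ℝ) * (realizations d).card *
            (∑ G, v G ^ 2 - ∑ G, v G * (kernel n).mulVec v G) := by ring
      rw [e]
      linarith
    exact le_of_mul_le_mul_left this hN
  have h2 : (∑ G, v G ^ 2) / (24 * (n : ℝ) ^ 2 * (n.choose 4 : ℝ))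
      ≤ ∑ G, v G ^ 2 - ∑ G, v G * (kernel n).mulVec v G := by
    rw [div_le_iff₀ hpos]; linarith
  have e : (1 - gap n) * ∑ G, v G ^ 2
      = ∑ G, v G ^ 2 - (∑ G, v G ^ 2) / (24 * (n : ℝ) ^ 2 * (n.choose 4 : ℝ)) := by
    unfold gap; ring
  rw [e]
  linarith

/-- `t` steps -/
lemma pow_step (hn : 4 ≤ n) {d : Fin n → ℕ} (hd : (realizations d).Nonempty)
    (P : Poincare n d) {v : Finset (Edge n) → ℝ} (hv : ∀ G ∉ realizations d, v G = 0)
    (hmean : ∑ G, v G = 0) (t : ℕ) :
    (∀ G ∉ realizations d, ((kernel n) ^ t).mulVec v G = 0) ∧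
      ∑ G, ((kernel n) ^ t).mulVec v G = 0 ∧
      ∑ G, (((kernel n) ^ t).mulVec v G) ^ 2 ≤ (1 - gap n) ^ t * ∑ G, v G ^ 2 := by
  have hγ : 0 ≤ 1 - gap n := by linarith [gap_le_one hn]
  induction t with
  | zero =>
    refine ⟨?_, ?_, ?_⟩
    · simpa using hv
    · simpa using hmean
    · simp
  | succ t ih =>
    obtain ⟨ih1, ih2, ih3⟩ := ih
    have e : ((kernel n) ^ (t + 1)).mulVec v
        = (kernel n).mulVec (((kernel n) ^ t).mulVec v) := by
      rw [pow_succ', Matrix.mulVec_mulVec]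
    rw [e]
    refine ⟨mulVec_supp d ih1, by rw [sum_mulVec hn, ih2], ?_⟩
    calc ∑ G, ((kernel n).mulVec (((kernel n) ^ t).mulVec v) G) ^ 2
        ≤ (1 - gap n) * ∑ G, (((kernel n) ^ t).mulVec v G) ^ 2 :=
          poincare_step hn hd P ih1 ih2
      _ ≤ (1 - gap n) * ((1 - gap n) ^ t * ∑ G, v G ^ 2) :=
          mul_le_mul_of_nonneg_left ih3 hγ
      _ = (1 - gap n) ^ (t + 1) * ∑ G, v G ^ 2 := by ring

lemma mulVec_unif (hn : 4 ≤ n) (d : Fin n → ℕ) :
    (kernel n).mulVec (unifOn (realizations d)) = unifOn (realizations d) := by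
  funext G
  rw [mulVec_apply']
  unfold unifOn
  by_cases hG : G ∈ realizations d
  · rw [if_pos hG]
    simp only [mul_ite, mul_zero]
    rw [sum_ite_mem, univ_inter, ← sum_mul, kernel_row_sum_class hn hG, one_mul]
  · rw [if_neg hG]
    refine sum_eq_zero fun G' _ => ?_
    by_cases hG' : G' ∈ realizations d
    · rw [kernel_eq_zero_of_not_mem' hG hG', zero_mul]
    · rw [if_neg hG', mul_zero]

lemma pow_mulVec_unif (hn : 4 ≤ n) (d : Fin n → ℕ) (t : ℕ) :
    ((kernel n) ^ t).mulVec (unifOn (realizations d)) = unifOn (realizations d) := by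
  induction t with
  | zero => simp
  | succ t ih => rw [pow_succ', ← Matrix.mulVec_mulVec, ih, mulVec_unif hn d]

lemma kernel_pow_symm (t : ℕ) (G G' : Finset (Edge n)) :
    ((kernel n) ^ t) G G' = ((kernel n) ^ t) G' G := by
  have hs : (kernel n).IsSymm := Matrix.IsSymm.ext fun i j => kernel_symm j i
  exact ((hs.pow t).apply G G').symm

/-- numerics: `(1 - γ)^(n⁶) ≤ 1/2` -/
lemma gap_pow_le_half (hn : 4 ≤ n) : (1 - gap n) ^ (n ^ 6) ≤ 1 / 2 := by
  have hγ0 := gap_pos hn
  have hγ1 := gap_le_one hn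
  have hge := gap_ge hn
  have hx : 0 ≤ 1 - gap n := by linarith
  have h1 : ((1 - gap n) * (1 + gap n)) ^ (n ^ 6) ≤ 1 := by
    apply pow_le_one₀ (mul_nonneg hx (by linarith))
    nlinarith
  have h2 : (2 : ℝ) ≤ (1 + gap n) ^ (n ^ 6) := by
    have := one_add_mul_le_pow (show (-2 : ℝ) ≤ gap n by linarith) (n ^ 6)
    push_cast at this
    linarith
  rw [mul_pow] at h1
  have h3 : 0 ≤ (1 - gap n) ^ (n ^ 6) := pow_nonneg hx _
  nlinarith

/-- numerics: `2^(C(n,2)) (1 - γ)^(2n⁸) ≤ 1/4` -/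
lemma card_mul_gap_pow (hn : 4 ≤ n) :
    (Fintype.card (Finset (Edge n)) : ℝ) * (1 - gap n) ^ (2 * n ^ 8) ≤ 1 / 4 := by
  have hγ1 := gap_le_one hn
  have hx : 0 ≤ 1 - gap n := by linarith
  have hcard : Fintype.card (Finset (Edge n)) ≤ 2 ^ (n ^ 2) := by
    rw [Fintype.card_finset]
    apply Nat.pow_le_pow_right (by norm_num)
    have : Fintype.card (Edge n) = n.choose 2 := by
      have := Sym2.card_subtype_not_diag (α := Fin n)
      rw [Fintype.card_fin] at this
      exact this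
    rw [this]
    exact Nat.choose_le_pow n 2
  have hcard' : (Fintype.card (Finset (Edge n)) : ℝ) ≤ (2 : ℝ) ^ (n ^ 2) := by
    exact_mod_cast hcard
  have e : 2 * n ^ 8 = n ^ 6 * (2 * n ^ 2) := by ring
  have hpow : (1 - gap n) ^ (2 * n ^ 8) ≤ (1 / 2 : ℝ) ^ (2 * n ^ 2) := by
    rw [e, pow_mul]
    exact pow_le_pow_left₀ (pow_nonneg hx _) (gap_pow_le_half hn) _
  have hn2 : 2 ≤ n ^ 2 := by nlinarith
  calc (Fintype.card (Finset (Edge n)) : ℝ) * (1 - gap n) ^ (2 * n ^ 8)
      ≤ (2 : ℝ) ^ (n ^ 2) * (1 / 2 : ℝ) ^ (2 * n ^ 2) :=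
        mul_le_mul hcard' hpow (pow_nonneg hx _) (by positivity)
    _ = (1 / 2 : ℝ) ^ (n ^ 2) := by
        rw [two_mul, pow_add, ← mul_assoc, ← mul_pow]
        norm_num
    _ ≤ (1 / 2 : ℝ) ^ 2 := pow_le_pow_of_le_one (by norm_num) (by norm_num) hn2
    _ = 1 / 4 := by norm_num

/-- **Poincaré ⟹ mixing**: the first conjunct of S0453 follows from the second. -/
theorem tv_of_poincare (hn : 4 ≤ n) {d : Fin n → ℕ} (hd : (realizations d).Nonempty)
    (P : Poincare n d) :
    ∃ t : ℕ, t ≤ 2 * n ^ 8 ∧ ∀ G ∈ realizations d,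
      tvDist (fun G' => (kernel n ^ t) G G') (unifOn (realizations d)) ≤ 1 / 4 := by
  refine ⟨2 * n ^ 8, le_refl _, fun G₀ hG₀ => ?_⟩
  have hN : (0 : ℝ) < (realizations d).card := by exact_mod_cast card_pos.mpr hd
  let g : Finset (Edge n) → ℝ := fun G => (if G = G₀ then 1 else 0) - unifOn (realizations d) G
  -- `g` is supported on the class, has mean zero and norm at most one
  have hsupp : ∀ G ∉ realizations d, g G = 0 := by
    intro G hG
    have hne : G ≠ G₀ := fun h => hG (h ▸ hG₀)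
    show (if G = G₀ then (1 : ℝ) else 0) - unifOn (realizations d) G = 0
    simp [unifOn, hne, hG]
  have hsumu : ∑ G, unifOn (realizations d) G = 1 := by
    unfold unifOn
    rw [sum_ite_mem, univ_inter, sum_const, nsmul_eq_mul]
    field_simp
  have hmean : ∑ G, g G = 0 := by
    show ∑ G, ((if G = G₀ then (1 : ℝ) else 0) - unifOn (realizations d) G) = 0
    rw [sum_sub_distrib, hsumu]
    simp
  have hnorm : ∑ G, g G ^ 2 ≤ 1 := by
    have e : ∀ G, g G ^ 2 = (if G = G₀ then (1 : ℝ) else 0)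
        - 2 * (if G = G₀ then unifOn (realizations d) G else 0)
        + unifOn (realizations d) G ^ 2 := by
      intro G
      show ((if G = G₀ then (1 : ℝ) else 0) - unifOn (realizations d) G) ^ 2 = _
      by_cases h : G = G₀
      · simp only [h, if_true]; ring
      · simp only [h, if_false]; ring
    have hu2 : ∑ G, unifOn (realizations d) G ^ 2 = 1 / ((realizations d).card : ℝ) := by
      unfold unifOn
      have : ∀ G : Finset (Edge n), (if G ∈ realizations d then 1 / ((realizations d).card : ℝ)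
          else 0) ^ 2 = if G ∈ realizations d then (1 / ((realizations d).card : ℝ)) ^ 2 else 0 := by
        intro G
        by_cases h : G ∈ realizations d
        · simp [h]
        · simp [h]
      rw [sum_congr rfl fun G _ => this G, sum_ite_mem, univ_inter, sum_const, nsmul_eq_mul]
      field_simp
    rw [sum_congr rfl fun G _ => e G, sum_add_distrib, sum_sub_distrib, ← mul_sum, hu2]
    simp only [sum_ite_eq', mem_univ, if_true]
    have : unifOn (realizations d) G₀ = 1 / ((realizations d).card : ℝ) := by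
      simp [unifOn, hG₀]
    rw [this]
    have : 0 < 1 / ((realizations d).card : ℝ) := by positivity
    linarith
  obtain ⟨-, -, h3⟩ := pow_step hn hd P hsupp hmean (2 * n ^ 8)
  -- the difference to uniform is `K^t g`
  have hw : ∀ G', (kernel n ^ (2 * n ^ 8)) G₀ G' - unifOn (realizations d) G'
      = ((kernel n) ^ (2 * n ^ 8)).mulVec g G' := by
    intro G'
    have h1 : ((kernel n) ^ (2 * n ^ 8)).mulVec g G'
        = ∑ G, ((kernel n ^ (2 * n ^ 8)) G' G * (if G = G₀ then (1 : ℝ) else 0)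
          - (kernel n ^ (2 * n ^ 8)) G' G * unifOn (realizations d) G) := by
      rw [mulVec_apply']
      refine sum_congr rfl fun G _ => ?_
      show (kernel n ^ (2 * n ^ 8)) G' G
        * ((if G = G₀ then (1 : ℝ) else 0) - unifOn (realizations d) G) = _
      ring
    have h2 : ∑ G, (kernel n ^ (2 * n ^ 8)) G' G * unifOn (realizations d) G
        = unifOn (realizations d) G' := by
      rw [← mulVec_apply', pow_mulVec_unif hn d]
    have h3' : ∑ G, (kernel n ^ (2 * n ^ 8)) G' G * (if G = G₀ then (1 : ℝ) else 0)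
        = (kernel n ^ (2 * n ^ 8)) G' G₀ := by
      simp
    rw [h1, sum_sub_distrib, h2, h3', kernel_pow_symm]
  unfold tvDist
  simp only [hw]
  set w := ((kernel n) ^ (2 * n ^ 8)).mulVec g with hwdef
  have hcs : (∑ G, |w G|) ^ 2 ≤ (Fintype.card (Finset (Edge n)) : ℝ) * ∑ G, |w G| ^ 2 := by
    have := sq_sum_le_card_mul_sum_sq (s := (univ : Finset (Finset (Edge n))))
      (f := fun G => |w G|)
    rwa [card_univ] at this
  have habs : ∑ G, |w G| ^ 2 = ∑ G, w G ^ 2 := sum_congr rfl fun G _ => sq_abs _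
  have hγ1 := gap_le_one hn
  have hx : 0 ≤ 1 - gap n := by linarith
  have hfinal : (∑ G, |w G|) ^ 2 ≤ 1 / 4 := by
    calc (∑ G, |w G|) ^ 2 ≤ (Fintype.card (Finset (Edge n)) : ℝ) * ∑ G, w G ^ 2 := by
          rw [← habs]; exact hcs
      _ ≤ (Fintype.card (Finset (Edge n)) : ℝ) * ((1 - gap n) ^ (2 * n ^ 8) * ∑ G, g G ^ 2) :=
          mul_le_mul_of_nonneg_left h3 (by positivity)
      _ ≤ (Fintype.card (Finset (Edge n)) : ℝ) * ((1 - gap n) ^ (2 * n ^ 8) * 1) :=
          mul_le_mul_of_nonneg_left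
            (mul_le_mul_of_nonneg_left hnorm (pow_nonneg hx _)) (by positivity)
      _ ≤ 1 / 4 := by rw [mul_one]; exact card_mul_gap_pow hn
  have hS : 0 ≤ ∑ G, |w G| := sum_nonneg fun G _ => abs_nonneg _
  have : ∑ G, |w G| ≤ 1 / 2 := by nlinarith
  linarith

/-- **The reduction**: the frozen statement S0453 for `(n, d)` follows from `Core n d`. -/
theorem result_of_core (n : ℕ) (hn : 4 ≤ n)
    (d : Fin n → ℕ) (hd : (Crest.SwitchChain.realizations d).Nonempty) (core : Core n d) :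
    (∃ t : ℕ, t ≤ 2 * n ^ 8 ∧ ∀ G ∈ Crest.SwitchChain.realizations d,
        Crest.SwitchChain.tvDist (fun G' => (Crest.SwitchChain.kernel n ^ t) G G')
          (Crest.SwitchChain.unifOn (Crest.SwitchChain.realizations d)) ≤ 1 / 4) ∧
      ∀ f : Finset (Crest.SwitchChain.Edge n) → ℝ,
        ((Crest.SwitchChain.realizations d).card : ℝ) *
              (∑ G ∈ Crest.SwitchChain.realizations d, f G ^ 2) -
            (∑ G ∈ Crest.SwitchChain.realizations d, f G) ^ 2 ≤
          24 * (n : ℝ) ^ 2 * (n.choose 4 : ℝ) * (Crest.SwitchChain.realizations d).card *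
            ∑ G ∈ Crest.SwitchChain.realizations d,
              f G * (f G - ∑ G' ∈ Crest.SwitchChain.realizations d,
                Crest.SwitchChain.kernel n G G' * f G') :=
  ⟨tv_of_poincare hn hd (poincare_of_core hn core), poincare_of_core hn core⟩

end Crest.Agent.S0453R
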