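import Mathlib
import Crest.Prelude.Def_SwitchChain
import Crest.Agent.S0453.PM
import Crest.Agent.S0453.Kernel
import Crest.Agent.S0453.Reduction

/-!
Row 299 / S0453, route-independent reduction (helper33), part 4: adapters.

Other shapes of the spectral-gap inequality that imply `Core n d` (and hence, by
`result_of_core`, the frozen statement):

* `CoreCount n d` : the Dirichlet sum written with `proposalCount` (`core_iff_coreCount`);
* `core_of_rel`   : the Dirichlet sum over any adjacency relation `R` all of whose pairs are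
                    realised by at least one proposal, with any constant `c ≤ n²`;
* `SwitchAdj`     : the explicit relation "`G'` arises from `G` by deleting `ab, cd` and inserting
                    `ac, bd`", with `one_le_proposalCount_of_switchAdj` and `core_of_switchAdj`.
-/

set_option autoImplicit false
open Finset

namespace Crest.Agent.S0453R

open Crest.SwitchChain

variable {n : ℕ}

/-- the proposal sum at `G` written with the counts -/
lemma sum_count_eq {d : Fin n → ℕ} (f : Finset (Edge n) → ℝ) {G : Finset (Edge n)}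
    (hG : G ∈ realizations d) :
    ∑ G' ∈ realizations d, (proposalCount G G' : ℝ) * (f G - f G') ^ 2
      = ∑ S ∈ (univ : Finset (Fin n)).powersetCard 4, ∑ F ∈ pmSet S,
          ∑ F' ∈ (pmSet S).erase F, (f G - f (switchResult G F F')) ^ 2 := by
  rw [← sum_proposalCount_mul G (fun G' => (f G - f G') ^ 2)]
  apply sum_subset (subset_univ _)
  intro G' _ hG'
  rw [proposalCount_eq_zero_of_not_mem hG hG']
  simp

/-- `Core` with the Dirichlet sum written as `∑_{G, G' ∈ Ω} proposalCount G G' · (f G − f G')²`. -/
def CoreCount (n : ℕ) (d : Fin n → ℕ) : Prop :=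
  ∀ f : Finset (Edge n) → ℝ,
    ((realizations d).card : ℝ) * (∑ G ∈ realizations d, f G ^ 2) -
        (∑ G ∈ realizations d, f G) ^ 2 ≤
      (n : ℝ) ^ 2 * (realizations d).card *
        ∑ G ∈ realizations d, ∑ G' ∈ realizations d,
          (proposalCount G G' : ℝ) * (f G - f G') ^ 2

lemma core_iff_coreCount (d : Fin n → ℕ) : Core n d ↔ CoreCount n d := by
  unfold Core CoreCount
  refine forall_congr' fun f => ?_
  rw [sum_congr rfl fun G hG => sum_count_eq f hG]

/-- a proposal realises its own outcome -/
lemma one_le_proposalCount {S : Finset (Fin n)} (hS : S ∈ (univ : Finset (Fin n)).powersetCard 4)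
    {F F' : Finset (Edge n)} (hF : F ∈ pmSet S) (hF' : F' ∈ (pmSet S).erase F)
    (G : Finset (Edge n)) : 1 ≤ proposalCount G (switchResult G F F') := by
  unfold proposalCount
  calc 1 = if switchResult G F F' = switchResult G F F' then 1 else 0 := by simp
    _ ≤ ∑ F'' ∈ (pmSet S).erase F,
          if switchResult G F F'' = switchResult G F F' then 1 else 0 :=
        single_le_sum (f := fun F'' => if switchResult G F F'' = switchResult G F F' then 1 else 0)
          (fun _ _ => Nat.zero_le _) hF'
    _ ≤ ∑ F₀ ∈ pmSet S, ∑ F'' ∈ (pmSet S).erase F₀,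
          if switchResult G F₀ F'' = switchResult G F F' then 1 else 0 :=
        single_le_sum (f := fun F₀ => ∑ F'' ∈ (pmSet S).erase F₀,
          if switchResult G F₀ F'' = switchResult G F F' then 1 else 0)
          (fun _ _ => Nat.zero_le _) hF
    _ ≤ _ :=
        single_le_sum (f := fun S₀ => ∑ F₀ ∈ pmSet S₀, ∑ F'' ∈ (pmSet S₀).erase F₀,
          if switchResult G F₀ F'' = switchResult G F F' then 1 else 0)
          (fun _ _ => Nat.zero_le _) hS

/-- **Adapter**: a Poincaré inequality over any adjacency relation `R` whose pairs are realised by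
proposals, with any constant `c ≤ n²`, implies `Core`.  (The sum on the right runs over ORDERED
pairs; `λ₂(L) ≥ 2` for the unit-rate switch Laplacian is the case `c = 1/4`.) -/
theorem core_of_rel {d : Fin n → ℕ} (R : Finset (Edge n) → Finset (Edge n) → Prop)
    [DecidableRel R] (c : ℝ) (hc : c ≤ (n : ℝ) ^ 2)
    (hR : ∀ G ∈ realizations d, ∀ G' ∈ realizations d, R G G' → 1 ≤ proposalCount G G')
    (h : ∀ f : Finset (Edge n) → ℝ,
      ((realizations d).card : ℝ) * (∑ G ∈ realizations d, f G ^ 2) -
          (∑ G ∈ realizations d, f G) ^ 2 ≤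
        c * (realizations d).card *
          ∑ G ∈ realizations d, ∑ G' ∈ realizations d,
            if R G G' then (f G - f G') ^ 2 else 0) : Core n d := by
  rw [core_iff_coreCount]
  intro f
  have h1 : ∑ G ∈ realizations d, ∑ G' ∈ realizations d,
        (if R G G' then (f G - f G') ^ 2 else 0)
      ≤ ∑ G ∈ realizations d, ∑ G' ∈ realizations d,
        (proposalCount G G' : ℝ) * (f G - f G') ^ 2 := by
    refine sum_le_sum fun G hG => sum_le_sum fun G' hG' => ?_
    by_cases hr : R G G'
    · rw [if_pos hr]
      have : (1 : ℝ) ≤ (proposalCount G G' : ℝ) := by exact_mod_cast hR G hG G' hG' hr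
      nlinarith [sq_nonneg (f G - f G')]
    · rw [if_neg hr]
      positivity
  have h0 : 0 ≤ ∑ G ∈ realizations d, ∑ G' ∈ realizations d,
        (if R G G' then (f G - f G') ^ 2 else 0) :=
    sum_nonneg fun G _ => sum_nonneg fun G' _ => by split_ifs <;> positivity
  have hN : (0 : ℝ) ≤ ((realizations d).card : ℝ) := Nat.cast_nonneg _
  calc _ ≤ c * (realizations d).card *
          ∑ G ∈ realizations d, ∑ G' ∈ realizations d,
            (if R G G' then (f G - f G') ^ 2 else 0) := h f
    _ ≤ (n : ℝ) ^ 2 * (realizations d).card *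
          ∑ G ∈ realizations d, ∑ G' ∈ realizations d,
            (if R G G' then (f G - f G') ^ 2 else 0) := by
        apply mul_le_mul_of_nonneg_right _ h0
        exact mul_le_mul_of_nonneg_right hc hN
    _ ≤ _ := mul_le_mul_of_nonneg_left h1 (by positivity)

/-- The explicit switch relation: `G'` arises from `G` by deleting the edges `ab`, `cd` and
inserting `ac`, `bd` (`a, b, c, d` distinct; `ab, cd` present; `ac, bd` absent). -/
def SwitchAdj (G G' : Finset (Edge n)) : Prop :=
  ∃ (a b c d : Fin n) (hab : a ≠ b) (hac : a ≠ c) (_ : a ≠ d) (_ : b ≠ c) (hbd : b ≠ d)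
    (hcd : c ≠ d),
    mkE a b hab ∈ G ∧ mkE c d hcd ∈ G ∧ mkE a c hac ∉ G ∧ mkE b d hbd ∉ G ∧
      G' = G \ {mkE a b hab, mkE c d hcd} ∪ {mkE a c hac, mkE b d hbd}

lemma one_le_proposalCount_of_switchAdj {G G' : Finset (Edge n)} (h : SwitchAdj G G') :
    1 ≤ proposalCount G G' := by
  obtain ⟨a, b, c, d, hab, hac, had, hbc, hbd, hcd, h1, h2, h3, h4, rfl⟩ := h
  have hS : ({a, b, c, d} : Finset (Fin n)) ∈ (univ : Finset (Fin n)).powersetCard 4 := by
    rw [mem_powersetCard]
    refine ⟨subset_univ _, ?_⟩
    rw [card_insert_of_notMem, card_insert_of_notMem, card_insert_of_notMem, card_singleton]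
    · simpa using hcd
    · simp [hbc, hbd]
    · simp [hab, hac, had]
  have hF : ({mkE a b hab, mkE c d hcd} : Finset (Edge n)) ∈ pmSet ({a, b, c, d} : Finset (Fin n)) :=
    pair_mem_pmSet hab hac had hbc hbd hcd
  have hF' : ({mkE a c hac, mkE b d hbd} : Finset (Edge n))
      ∈ pmSet ({a, b, c, d} : Finset (Fin n)) := by
    have e : ({a, b, c, d} : Finset (Fin n)) = {a, c, b, d} := by
      ext x; simp only [mem_insert, mem_singleton]; tauto
    rw [e]
    exact pair_mem_pmSet hac hab had hbc.symm hcd hbd
  have hne : ({mkE a c hac, mkE b d hbd} : Finset (Edge n)) ≠ {mkE a b hab, mkE c d hcd} := by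
    intro he
    have : mkE a c hac ∈ ({mkE a b hab, mkE c d hcd} : Finset (Edge n)) := by
      rw [← he]; simp
    rw [mem_insert, mem_singleton, mkE_eq_iff, mkE_eq_iff] at this
    rcases this with (⟨-, h⟩ | ⟨h, -⟩) | (⟨h, -⟩ | ⟨h, -⟩)
    · exact hbc h.symm
    · exact hab h
    · exact hac h
    · exact had h
  have hcond : ({mkE a b hab, mkE c d hcd} : Finset (Edge n)) ⊆ G ∧
      Disjoint ({mkE a c hac, mkE b d hbd} : Finset (Edge n)) G := by
    constructor
    · intro e he
      rw [mem_insert, mem_singleton] at he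
      rcases he with rfl | rfl <;> assumption
    · rw [disjoint_left]
      intro e he
      rw [mem_insert, mem_singleton] at he
      rcases he with rfl | rfl <;> assumption
  have := one_le_proposalCount hS hF (mem_erase.mpr ⟨hne, hF'⟩) G
  rwa [switchResult_of_cond hcond] at this

/-- **Adapter** for the explicit switch relation: `Var f ≤ 4c · (1/N) ∑_{ordered switch pairs}`
with `c ≤ n²` (e.g. `c = 1/4`, i.e. `λ₂(L) ≥ 2`) implies `Core`. -/
theorem core_of_switchAdj {d : Fin n → ℕ} [DecidableRel (SwitchAdj (n := n))] (c : ℝ)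
    (hc : c ≤ (n : ℝ) ^ 2)
    (h : ∀ f : Finset (Edge n) → ℝ,
      ((realizations d).card : ℝ) * (∑ G ∈ realizations d, f G ^ 2) -
          (∑ G ∈ realizations d, f G) ^ 2 ≤
        c * (realizations d).card *
          ∑ G ∈ realizations d, ∑ G' ∈ realizations d,
            if SwitchAdj G G' then (f G - f G') ^ 2 else 0) : Core n d :=
  core_of_rel SwitchAdj c hc (fun _ _ _ _ hr => one_le_proposalCount_of_switchAdj hr) h

end Crest.Agent.S0453R
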