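import Mathlib
import Crest.Prelude.Def_SwitchChain
import Crest.Agent.S0453.PM
import Crest.Agent.S0453.Kernel
import Crest.Agent.S0453.Reduction
import Crest.Agent.S0453.Adapters

/-!
Row 299 / S0453 (helper44): connectivity of the switch graph.

Any two realizations of a degree vector are joined by a chain of switches (`SwitchAdj` of
`Adapters.lean`), all of whose members are realizations.  Consequently a function on the
realizations that is invariant under every switch is constant (`ker X = constants`).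

Proof: Havel–Hakimi "laying off" without degree ordering.  `S` is a set of vertices whose stars
already agree in `G` and `H`.  For `v ∉ S`, `x ∈ N_G(v) \ N_H(v)`, `y ∈ N_H(v) \ N_G(v)`
(automatically `x, y ∉ S`): if `|N_G(x) \ S| ≤ |N_G(y) \ S|` there is `w ∉ S`, `w ∈ N_G(y)`,
`w ∉ N_G[x]`, and the switch `vx, yw ↦ vy, xw` in `G` lowers `|N_G(v) \ N_H(v)|`; otherwise the
mirror switch `vy, xw ↦ vx, yw` is available in `H`.
-/

set_option autoImplicit false
open Finset

namespace Crest.Agent.S0453R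

open Crest.SwitchChain

variable {n : ℕ}

/-- the neighbours of `v` in `G` -/
def nb (G : Finset (Edge n)) (v : Fin n) : Finset (Fin n) :=
  univ.filter fun w => ∃ h : v ≠ w, mkE v w h ∈ G

lemma mem_nb {G : Finset (Edge n)} {v w : Fin n} :
    w ∈ nb G v ↔ ∃ h : v ≠ w, mkE v w h ∈ G := by
  simp [nb]

lemma mkE_comm {x y : Fin n} (h : x ≠ y) : mkE x y h = mkE y x h.symm := by
  rw [mkE_eq_iff]; right; exact ⟨rfl, rfl⟩

lemma mem_nb_comm {G : Finset (Edge n)} {v w : Fin n} : w ∈ nb G v ↔ v ∈ nb G w := by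
  rw [mem_nb, mem_nb]
  constructor
  · rintro ⟨h, hm⟩
    rw [mkE_comm h] at hm
    exact ⟨h.symm, hm⟩
  · rintro ⟨h, hm⟩
    rw [mkE_comm h] at hm
    exact ⟨h.symm, hm⟩

lemma mkE_mem_iff {G : Finset (Edge n)} {v w : Fin n} (h : v ≠ w) :
    mkE v w h ∈ G ↔ w ∈ nb G v := by
  rw [mem_nb]
  exact ⟨fun hm => ⟨h, hm⟩, fun ⟨_, hm⟩ => hm⟩

lemma ne_of_mem_nb {G : Finset (Edge n)} {v w : Fin n} (h : w ∈ nb G v) : v ≠ w :=
  (mem_nb.mp h).fst

lemma not_mem_nb_self (G : Finset (Edge n)) (v : Fin n) : v ∉ nb G v :=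
  fun h => ne_of_mem_nb h rfl

lemma edge_eq_mkE (e : Edge n) : ∃ (a b : Fin n) (h : a ≠ b), e = mkE a b h := by
  obtain ⟨z, hz⟩ := e
  induction z using Sym2.ind with
  | _ a b =>
    have h : a ≠ b := by
      intro hab; apply hz; rw [hab]; simp
    exact ⟨a, b, h, rfl⟩

lemma deg_eq_card_nb (G : Finset (Edge n)) (v : Fin n) : deg G v = (nb G v).card := by
  unfold deg
  symm
  refine card_bij (fun w hw => mkE v w (mem_nb.mp hw).fst) ?_ ?_ ?_
  · intro w hw
    rw [mem_filter]
    obtain ⟨h, hm⟩ := mem_nb.mp hw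
    exact ⟨hm, by simp⟩
  · intro w₁ h₁ w₂ h₂ heq
    rw [mkE_eq_iff] at heq
    rcases heq with ⟨-, h⟩ | ⟨h, -⟩
    · exact h
    · exact absurd h (ne_of_mem_nb h₂)
  · intro e he
    rw [mem_filter] at he
    obtain ⟨heG, hve⟩ := he
    obtain ⟨w, hw⟩ := Sym2.mem_iff_exists.mp hve
    have hvw : v ≠ w := by
      intro h; apply e.2; rw [hw, h]; simp
    have hee : e = mkE v w hvw := Subtype.ext hw
    exact ⟨w, mem_nb.mpr ⟨hvw, hee ▸ heG⟩, hee.symm⟩

lemma deg_of_mem {d : Fin n → ℕ} {G : Finset (Edge n)} (hG : G ∈ realizations d) (v : Fin n) :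
    deg G v = d v := by
  simp only [realizations, mem_filter, mem_univ, true_and] at hG
  exact hG v

lemma card_nb_of_mem {d : Fin n → ℕ} {G : Finset (Edge n)} (hG : G ∈ realizations d)
    (v : Fin n) : (nb G v).card = d v := by
  rw [← deg_eq_card_nb, deg_of_mem hG]

/-- the graph after the switch `ab, cd ↦ ac, bd` -/
def sw (G : Finset (Edge n)) (a b c d : Fin n) (hab : a ≠ b) (hcd : c ≠ d) (hac : a ≠ c)
    (hbd : b ≠ d) : Finset (Edge n) :=
  G \ {mkE a b hab, mkE c d hcd} ∪ {mkE a c hac, mkE b d hbd}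

lemma mem_nb_sw {G : Finset (Edge n)} {a b c d : Fin n} (hab : a ≠ b) (hcd : c ≠ d)
    (hac : a ≠ c) (hbd : b ≠ d) {p q : Fin n} (h : p ≠ q) :
    q ∈ nb (sw G a b c d hab hcd hac hbd) p ↔
      (q ∈ nb G p ∧ ¬ (((p = a ∧ q = b) ∨ (p = b ∧ q = a)) ∨
          ((p = c ∧ q = d) ∨ (p = d ∧ q = c))))
        ∨ ((p = a ∧ q = c) ∨ (p = c ∧ q = a)) ∨ ((p = b ∧ q = d) ∨ (p = d ∧ q = b)) := by
  rw [← mkE_mem_iff h, ← mkE_mem_iff h]
  simp only [sw, mem_union, mem_sdiff, mem_insert, mem_singleton, mkE_eq_iff]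

lemma nb_sw_of_ne {G : Finset (Edge n)} {a b c d : Fin n} (hab : a ≠ b) (hcd : c ≠ d)
    (hac : a ≠ c) (hbd : b ≠ d) {p : Fin n} (hpa : p ≠ a) (hpb : p ≠ b) (hpc : p ≠ c)
    (hpd : p ≠ d) : nb (sw G a b c d hab hcd hac hbd) p = nb G p := by
  ext q
  by_cases h : p = q
  · subst h; simp [not_mem_nb_self]
  · rw [mem_nb_sw hab hcd hac hbd h]
    constructor
    · rintro (⟨h1, -⟩ | (⟨h1, -⟩ | ⟨h1, -⟩) | (⟨h1, -⟩ | ⟨h1, -⟩))
      · exact h1
      · exact absurd h1 hpa
      · exact absurd h1 hpc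
      · exact absurd h1 hpb
      · exact absurd h1 hpd
    · intro h1
      left
      refine ⟨h1, ?_⟩
      rintro ((⟨h3, -⟩ | ⟨h3, -⟩) | (⟨h3, -⟩ | ⟨h3, -⟩))
      · exact hpa h3
      · exact hpb h3
      · exact hpc h3
      · exact hpd h3

lemma nb_sw_fst {G : Finset (Edge n)} {a b c d : Fin n} (hab : a ≠ b) (hcd : c ≠ d)
    (hac : a ≠ c) (hbd : b ≠ d) (had : a ≠ d) :
    nb (sw G a b c d hab hcd hac hbd) a = insert c ((nb G a).erase b) := by
  ext q
  by_cases h : a = q
  · subst h; simp [not_mem_nb_self, hac]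
  · rw [mem_nb_sw hab hcd hac hbd h, mem_insert, mem_erase]
    constructor
    · rintro (⟨h1, h2⟩ | (⟨-, h1⟩ | ⟨h1, -⟩) | (⟨h1, -⟩ | ⟨h1, -⟩))
      · right; exact ⟨fun hq => h2 (Or.inl (Or.inl ⟨rfl, hq⟩)), h1⟩
      · left; exact h1
      · exact absurd h1 hac
      · exact absurd h1 hab
      · exact absurd h1 had
    · rintro (h1 | ⟨h1, h2⟩)
      · right; left; left; exact ⟨rfl, h1⟩
      · left; refine ⟨h2, ?_⟩
        rintro ((⟨-, h3⟩ | ⟨h3, -⟩) | (⟨h3, -⟩ | ⟨h3, -⟩))
        · exact h1 h3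
        · exact hab h3
        · exact hac h3
        · exact had h3

/-- a switch keeps the graph in its degree class -/
lemma switchAdj_mem {d : Fin n → ℕ} {A B : Finset (Edge n)} (hA : A ∈ realizations d)
    (h : SwitchAdj A B) : B ∈ realizations d := by
  by_contra hB
  have h1 := one_le_proposalCount_of_switchAdj h
  rw [proposalCount_eq_zero_of_not_mem hA hB] at h1
  exact absurd h1 (by norm_num)

lemma switchAdj_symm {A B : Finset (Edge n)} (h : SwitchAdj A B) : SwitchAdj B A := by
  obtain ⟨a, b, c, d, hab, hac, had, hbc, hbd, hcd, h1, h2, h3, h4, rfl⟩ := h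
  refine ⟨a, c, b, d, hac, hab, had, hbc.symm, hcd, hbd, ?_, ?_, ?_, ?_, ?_⟩
  · simp
  · simp
  · simp only [mem_union, mem_sdiff, mem_insert, mem_singleton, mkE_eq_iff]
    tauto
  · simp only [mem_union, mem_sdiff, mem_insert, mem_singleton, mkE_eq_iff]
    tauto
  · ext e
    have e1 : e = mkE a c hac → e ∉ A := by rintro rfl; exact h3
    have e2 : e = mkE b d hbd → e ∉ A := by rintro rfl; exact h4
    have e3 : e = mkE a b hab → e ∈ A := by rintro rfl; exact h1
    have e4 : e = mkE c d hcd → e ∈ A := by rintro rfl; exact h2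
    simp only [mem_union, mem_sdiff, mem_insert, mem_singleton]
    tauto

/-- one switch step inside the degree class of `d` -/
def SwStep (d : Fin n → ℕ) (A B : Finset (Edge n)) : Prop :=
  A ∈ realizations d ∧ SwitchAdj A B

lemma swStep_symm {d : Fin n → ℕ} {A B : Finset (Edge n)} (h : SwStep d A B) : SwStep d B A :=
  ⟨switchAdj_mem h.1 h.2, switchAdj_symm h.2⟩

lemma chain_symm {d : Fin n → ℕ} {A B : Finset (Edge n)}
    (h : Relation.ReflTransGen (SwStep d) A B) : Relation.ReflTransGen (SwStep d) B A := by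
  induction h with
  | refl => exact Relation.ReflTransGen.refl
  | tail _ hstep ih => exact Relation.ReflTransGen.head (swStep_symm hstep) ih

/-- counting: if `y` has at least as many neighbours outside `S` as `x`, and `x` has a neighbour
`v ∉ S` that `y` lacks, then `y` has a neighbour `w ∉ S`, `w ≠ x`, that `x` lacks. -/
lemma exists_w {G : Finset (Edge n)} {S : Finset (Fin n)} {v x y : Fin n}
    (hcard : (nb G x \ S).card ≤ (nb G y \ S).card)
    (hvx : v ∈ nb G x) (hvS : v ∉ S) (hvy : v ∉ nb G y) (hvney : v ≠ y)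
    (hxS : x ∉ S) (hyS : y ∉ S) :
    ∃ w, w ∈ nb G y ∧ w ∉ S ∧ w ≠ x ∧ w ∉ nb G x := by
  by_contra hne
  push Not at hne
  have hsub : (nb G y \ S).erase x ⊆ ((nb G x \ S).erase y).erase v := by
    intro w hw
    rw [mem_erase, mem_sdiff] at hw
    obtain ⟨hwx, hwy, hwS⟩ := hw
    rw [mem_erase, mem_erase, mem_sdiff]
    refine ⟨?_, ?_, hne w hwy hwS hwx, hwS⟩
    · rintro rfl; exact hvy hwy
    · exact (ne_of_mem_nb hwy).symm
  have hv : v ∈ (nb G x \ S).erase y := by
    rw [mem_erase, mem_sdiff]; exact ⟨hvney, hvx, hvS⟩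
  have h1 := card_le_card hsub
  rw [card_erase_of_mem hv] at h1
  have hpos : 0 < ((nb G x \ S).erase y).card := card_pos.mpr ⟨v, hv⟩
  by_cases hadj : x ∈ nb G y
  · have hx : x ∈ nb G y \ S := mem_sdiff.mpr ⟨hadj, hxS⟩
    have hy : y ∈ nb G x \ S := mem_sdiff.mpr ⟨mem_nb_comm.mp hadj, hyS⟩
    rw [card_erase_of_mem hx] at h1
    rw [card_erase_of_mem hy] at h1 hpos
    omega
  · have hx : x ∉ nb G y \ S := fun h => hadj (mem_sdiff.mp h).1
    have hy : y ∉ nb G x \ S := fun h => hadj (mem_nb_comm.mp (mem_sdiff.mp h).1)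
    rw [erase_eq_of_notMem hx] at h1
    rw [erase_eq_of_notMem hy] at h1 hpos
    omega

/-- outside an agreed set `S` the two graphs have the same residual degrees -/
lemma card_nb_sdiff {d : Fin n → ℕ} {G H : Finset (Edge n)} (hG : G ∈ realizations d)
    (hH : H ∈ realizations d) {S : Finset (Fin n)} (hS : ∀ u ∈ S, nb G u = nb H u)
    (u : Fin n) : (nb G u \ S).card = (nb H u \ S).card := by
  have hi : nb G u ∩ S = nb H u ∩ S := by
    ext w
    simp only [mem_inter]
    constructor
    · rintro ⟨h1, h2⟩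
      refine ⟨?_, h2⟩
      rw [mem_nb_comm, ← hS w h2, ← mem_nb_comm]; exact h1
    · rintro ⟨h1, h2⟩
      refine ⟨?_, h2⟩
      rw [mem_nb_comm, hS w h2, ← mem_nb_comm]; exact h1
  have h1 := card_sdiff_add_card_inter (nb G u) S
  have h2 := card_sdiff_add_card_inter (nb H u) S
  rw [card_nb_of_mem hG] at h1
  rw [card_nb_of_mem hH, ← hi] at h2
  omega

/-- make the star of one more vertex agree -/
lemma fix_vertex (d : Fin n → ℕ) (S : Finset (Fin n)) (v : Fin n) (hv : v ∉ S) :
    ∀ k : ℕ, ∀ G H : Finset (Edge n), G ∈ realizations d → H ∈ realizations d →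
      (∀ u ∈ S, nb G u = nb H u) → (nb G v \ nb H v).card = k →
      ∃ G' H', Relation.ReflTransGen (SwStep d) G G' ∧ Relation.ReflTransGen (SwStep d) H H' ∧
        G' ∈ realizations d ∧ H' ∈ realizations d ∧ ∀ u ∈ insert v S, nb G' u = nb H' u := by
  intro k
  induction k with
  | zero =>
    intro G H hG hH hS hk
    refine ⟨G, H, Relation.ReflTransGen.refl, Relation.ReflTransGen.refl, hG, hH, ?_⟩
    intro u hu
    rw [mem_insert] at hu
    rcases hu with rfl | hu
    · apply eq_of_subset_of_card_le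
      · rwa [card_eq_zero, sdiff_eq_empty_iff_subset] at hk
      · rw [card_nb_of_mem hG, card_nb_of_mem hH]
    · exact hS u hu
  | succ k ih =>
    intro G H hG hH hS hk
    have hne : (nb G v \ nb H v).Nonempty := card_pos.mp (by omega)
    obtain ⟨x, hx⟩ := hne
    obtain ⟨hxG, hxH⟩ := mem_sdiff.mp hx
    -- a vertex `y ∈ N_H(v) \ N_G(v)`
    have hy : ∃ y, y ∈ nb H v ∧ y ∉ nb G v := by
      by_contra hcon
      push Not at hcon
      have hsub : nb H v ⊆ nb G v := fun y hy => hcon y hy
      have heq : nb H v = nb G v :=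
        eq_of_subset_of_card_le hsub (by rw [card_nb_of_mem hG, card_nb_of_mem hH])
      exact hxH (heq ▸ hxG)
    obtain ⟨y, hyH, hyG⟩ := hy
    have hxS : x ∉ S := by
      intro hxS
      apply hxH
      rw [mem_nb_comm, ← hS x hxS, ← mem_nb_comm]; exact hxG
    have hyS : y ∉ S := by
      intro hyS
      apply hyG
      rw [mem_nb_comm, hS y hyS, ← mem_nb_comm]; exact hyH
    have hvx : v ≠ x := ne_of_mem_nb hxG
    have hvy : v ≠ y := ne_of_mem_nb hyH
    have hxy : x ≠ y := by rintro rfl; exact hyG hxG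
    by_cases hc : (nb G x \ S).card ≤ (nb G y \ S).card
    · -- switch in `G`
      obtain ⟨w, hwy, hwS, hwx, hwnx⟩ :=
        exists_w hc (mem_nb_comm.mp hxG) hv (fun h => hyG (mem_nb_comm.mp h)) hvy hxS hyS
      have hvw : v ≠ w := by
        rintro rfl; exact hyG (mem_nb_comm.mp hwy)
      have hyw : y ≠ w := ne_of_mem_nb hwy
      have hxw : x ≠ w := Ne.symm hwx
      have hadj : SwitchAdj G (sw G v x y w hvx hyw hvy hxw) :=
        ⟨v, x, y, w, hvx, hvy, hvw, hxy, hxw, hyw, (mkE_mem_iff hvx).mpr hxG,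
          (mkE_mem_iff hyw).mpr hwy, fun h => hyG ((mkE_mem_iff hvy).mp h),
          fun h => hwnx ((mkE_mem_iff hxw).mp h), rfl⟩
      have hG' := switchAdj_mem hG hadj
      have hS' : ∀ u ∈ S, nb (sw G v x y w hvx hyw hvy hxw) u = nb H u := by
        intro u hu
        rw [nb_sw_of_ne hvx hyw hvy hxw (p := u) (by rintro rfl; exact hv hu)
          (by rintro rfl; exact hxS hu) (by rintro rfl; exact hyS hu)
          (by rintro rfl; exact hwS hu)]
        exact hS u hu
      have hk' : (nb (sw G v x y w hvx hyw hvy hxw) v \ nb H v).card = k := by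
        have : nb (sw G v x y w hvx hyw hvy hxw) v \ nb H v = (nb G v \ nb H v).erase x := by
          rw [nb_sw_fst hvx hyw hvy hxw hvw]
          ext q
          simp only [mem_sdiff, mem_insert, mem_erase]
          constructor
          · rintro ⟨rfl | ⟨h1, h2⟩, h3⟩
            · exact absurd hyH h3
            · exact ⟨h1, h2, h3⟩
          · rintro ⟨h1, h2, h3⟩
            exact ⟨Or.inr ⟨h1, h2⟩, h3⟩
        rw [this, card_erase_of_mem hx, hk]; rfl
      obtain ⟨G'', H', c1, c2, r1, r2, hag⟩ := ih _ H hG' hH hS' hk'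
      exact ⟨G'', H', Relation.ReflTransGen.head ⟨hG, hadj⟩ c1, c2, r1, r2, hag⟩
    · -- mirror switch in `H`
      have hc' : (nb H y \ S).card ≤ (nb H x \ S).card := by
        rw [← card_nb_sdiff hG hH hS y, ← card_nb_sdiff hG hH hS x]; omega
      obtain ⟨w, hwx, hwS, hwy, hwny⟩ :=
        exists_w hc' (mem_nb_comm.mp hyH) hv (fun h => hxH (mem_nb_comm.mp h)) hvx hyS hxS
      have hvw : v ≠ w := by
        rintro rfl; exact hxH (mem_nb_comm.mp hwx)
      have hxw : x ≠ w := ne_of_mem_nb hwx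
      have hyw : y ≠ w := Ne.symm hwy
      have hadj : SwitchAdj H (sw H v y x w hvy hxw hvx hyw) :=
        ⟨v, y, x, w, hvy, hvx, hvw, hxy.symm, hyw, hxw, (mkE_mem_iff hvy).mpr hyH,
          (mkE_mem_iff hxw).mpr hwx, fun h => hxH ((mkE_mem_iff hvx).mp h),
          fun h => hwny ((mkE_mem_iff hyw).mp h), rfl⟩
      have hH' := switchAdj_mem hH hadj
      have hS' : ∀ u ∈ S, nb G u = nb (sw H v y x w hvy hxw hvx hyw) u := by
        intro u hu
        rw [nb_sw_of_ne hvy hxw hvx hyw (p := u) (by rintro rfl; exact hv hu)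
          (by rintro rfl; exact hyS hu) (by rintro rfl; exact hxS hu)
          (by rintro rfl; exact hwS hu)]
        exact hS u hu
      have hk' : (nb G v \ nb (sw H v y x w hvy hxw hvx hyw) v).card = k := by
        have : nb G v \ nb (sw H v y x w hvy hxw hvx hyw) v = (nb G v \ nb H v).erase x := by
          rw [nb_sw_fst hvy hxw hvx hyw hvw]
          ext q
          simp only [mem_sdiff, mem_insert, mem_erase, not_or, not_and]
          constructor
          · rintro ⟨h1, h2, h3⟩
            refine ⟨h2, h1, fun h4 => ?_⟩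
            by_cases hq : q = y
            · subst hq; exact hyG h1
            · exact h3 hq h4
          · rintro ⟨h1, h2, h3⟩
            exact ⟨h2, h1, fun _ h4 => h3 h4⟩
        rw [this, card_erase_of_mem hx, hk]; rfl
      obtain ⟨G', H'', c1, c2, r1, r2, hag⟩ := ih G _ hG hH' hS' hk'
      exact ⟨G', H'', c1, Relation.ReflTransGen.head ⟨hH, hadj⟩ c2, r1, r2, hag⟩

lemma connect_aux (d : Fin n → ℕ) : ∀ m : ℕ, ∀ S : Finset (Fin n), (univ \ S).card = m →
    ∀ G H : Finset (Edge n), G ∈ realizations d → H ∈ realizations d →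
      (∀ u ∈ S, nb G u = nb H u) →
      ∃ K, Relation.ReflTransGen (SwStep d) G K ∧ Relation.ReflTransGen (SwStep d) H K := by
  intro m
  induction m with
  | zero =>
    intro S hS G H hG hH hag
    have hSu : ∀ a : Fin n, a ∈ S := by
      intro a
      rw [card_eq_zero, sdiff_eq_empty_iff_subset] at hS
      exact hS (mem_univ a)
    have hGH : G = H := by
      ext e
      obtain ⟨a, b, h, rfl⟩ := edge_eq_mkE e
      rw [mkE_mem_iff, mkE_mem_iff, hag a (hSu a)]
    subst hGH
    exact ⟨G, Relation.ReflTransGen.refl, Relation.ReflTransGen.refl⟩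
  | succ m ih =>
    intro S hS G H hG hH hag
    have hne : (univ \ S).Nonempty := card_pos.mp (by omega)
    obtain ⟨v, hv⟩ := hne
    have hvS : v ∉ S := (mem_sdiff.mp hv).2
    obtain ⟨G', H', c1, c2, hG', hH', hag'⟩ := fix_vertex d S v hvS _ G H hG hH hag rfl
    have hcard : (univ \ insert v S).card = m := by
      have : univ \ insert v S = (univ \ S).erase v := by
        ext u; simp only [mem_sdiff, mem_erase, mem_insert, mem_univ, true_and]; tauto
      rw [this, card_erase_of_mem hv, hS]; rfl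
    obtain ⟨K, k1, k2⟩ := ih (insert v S) hcard G' H' hG' hH' hag'
    exact ⟨K, c1.trans k1, c2.trans k2⟩

/-- **Connectivity of the switch graph**, join form. -/
theorem switch_join {d : Fin n → ℕ} {G H : Finset (Edge n)} (hG : G ∈ realizations d)
    (hH : H ∈ realizations d) :
    ∃ K, Relation.ReflTransGen (SwStep d) G K ∧ Relation.ReflTransGen (SwStep d) H K :=
  connect_aux d _ ∅ rfl G H hG hH (by simp)

/-- **Connectivity of the switch graph**: any two realizations of `d` are joined by a chain of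
switches through realizations of `d`. -/
theorem switch_connected {d : Fin n → ℕ} {G H : Finset (Edge n)} (hG : G ∈ realizations d)
    (hH : H ∈ realizations d) : Relation.ReflTransGen (SwStep d) G H := by
  obtain ⟨K, k1, k2⟩ := switch_join hG hH
  exact k1.trans (chain_symm k2)

/-- every member of a switch chain starting at a realization is a realization -/
lemma mem_of_chain {d : Fin n → ℕ} {G H : Finset (Edge n)} (hG : G ∈ realizations d)
    (h : Relation.ReflTransGen (SwStep d) G H) : H ∈ realizations d := by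
  induction h with
  | refl => exact hG
  | tail _ hstep _ => exact switchAdj_mem hstep.1 hstep.2

/-- **`ker X = constants`**: a function on graphs that is invariant under every switch out of a
realization of `d` is constant on the realizations of `d`. -/
theorem const_of_switch_invariant {d : Fin n → ℕ} {β : Type*} (f : Finset (Edge n) → β)
    (hf : ∀ G ∈ realizations d, ∀ G', SwitchAdj G G' → f G' = f G) :
    ∀ G ∈ realizations d, ∀ H ∈ realizations d, f G = f H := by
  intro G hG H hH
  have key : ∀ A B, Relation.ReflTransGen (SwStep d) A B → f B = f A := by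
    intro A B h
    induction h with
    | refl => rfl
    | tail _ hstep ih => rw [← ih]; exact hf _ hstep.1 _ hstep.2
  exact (key G H (switch_connected hG hH)).symm

end Crest.Agent.S0453R
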