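import Mathlib
import Crest.Prelude.Def_SwitchChain
import Crest.Agent.S0453.PM
import Crest.Agent.S0453.Connect
import Crest.Agent.S0453.Avg

/-!
Row 299 / S0453 (helper12): the common definitions for one couple `s = (b, b')` of disjoint pairs
(interface of the modules [CS], [J-GRAPH], [D-ASM]; board post #1038) and their basic properties.

* `cross b b'`  : the block slots (edges joining `b` to `b'`);
* `Ms b b' G`   : the switch of the couple is available at `G` (the block of `G` is a perfect
                  matching between `b` and `b'`);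
* `flip b b' G` : the switch involution `σ_s`;
* `P d b b' f`  : average over the `b`-class split by the `Ms`-status;
* `Q d b b' f`  : `∑_{G ∈ Ω ∩ M_s} (P_b f G - E_b f G)²`;
* `swE d b b' f`: `∑_{G ∈ Ω} (f G - f (σ_s G))²`;
* the statements `SGraph`, `JGraph` (the target `G2 d` is defined in `Final.lean`;
  `g2_of_S_J : SGraph d → JGraph d → G2 d` is in `DAsm.lean`).
-/

set_option autoImplicit false
open Finset

namespace Crest.Agent.S0453R

open Crest.SwitchChain

variable {n : ℕ}

/-- block slots of the couple `(b,b')`: all edges joining `b` to `b'` -/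
def cross (b b' : Finset (Fin n)) : Finset (Edge n) :=
  univ.filter fun e => (∃ x ∈ b, x ∈ e.1) ∧ (∃ y ∈ b', y ∈ e.1)

/-- `M_s`: the switch of the couple is available at `G`, i.e. the block of `G` is a perfect
matching between `b` and `b'` -/
def Ms (b b' : Finset (Fin n)) (G : Finset (Edge n)) : Prop :=
  ∀ x ∈ b ∪ b', ((G ∩ cross b b').filter fun e => x ∈ e.1).card = 1

instance (b b' : Finset (Fin n)) : DecidablePred (Ms b b') := fun _ => by
  unfold Ms; infer_instance

/-- `σ_s`: complement the block where it is a matching, identity elsewhere -/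
def flip (b b' : Finset (Fin n)) (G : Finset (Edge n)) : Finset (Edge n) :=
  if Ms b b' G then symmDiff G (cross b b') else G

/-- the `b`-class relation refined by the `M_s`-status -/
def sameOffM (b b' : Finset (Fin n)) (G G' : Finset (Edge n)) : Prop :=
  sameOff b G G' ∧ (Ms b b' G ↔ Ms b b' G')

instance (b b' : Finset (Fin n)) : DecidableRel (sameOffM b b') := fun _ _ => by
  unfold sameOffM; infer_instance

/-- `P_b^s` -/
noncomputable def P (d : Fin n → ℕ) (b b' : Finset (Fin n)) (f : Finset (Edge n) → ℝ) :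
    Finset (Edge n) → ℝ :=
  avgOn (realizations d) (sameOffM b b') f

/-- `Q^b_s (f) = ∑_{G ∈ Ω ∩ M_s} (P_b f G - E_b f G)²` -/
noncomputable def Q (d : Fin n → ℕ) (b b' : Finset (Fin n)) (f : Finset (Edge n) → ℝ) : ℝ :=
  ∑ G ∈ (realizations d).filter (Ms b b'), (P d b b' f G - E d b f G) ^ 2

/-- switch energy of the couple: `∑_G (f G - f (σ_s G))²` -/
noncomputable def swE (d : Fin n → ℕ) (b b' : Finset (Fin n)) (f : Finset (Edge n) → ℝ) : ℝ :=
  ∑ G ∈ realizations d, (f G - f (flip b b' G)) ^ 2

/-- **(S-graph)**: the couple lemma `{A_b, A_b'} ≥ 2 O_s - Q^b_s - Q^b'_s`. -/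
def SGraph (d : Fin n → ℕ) : Prop :=
  ∀ b ∈ pairs n, ∀ b' ∈ pairs n,
    Disjoint b b' → ∀ f : Finset (Edge n) → ℝ,
      (1 / 2) * swE d b b' f - Q d b b' f - Q d b' b f
        ≤ 2 * ∑ G ∈ realizations d, (f G - E d b f G) * (f G - E d b' f G)

/-- **(J-graph)**: the Johnson-slice lemma `∑_{b'} Q^b_(b,b') ≤ (1/2) ⟨f, L^b f⟩`. -/
def JGraph (d : Fin n → ℕ) : Prop :=
  ∀ b ∈ pairs n, ∀ f : Finset (Edge n) → ℝ,
    ∑ b' ∈ (pairs n).filter (Disjoint b), Q d b b' f
      ≤ (1 / 4) * ∑ b' ∈ (pairs n).filter (Disjoint b), swE d b b' f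

/-! ### symmetry in the two pairs -/

lemma mem_cross {b b' : Finset (Fin n)} {e : Edge n} :
    e ∈ cross b b' ↔ (∃ x ∈ b, x ∈ e.1) ∧ (∃ y ∈ b', y ∈ e.1) := by
  simp [cross]

lemma cross_comm (b b' : Finset (Fin n)) : cross b b' = cross b' b := by
  ext e; rw [mem_cross, mem_cross, and_comm]

lemma Ms_comm (b b' : Finset (Fin n)) (G : Finset (Edge n)) : Ms b b' G ↔ Ms b' b G := by
  unfold Ms; rw [cross_comm, union_comm]

lemma flip_comm (b b' : Finset (Fin n)) (G : Finset (Edge n)) : flip b b' G = flip b' b G := by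
  unfold flip
  by_cases h : Ms b b' G
  · rw [if_pos h, if_pos ((Ms_comm b b' G).1 h), cross_comm]
  · rw [if_neg h, if_neg (fun h' => h ((Ms_comm b b' G).2 h'))]

lemma swE_comm (d : Fin n → ℕ) (b b' : Finset (Fin n)) (f : Finset (Edge n) → ℝ) :
    swE d b b' f = swE d b' b f := by
  unfold swE
  exact sum_congr rfl fun G _ => by rw [flip_comm]

end Crest.Agent.S0453R
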