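import Mathlib
import Crest.Prelude.Def_SwitchChain
import Crest.Agent.S0453.Adapters
import Crest.Agent.S0453.Connect
import Crest.Agent.S0453.Avg

/-!
Row 299 / S0453 — assembly skeleton of the Caputo route (driver helper6).

The four graph targets (board #1020 / #1063), as `Prop`-valued definitions:

* `G1 d` : for every triple `T`, `0 ≤ ∑_{b ≠ b' ⊂ T} ∑_G (f − E_b f)(f − E_b' f)`      (3-box lemma);
* `G2 d` : `0 ≤ ∑_{b, b' disjoint} ∑_G (f − E_b f)(f − E_b' f)`                       (`D ≥ 0`);
* `G3 d` : a function constant on all pair classes is constant on `Ω`         (proved here);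
* `G4 d` : `∑_b ∑_G (f − E_b f)² ≤ ½ ∑_{G, G'} [SwitchAdj G G'] (f G − f G')²`        (`X ≤ L`).

`cross_split` is the finset bookkeeping `∑_{b ≠ b'} = ∑_T ∑_{b ≠ b' ⊂ T} + ∑_{b, b' disjoint}`,
`core_of_G` the assembly `G1 → G2 → G4 → Core n d`, `result_of_G` the frozen statement.
-/

set_option autoImplicit false
open Finset

namespace Crest.Agent.S0453R

open Crest.SwitchChain

variable {n : ℕ}

/-! ### Finset bookkeeping: ordered pairs of distinct 2-sets -/

lemma mem_pairs_iff {b : Finset (Fin n)} : b ∈ pairs n ↔ b.card = 2 := by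
  simp [pairs, mem_powersetCard]

/-- two distinct 2-sets lie in a common 3-set iff they meet, and then the 3-set is their union -/
lemma triples_filter_two_pairs {b b' : Finset (Fin n)} (hb : b.card = 2) (hb' : b'.card = 2)
    (hne : b' ≠ b) :
    ((univ : Finset (Fin n)).powersetCard 3).filter (fun T => b ⊆ T ∧ b' ⊆ T)
      = if Disjoint b b' then ∅ else {b ∪ b'} := by
  have hcard := card_union_add_card_inter b b'
  rw [hb, hb'] at hcard
  split_ifs with hd
  · ext T
    simp only [mem_filter, mem_powersetCard, subset_univ, true_and, notMem_empty, iff_false]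
    rintro ⟨hT, h1, h2⟩
    have h3 : (b ∪ b').card ≤ T.card := card_le_card (union_subset h1 h2)
    rw [disjoint_iff_inter_eq_empty] at hd
    rw [hd, card_empty] at hcard
    omega
  · have hi1 : 1 ≤ (b ∩ b').card := by
      rw [Nat.one_le_iff_ne_zero, Ne, card_eq_zero, ← disjoint_iff_inter_eq_empty]
      exact hd
    have hi2 : (b ∩ b').card ≠ 2 := by
      intro h2
      have e1 : b ∩ b' = b := eq_of_subset_of_card_le inter_subset_left (by omega)
      have e2 : b ∩ b' = b' := eq_of_subset_of_card_le inter_subset_right (by omega)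
      exact hne (e2.symm.trans e1)
    have hi3 : (b ∩ b').card ≤ 2 := hb ▸ card_le_card inter_subset_left
    have hu : (b ∪ b').card = 3 := by omega
    ext T
    simp only [mem_filter, mem_powersetCard, subset_univ, true_and, mem_singleton]
    constructor
    · rintro ⟨hT, h1, h2⟩
      exact (eq_of_subset_of_card_le (union_subset h1 h2) (by omega)).symm
    · rintro rfl
      exact ⟨hu, subset_union_left, subset_union_right⟩

/-- `∑_{b ≠ b'} = ∑_T ∑_{b ≠ b' ⊂ T} + ∑_{b, b' disjoint}` over ordered pairs of 2-sets -/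
lemma cross_split (F : Finset (Fin n) → Finset (Fin n) → ℝ) :
    ∑ b ∈ pairs n, ∑ b' ∈ (pairs n).erase b, F b b'
      = ∑ T ∈ (univ : Finset (Fin n)).powersetCard 3,
          ∑ b ∈ T.powersetCard 2, ∑ b' ∈ (T.powersetCard 2).erase b, F b b'
        + ∑ b ∈ pairs n, ∑ b' ∈ (pairs n).filter (Disjoint b), F b b' := by
  classical
  -- step A: rewrite the inner sums over `T.powersetCard 2` as filtered sums over `pairs n`
  have hA : ∀ T : Finset (Fin n),
      ∑ b ∈ T.powersetCard 2, ∑ b' ∈ (T.powersetCard 2).erase b, F b b'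
        = ∑ b ∈ pairs n, ∑ b' ∈ (pairs n).erase b, if b ⊆ T ∧ b' ⊆ T then F b b' else 0 := by
    intro T
    have e1 : T.powersetCard 2 = (pairs n).filter (fun b => b ⊆ T) := by
      ext b
      simp only [mem_powersetCard, pairs, mem_filter, subset_univ, true_and]
      tauto
    have e2 : ∀ b, ((pairs n).filter (fun b => b ⊆ T)).erase b
        = ((pairs n).erase b).filter (fun b' => b' ⊆ T) := by
      intro b
      ext b'
      simp only [mem_erase, mem_filter]
      tauto
    rw [e1, sum_filter]
    refine sum_congr rfl fun b _ => ?_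
    by_cases hbT : b ⊆ T
    · rw [if_pos hbT, e2, sum_filter]
      exact sum_congr rfl fun b' _ => by simp [hbT]
    · rw [if_neg hbT]
      exact (sum_eq_zero fun b' _ => by simp [hbT]).symm
  -- step B: exchange the sums and count the triples
  have hB : ∑ T ∈ (univ : Finset (Fin n)).powersetCard 3,
        ∑ b ∈ T.powersetCard 2, ∑ b' ∈ (T.powersetCard 2).erase b, F b b'
      = ∑ b ∈ pairs n, ∑ b' ∈ (pairs n).erase b, if Disjoint b b' then 0 else F b b' := by
    rw [sum_congr rfl fun T _ => hA T, sum_comm]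
    refine sum_congr rfl fun b hb => ?_
    rw [sum_comm]
    refine sum_congr rfl fun b' hb' => ?_
    rw [← sum_filter, triples_filter_two_pairs (mem_pairs_iff.1 hb)
      (mem_pairs_iff.1 (mem_of_mem_erase hb')) (ne_of_mem_erase hb')]
    split_ifs <;> simp
  -- step C: the disjoint part
  have hC : ∀ b ∈ pairs n, ∑ b' ∈ (pairs n).filter (Disjoint b), F b b'
      = ∑ b' ∈ (pairs n).erase b, if Disjoint b b' then F b b' else 0 := by
    intro b hb
    rw [← sum_filter]
    refine sum_congr ?_ fun _ _ => rfl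
    ext b'
    simp only [mem_filter, mem_erase]
    constructor
    · rintro ⟨h1, h2⟩
      refine ⟨⟨?_, h1⟩, h2⟩
      rintro rfl
      have : b' = ∅ := by simpa using h2
      rw [this] at hb
      simp [pairs, mem_powersetCard] at hb
    · rintro ⟨⟨_, h1⟩, h2⟩
      exact ⟨h1, h2⟩
  rw [hB, sum_congr rfl hC, ← sum_add_distrib]
  refine sum_congr rfl fun b _ => ?_
  rw [← sum_add_distrib]
  refine sum_congr rfl fun b' _ => ?_
  split_ifs <;> simp

/-! ### The four graph targets -/

/-- (G1) the 3-box lemma `(T)` on the graph: for every triple `T` the off-diagonal part of the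
Gram form of the three pair operators inside `T` is nonnegative. -/
def G1 (d : Fin n → ℕ) : Prop :=
  ∀ T ∈ (univ : Finset (Fin n)).powersetCard 3, ∀ f : Finset (Edge n) → ℝ,
    0 ≤ ∑ b ∈ T.powersetCard 2, ∑ b' ∈ (T.powersetCard 2).erase b,
      ∑ G ∈ realizations d, (f G - E d b f G) * (f G - E d b' f G)

/-- (G2) `D ≥ 0`: the disjoint part of the cross terms is nonnegative. -/
def G2 (d : Fin n → ℕ) : Prop :=
  ∀ f : Finset (Edge n) → ℝ,
    0 ≤ ∑ b ∈ pairs n, ∑ b' ∈ (pairs n).filter (Disjoint b),
      ∑ G ∈ realizations d, (f G - E d b f G) * (f G - E d b' f G)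

/-- (G3) a function constant on all pair classes is constant on the realizations. -/
def G3 (d : Fin n → ℕ) : Prop :=
  ∀ f : Finset (Edge n) → ℝ,
    (∀ b ∈ pairs n, ∀ G ∈ realizations d, ∀ G' ∈ realizations d, sameOff b G G' → f G = f G') →
    ∀ G ∈ realizations d, ∀ G' ∈ realizations d, f G = f G'

/-- (G4) `X ≤ L`: the pair-class variances are bounded by the switch Dirichlet form. -/
def G4 (d : Fin n → ℕ) [DecidableRel (SwitchAdj (n := n))] : Prop :=
  ∀ f : Finset (Edge n) → ℝ,
    ∑ b ∈ pairs n, ∑ G ∈ realizations d, (f G - E d b f G) ^ 2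
      ≤ (1 / 2) * ∑ G ∈ realizations d, ∑ G' ∈ realizations d,
          if SwitchAdj G G' then (f G - f G') ^ 2 else 0

/-- `hcross` of `caputo_pairs` from (G1) and (G2) -/
lemma hcross_of_G1_G2 {d : Fin n → ℕ} (h1 : G1 d) (h2 : G2 d) (f : Finset (Edge n) → ℝ) :
    0 ≤ ∑ b ∈ pairs n, ∑ b' ∈ (pairs n).erase b,
      ∑ G ∈ realizations d, (f G - E d b f G) * (f G - E d b' f G) := by
  rw [cross_split]
  exact add_nonneg (sum_nonneg fun T hT => h1 T hT f) (h2 f)

/-! ### (G3): connectivity bridge -/

/-- a switch changes only edges meeting the diagonal pair `{a, d}` -/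
lemma sameOff_of_switchAdj {G G' : Finset (Edge n)} (h : SwitchAdj G G') :
    ∃ b ∈ pairs n, sameOff b G G' := by
  obtain ⟨a, b, c, d, hab, hac, had, hbc, hbd, hcd, -, -, -, -, rfl⟩ := h
  refine ⟨{a, d}, ?_, ?_⟩
  · rw [mem_pairs_iff, card_pair had]
  · intro e he
    have ha : a ∉ e.1 := he a (by simp)
    have hd : d ∉ e.1 := he d (by simp)
    have n1 : e ≠ mkE a b hab := by
      rintro rfl; exact ha (by simp [mkE])
    have n2 : e ≠ mkE c d hcd := by
      rintro rfl; exact hd (by simp [mkE])
    have n3 : e ≠ mkE a c hac := by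
      rintro rfl; exact ha (by simp [mkE])
    have n4 : e ≠ mkE b d hbd := by
      rintro rfl; exact hd (by simp [mkE])
    simp only [mem_union, mem_sdiff, mem_insert, mem_singleton, n1, n2, n3, n4, or_self,
      not_false_eq_true, and_true, or_false]

theorem G3_holds (d : Fin n → ℕ) : G3 d := by
  intro f hf
  refine const_of_switch_invariant f fun G hG G' hadj => ?_
  obtain ⟨b, hb, hs⟩ := sameOff_of_switchAdj hadj
  exact (hf b hb G hG G' (switchAdj_mem hG hadj) hs).symm

/-! ### Assembly -/

theorem core_of_G {d : Fin n → ℕ} [DecidableRel (SwitchAdj (n := n))] (hn : 1 ≤ n)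
    (h1 : G1 d) (h2 : G2 d) (h4 : G4 d) : Core n d := by
  refine core_of_switchAdj (1 / 2) ?_ fun f => ?_
  · have : (1 : ℝ) ≤ (n : ℝ) := by exact_mod_cast hn
    nlinarith
  · have key := caputo_pairs d (hcross_of_G1_G2 h1 h2) (G3_holds d) f
    have hN : (0 : ℝ) ≤ ((realizations d).card : ℝ) := Nat.cast_nonneg _
    calc _ ≤ ((realizations d).card : ℝ) *
            ∑ b ∈ pairs n, ∑ G ∈ realizations d, (f G - E d b f G) ^ 2 := key
      _ ≤ ((realizations d).card : ℝ) * ((1 / 2) * ∑ G ∈ realizations d, ∑ G' ∈ realizations d,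
            if SwitchAdj G G' then (f G - f G') ^ 2 else 0) :=
          mul_le_mul_of_nonneg_left (h4 f) hN
      _ = _ := by ring

/-- the frozen statement S0453 from the three remaining graph targets -/
theorem result_of_G (n : ℕ) (hn : 4 ≤ n) (d : Fin n → ℕ)
    (hd : (Crest.SwitchChain.realizations d).Nonempty) [DecidableRel (SwitchAdj (n := n))]
    (h1 : G1 d) (h2 : G2 d) (h4 : G4 d) :
    (∃ t : ℕ, t ≤ 2 * n ^ 8 ∧ ∀ G ∈ Crest.SwitchChain.realizations d,
        Crest.SwitchChain.tvDist (fun G' => (Crest.SwitchChain.kernel n ^ t) G G')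
          (Crest.SwitchChain.unifOn (Crest.SwitchChain.realizations d)) ≤ 1 / 4) ∧
      ∀ f : Finset (Crest.SwitchChain.Edge n) → ℝ,
        ((Crest.SwitchChain.realizations d).card : ℝ) *
              (∑ G ∈ Crest.SwitchChain.realizations d, f G ^ 2) -
            (∑ G ∈ Crest.SwitchChain.realizations d, f G) ^ 2 ≤
          24 * (n : ℝ) ^ 2 * (n.choose 4 : ℝ) * (Crest.SwitchChain.realizations d).card *
            ∑ G ∈ Crest.SwitchChain.realizations d,
              f G * (f G - ∑ G' ∈ Crest.SwitchChain.realizations d,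
                Crest.SwitchChain.kernel n G G' * f G') :=
  result_of_core n hn d hd (core_of_G (by omega) h1 h2 h4)

end Crest.Agent.S0453R
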