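import Mathlib
import Crest.Agent.S0453.CoupleDefs
import Crest.Agent.S0453.Final

/-!
Row 299 / S0453, module [D-ASM] (helper12), abstract part: assembly of the disjoint part `D ≥ 0`
of Caputo's identity from the couple lemma (S) and the Johnson-slice lemma (J).

`dasm_abstract` is abstract bookkeeping only (no graphs); `g2_of_S_J : SGraph d → JGraph d → G2 d`
is its instance for the definitions of `CoupleDefs.lean`.

In `dasm_abstract`: `s` is the finite set of pairs `b`, `dj b b'` says that two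
pairs are disjoint, and for a fixed test function `f`

* `ip b b'` stands for `⟨A_b f, A_b' f⟩`,
* `sw b b'` stands for `∑_G (f G - f (σ_(b,b') G))²` (the switch energy of the couple `(b,b')`),
* `Q b b'`  stands for `Q^b_(b,b')(f)`.
-/

set_option autoImplicit false
open Finset

namespace Crest.Agent.S0453R

/-- swapping the two indices in a double sum over a symmetric relation -/
lemma sum_sum_filter_swap {β : Type*} (s : Finset β)
    (dj : β → β → Prop) [DecidableRel dj] (hdj : ∀ b b', dj b b' → dj b' b)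
    (F : β → β → ℝ) :
    ∑ b ∈ s, ∑ b' ∈ s.filter (dj b), F b' b = ∑ b ∈ s, ∑ b' ∈ s.filter (dj b), F b b' := by
  have h1 : ∀ G : β → β → ℝ, ∑ b ∈ s, ∑ b' ∈ s.filter (dj b), G b b'
      = ∑ b ∈ s, ∑ b' ∈ s, if dj b b' then G b b' else 0 := by
    intro G
    refine sum_congr rfl fun b _ => ?_
    rw [sum_filter]
  rw [h1 (fun b b' => F b' b), h1 F, sum_comm]
  refine sum_congr rfl fun b _ => sum_congr rfl fun b' _ => ?_
  by_cases h : dj b b'
  · rw [if_pos h, if_pos (hdj _ _ h)]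
  · have h' : ¬ dj b' b := fun h' => h (hdj _ _ h')
    rw [if_neg h, if_neg h']

/-- **[D-ASM]**, abstract form: the couple lemma (S) and the Johnson-slice lemma (J) give
`∑_{(b,b') disjoint, ordered} ⟨A_b f, A_b' f⟩ ≥ 0`. -/
theorem dasm_abstract {β : Type*} (s : Finset β)
    (dj : β → β → Prop) [DecidableRel dj] (hdj : ∀ b b', dj b b' → dj b' b)
    (ip sw Q : β → β → ℝ)
    (hS : ∀ b ∈ s, ∀ b' ∈ s, dj b b' → (1 / 2) * sw b b' - Q b b' - Q b' b ≤ 2 * ip b b')
    (hJ : ∀ b ∈ s, ∑ b' ∈ s.filter (dj b), Q b b' ≤ (1 / 4) * ∑ b' ∈ s.filter (dj b), sw b b') :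
    0 ≤ ∑ b ∈ s, ∑ b' ∈ s.filter (dj b), ip b b' := by
  have h1 : ∑ b ∈ s, ∑ b' ∈ s.filter (dj b), ((1 / 2) * sw b b' - Q b b' - Q b' b)
      ≤ ∑ b ∈ s, ∑ b' ∈ s.filter (dj b), 2 * ip b b' :=
    sum_le_sum fun b hb => sum_le_sum fun b' hb' =>
      hS b hb b' (mem_filter.1 hb').1 (mem_filter.1 hb').2
  have h2 : ∑ b ∈ s, ∑ b' ∈ s.filter (dj b), ((1 / 2) * sw b b' - Q b b' - Q b' b)
      = (1 / 2) * ∑ b ∈ s, ∑ b' ∈ s.filter (dj b), sw b b'
        - 2 * ∑ b ∈ s, ∑ b' ∈ s.filter (dj b), Q b b' := by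
    have e : ∀ b, ∑ b' ∈ s.filter (dj b), ((1 / 2) * sw b b' - Q b b' - Q b' b)
        = (1 / 2) * ∑ b' ∈ s.filter (dj b), sw b b' - ∑ b' ∈ s.filter (dj b), Q b b'
          - ∑ b' ∈ s.filter (dj b), Q b' b := by
      intro b
      rw [sum_sub_distrib, sum_sub_distrib, mul_sum]
    rw [sum_congr rfl fun b _ => e b, sum_sub_distrib, sum_sub_distrib, ← mul_sum,
      sum_sum_filter_swap s dj hdj Q]
    ring
  have h3 : ∑ b ∈ s, ∑ b' ∈ s.filter (dj b), Q b b'
      ≤ (1 / 4) * ∑ b ∈ s, ∑ b' ∈ s.filter (dj b), sw b b' := by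
    rw [mul_sum]
    exact sum_le_sum fun b hb => hJ b hb
  have h4 : ∑ b ∈ s, ∑ b' ∈ s.filter (dj b), 2 * ip b b'
      = 2 * ∑ b ∈ s, ∑ b' ∈ s.filter (dj b), ip b b' := by
    rw [mul_sum]
    refine sum_congr rfl fun b _ => ?_
    rw [mul_sum]
  linarith

open Crest.SwitchChain in
/-- **[D-ASM]**: `(S-graph)` and `(J-graph)` give `(G2)`. -/
theorem g2_of_S_J {n : ℕ} (d : Fin n → ℕ) (hS : SGraph d) (hJ : JGraph d) : G2 d := by
  intro f
  exact dasm_abstract (pairs n) (fun b b' : Finset (Fin n) => Disjoint b b')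
    (fun _ _ h => h.symm)
    (fun b b' => ∑ G ∈ realizations d, (f G - E d b f G) * (f G - E d b' f G))
    (fun b b' => swE d b b' f) (fun b b' => Q d b b' f)
    (fun b hb b' hb' hdj => hS b hb b' hb' hdj f)
    (fun b hb => hJ b hb f)

end Crest.Agent.S0453R
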