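import Mathlib

/-!
Row 299 / S0453 (helper56): the Poincaré inequality of the Johnson graph with constant `1/2`,
in a mean-free form on `Finset.powersetCard`.

`johnson_poincare`:
  `2 * ∑_{A,B ∈ 𝒦} (F A - F B)² ≤ |𝒦| * ∑_{A ∈ 𝒦} ∑_{x ∈ A} ∑_{y ∈ D \ A} (F A - F (A - x + y))²`
for `𝒦 = D.powersetCard k`, i.e. `∑_A (F A - mean)² ≤ (1/2) ∑_{unordered Johnson edges} (ΔF)²`.
Proof: induction on `D` (split on containing the new element; the cross edges are biregular).
-/

set_option autoImplicit false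
open Finset

namespace Crest.Agent.S0453R.JP

variable {α : Type*} [DecidableEq α]

/-- ordered Johnson edge sum on the `k`-subsets of `D` -/
def SE (D : Finset α) (k : ℕ) (F : Finset α → ℝ) : ℝ :=
  ∑ A ∈ D.powersetCard k, ∑ x ∈ A, ∑ y ∈ D \ A, (F A - F (insert y (A.erase x))) ^ 2

lemma SE_nonneg (D : Finset α) (k : ℕ) (F : Finset α → ℝ) : 0 ≤ SE D k F :=
  sum_nonneg fun _ _ => sum_nonneg fun _ _ => sum_nonneg fun _ _ => sq_nonneg _

/-- `∑_{a,b} (f a - f b)² = 2 |s| ∑ f² - 2 (∑ f)²` -/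
lemma sum_sum_sq_sub {ι : Type*} (s : Finset ι) (f : ι → ℝ) :
    ∑ a ∈ s, ∑ b ∈ s, (f a - f b) ^ 2
      = 2 * (s.card : ℝ) * ∑ a ∈ s, f a ^ 2 - 2 * (∑ a ∈ s, f a) ^ 2 := by
  have h : ∀ a ∈ s, ∑ b ∈ s, (f a - f b) ^ 2
      = (s.card : ℝ) * f a ^ 2 - 2 * f a * (∑ b ∈ s, f b) + ∑ b ∈ s, f b ^ 2 := by
    intro a _
    have : ∀ b ∈ s, (f a - f b) ^ 2 = f a ^ 2 - 2 * f a * f b + f b ^ 2 := fun b _ => by ring
    rw [sum_congr rfl this, sum_add_distrib, sum_sub_distrib, sum_const, nsmul_eq_mul, mul_sum]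
  rw [sum_congr rfl h, sum_add_distrib, sum_sub_distrib, ← mul_sum, sum_const, nsmul_eq_mul,
    ← sum_mul, ← mul_sum]
  ring

/-- splitting a sum over the `(k+1)`-subsets of `insert x D` -/
lemma sum_powersetCard_succ_insert {x : α} {D : Finset α} (hx : x ∉ D) (k : ℕ)
    (g : Finset α → ℝ) :
    ∑ A ∈ (insert x D).powersetCard (k + 1), g A
      = ∑ A ∈ D.powersetCard (k + 1), g A + ∑ A ∈ D.powersetCard k, g (insert x A) := by
  rw [powersetCard_succ_insert hx, sum_union, sum_image]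
  · intro A hA B hB h
    have hA' : x ∉ A := fun h' => hx ((mem_powersetCard.mp hA).1 h')
    have hB' : x ∉ B := fun h' => hx ((mem_powersetCard.mp hB).1 h')
    rw [← erase_insert hA', ← erase_insert hB', h]
  · rw [disjoint_left]
    intro A hA hA'
    obtain ⟨B, _, rfl⟩ := mem_image.mp hA'
    exact hx ((mem_powersetCard.mp hA).1 (mem_insert_self x B))

/-- the cross-edge bijection `(A, u ∈ A) ↔ (A' = A - u, y = u ∉ A')` -/
lemma sum_pair_bij (D : Finset α) (k : ℕ) (h : Finset α → α → ℝ) :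
    ∑ A ∈ D.powersetCard (k + 1), ∑ u ∈ A, h A u
      = ∑ A' ∈ D.powersetCard k, ∑ y ∈ D \ A', h (insert y A') y := by
  rw [sum_sigma', sum_sigma']
  refine sum_bij' (fun p _ => ⟨p.1.erase p.2, p.2⟩) (fun p _ => ⟨insert p.2 p.1, p.2⟩)
    ?_ ?_ ?_ ?_ ?_
  · rintro ⟨A, u⟩ hp
    simp only [mem_sigma, mem_powersetCard, mem_sdiff] at hp ⊢
    obtain ⟨⟨hA, hc⟩, hu⟩ := hp
    refine ⟨⟨(erase_subset _ _).trans hA, ?_⟩, hA hu, notMem_erase u A⟩
    rw [card_erase_of_mem hu, hc]; rfl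
  · rintro ⟨A', y⟩ hp
    simp only [mem_sigma, mem_powersetCard, mem_sdiff] at hp ⊢
    obtain ⟨⟨hA, hc⟩, hy, hy'⟩ := hp
    refine ⟨⟨insert_subset hy hA, ?_⟩, mem_insert_self _ _⟩
    rw [card_insert_of_notMem hy', hc]
  · rintro ⟨A, u⟩ hp
    simp only [mem_sigma, mem_powersetCard] at hp
    simp [insert_erase hp.2]
  · rintro ⟨A', y⟩ hp
    simp only [mem_sigma, mem_powersetCard, mem_sdiff] at hp
    simp [erase_insert hp.2.2]
  · rintro ⟨A, u⟩ hp
    simp only [mem_sigma, mem_powersetCard] at hp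
    simp [insert_erase hp.2]

/-- the cross-edge sum between the two halves of `(insert x D).powersetCard (k+1)` -/
def XE (x : α) (D : Finset α) (k : ℕ) (F : Finset α → ℝ) : ℝ :=
  ∑ A' ∈ D.powersetCard k, ∑ y ∈ D \ A', (F (insert x A') - F (insert y A')) ^ 2

lemma XE_nonneg (x : α) (D : Finset α) (k : ℕ) (F : Finset α → ℝ) : 0 ≤ XE x D k F :=
  sum_nonneg fun _ _ => sum_nonneg fun _ _ => sq_nonneg _

/-- decomposition of the edge sum along the new element -/
lemma SE_insert {x : α} {D : Finset α} (hx : x ∉ D) (k : ℕ) (F : Finset α → ℝ) :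
    SE (insert x D) (k + 1) F
      = SE D (k + 1) F + SE D k (fun B => F (insert x B)) + 2 * XE x D k F := by
  unfold SE
  rw [sum_powersetCard_succ_insert hx]
  -- first half: sets not containing `x`
  have h1 : ∑ A ∈ D.powersetCard (k + 1), ∑ u ∈ A, ∑ y ∈ insert x D \ A,
        (F A - F (insert y (A.erase u))) ^ 2
      = ∑ A ∈ D.powersetCard (k + 1), ∑ u ∈ A, ∑ y ∈ D \ A,
          (F A - F (insert y (A.erase u))) ^ 2 + XE x D k F := by
    have e : ∀ A ∈ D.powersetCard (k + 1), ∑ u ∈ A, ∑ y ∈ insert x D \ A,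
          (F A - F (insert y (A.erase u))) ^ 2
        = ∑ u ∈ A, ∑ y ∈ D \ A, (F A - F (insert y (A.erase u))) ^ 2
          + ∑ u ∈ A, (F A - F (insert x (A.erase u))) ^ 2 := by
      intro A hA
      have hxA : x ∉ A := fun h' => hx ((mem_powersetCard.mp hA).1 h')
      rw [← sum_add_distrib]
      refine sum_congr rfl fun u _ => ?_
      rw [insert_sdiff_of_notMem _ hxA, sum_insert (fun h' => hx (mem_sdiff.mp h').1)]
      ring
    rw [sum_congr rfl e, sum_add_distrib]
    congr 1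
    rw [sum_pair_bij D k (fun A u => (F A - F (insert x (A.erase u))) ^ 2)]
    unfold XE
    refine sum_congr rfl fun A' _ => sum_congr rfl fun y hy => ?_
    rw [erase_insert (mem_sdiff.mp hy).2]
    ring
  -- second half: sets containing `x`
  have h2 : ∑ A ∈ D.powersetCard k, ∑ u ∈ insert x A, ∑ y ∈ insert x D \ insert x A,
        (F (insert x A) - F (insert y ((insert x A).erase u))) ^ 2
      = ∑ A ∈ D.powersetCard k, ∑ u ∈ A, ∑ y ∈ D \ A,
          (F (insert x A) - F (insert x (insert y (A.erase u)))) ^ 2 + XE x D k F := by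
    have e : ∀ A ∈ D.powersetCard k, ∑ u ∈ insert x A, ∑ y ∈ insert x D \ insert x A,
          (F (insert x A) - F (insert y ((insert x A).erase u))) ^ 2
        = ∑ u ∈ A, ∑ y ∈ D \ A, (F (insert x A) - F (insert x (insert y (A.erase u)))) ^ 2
          + ∑ y ∈ D \ A, (F (insert x A) - F (insert y A)) ^ 2 := by
      intro A hA
      have hxA : x ∉ A := fun h' => hx ((mem_powersetCard.mp hA).1 h')
      have hsd : insert x D \ insert x A = D \ A := by
        ext z
        simp only [mem_sdiff, mem_insert, not_or]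
        constructor
        · rintro ⟨h | h, h1, h2⟩
          · exact absurd h h1
          · exact ⟨h, h2⟩
        · rintro ⟨h1, h2⟩
          exact ⟨Or.inr h1, fun h' => hx (h' ▸ h1), h2⟩
      rw [hsd, sum_insert hxA, erase_insert hxA, add_comm]
      congr 1
      refine sum_congr rfl fun u hu => sum_congr rfl fun y _ => ?_
      have hux : x ≠ u := fun h' => hxA (h' ▸ hu)
      rw [erase_insert_of_ne hux, Finset.insert_comm]
    rw [sum_congr rfl e, sum_add_distrib]
    rfl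
  rw [h1, h2]
  ring

/-- Cauchy–Schwarz on the (biregular) cross edges -/
lemma cross_cs (x : α) (D : Finset α) (k : ℕ) (F : Finset α → ℝ) :
    (((D.card - k : ℕ) : ℝ) * (∑ A' ∈ D.powersetCard k, F (insert x A'))
        - ((k : ℝ) + 1) * ∑ A ∈ D.powersetCard (k + 1), F A) ^ 2
      ≤ ((D.powersetCard k).card : ℝ) * ((D.card - k : ℕ) : ℝ) * XE x D k F := by
  have hcard : ∀ A' ∈ D.powersetCard k, (D \ A').card = D.card - k := by
    intro A' hA'
    rw [card_sdiff_of_subset (mem_powersetCard.mp hA').1, (mem_powersetCard.mp hA').2]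
  have e1 : ∑ A' ∈ D.powersetCard k, ∑ y ∈ D \ A', (F (insert x A') - F (insert y A'))
      = ((D.card - k : ℕ) : ℝ) * (∑ A' ∈ D.powersetCard k, F (insert x A'))
        - ((k : ℝ) + 1) * ∑ A ∈ D.powersetCard (k + 1), F A := by
    have : ∀ A' ∈ D.powersetCard k, ∑ y ∈ D \ A', (F (insert x A') - F (insert y A'))
        = ((D.card - k : ℕ) : ℝ) * F (insert x A') - ∑ y ∈ D \ A', F (insert y A') := by
      intro A' hA'
      rw [sum_sub_distrib, sum_const, hcard A' hA', nsmul_eq_mul]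
    rw [sum_congr rfl this, sum_sub_distrib, ← mul_sum,
      ← sum_pair_bij D k (fun A _ => F A)]
    congr 1
    rw [mul_sum]
    refine sum_congr rfl fun A hA => ?_
    rw [sum_const, (mem_powersetCard.mp hA).2, nsmul_eq_mul]
    push_cast
    ring
  have e2 : ((D.powersetCard k).sigma fun A' => D \ A').card
      = (D.powersetCard k).card * (D.card - k) := by
    rw [card_sigma, sum_congr rfl hcard, sum_const, smul_eq_mul]
  have cs := sq_sum_le_card_mul_sum_sq
    (s := (D.powersetCard k).sigma fun A' => D \ A')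
    (f := fun p : (_ : Finset α) × α => F (insert x p.1) - F (insert p.2 p.1))
  rw [e2] at cs
  rw [sum_sigma, sum_sigma, e1] at cs
  unfold XE
  push_cast at cs
  exact cs

/-- the real-number computation closing the induction step -/
lemma step_algebra (n₀ n₁ a b P₀ P₁ Q₀ Q₁ e₀ e₁ X : ℝ)
    (hn₀ : 0 ≤ n₀) (hn₁ : 0 ≤ n₁) (hb : 0 < b)
    (hM : n₁ * a = n₀ * b) (hN : 2 * n₀ ≤ (n₀ + n₁) * a)
    (h0 : 2 * (2 * n₀ * P₀ - 2 * Q₀ ^ 2) ≤ n₀ * e₀)
    (h1 : 2 * (2 * n₁ * P₁ - 2 * Q₁ ^ 2) ≤ n₁ * e₁)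
    (hz0 : n₀ = 0 → P₀ = 0 ∧ Q₀ = 0) (hz1 : n₁ = 0 → P₁ = 0 ∧ Q₁ = 0)
    (hCS : (a * Q₁ - b * Q₀) ^ 2 ≤ n₁ * a * X)
    (he₀ : 0 ≤ e₀) (he₁ : 0 ≤ e₁) (hX : 0 ≤ X) :
    2 * (2 * (n₀ + n₁) * (P₀ + P₁) - 2 * (Q₀ + Q₁) ^ 2) ≤ (n₀ + n₁) * (e₀ + e₁ + 2 * X) := by
  rcases hn₀.eq_or_lt with h | hn₀'
  · obtain ⟨rfl, rfl⟩ := hz0 h.symm
    subst h
    have : 0 ≤ n₁ * (e₀ + 2 * X) := mul_nonneg hn₁ (by positivity)
    nlinarith
  rcases hn₁.eq_or_lt with h | hn₁'
  · obtain ⟨rfl, rfl⟩ := hz1 h.symm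
    subst h
    have : 0 ≤ n₀ * (e₁ + 2 * X) := mul_nonneg hn₀ (by positivity)
    nlinarith
  -- both blocks nonempty
  have ha : 0 < a := by
    have : 0 < n₁ * a := by rw [hM]; positivity
    exact (mul_pos_iff_of_pos_left hn₁').mp this
  obtain ⟨m₀, rfl⟩ : ∃ m₀, Q₀ = n₀ * m₀ := ⟨Q₀ / n₀, by field_simp⟩
  obtain ⟨m₁, rfl⟩ : ∃ m₁, Q₁ = n₁ * m₁ := ⟨Q₁ / n₁, by field_simp⟩
  have h0' : 4 * P₀ - 4 * n₀ * m₀ ^ 2 ≤ e₀ := by
    have : n₀ * (4 * P₀ - 4 * n₀ * m₀ ^ 2) ≤ n₀ * e₀ := by nlinarith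
    exact le_of_mul_le_mul_left this hn₀'
  have h1' : 4 * P₁ - 4 * n₁ * m₁ ^ 2 ≤ e₁ := by
    have : n₁ * (4 * P₁ - 4 * n₁ * m₁ ^ 2) ≤ n₁ * e₁ := by nlinarith
    exact le_of_mul_le_mul_left this hn₁'
  have hX' : n₁ * a * (m₁ - m₀) ^ 2 ≤ X := by
    have e : a * (n₁ * m₁) - b * (n₀ * m₀) = n₁ * a * (m₁ - m₀) := by
      have : b * (n₀ * m₀) = n₁ * a * m₀ := by rw [hM]; ring
      rw [this]; ring
    rw [e] at hCS
    have hpos : 0 < n₁ * a := mul_pos hn₁' ha
    have : (n₁ * a) * (n₁ * a * (m₁ - m₀) ^ 2) ≤ (n₁ * a) * X := by nlinarith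
    exact le_of_mul_le_mul_left this hpos
  have hkey : 0 ≤ n₁ * (m₁ - m₀) ^ 2 * ((n₀ + n₁) * a - 2 * n₀) :=
    mul_nonneg (mul_nonneg hn₁ (sq_nonneg _)) (sub_nonneg.mpr hN)
  have hsum : 0 < n₀ + n₁ := by positivity
  have hR : (n₀ + n₁) * (4 * P₀ - 4 * n₀ * m₀ ^ 2 + (4 * P₁ - 4 * n₁ * m₁ ^ 2)
      + 2 * (n₁ * a * (m₁ - m₀) ^ 2)) ≤ (n₀ + n₁) * (e₀ + e₁ + 2 * X) :=
    mul_le_mul_of_nonneg_left (by linarith) hsum.le
  nlinarith

/-- **Johnson–Poincaré inequality** (constant `1/2`, mean-free form): for the `k`-subsets of `D`,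
`2 ∑_{A,B} (F A - F B)² ≤ |𝒦| ∑_A ∑_{x ∈ A} ∑_{y ∈ D \ A} (F A - F (A - x + y))²`. -/
theorem johnson_poincare_SE (D : Finset α) (k : ℕ) (F : Finset α → ℝ) :
    2 * ∑ A ∈ D.powersetCard k, ∑ B ∈ D.powersetCard k, (F A - F B) ^ 2
      ≤ ((D.powersetCard k).card : ℝ) * SE D k F := by
  induction D using Finset.induction_on generalizing k F with
  | empty =>
    rw [sum_sum_sq_sub]
    rcases k with _ | k
    · simp only [powersetCard_zero, sum_singleton, card_singleton, Nat.cast_one]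
      have := SE_nonneg (∅ : Finset α) 0 F
      nlinarith
    · have he : (∅ : Finset α).powersetCard (k + 1) = ∅ :=
        powersetCard_eq_empty.mpr (by simp)
      simp [SE, he]
  | insert x D hx ih =>
    rcases k with _ | k
    · rw [sum_sum_sq_sub]
      simp only [powersetCard_zero, sum_singleton, card_singleton, Nat.cast_one]
      have := SE_nonneg (insert x D) 0 F
      nlinarith
    · have h0 := ih (k + 1) F
      have h1 := ih k (fun B => F (insert x B))
      rw [sum_sum_sq_sub] at h0 h1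
      rw [sum_sum_sq_sub, SE_insert hx, sum_powersetCard_succ_insert hx,
        sum_powersetCard_succ_insert hx]
      have hcard : (((insert x D).powersetCard (k + 1)).card : ℝ)
          = ((D.powersetCard (k + 1)).card : ℝ) + ((D.powersetCard k).card : ℝ) := by
        rw [card_powersetCard, card_powersetCard, card_powersetCard, card_insert_of_notMem hx,
          Nat.choose_succ_succ]
        push_cast
        ring
      rw [hcard]
      have hM : ((D.powersetCard k).card : ℝ) * ((D.card - k : ℕ) : ℝ)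
          = ((D.powersetCard (k + 1)).card : ℝ) * ((k : ℝ) + 1) := by
        rw [card_powersetCard, card_powersetCard]
        have := Nat.choose_succ_right_eq D.card k
        have h' : ((D.card.choose (k + 1) * (k + 1) : ℕ) : ℝ)
            = ((D.card.choose k * (D.card - k) : ℕ) : ℝ) := by rw [this]
        push_cast at h'
        linarith
      have hN : 2 * ((D.powersetCard (k + 1)).card : ℝ)
          ≤ (((D.powersetCard (k + 1)).card : ℝ) + ((D.powersetCard k).card : ℝ))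
            * ((D.card - k : ℕ) : ℝ) := by
        have e : (((D.powersetCard (k + 1)).card : ℝ) + ((D.powersetCard k).card : ℝ))
            * ((D.card - k : ℕ) : ℝ)
            = ((D.powersetCard (k + 1)).card : ℝ) * (((D.card - k : ℕ) : ℝ) + ((k : ℝ) + 1)) := by
          rw [add_mul, hM]; ring
        rw [e]
        rcases Nat.eq_zero_or_pos (D.powersetCard (k + 1)).card with h | h
        · rw [h]; simp
        · have hk : k + 1 ≤ D.card := by
            rw [card_powersetCard] at h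
            by_contra hcon
            rw [Nat.choose_eq_zero_iff.mpr (by omega)] at h
            exact lt_irrefl _ h
          have ha : (1 : ℝ) ≤ ((D.card - k : ℕ) : ℝ) := by
            exact_mod_cast (by omega : 1 ≤ D.card - k)
          have hk0 : (0 : ℝ) ≤ (k : ℝ) := Nat.cast_nonneg k
          have hn0 : (0 : ℝ) ≤ ((D.powersetCard (k + 1)).card : ℝ) := Nat.cast_nonneg _
          nlinarith
      refine step_algebra _ _ _ _ _ _ _ _ _ _ _ (Nat.cast_nonneg _) (Nat.cast_nonneg _)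
        (by positivity) hM hN h0 h1 ?_ ?_ (cross_cs x D k F) (SE_nonneg _ _ _) (SE_nonneg _ _ _)
        (XE_nonneg _ _ _ _)
      · intro h
        have : D.powersetCard (k + 1) = ∅ := by
          rw [← card_eq_zero]; exact_mod_cast h
        rw [this]; simp
      · intro h
        have : D.powersetCard k = ∅ := by
          rw [← card_eq_zero]; exact_mod_cast h
        rw [this]; simp

/-- **Johnson–Poincaré inequality**, fully expanded statement. -/
theorem johnson_poincare (D : Finset α) (k : ℕ) (F : Finset α → ℝ) :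
    2 * ∑ A ∈ D.powersetCard k, ∑ B ∈ D.powersetCard k, (F A - F B) ^ 2
      ≤ ((D.powersetCard k).card : ℝ) *
        ∑ A ∈ D.powersetCard k, ∑ x ∈ A, ∑ y ∈ D \ A, (F A - F (insert y (A.erase x))) ^ 2 :=
  johnson_poincare_SE D k F

end Crest.Agent.S0453R.JP
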