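import Mathlib
import Crest.Prelude.Def_SwitchChain
import Crest.Agent.S0453.PM
import Crest.Agent.S0453.Adapters
import Crest.Agent.S0453.Avg
import Crest.Agent.S0453.JohnsonPoincare
import Crest.Agent.S0453.Final

/-!
Row 299 / S0453 (helper56): target `(G4)` (`X ≤ L`) of the Caputo route, modulo the pair-class
bijection of `[PAIRCLASS]`.

* `two_diagonals`: a switch pair `G, G'` agrees off at most two 2-sets of vertices
  (the two diagonals of the 4-cycle `G ∆ G'`).
* `sum_pairs_switch_le`: hence, for any nonnegative weight `w`,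
  `∑_{b} ∑_{G,G'} [sameOff b ∧ SwitchAdj] w G G' ≤ 2 ∑_{G,G'} [SwitchAdj] w G G'`.
* `class_poincare`: the Johnson Poincaré inequality (`JP.johnson_poincare`) transported to any
  finite class `K` in bijection with `P.powersetCard k`, Johnson moves being `R`-related.
* `PairClassJohnson d`: the statement consumed from `[PAIRCLASS]`.
* `G4a_of_pairClassJohnson`, `G4_of_G4a`, `G4_of_pairClassJohnson`: the per-pair Poincaré
  inequality and `(G4)`.
-/

set_option autoImplicit false
set_option linter.unusedSimpArgs false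
open Finset

namespace Crest.Agent.S0453R

open Crest.SwitchChain

/-! ### Abstract transport of the Johnson Poincaré inequality -/

section abstract

variable {γ α : Type*} [DecidableEq α] [DecidableEq γ]

/-- two Johnson moves of the same set with the same result are the same move -/
lemma G4.insert_erase_inj {A : Finset α} {c c' e e' : α} (hc : c ∈ A) (hc' : c' ∈ A)
    (he : e ∉ A) (he' : e' ∉ A) (h : insert e (A.erase c) = insert e' (A.erase c')) :
    c = c' ∧ e = e' := by
  have hce : c ≠ e := fun hh => he (hh ▸ hc)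
  have hce' : c' ≠ e' := fun hh => he' (hh ▸ hc')
  have h1 : e ∈ insert e' (A.erase c') := h ▸ mem_insert_self e _
  have h2 : c ∉ insert e (A.erase c) := by
    simp [hce]
  have h3 : c ∉ insert e' (A.erase c') := h ▸ h2
  have hee : e = e' := by
    rcases mem_insert.1 h1 with h | h
    · exact h
    · exact absurd (mem_erase.1 h).2 he
  refine ⟨?_, hee⟩
  by_contra hcc
  exact h3 (mem_insert_of_mem (mem_erase.2 ⟨hcc, hc⟩))

/-- **Johnson Poincaré inequality on a class**: if `phi` is a bijection from the finite class `K`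
onto the `k`-subsets of `P` and Johnson-adjacent members of `K` are `R`-related, then
`2 ∑_{G,G' ∈ K} (f G - f G')² ≤ |K| ∑_{G ∈ K} ∑_{G' ∈ Ω, R G G'} (f G - f G')²`. -/
theorem class_poincare (Ω K : Finset γ) (hKΩ : K ⊆ Ω) (P : Finset α) (k : ℕ)
    (phi : γ → Finset α) (hbij : Set.BijOn phi (↑K) (↑(P.powersetCard k)))
    (R : γ → γ → Prop) [DecidableRel R]
    (hR : ∀ G ∈ K, ∀ G' ∈ K, ∀ c ∈ phi G, ∀ e ∈ P \ phi G,
      phi G' = insert e ((phi G).erase c) → R G G')
    (f : γ → ℝ) :
    2 * ∑ G ∈ K, ∑ G' ∈ K, (f G - f G') ^ 2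
      ≤ (K.card : ℝ) * ∑ G ∈ K, ∑ G' ∈ Ω, (if R G G' then (f G - f G') ^ 2 else 0) := by
  classical
  rcases K.eq_empty_or_nonempty with rfl | hKne
  · simp
  have : Nonempty γ := ⟨hKne.choose⟩
  have hinj : Set.InjOn phi (↑K) := hbij.injOn
  have himg : K.image phi = P.powersetCard k := by
    apply Finset.coe_injective
    rw [Finset.coe_image]
    exact hbij.image_eq
  -- the inverse of `phi`
  obtain ⟨ψ, hψ⟩ : ∃ ψ : Finset α → γ, (∀ G ∈ K, ψ (phi G) = G) := by
    refine ⟨Function.invFunOn phi (↑K), fun G hG => ?_⟩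
    exact hbij.invOn_invFunOn.1 (Finset.mem_coe.2 hG)
  have hJP := JP.johnson_poincare P k (fun A => f (ψ A))
  rw [← himg] at hJP
  simp only [sum_image hinj, card_image_of_injOn hinj] at hJP
  have e1 : ∑ G ∈ K, ∑ G' ∈ K, (f (ψ (phi G)) - f (ψ (phi G'))) ^ 2
      = ∑ G ∈ K, ∑ G' ∈ K, (f G - f G') ^ 2 :=
    sum_congr rfl fun G hG => sum_congr rfl fun G' hG' => by rw [hψ G hG, hψ G' hG']
  rw [e1] at hJP
  refine hJP.trans (mul_le_mul_of_nonneg_left ?_ (Nat.cast_nonneg _))
  refine sum_le_sum fun G hG => ?_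
  rw [hψ G hG]
  -- the Johnson neighbours of `G`
  have hAk : phi G ∈ P.powersetCard k := hbij.mapsTo (Finset.mem_coe.2 hG)
  have hAP : phi G ⊆ P := (mem_powersetCard.1 hAk).1
  have hAc : (phi G).card = k := (mem_powersetCard.1 hAk).2
  have hmove : ∀ c ∈ phi G, ∀ e ∈ P \ phi G,
      insert e ((phi G).erase c) ∈ P.powersetCard k := by
    intro c hc e he
    rw [mem_sdiff] at he
    rw [mem_powersetCard]
    refine ⟨?_, ?_⟩
    · intro x hx
      rcases mem_insert.1 hx with rfl | hx
      · exact he.1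
      · exact hAP (mem_of_mem_erase hx)
    · rw [card_insert_of_notMem (fun h => he.2 (mem_of_mem_erase h)), card_erase_of_mem hc, hAc]
      have : 0 < (phi G).card := card_pos.2 ⟨c, hc⟩
      omega
  have hpre : ∀ c ∈ phi G, ∀ e ∈ P \ phi G,
      ∃ G' ∈ K, phi G' = insert e ((phi G).erase c) := by
    intro c hc e he
    have := hmove c hc e he
    rw [← himg, mem_image] at this
    exact this
  have hψK : ∀ c ∈ phi G, ∀ e ∈ P \ phi G, ψ (insert e ((phi G).erase c)) ∈ K ∧
      phi (ψ (insert e ((phi G).erase c))) = insert e ((phi G).erase c) := by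
    intro c hc e he
    obtain ⟨G', hG', hG'e⟩ := hpre c hc e he
    rw [← hG'e, hψ G' hG']
    exact ⟨hG', rfl⟩
  rw [← sum_filter, ← sum_product']
  have hinj2 : Set.InjOn (fun p : α × α => ψ (insert p.2 ((phi G).erase p.1)))
      (↑(phi G ×ˢ (P \ phi G))) := by
    intro p hp q hq hpq
    rw [Finset.mem_coe, mem_product] at hp hq
    have h1 := (hψK p.1 hp.1 p.2 hp.2).2
    have h2 := (hψK q.1 hq.1 q.2 hq.2).2
    simp only at hpq
    rw [hpq, h2] at h1
    have := G4.insert_erase_inj hq.1 hp.1 (mem_sdiff.1 hq.2).2 (mem_sdiff.1 hp.2).2 h1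
    exact Prod.ext this.1.symm this.2.symm
  have e2 : ∑ p ∈ phi G ×ˢ (P \ phi G), (f G - f (ψ (insert p.2 ((phi G).erase p.1)))) ^ 2
      = ∑ G' ∈ (phi G ×ˢ (P \ phi G)).image
          (fun p : α × α => ψ (insert p.2 ((phi G).erase p.1))), (f G - f G') ^ 2 :=
    (sum_image (f := fun G' => (f G - f G') ^ 2) hinj2).symm
  rw [e2]
  refine sum_le_sum_of_subset_of_nonneg ?_ (fun _ _ _ => sq_nonneg _)
  intro G' hG'
  rw [mem_image] at hG'
  obtain ⟨p, hp, rfl⟩ := hG'
  rw [mem_product] at hp
  obtain ⟨hK', hphi'⟩ := hψK p.1 hp.1 p.2 hp.2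
  rw [mem_filter]
  exact ⟨hKΩ hK', hR G hG _ hK' p.1 hp.1 p.2 hp.2 hphi'⟩

end abstract

variable {n : ℕ}

/-! ### Two diagonals -/

/-- the 2-sets of vertices off which a switch pair agrees are among its two diagonals -/
lemma sameOff_pair_of_switch {a b c d : Fin n} (hab : a ≠ b) (hac : a ≠ c) (had : a ≠ d)
    (hbc : b ≠ c) (hbd : b ≠ d) (hcd : c ≠ d) {G : Finset (Edge n)}
    (h1 : mkE a b hab ∈ G) (h2 : mkE c d hcd ∈ G) (h3 : mkE a c hac ∉ G) (h4 : mkE b d hbd ∉ G)
    {U : Finset (Fin n)} (hU : U.card = 2)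
    (hoff : sameOff U G (G \ {mkE a b hab, mkE c d hcd} ∪ {mkE a c hac, mkE b d hbd})) :
    U = {a, d} ∨ U = {b, c} := by
  -- each of the four changed edges meets `U`
  have key : ∀ (x y : Fin n) (hxy : x ≠ y),
      ¬ (mkE x y hxy ∈ G ↔
        mkE x y hxy ∈ G \ {mkE a b hab, mkE c d hcd} ∪ {mkE a c hac, mkE b d hbd}) →
      x ∈ U ∨ y ∈ U := by
    intro x y hxy hne
    by_contra hcon
    rw [not_or] at hcon
    apply hne
    apply hoff
    intro u hu hmem
    rw [mem_mkE] at hmem
    rcases hmem with rfl | rfl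
    · exact hcon.1 hu
    · exact hcon.2 hu
  have f1 : mkE a b hab ∉ G \ {mkE a b hab, mkE c d hcd} ∪ {mkE a c hac, mkE b d hbd} := by
    simp [mkE_eq_iff, hab, hac, had, hbc, hbd, hcd, hab.symm, hac.symm, had.symm, hbc.symm,
      hbd.symm, hcd.symm]
  have f2 : mkE c d hcd ∉ G \ {mkE a b hab, mkE c d hcd} ∪ {mkE a c hac, mkE b d hbd} := by
    simp [mkE_eq_iff, hab, hac, had, hbc, hbd, hcd, hab.symm, hac.symm, had.symm, hbc.symm,
      hbd.symm, hcd.symm]
  have f3 : mkE a c hac ∈ G \ {mkE a b hab, mkE c d hcd} ∪ {mkE a c hac, mkE b d hbd} := by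
    simp
  have f4 : mkE b d hbd ∈ G \ {mkE a b hab, mkE c d hcd} ∪ {mkE a c hac, mkE b d hbd} := by
    simp
  have kab : a ∈ U ∨ b ∈ U := key a b hab fun hiff => f1 (hiff.mp h1)
  have kcd : c ∈ U ∨ d ∈ U := key c d hcd fun hiff => f2 (hiff.mp h2)
  have kac : a ∈ U ∨ c ∈ U := key a c hac fun hiff => h3 (hiff.mpr f3)
  have kbd : b ∈ U ∨ d ∈ U := key b d hbd fun hiff => h4 (hiff.mpr f4)
  -- a 2-set containing two given distinct vertices is that pair
  have pair : ∀ x y : Fin n, x ≠ y → x ∈ U → y ∈ U → U = {x, y} := by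
    intro x y hxy hx hy
    symm
    apply eq_of_subset_of_card_le
    · intro z hz
      rw [mem_insert, mem_singleton] at hz
      rcases hz with rfl | rfl <;> assumption
    · rw [hU, card_pair hxy]
  -- three distinct vertices cannot all lie in `U`
  have three : ∀ x y z : Fin n, x ≠ y → x ≠ z → y ≠ z → x ∈ U → y ∈ U → z ∈ U → False := by
    intro x y z hxy hxz hyz hx hy hz
    have hsub : ({x, y, z} : Finset (Fin n)) ⊆ U := by
      intro w hw
      simp only [mem_insert, mem_singleton] at hw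
      rcases hw with rfl | rfl | rfl <;> assumption
    have hc : ({x, y, z} : Finset (Fin n)).card = 3 := by
      rw [card_insert_of_notMem, card_pair hyz]
      simp [hxy, hxz]
    have := card_le_card hsub
    omega
  by_cases ha : a ∈ U
  · by_cases hd : d ∈ U
    · left; exact pair a d had ha hd
    · exfalso
      have hc : c ∈ U := kcd.resolve_right hd
      have hb : b ∈ U := kbd.resolve_right hd
      exact three a b c hab hac hbc ha hb hc
  · right
    exact pair b c hbc (kab.resolve_left ha) (kac.resolve_left ha)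

/-- **two diagonals**: a switch pair agrees off at most two 2-sets of vertices -/
theorem two_diagonals {G G' : Finset (Edge n)} (h : SwitchAdj G G') :
    ((pairs n).filter fun U => sameOff U G G').card ≤ 2 := by
  obtain ⟨a, b, c, d, hab, hac, had, hbc, hbd, hcd, h1, h2, h3, h4, rfl⟩ := h
  have hsub : ((pairs n).filter fun U =>
      sameOff U G (G \ {mkE a b hab, mkE c d hcd} ∪ {mkE a c hac, mkE b d hbd}))
      ⊆ ({({a, d} : Finset (Fin n)), ({b, c} : Finset (Fin n))} : Finset (Finset (Fin n))) := by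
    intro U hU
    rw [mem_filter, pairs, mem_powersetCard] at hU
    rw [mem_insert, mem_singleton]
    exact sameOff_pair_of_switch hab hac had hbc hbd hcd h1 h2 h3 h4 hU.1.2 hU.2
  exact (card_le_card hsub).trans card_le_two

/-- summing the per-pair switch sums over all pairs costs at most a factor `2` -/
theorem sum_pairs_switch_le [DecidableRel (SwitchAdj (n := n))] (Ω : Finset (Finset (Edge n)))
    (w : Finset (Edge n) → Finset (Edge n) → ℝ) (hw : ∀ G G', 0 ≤ w G G') :
    ∑ U ∈ pairs n, ∑ G ∈ Ω, ∑ G' ∈ Ω,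
        (if sameOff U G G' ∧ SwitchAdj G G' then w G G' else 0)
      ≤ 2 * ∑ G ∈ Ω, ∑ G' ∈ Ω, (if SwitchAdj G G' then w G G' else 0) := by
  rw [sum_comm, mul_sum]
  refine sum_le_sum fun G _ => ?_
  rw [sum_comm, mul_sum]
  refine sum_le_sum fun G' _ => ?_
  by_cases hs : SwitchAdj G G'
  · simp only [hs, and_true, if_true]
    rw [← sum_filter, sum_const, nsmul_eq_mul]
    have h2 : (((pairs n).filter fun U => sameOff U G G').card : ℝ) ≤ 2 := by
      exact_mod_cast two_diagonals hs
    exact mul_le_mul_of_nonneg_right h2 (hw G G')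
  · simp [hs]

/-! ### `(G4)` from the pair-class bijection -/

/-- the statement consumed from `[PAIRCLASS]`: every pair class `K` of `b` is in bijection with the
`k`-subsets of a set `P` (the private neighbours), and Johnson-adjacent members of `K` are switch
neighbours. -/
def PairClassJohnson (d : Fin n → ℕ) : Prop :=
  ∀ b ∈ pairs n, ∀ G0 ∈ realizations d,
    ∃ (P : Finset (Fin n)) (k : ℕ) (phi : Finset (Edge n) → Finset (Fin n)),
      Set.BijOn phi (↑((realizations d).filter (sameOff b G0))) (↑(P.powersetCard k)) ∧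
      ∀ G ∈ (realizations d).filter (sameOff b G0),
        ∀ G' ∈ (realizations d).filter (sameOff b G0),
          ∀ c ∈ phi G, ∀ e ∈ P \ phi G, phi G' = insert e ((phi G).erase c) → SwitchAdj G G'

/-- the per-pair Poincaré inequality `(G4a)` -/
def G4a (d : Fin n → ℕ) [DecidableRel (SwitchAdj (n := n))] : Prop :=
  ∀ b ∈ pairs n, ∀ f : Finset (Edge n) → ℝ,
    ∑ G ∈ realizations d, (f G - E d b f G) ^ 2
      ≤ (1 / 4) * ∑ G ∈ realizations d, ∑ G' ∈ realizations d,
          (if sameOff b G G' ∧ SwitchAdj G G' then (f G - f G') ^ 2 else 0)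

theorem G4a_of_pairClassJohnson {d : Fin n → ℕ} [DecidableRel (SwitchAdj (n := n))]
    (h : PairClassJohnson d) : G4a d := by
  intro b hb f
  rw [mul_sum]
  refine sum_sq_sub_E_le_of_pairs d b f _ fun G0 hG0 => ?_
  obtain ⟨P, k, phi, hbij, hsw⟩ := h b hb G0 hG0
  have hcp := class_poincare (realizations d) ((realizations d).filter (sameOff b G0))
    (filter_subset _ _) P k phi hbij (fun G G' => sameOff b G G' ∧ SwitchAdj G G')
    (fun G hG G' hG' c hc e he hphi =>
      ⟨sameOff_trans (sameOff_symm (mem_filter.1 hG).2) (mem_filter.1 hG').2,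
        hsw G hG G' hG' c hc e he hphi⟩) f
  rw [← mul_sum]
  linarith

/-- `(G4)` from `(G4a)`: every switch lies in at most two pair classes -/
theorem G4_of_G4a {d : Fin n → ℕ} [DecidableRel (SwitchAdj (n := n))] (h : G4a d) : G4 d := by
  intro f
  have h1 : ∑ b ∈ pairs n, ∑ G ∈ realizations d, (f G - E d b f G) ^ 2
      ≤ ∑ b ∈ pairs n, (1 / 4) * ∑ G ∈ realizations d, ∑ G' ∈ realizations d,
          (if sameOff b G G' ∧ SwitchAdj G G' then (f G - f G') ^ 2 else 0) :=
    sum_le_sum fun b hb => h b hb f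
  rw [← mul_sum] at h1
  have h2 := sum_pairs_switch_le (realizations d) (fun G G' => (f G - f G') ^ 2)
    (fun _ _ => sq_nonneg _)
  linarith

/-- `(G4)` (`X ≤ L`) from the pair-class bijection -/
theorem G4_of_pairClassJohnson {d : Fin n → ℕ} [DecidableRel (SwitchAdj (n := n))]
    (h : PairClassJohnson d) : G4 d :=
  G4_of_G4a (G4a_of_pairClassJohnson h)

end Crest.Agent.S0453R
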