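import Mathlib
import Crest.Prelude.Def_SwitchChain
import Crest.Agent.S0453.PM
import Crest.Agent.S0453.Adapters

/-!
Row 299 / S0453 (helper26): graph-side module PAIRCLASS.

For a pair of distinct vertices `a b` and a graph `G`:
* `adj G x y`            : adjacency predicate of `G : Finset (Edge n)`;
* `priv a b G`           : the private neighbours of the pair (adjacent to exactly one of `a`, `b`);
* `sideA a b G`          : the private neighbours on the side of `a`;
* `cls d a b G`          : the pair class of `G` (realizations of `d` agreeing with `G` off the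
                           stars of `a` and `b`);
* `resplit a b G A`      : the graph obtained from `G` by giving `A ⊆ priv a b G` to `a` and the
                           rest of the private neighbours to `b`.

Main results: the pair class of `G` is parametrised by the `k`-subsets of `priv a b G`
(`k = (sideA a b G).card`), a Johnson move is a `SwitchAdj` pair.
-/

set_option autoImplicit false
open Finset

namespace Crest.Agent.S0453R.PC

open Crest.SwitchChain

variable {n : ℕ}

/-- adjacency in the graph with edge set `G` -/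
def adj (G : Finset (Edge n)) (x y : Fin n) : Prop := ∃ e ∈ G, e.1 = s(x, y)

instance (G : Finset (Edge n)) : DecidableRel (adj G) := fun x y => by
  unfold adj; infer_instance

lemma adj_comm {G : Finset (Edge n)} {x y : Fin n} : adj G x y ↔ adj G y x := by
  unfold adj; rw [Sym2.eq_swap]

lemma adj_ne {G : Finset (Edge n)} {x y : Fin n} (h : adj G x y) : x ≠ y := by
  obtain ⟨e, -, he⟩ := h
  intro hxy
  apply e.2
  rw [he, hxy]
  simp

lemma adj_irrefl (G : Finset (Edge n)) (x : Fin n) : ¬ adj G x x := fun h => adj_ne h rfl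

lemma adj_iff_mkE {G : Finset (Edge n)} {x y : Fin n} (h : x ≠ y) :
    adj G x y ↔ mkE x y h ∈ G := by
  constructor
  · rintro ⟨e, he, hxy⟩
    have : e = mkE x y h := Subtype.ext hxy
    rwa [← this]
  · intro hm
    exact ⟨mkE x y h, hm, rfl⟩

lemma mem_iff_adj {G : Finset (Edge n)} (e : Edge n) {x y : Fin n} (he : e.1 = s(x, y)) :
    e ∈ G ↔ adj G x y := by
  constructor
  · intro h; exact ⟨e, h, he⟩
  · rintro ⟨e', he', hxy⟩
    have : e = e' := Subtype.ext (he.trans hxy.symm)
    rwa [this]

/-- a graph is determined by its adjacency relation -/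
lemma ext_adj {G G' : Finset (Edge n)} (h : ∀ x y, adj G x y ↔ adj G' x y) : G = G' := by
  ext e
  obtain ⟨x, y, hxy⟩ : ∃ x y, e.1 = s(x, y) := by
    induction' he : e.1 using Sym2.ind with x y
    exact ⟨x, y, rfl⟩
  rw [mem_iff_adj e hxy, mem_iff_adj e hxy]
  exact h x y

/-- degree = number of neighbours -/
lemma deg_eq_card_adj (G : Finset (Edge n)) (v : Fin n) :
    deg G v = (univ.filter fun x => adj G v x).card := by
  unfold deg
  symm
  refine card_bij (fun x hx => (⟨s(v, x), by
      have := adj_ne (mem_filter.mp hx).2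
      simpa using this⟩ : Edge n)) ?_ ?_ ?_
  · intro x hx
    rw [mem_filter] at hx ⊢
    refine ⟨?_, by simp⟩
    exact (mem_iff_adj _ rfl).mpr hx.2
  · intro x₁ _ x₂ _ h
    have h' : s(v, x₁) = s(v, x₂) := congrArg Subtype.val h
    exact Sym2.congr_right.mp h'
  · intro e he
    rw [mem_filter] at he
    obtain ⟨x, hx⟩ := Sym2.mem_iff_exists.mp he.2
    refine ⟨x, ?_, Subtype.ext hx.symm⟩
    rw [mem_filter]
    exact ⟨mem_univ _, (mem_iff_adj e hx).mp he.1⟩

/-- the graph with a prescribed (symmetric) adjacency relation -/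
def ofAdj (r : Fin n → Fin n → Prop) [DecidableRel r] : Finset (Edge n) :=
  univ.filter fun e => ∃ x y, e.1 = s(x, y) ∧ r x y

lemma adj_ofAdj {r : Fin n → Fin n → Prop} [DecidableRel r] (hr : ∀ x y, r x y → r y x)
    {x y : Fin n} : adj (ofAdj r) x y ↔ x ≠ y ∧ r x y := by
  constructor
  · intro h
    refine ⟨adj_ne h, ?_⟩
    obtain ⟨e, he, hxy⟩ := h
    simp only [ofAdj, mem_filter, mem_univ, true_and] at he
    obtain ⟨x', y', he', hr'⟩ := he
    rw [hxy] at he'
    rcases Sym2.eq_iff.mp he' with ⟨rfl, rfl⟩ | ⟨rfl, rfl⟩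
    · exact hr'
    · exact hr _ _ hr'
  · rintro ⟨hne, hxy⟩
    refine ⟨mkE x y hne, ?_, rfl⟩
    simp only [ofAdj, mem_filter, mem_univ, true_and]
    exact ⟨x, y, rfl, hxy⟩


/-! ### The pair structure -/

/-- private neighbours of the pair `a b`: vertices other than `a`, `b` adjacent to exactly one
of them -/
def priv (a b : Fin n) (G : Finset (Edge n)) : Finset (Fin n) :=
  univ.filter fun x => x ≠ a ∧ x ≠ b ∧ (adj G a x ↔ ¬ adj G b x)

/-- the private neighbours on the side of `a` -/
def sideA (a b : Fin n) (G : Finset (Edge n)) : Finset (Fin n) :=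
  (priv a b G).filter fun x => adj G a x

/-- `G` and `G'` have the same adjacencies between vertices other than `a`, `b` -/
def offPair (a b : Fin n) (G G' : Finset (Edge n)) : Prop :=
  ∀ x y, x ≠ a → x ≠ b → y ≠ a → y ≠ b → (adj G x y ↔ adj G' x y)

instance (a b : Fin n) (G G' : Finset (Edge n)) : Decidable (offPair a b G G') := by
  unfold offPair; infer_instance

/-- the pair class of `G`: realizations agreeing with `G` off the stars of `a`, `b` -/
def cls (d : Fin n → ℕ) (a b : Fin n) (G : Finset (Edge n)) : Finset (Finset (Edge n)) :=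
  (realizations d).filter fun G' => offPair a b G G'

lemma mem_priv {a b x : Fin n} {G : Finset (Edge n)} :
    x ∈ priv a b G ↔ x ≠ a ∧ x ≠ b ∧ (adj G a x ↔ ¬ adj G b x) := by
  simp [priv]

lemma mem_sideA {a b x : Fin n} {G : Finset (Edge n)} :
    x ∈ sideA a b G ↔ x ∈ priv a b G ∧ adj G a x := by
  simp [sideA]

lemma sideA_subset (a b : Fin n) (G : Finset (Edge n)) : sideA a b G ⊆ priv a b G :=
  filter_subset _ _

/-- adjacency relation of the re-split graph -/
def resplitRel (a b : Fin n) (G : Finset (Edge n)) (A : Finset (Fin n)) (x y : Fin n) : Prop :=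
  if x = a ∧ y ∈ priv a b G then y ∈ A
  else if y = a ∧ x ∈ priv a b G then x ∈ A
  else if x = b ∧ y ∈ priv a b G then y ∉ A
  else if y = b ∧ x ∈ priv a b G then x ∉ A
  else adj G x y

instance (a b : Fin n) (G : Finset (Edge n)) (A : Finset (Fin n)) :
    DecidableRel (resplitRel a b G A) := fun x y => by
  unfold resplitRel; infer_instance

/-- give the private neighbours in `A` to `a` and the other private neighbours to `b` -/
def resplit (a b : Fin n) (G : Finset (Edge n)) (A : Finset (Fin n)) : Finset (Edge n) :=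
  ofAdj (resplitRel a b G A)

lemma resplitRel_symm {a b : Fin n} (hab : a ≠ b) (G : Finset (Edge n)) (A : Finset (Fin n))
    (x y : Fin n) (h : resplitRel a b G A x y) : resplitRel a b G A y x := by
  unfold resplitRel at h ⊢
  by_cases h1 : x = a ∧ y ∈ priv a b G
  · have hy := mem_priv.mp h1.2
    rw [if_pos h1] at h
    rw [if_neg (by rintro ⟨rfl, -⟩; exact hy.1 rfl), if_pos h1]
    exact h
  rw [if_neg h1] at h
  by_cases h2 : y = a ∧ x ∈ priv a b G
  · rw [if_pos h2] at h
    rw [if_pos h2]
    exact h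
  rw [if_neg h2] at h
  by_cases h3 : x = b ∧ y ∈ priv a b G
  · have hy := mem_priv.mp h3.2
    rw [if_pos h3] at h
    rw [if_neg h2, if_neg h1, if_neg (by rintro ⟨rfl, -⟩; exact hy.2.1 rfl), if_pos h3]
    exact h
  rw [if_neg h3] at h
  by_cases h4 : y = b ∧ x ∈ priv a b G
  · rw [if_pos h4] at h
    rw [if_neg h2, if_neg h1, if_pos h4]
    exact h
  rw [if_neg h4] at h
  rw [if_neg h2, if_neg h1, if_neg h4, if_neg h3]
  exact adj_comm.mp h

lemma adj_resplit {a b : Fin n} (hab : a ≠ b) (G : Finset (Edge n)) (A : Finset (Fin n))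
    {x y : Fin n} : adj (resplit a b G A) x y ↔ x ≠ y ∧ resplitRel a b G A x y :=
  adj_ofAdj (resplitRel_symm hab G A)

/-- the neighbours of `a` after the re-split -/
lemma adj_resplit_a {a b : Fin n} (hab : a ≠ b) (G : Finset (Edge n)) (A : Finset (Fin n))
    {y : Fin n} :
    adj (resplit a b G A) a y ↔ if y ∈ priv a b G then y ∈ A else adj G a y := by
  rw [adj_resplit hab]
  unfold resplitRel
  by_cases hy : y ∈ priv a b G
  · have hy' := mem_priv.mp hy
    rw [if_pos ⟨rfl, hy⟩, if_pos hy]
    exact ⟨fun h => h.2, fun h => ⟨fun e => hy'.1 e.symm, h⟩⟩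
  · rw [if_neg (fun h => hy h.2), if_neg hy]
    have ha : a ∉ priv a b G := fun h => (mem_priv.mp h).1 rfl
    rw [if_neg (fun h => ha h.2), if_neg (fun h => hab h.1), if_neg (fun h => ha h.2)]
    exact ⟨fun h => h.2, fun h => ⟨adj_ne h, h⟩⟩

/-- the neighbours of `b` after the re-split -/
lemma adj_resplit_b {a b : Fin n} (hab : a ≠ b) (G : Finset (Edge n)) (A : Finset (Fin n))
    {y : Fin n} :
    adj (resplit a b G A) b y ↔ if y ∈ priv a b G then y ∉ A else adj G b y := by
  rw [adj_resplit hab]
  unfold resplitRel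
  have hb : b ∉ priv a b G := fun h => (mem_priv.mp h).2.1 rfl
  by_cases hy : y ∈ priv a b G
  · have hy' := mem_priv.mp hy
    rw [if_neg (fun h => hab h.1.symm), if_neg (fun h => hb h.2), if_pos ⟨rfl, hy⟩, if_pos hy]
    exact ⟨fun h => h.2, fun h => ⟨fun e => hy'.2.1 e.symm, h⟩⟩
  · rw [if_neg (fun h => hy h.2), if_neg (fun h => hb h.2), if_neg (fun h => hy h.2),
      if_neg (fun h => hb h.2), if_neg hy]
    exact ⟨fun h => h.2, fun h => ⟨adj_ne h, h⟩⟩

/-- adjacencies away from `a`, `b` are unchanged -/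
lemma adj_resplit_off {a b : Fin n} (hab : a ≠ b) (G : Finset (Edge n)) (A : Finset (Fin n))
    {x y : Fin n} (hxa : x ≠ a) (hxb : x ≠ b) (hya : y ≠ a) (hyb : y ≠ b) :
    adj (resplit a b G A) x y ↔ adj G x y := by
  rw [adj_resplit hab]
  unfold resplitRel
  rw [if_neg (fun h => hxa h.1), if_neg (fun h => hya h.1), if_neg (fun h => hxb h.1),
    if_neg (fun h => hyb h.1)]
  exact ⟨fun h => h.2, fun h => ⟨adj_ne h, h⟩⟩

lemma offPair_resplit {a b : Fin n} (hab : a ≠ b) (G : Finset (Edge n)) (A : Finset (Fin n)) :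
    offPair a b G (resplit a b G A) := fun _ _ hxa hxb hya hyb =>
  (adj_resplit_off hab G A hxa hxb hya hyb).symm

/-- the private set is unchanged by a re-split -/
lemma priv_resplit {a b : Fin n} (hab : a ≠ b) (G : Finset (Edge n)) (A : Finset (Fin n)) :
    priv a b (resplit a b G A) = priv a b G := by
  ext x
  rw [mem_priv, adj_resplit_a hab, adj_resplit_b hab]
  by_cases hx : x ∈ priv a b G
  · have hx' := mem_priv.mp hx
    rw [if_pos hx, if_pos hx]
    simp only [hx, iff_true]
    exact ⟨hx'.1, hx'.2.1, by tauto⟩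
  · rw [if_neg hx, if_neg hx]
    simp only [hx, iff_false]
    intro h
    exact hx (mem_priv.mpr h)

/-- the side of `a` after the re-split -/
lemma sideA_resplit {a b : Fin n} (hab : a ≠ b) (G : Finset (Edge n)) {A : Finset (Fin n)}
    (hA : A ⊆ priv a b G) : sideA a b (resplit a b G A) = A := by
  ext x
  rw [mem_sideA, priv_resplit hab, adj_resplit_a hab]
  constructor
  · rintro ⟨hx, h⟩
    rwa [if_pos hx] at h
  · intro hx
    exact ⟨hA hx, by rw [if_pos (hA hx)]; exact hx⟩


/-! ### Degrees of the re-split graph -/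

lemma mem_realizations {d : Fin n → ℕ} {G : Finset (Edge n)} :
    G ∈ realizations d ↔ ∀ v, deg G v = d v := by
  simp [realizations]

/-- degree as a sum of indicators, with the terms of `a` and `b` split off -/
lemma deg_split {a b : Fin n} (hab : a ≠ b) (G : Finset (Edge n)) (v : Fin n) :
    deg G v = (if adj G v a then 1 else 0) + ((if adj G v b then 1 else 0) +
      ∑ y ∈ (univ.erase a).erase b, if adj G v y then 1 else 0) := by
  rw [deg_eq_card_adj, card_filter]
  rw [← add_sum_erase univ _ (mem_univ a),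
    ← add_sum_erase (univ.erase a) _ (mem_erase.mpr ⟨hab.symm, mem_univ b⟩)]

lemma deg_resplit_a {a b : Fin n} (hab : a ≠ b) (G : Finset (Edge n)) {A : Finset (Fin n)}
    (hA : A ⊆ priv a b G) (hcard : A.card = (sideA a b G).card) :
    deg (resplit a b G A) a = deg G a := by
  rw [deg_eq_card_adj, deg_eq_card_adj]
  have h1 : (univ.filter fun y => adj (resplit a b G A) a y)
      = A ∪ univ.filter (fun y => y ∉ priv a b G ∧ adj G a y) := by
    ext y
    rw [mem_filter, mem_union, mem_filter, adj_resplit_a hab]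
    by_cases hy : y ∈ priv a b G
    · simp [hy]
    · have : y ∉ A := fun h => hy (hA h)
      simp [hy, this]
  have h2 : (univ.filter fun y => adj G a y)
      = sideA a b G ∪ univ.filter (fun y => y ∉ priv a b G ∧ adj G a y) := by
    ext y
    rw [mem_filter, mem_union, mem_filter, mem_sideA]
    by_cases hy : y ∈ priv a b G
    · simp [hy]
    · simp [hy]
  have d1 : Disjoint A (univ.filter fun y => y ∉ priv a b G ∧ adj G a y) := by
    rw [disjoint_left]
    intro y hy hy'
    exact (mem_filter.mp hy').2.1 (hA hy)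
  have d2 : Disjoint (sideA a b G) (univ.filter fun y => y ∉ priv a b G ∧ adj G a y) := by
    rw [disjoint_left]
    intro y hy hy'
    exact (mem_filter.mp hy').2.1 (sideA_subset a b G hy)
  rw [h1, h2, card_union_of_disjoint d1, card_union_of_disjoint d2, hcard]

lemma deg_resplit_b {a b : Fin n} (hab : a ≠ b) (G : Finset (Edge n)) {A : Finset (Fin n)}
    (hA : A ⊆ priv a b G) (hcard : A.card = (sideA a b G).card) :
    deg (resplit a b G A) b = deg G b := by
  rw [deg_eq_card_adj, deg_eq_card_adj]
  have h1 : (univ.filter fun y => adj (resplit a b G A) b y)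
      = (priv a b G \ A) ∪ univ.filter (fun y => y ∉ priv a b G ∧ adj G b y) := by
    ext y
    rw [mem_filter, mem_union, mem_filter, mem_sdiff, adj_resplit_b hab]
    by_cases hy : y ∈ priv a b G
    · simp [hy]
    · simp [hy]
  have h2 : (univ.filter fun y => adj G b y)
      = (priv a b G \ sideA a b G) ∪ univ.filter (fun y => y ∉ priv a b G ∧ adj G b y) := by
    ext y
    rw [mem_filter, mem_union, mem_filter, mem_sdiff, mem_sideA]
    by_cases hy : y ∈ priv a b G
    · have hy' := (mem_priv.mp hy).2.2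
      simp only [mem_univ, true_and, hy, not_true_eq_false, false_and, or_false]
      tauto
    · simp [hy]
  have d1 : Disjoint (priv a b G \ A) (univ.filter fun y => y ∉ priv a b G ∧ adj G b y) := by
    rw [disjoint_left]
    intro y hy hy'
    exact (mem_filter.mp hy').2.1 (mem_sdiff.mp hy).1
  have d2 : Disjoint (priv a b G \ sideA a b G)
      (univ.filter fun y => y ∉ priv a b G ∧ adj G b y) := by
    rw [disjoint_left]
    intro y hy hy'
    exact (mem_filter.mp hy').2.1 (mem_sdiff.mp hy).1
  rw [h1, h2, card_union_of_disjoint d1, card_union_of_disjoint d2,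
    card_sdiff_of_subset hA, card_sdiff_of_subset (sideA_subset a b G), hcard]

lemma deg_resplit_other {a b : Fin n} (hab : a ≠ b) (G : Finset (Edge n)) (A : Finset (Fin n))
    {v : Fin n} (hva : v ≠ a) (hvb : v ≠ b) :
    deg (resplit a b G A) v = deg G v := by
  rw [deg_split hab, deg_split hab G]
  have h3 : ∑ y ∈ (univ.erase a).erase b, (if adj (resplit a b G A) v y then 1 else 0)
      = ∑ y ∈ (univ.erase a).erase b, if adj G v y then 1 else 0 := by
    refine sum_congr rfl fun y hy => ?_
    have hyb : y ≠ b := (mem_erase.mp hy).1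
    have hya : y ≠ a := (mem_erase.mp (mem_erase.mp hy).2).1
    exact if_congr (adj_resplit_off hab G A hva hvb hya hyb) rfl rfl
  rw [h3, ← add_assoc, ← add_assoc]
  congr 1
  have hRa : adj (resplit a b G A) v a ↔ (if v ∈ priv a b G then v ∈ A else adj G a v) :=
    adj_comm.trans (adj_resplit_a hab G A)
  have hRb : adj (resplit a b G A) v b ↔ (if v ∈ priv a b G then v ∉ A else adj G b v) :=
    adj_comm.trans (adj_resplit_b hab G A)
  have hGa : adj G v a ↔ adj G a v := adj_comm
  have hGb : adj G v b ↔ adj G b v := adj_comm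
  rw [if_congr hRa rfl rfl, if_congr hRb rfl rfl, if_congr hGa rfl rfl, if_congr hGb rfl rfl]
  by_cases hv : v ∈ priv a b G
  · have hv' := (mem_priv.mp hv).2.2
    by_cases h1 : v ∈ A <;> by_cases h2 : adj G a v <;> by_cases h3 : adj G b v <;>
      simp [hv, h1, h2, h3] <;> tauto
  · simp [hv]

/-- a re-split with the right number of private neighbours on the side of `a` is a realization -/
lemma resplit_mem_realizations {d : Fin n → ℕ} {a b : Fin n} (hab : a ≠ b)
    {G : Finset (Edge n)} (hG : G ∈ realizations d) {A : Finset (Fin n)}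
    (hA : A ⊆ priv a b G) (hcard : A.card = (sideA a b G).card) :
    resplit a b G A ∈ realizations d := by
  rw [mem_realizations] at hG ⊢
  intro v
  by_cases hva : v = a
  · subst hva; rw [deg_resplit_a hab G hA hcard, hG]
  by_cases hvb : v = b
  · subst hvb; rw [deg_resplit_b hab G hA hcard, hG]
  rw [deg_resplit_other hab G A hva hvb, hG]

lemma resplit_mem_cls {d : Fin n → ℕ} {a b : Fin n} (hab : a ≠ b)
    {G : Finset (Edge n)} (hG : G ∈ realizations d) {A : Finset (Fin n)}
    (hA : A ⊆ priv a b G) (hcard : A.card = (sideA a b G).card) :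
    resplit a b G A ∈ cls d a b G := by
  rw [cls, mem_filter]
  exact ⟨resplit_mem_realizations hab hG hA hcard, offPair_resplit hab G A⟩


/-! ### Structure of a pair class -/

lemma mem_cls {d : Fin n → ℕ} {a b : Fin n} {G G' : Finset (Edge n)} :
    G' ∈ cls d a b G ↔ G' ∈ realizations d ∧ offPair a b G G' := by
  simp [cls]

lemma self_mem_cls {d : Fin n → ℕ} {a b : Fin n} {G : Finset (Edge n)}
    (hG : G ∈ realizations d) : G ∈ cls d a b G :=
  mem_cls.mpr ⟨hG, fun _ _ _ _ _ _ => Iff.rfl⟩

/-- in a pair class the number of neighbours among `a`, `b` of any other vertex is constant -/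
lemma cls_sum_eq {d : Fin n → ℕ} {a b : Fin n} (hab : a ≠ b) {G G' : Finset (Edge n)}
    (hG : G ∈ realizations d) (hG' : G' ∈ cls d a b G) {x : Fin n} (hxa : x ≠ a) (hxb : x ≠ b) :
    (if adj G' a x then 1 else 0) + (if adj G' b x then 1 else 0)
      = (if adj G a x then 1 else 0) + (if adj G b x then 1 else 0) := by
  obtain ⟨hG'r, hoff⟩ := mem_cls.mp hG'
  have h1 := deg_split hab G x
  have h2 := deg_split hab G' x
  rw [(mem_realizations.mp hG) x] at h1
  rw [(mem_realizations.mp hG'r) x] at h2
  have h3 : ∑ y ∈ (univ.erase a).erase b, (if adj G' x y then 1 else 0)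
      = ∑ y ∈ (univ.erase a).erase b, if adj G x y then 1 else 0 := by
    refine sum_congr rfl fun y hy => ?_
    have hyb : y ≠ b := (mem_erase.mp hy).1
    have hya : y ≠ a := (mem_erase.mp (mem_erase.mp hy).2).1
    exact if_congr (hoff x y hxa hxb hya hyb).symm rfl rfl
  rw [h3] at h2
  rw [if_congr (adj_comm (G := G') (x := a) (y := x)) rfl rfl,
    if_congr (adj_comm (G := G') (x := b) (y := x)) rfl rfl,
    if_congr (adj_comm (G := G) (x := a) (y := x)) rfl rfl,
    if_congr (adj_comm (G := G) (x := b) (y := x)) rfl rfl]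
  omega

/-- the private set is constant on a pair class -/
lemma cls_priv_eq {d : Fin n → ℕ} {a b : Fin n} (hab : a ≠ b) {G G' : Finset (Edge n)}
    (hG : G ∈ realizations d) (hG' : G' ∈ cls d a b G) : priv a b G' = priv a b G := by
  ext x
  rw [mem_priv, mem_priv]
  by_cases hxa : x = a
  · simp [hxa]
  by_cases hxb : x = b
  · simp [hxb]
  have h := cls_sum_eq hab hG hG' hxa hxb
  simp only [hxa, hxb, ne_eq, not_false_eq_true, true_and]
  by_cases h1 : adj G' a x <;> by_cases h2 : adj G' b x <;> by_cases h3 : adj G a x <;>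
    by_cases h4 : adj G b x <;> simp [h1, h2, h3, h4] at h ⊢

/-- non-private adjacencies to `a` and `b` are constant on a pair class -/
lemma cls_nonpriv {d : Fin n → ℕ} {a b : Fin n} (hab : a ≠ b) {G G' : Finset (Edge n)}
    (hG : G ∈ realizations d) (hG' : G' ∈ cls d a b G) {x : Fin n} (hxa : x ≠ a) (hxb : x ≠ b)
    (hx : x ∉ priv a b G) : (adj G' a x ↔ adj G a x) ∧ (adj G' b x ↔ adj G b x) := by
  have h := cls_sum_eq hab hG hG' hxa hxb
  have hx' : ¬ (adj G a x ↔ ¬ adj G b x) := fun h' => hx (mem_priv.mpr ⟨hxa, hxb, h'⟩)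
  by_cases h1 : adj G' a x <;> by_cases h2 : adj G' b x <;> by_cases h3 : adj G a x <;>
    by_cases h4 : adj G b x <;> simp [h1, h2, h3, h4] at h hx' ⊢

/-- the slot `ab` is constant on a pair class -/
lemma cls_adj_ab {d : Fin n → ℕ} {a b : Fin n} (hab : a ≠ b) {G G' : Finset (Edge n)}
    (hG : G ∈ realizations d) (hG' : G' ∈ cls d a b G) : adj G' a b ↔ adj G a b := by
  obtain ⟨hG'r, -⟩ := mem_cls.mp hG'
  have ha := deg_split hab G a
  have ha' := deg_split hab G' a
  have hb := deg_split hab G b
  have hb' := deg_split hab G' b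
  rw [(mem_realizations.mp hG) a] at ha
  rw [(mem_realizations.mp hG'r) a] at ha'
  rw [(mem_realizations.mp hG) b] at hb
  rw [(mem_realizations.mp hG'r) b] at hb'
  have hs : ∑ y ∈ (univ.erase a).erase b, (if adj G' a y then 1 else 0)
        + ∑ y ∈ (univ.erase a).erase b, (if adj G' b y then 1 else 0)
      = ∑ y ∈ (univ.erase a).erase b, (if adj G a y then 1 else 0)
        + ∑ y ∈ (univ.erase a).erase b, (if adj G b y then 1 else 0) := by
    rw [← sum_add_distrib, ← sum_add_distrib]
    refine sum_congr rfl fun y hy => ?_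
    have hyb : y ≠ b := (mem_erase.mp hy).1
    have hya : y ≠ a := (mem_erase.mp (mem_erase.mp hy).2).1
    exact cls_sum_eq hab hG hG' hya hyb
  rw [if_neg (adj_irrefl G a)] at ha
  rw [if_neg (adj_irrefl G' a)] at ha'
  rw [if_neg (adj_irrefl G b), if_congr (adj_comm (G := G) (x := b) (y := a)) rfl rfl] at hb
  rw [if_neg (adj_irrefl G' b), if_congr (adj_comm (G := G') (x := b) (y := a)) rfl rfl] at hb'
  have key : (if adj G' a b then (1 : ℕ) else 0) = (if adj G a b then 1 else 0) := by
    omega
  by_cases h1 : adj G' a b <;> by_cases h2 : adj G a b <;> simp [h1, h2] at key ⊢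

/-- neighbours of `a`: the side of `a` plus the non-private neighbours -/
lemma deg_a_eq {a b : Fin n} (G : Finset (Edge n)) :
    deg G a = (sideA a b G).card + (univ.filter fun y => y ∉ priv a b G ∧ adj G a y).card := by
  rw [deg_eq_card_adj]
  have h2 : (univ.filter fun y => adj G a y)
      = sideA a b G ∪ univ.filter (fun y => y ∉ priv a b G ∧ adj G a y) := by
    ext y
    rw [mem_filter, mem_union, mem_filter, mem_sideA]
    by_cases hy : y ∈ priv a b G
    · simp [hy]
    · simp [hy]
  have d2 : Disjoint (sideA a b G) (univ.filter fun y => y ∉ priv a b G ∧ adj G a y) := by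
    rw [disjoint_left]
    intro y hy hy'
    exact (mem_filter.mp hy').2.1 (sideA_subset a b G hy)
  rw [h2, card_union_of_disjoint d2]

/-- non-private adjacency to `a` is constant on a pair class (all vertices) -/
lemma cls_nonpriv_a {d : Fin n → ℕ} {a b : Fin n} (hab : a ≠ b) {G G' : Finset (Edge n)}
    (hG : G ∈ realizations d) (hG' : G' ∈ cls d a b G) {y : Fin n}
    (hy : y ∉ priv a b G) : adj G' a y ↔ adj G a y := by
  by_cases hya : y = a
  · subst hya; simp [adj_irrefl]
  by_cases hyb : y = b
  · subst hyb; exact cls_adj_ab hab hG hG'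
  exact (cls_nonpriv hab hG hG' hya hyb hy).1

lemma cls_nonpriv_b {d : Fin n → ℕ} {a b : Fin n} (hab : a ≠ b) {G G' : Finset (Edge n)}
    (hG : G ∈ realizations d) (hG' : G' ∈ cls d a b G) {y : Fin n}
    (hy : y ∉ priv a b G) : adj G' b y ↔ adj G b y := by
  by_cases hya : y = a
  · subst hya
    rw [adj_comm, cls_adj_ab hab hG hG', adj_comm]
  by_cases hyb : y = b
  · subst hyb; simp [adj_irrefl]
  exact (cls_nonpriv hab hG hG' hya hyb hy).2

/-- the number of private neighbours on the side of `a` is constant on a pair class -/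
lemma cls_card_sideA {d : Fin n → ℕ} {a b : Fin n} (hab : a ≠ b) {G G' : Finset (Edge n)}
    (hG : G ∈ realizations d) (hG' : G' ∈ cls d a b G) :
    (sideA a b G').card = (sideA a b G).card := by
  obtain ⟨hG'r, -⟩ := mem_cls.mp hG'
  have h1 := deg_a_eq (a := a) (b := b) G
  have h2 := deg_a_eq (a := a) (b := b) G'
  rw [(mem_realizations.mp hG) a] at h1
  rw [(mem_realizations.mp hG'r) a] at h2
  have h3 : (univ.filter fun y => y ∉ priv a b G' ∧ adj G' a y)
      = univ.filter fun y => y ∉ priv a b G ∧ adj G a y := by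
    ext y
    rw [mem_filter, mem_filter, cls_priv_eq hab hG hG']
    by_cases hy : y ∈ priv a b G
    · simp [hy]
    · simp [hy, cls_nonpriv_a hab hG hG' hy]
  rw [h3] at h2
  omega

/-- every member of the pair class is the re-split of `G` along its own side of `a` -/
lemma resplit_sideA {d : Fin n → ℕ} {a b : Fin n} (hab : a ≠ b) {G G' : Finset (Edge n)}
    (hG : G ∈ realizations d) (hG' : G' ∈ cls d a b G) :
    resplit a b G (sideA a b G') = G' := by
  have hp := cls_priv_eq hab hG hG'
  have key_a : ∀ y, adj (resplit a b G (sideA a b G')) a y ↔ adj G' a y := by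
    intro y
    rw [adj_resplit_a hab]
    by_cases hy : y ∈ priv a b G
    · rw [if_pos hy, mem_sideA, hp]
      simp [hy]
    · rw [if_neg hy]
      exact (cls_nonpriv_a hab hG hG' hy).symm
  have key_b : ∀ y, adj (resplit a b G (sideA a b G')) b y ↔ adj G' b y := by
    intro y
    rw [adj_resplit_b hab]
    by_cases hy : y ∈ priv a b G
    · rw [if_pos hy, mem_sideA, hp]
      have hy' := (mem_priv.mp (hp ▸ hy)).2.2
      simp only [hy, true_and]
      tauto
    · rw [if_neg hy]
      exact (cls_nonpriv_b hab hG hG' hy).symm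
  apply ext_adj
  intro x y
  by_cases hxa : x = a
  · subst hxa; exact key_a y
  by_cases hxb : x = b
  · subst hxb; exact key_b y
  by_cases hya : y = a
  · subst hya; rw [adj_comm, key_a x, adj_comm]
  by_cases hyb : y = b
  · subst hyb; rw [adj_comm, key_b x, adj_comm]
  rw [adj_resplit_off hab G _ hxa hxb hya hyb]
  exact (mem_cls.mp hG').2 x y hxa hxb hya hyb

/-- **Parametrisation of a pair class**: sums over the class of `G` are sums over the
`k`-subsets of the private set. -/
theorem sum_cls_eq {d : Fin n → ℕ} {a b : Fin n} (hab : a ≠ b) {G : Finset (Edge n)}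
    (hG : G ∈ realizations d) (φ : Finset (Edge n) → ℝ) :
    ∑ G' ∈ cls d a b G, φ G'
      = ∑ A ∈ (priv a b G).powersetCard (sideA a b G).card, φ (resplit a b G A) := by
  refine sum_nbij' (fun G' => sideA a b G') (fun A => resplit a b G A) ?_ ?_ ?_ ?_ ?_
  · intro G' hG'
    rw [mem_powersetCard]
    exact ⟨(cls_priv_eq hab hG hG') ▸ sideA_subset a b G', cls_card_sideA hab hG hG'⟩
  · intro A hA
    rw [mem_powersetCard] at hA
    exact resplit_mem_cls hab hG hA.1 hA.2
  · intro G' hG'
    exact resplit_sideA hab hG hG'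
  · intro A hA
    rw [mem_powersetCard] at hA
    exact sideA_resplit hab G hA.1
  · intro G' hG'
    rw [resplit_sideA hab hG hG']


/-! ### A Johnson move is a switch -/

lemma adj_resplit_a_priv {a b : Fin n} (hab : a ≠ b) (G : Finset (Edge n)) (A : Finset (Fin n))
    {c : Fin n} (hc : c ∈ priv a b G) : adj (resplit a b G A) a c ↔ c ∈ A := by
  rw [adj_resplit_a hab, if_pos hc]

lemma adj_resplit_b_priv {a b : Fin n} (hab : a ≠ b) (G : Finset (Edge n)) (A : Finset (Fin n))
    {c : Fin n} (hc : c ∈ priv a b G) : adj (resplit a b G A) b c ↔ c ∉ A := by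
  rw [adj_resplit_b hab, if_pos hc]

lemma adj_sdiff_union (R F F' : Finset (Edge n)) (x y : Fin n) :
    adj (R \ F ∪ F') x y ↔ (adj R x y ∧ ¬ adj F x y) ∨ adj F' x y := by
  constructor
  · rintro ⟨e, he, hxy⟩
    rw [mem_union, mem_sdiff] at he
    rcases he with ⟨heR, heF⟩ | heF'
    · left
      refine ⟨⟨e, heR, hxy⟩, ?_⟩
      rintro ⟨e', he', hxy'⟩
      have : e' = e := Subtype.ext (hxy'.trans hxy.symm)
      exact heF (this ▸ he')
    · right; exact ⟨e, heF', hxy⟩
  · rintro (⟨⟨e, heR, hxy⟩, hF⟩ | ⟨e, heF', hxy⟩)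
    · refine ⟨e, ?_, hxy⟩
      rw [mem_union, mem_sdiff]
      left
      exact ⟨heR, fun h => hF ⟨e, h, hxy⟩⟩
    · exact ⟨e, mem_union_right _ heF', hxy⟩

lemma adj_pair {p q r t : Fin n} (hpq : p ≠ q) (hrt : r ≠ t) (x y : Fin n) :
    adj ({mkE p q hpq, mkE r t hrt} : Finset (Edge n)) x y ↔
      (x = p ∧ y = q) ∨ (x = q ∧ y = p) ∨ (x = r ∧ y = t) ∨ (x = t ∧ y = r) := by
  constructor
  · rintro ⟨e, he, hxy⟩
    rw [mem_insert, mem_singleton] at he
    rcases he with rfl | rfl
    · have : s(p, q) = s(x, y) := hxy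
      rcases Sym2.eq_iff.mp this with ⟨rfl, rfl⟩ | ⟨rfl, rfl⟩ <;> tauto
    · have : s(r, t) = s(x, y) := hxy
      rcases Sym2.eq_iff.mp this with ⟨rfl, rfl⟩ | ⟨rfl, rfl⟩ <;> tauto
  · rintro (⟨rfl, rfl⟩ | ⟨rfl, rfl⟩ | ⟨rfl, rfl⟩ | ⟨rfl, rfl⟩)
    · exact ⟨mkE x y hpq, by simp, rfl⟩
    · exact ⟨mkE y x hpq, by simp, Sym2.eq_swap⟩
    · exact ⟨mkE x y hrt, by simp, rfl⟩
    · exact ⟨mkE y x hrt, by simp, Sym2.eq_swap⟩

/-- **A Johnson move is a switch**: moving `c` from the side of `a` to the side of `b` and `e`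
the other way is the switch removing `ac`, `eb` and inserting `ae`, `cb`. -/
theorem switchAdj_resplit {a b : Fin n} (hab : a ≠ b) (G : Finset (Edge n))
    {A : Finset (Fin n)} (hA : A ⊆ priv a b G) {c e : Fin n} (hc : c ∈ A)
    (he : e ∈ priv a b G) (heA : e ∉ A) :
    SwitchAdj (resplit a b G A) (resplit a b G (insert e (A.erase c))) := by
  have hcD : c ∈ priv a b G := hA hc
  have hc' := mem_priv.mp hcD
  have he' := mem_priv.mp he
  have hce : c ≠ e := fun h => heA (h ▸ hc)
  have hac : a ≠ c := fun h => hc'.1 h.symm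
  have hae : a ≠ e := fun h => he'.1 h.symm
  have hcb : c ≠ b := hc'.2.1
  have heb : e ≠ b := he'.2.1
  refine ⟨a, c, e, b, hac, hae, hab, hce, hcb, heb, ?_, ?_, ?_, ?_, ?_⟩
  · rw [← adj_iff_mkE, adj_resplit_a_priv hab G A hcD]; exact hc
  · rw [← adj_iff_mkE, adj_comm, adj_resplit_b_priv hab G A he]; exact heA
  · rw [← adj_iff_mkE, adj_resplit_a_priv hab G A he]; exact heA
  · rw [← adj_iff_mkE, adj_comm, adj_resplit_b_priv hab G A hcD]; exact fun h => h hc
  · apply ext_adj
    intro x y
    rw [adj_sdiff_union, adj_pair, adj_pair]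
    have key_a : ∀ z, adj (resplit a b G (insert e (A.erase c))) a z ↔
        (adj (resplit a b G A) a z ∧ z ≠ c) ∨ z = e := by
      intro z
      rw [adj_resplit_a hab, adj_resplit_a hab]
      by_cases hz : z ∈ priv a b G
      · rw [if_pos hz, if_pos hz, mem_insert, mem_erase]
        tauto
      · rw [if_neg hz, if_neg hz]
        have h1 : z ≠ c := fun h => hz (h ▸ hcD)
        have h2 : z ≠ e := fun h => hz (h ▸ he)
        tauto
    have key_b : ∀ z, adj (resplit a b G (insert e (A.erase c))) b z ↔
        (adj (resplit a b G A) b z ∧ z ≠ e) ∨ z = c := by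
      intro z
      rw [adj_resplit_b hab, adj_resplit_b hab]
      by_cases hz : z ∈ priv a b G
      · rw [if_pos hz, if_pos hz, mem_insert, mem_erase]
        by_cases h1 : z = c
        · subst h1; tauto
        · tauto
      · rw [if_neg hz, if_neg hz]
        have h1 : z ≠ c := fun h => hz (h ▸ hcD)
        have h2 : z ≠ e := fun h => hz (h ▸ he)
        tauto
    have hca : c ≠ a := hac.symm
    have hea : e ≠ a := hae.symm
    have hba : b ≠ a := hab.symm
    have hbc : b ≠ c := hcb.symm
    have hbe : b ≠ e := heb.symm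
    by_cases hxa : x = a
    · rw [hxa, key_a y]
      simp only [hac, hae, hab, true_and, false_and, or_false]
    by_cases hxb : x = b
    · rw [hxb, key_b y]
      simp only [hba, hbc, hbe, true_and, false_and, false_or]
    by_cases hya : y = a
    · rw [hya, adj_comm, key_a x, adj_comm (x := x) (y := a)]
      simp only [hxa, hxb, hac, hab, hae, and_true, and_false, or_false, false_or]
    by_cases hyb : y = b
    · rw [hyb, adj_comm, key_b x, adj_comm (x := x) (y := b)]
      simp only [hxa, hxb, hba, hbc, hbe, and_true, and_false, or_false, false_or]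
    rw [adj_resplit_off hab G _ hxa hxb hya hyb, adj_resplit_off hab G _ hxa hxb hya hyb]
    simp only [hxa, hxb, hya, hyb, false_and, and_false, or_false, not_false_eq_true, and_true]

end Crest.Agent.S0453R.PC
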