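import Mathlib
import Crest.Prelude.Def_SwitchChain
import Crest.Agent.S0453.PM
import Crest.Agent.S0453.Adapters
import Crest.Agent.S0453.Avg
import Crest.Agent.S0453.Final
import Crest.Agent.S0453.PairClass
import Crest.Agent.S0453.G4Count

/-!
Row 299 / S0453 (helper56): target `(G4)` (`X ≤ L`) of the Caputo route, unconditionally.

`PairClass.lean` (helper26) parametrises the pair class of `G0` by the `k`-subsets of the private
set and shows that a Johnson move is a switch; `G4Count.lean` turns this (`PairClassJohnson d`)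
into `G4 d`.  Here the two are glued: `sameOff {a, a'}` is `PC.offPair a a'`.
-/

set_option autoImplicit false
open Finset

namespace Crest.Agent.S0453R

open Crest.SwitchChain

variable {n : ℕ}

/-- `sameOff {a, a'}` is the relation `PC.offPair a a'` of `PairClass.lean` -/
lemma sameOff_pair_iff_offPair (a a' : Fin n) (G G' : Finset (Edge n)) :
    sameOff {a, a'} G G' ↔ PC.offPair a a' G G' := by
  constructor
  · intro h x y hxa hxa' hya hya'
    by_cases hxy : x = y
    · subst hxy
      exact iff_of_false (PC.adj_irrefl G x) (PC.adj_irrefl G' x)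
    · rw [PC.adj_iff_mkE hxy, PC.adj_iff_mkE hxy]
      apply h
      intro u hu hmem
      rw [mem_mkE] at hmem
      rw [mem_insert, mem_singleton] at hu
      rcases hu with rfl | rfl <;> rcases hmem with rfl | rfl <;> simp_all
  · intro h e he
    obtain ⟨x, y, hxy⟩ : ∃ x y, e.1 = s(x, y) := by
      induction' he' : e.1 using Sym2.ind with x y
      exact ⟨x, y, rfl⟩
    rw [PC.mem_iff_adj e hxy, PC.mem_iff_adj e hxy]
    have ha : a ∉ e.1 := he a (by simp)
    have ha' : a' ∉ e.1 := he a' (by simp)
    rw [hxy, Sym2.mem_iff, not_or] at ha ha'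
    exact h x y (Ne.symm ha.1) (Ne.symm ha'.1) (Ne.symm ha.2) (Ne.symm ha'.2)

/-- the pair class of `{a, a'}` in the names of `Avg.lean` and of `PairClass.lean` -/
lemma filter_sameOff_eq_cls (d : Fin n → ℕ) (a a' : Fin n) (G0 : Finset (Edge n)) :
    (realizations d).filter (sameOff {a, a'} G0) = PC.cls d a a' G0 := by
  unfold PC.cls
  exact filter_congr fun G _ => sameOff_pair_iff_offPair a a' G0 G

/-- **[PAIRCLASS]** in the shape consumed by `G4Count.lean` -/
theorem pairClassJohnson (d : Fin n → ℕ) : PairClassJohnson d := by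
  intro b hb G0 hG0
  rw [pairs, mem_powersetCard] at hb
  obtain ⟨a, a', haa', rfl⟩ := card_eq_two.1 hb.2
  rw [filter_sameOff_eq_cls]
  refine ⟨PC.priv a a' G0, (PC.sideA a a' G0).card, PC.sideA a a', ⟨?_, ?_, ?_⟩, ?_⟩
  · -- maps to
    intro G hG
    rw [Finset.mem_coe] at hG
    rw [Finset.mem_coe, mem_powersetCard]
    exact ⟨(PC.cls_priv_eq haa' hG0 hG) ▸ PC.sideA_subset a a' G, PC.cls_card_sideA haa' hG0 hG⟩
  · -- injective
    intro G hG G' hG' hEq
    rw [Finset.mem_coe] at hG hG'
    rw [← PC.resplit_sideA haa' hG0 hG, ← PC.resplit_sideA haa' hG0 hG', hEq]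
  · -- surjective
    intro A hA
    rw [Finset.mem_coe, mem_powersetCard] at hA
    exact ⟨PC.resplit a a' G0 A, Finset.mem_coe.2 (PC.resplit_mem_cls haa' hG0 hA.1 hA.2),
      PC.sideA_resplit haa' G0 hA.1⟩
  · -- a Johnson move is a switch
    intro G hG G' hG' c hc e he hphi
    have hA : PC.sideA a a' G ⊆ PC.priv a a' G0 :=
      (PC.cls_priv_eq haa' hG0 hG) ▸ PC.sideA_subset a a' G
    rw [mem_sdiff] at he
    have hsw := PC.switchAdj_resplit haa' G0 hA hc he.1 he.2
    rw [← hphi, PC.resplit_sideA haa' hG0 hG, PC.resplit_sideA haa' hG0 hG'] at hsw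
    exact hsw

/-- **(G4)** (`X ≤ L`): the pair-class variances are bounded by the switch Dirichlet form. -/
theorem G4_holds (d : Fin n → ℕ) [DecidableRel (SwitchAdj (n := n))] : G4 d :=
  G4_of_pairClassJohnson (pairClassJohnson d)

end Crest.Agent.S0453R
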