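import Mathlib

/-!
# The Johnson-slice lemma (Lemma J of the row-299 plan)

For a real function `g` on the `k`-subsets of a finite set `D` with `∑ g = 0`:

`∑_{c ≠ e ∈ D} (∑_{A : exactly one of c, e in A} g A)² ≤ C(|D|-2, k-1) · ∑_{A} ∑_{c ∈ A} ∑_{e ∈ D \ A} (g A - g (A - c + e))²`.

Pure finite sums + Cauchy–Schwarz; no graphs.
-/

set_option autoImplicit false
open Finset

namespace Crest.Agent.S0453J

variable {α : Type*} [DecidableEq α]

/-- `av D k g c = ∑_{A ∋ c} g A` over the `k`-subsets `A` of `D`. -/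
noncomputable def av (D : Finset α) (k : ℕ) (g : Finset α → ℝ) (c : α) : ℝ :=
  ∑ A ∈ D.powersetCard k, if c ∈ A then g A else 0

/-- `av2 D k g c e = ∑_{A ∋ c, e} g A` over the `k`-subsets `A` of `D`. -/
noncomputable def av2 (D : Finset α) (k : ℕ) (g : Finset α → ℝ) (c e : α) : ℝ :=
  ∑ A ∈ D.powersetCard k, if c ∈ A ∧ e ∈ A then g A else 0

/-- `sv D k g c e = ∑ g A` over the `k`-subsets containing exactly one of `c`, `e`. -/
noncomputable def sv (D : Finset α) (k : ℕ) (g : Finset α → ℝ) (c e : α) : ℝ :=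
  ∑ A ∈ (D.powersetCard k).filter (fun A => (c ∈ A ∧ e ∉ A) ∨ (c ∉ A ∧ e ∈ A)), g A

/-- The ordered Johnson-edge energy. -/
noncomputable def EE (D : Finset α) (k : ℕ) (g : Finset α → ℝ) : ℝ :=
  ∑ A ∈ D.powersetCard k, ∑ c ∈ A, ∑ e ∈ D \ A, (g A - g (insert e (A.erase c))) ^ 2

variable (D : Finset α) (k : ℕ) (g : Finset α → ℝ)

lemma EE_nonneg : 0 ≤ EE D k g := by
  unfold EE
  exact sum_nonneg fun A _ => sum_nonneg fun c _ => sum_nonneg fun e _ => sq_nonneg _

lemma av2_comm (c e : α) : av2 D k g c e = av2 D k g e c := by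
  unfold av2
  refine sum_congr rfl fun A _ => ?_
  simp only [and_comm]

lemma sv_eq (c e : α) : sv D k g c e = av D k g c + av D k g e - 2 * av2 D k g c e := by
  unfold sv av av2
  rw [sum_filter, mul_sum, ← sum_add_distrib, ← sum_sub_distrib]
  refine sum_congr rfl fun A _ => ?_
  by_cases hc : c ∈ A <;> by_cases he : e ∈ A <;> simp [hc, he]
  ring

/-- swapping the order of a double sum over ordered pairs of distinct elements -/
lemma sum_offdiag_comm (f : α → α → ℝ) :
    ∑ c ∈ D, ∑ e ∈ D.erase c, f c e = ∑ e ∈ D, ∑ c ∈ D.erase e, f c e := by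
  refine sum_comm' ?_
  intro c e
  simp only [mem_erase, ne_eq]
  constructor
  · rintro ⟨hc, hne, he⟩
    exact ⟨⟨fun h => hne h.symm, hc⟩, he⟩
  · rintro ⟨⟨hne, hc⟩, he⟩
    exact ⟨hc, fun h => hne h.symm, he⟩

lemma sum_av : ∑ c ∈ D, av D k g c = (k : ℝ) * ∑ A ∈ D.powersetCard k, g A := by
  unfold av
  rw [sum_comm, mul_sum]
  refine sum_congr rfl fun A hA => ?_
  rw [mem_powersetCard] at hA
  rw [← sum_filter, filter_mem_eq_inter, inter_eq_right.mpr hA.1, sum_const, hA.2, nsmul_eq_mul]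

lemma sum_av2 (c : α) :
    ∑ e ∈ D.erase c, av2 D k g c e = ((k : ℝ) - 1) * av D k g c := by
  unfold av2 av
  rw [sum_comm, mul_sum]
  refine sum_congr rfl fun A hA => ?_
  rw [mem_powersetCard] at hA
  by_cases hcA : c ∈ A
  · simp only [hcA, true_and, if_true]
    rw [← sum_filter, filter_mem_eq_inter]
    have h1 : D.erase c ∩ A = A.erase c := by
      ext x
      simp only [mem_inter, mem_erase]
      constructor
      · rintro ⟨⟨hne, _⟩, hxA⟩
        exact ⟨hne, hxA⟩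
      · rintro ⟨hne, hxA⟩
        exact ⟨⟨hne, hA.1 hxA⟩, hxA⟩
    rw [h1, sum_const, card_erase_of_mem hcA, hA.2, nsmul_eq_mul]
    have hk : 1 ≤ k := by
      rw [← hA.2]; exact card_pos.mpr ⟨c, hcA⟩
    rw [Nat.cast_sub hk, Nat.cast_one]
  · simp [hcA]

/-- `S1 = ∑_c a_c²`. -/
noncomputable def S1 : ℝ := ∑ c ∈ D, av D k g c ^ 2

/-- `S2 = ∑_{c ≠ e} a_{ce}²` (ordered pairs). -/
noncomputable def S2 : ℝ := ∑ c ∈ D, ∑ e ∈ D.erase c, av2 D k g c e ^ 2

lemma S1_nonneg : 0 ≤ S1 D k g := sum_nonneg fun _ _ => sq_nonneg _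

lemma S2_nonneg : 0 ≤ S2 D k g := sum_nonneg fun _ _ => sum_nonneg fun _ _ => sq_nonneg _

lemma card_erase_cast {c : α} (hc : c ∈ D) : ((D.erase c).card : ℝ) = (D.card : ℝ) - 1 := by
  rw [card_erase_of_mem hc, Nat.cast_sub (card_pos.mpr ⟨c, hc⟩), Nat.cast_one]

lemma sum_av_mul_av2 :
    ∑ c ∈ D, ∑ e ∈ D.erase c, av D k g e * av2 D k g c e = ((k : ℝ) - 1) * S1 D k g := by
  rw [sum_offdiag_comm]
  unfold S1
  rw [mul_sum]
  refine sum_congr rfl fun e _ => ?_
  have h := sum_av2 D k g e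
  calc ∑ c ∈ D.erase e, av D k g e * av2 D k g c e
      = av D k g e * ∑ c ∈ D.erase e, av2 D k g e c := by
        rw [mul_sum]
        exact sum_congr rfl fun c _ => by rw [av2_comm]
    _ = ((k : ℝ) - 1) * av D k g e ^ 2 := by rw [h]; ring

/-- Expansion of the left-hand side `T`. -/
lemma T_expand (hg : ∑ A ∈ D.powersetCard k, g A = 0) :
    ∑ c ∈ D, ∑ e ∈ D.erase c, sv D k g c e ^ 2
      = 2 * ((D.card : ℝ) - 4 * k + 2) * S1 D k g + 4 * S2 D k g := by
  have hsum : ∑ c ∈ D, av D k g c = 0 := by rw [sum_av, hg, mul_zero]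
  have key : ∀ c ∈ D, ∑ e ∈ D.erase c, sv D k g c e ^ 2 =
      ((D.card : ℝ) - 1) * av D k g c ^ 2 + (S1 D k g - av D k g c ^ 2)
        + 4 * ∑ e ∈ D.erase c, av2 D k g c e ^ 2
        - 2 * av D k g c ^ 2 - 4 * ((k : ℝ) - 1) * av D k g c ^ 2
        - 4 * ∑ e ∈ D.erase c, av D k g e * av2 D k g c e := by
    intro c hc
    have h1 : ∑ e ∈ D.erase c, av D k g e = - av D k g c := by
      rw [sum_erase_eq_sub hc, hsum]; ring
    have h2 := sum_av2 D k g c
    have h3 : ∑ e ∈ D.erase c, av D k g e ^ 2 = S1 D k g - av D k g c ^ 2 := by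
      unfold S1; rw [sum_erase_eq_sub hc]
    have h4 := card_erase_cast D hc
    calc ∑ e ∈ D.erase c, sv D k g c e ^ 2
        = ∑ e ∈ D.erase c, (av D k g c ^ 2 + av D k g e ^ 2 + 4 * av2 D k g c e ^ 2
            + 2 * av D k g c * av D k g e - 4 * av D k g c * av2 D k g c e
            - 4 * (av D k g e * av2 D k g c e)) := by
          refine sum_congr rfl fun e _ => ?_
          rw [sv_eq]; ring
      _ = _ := by
          simp only [sum_add_distrib, sum_sub_distrib, ← mul_sum, sum_const, nsmul_eq_mul,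
            h1, h2, h3, h4]
          ring
  rw [sum_congr rfl key]
  simp only [sum_add_distrib, sum_sub_distrib, ← mul_sum, sum_const, nsmul_eq_mul]
  rw [sum_av_mul_av2]
  unfold S1 S2
  ring

/-! ### The swap `A ↦ A - c + e` -/

lemma swap_mem {c e : α} (hce : c ≠ e) (he : e ∈ D) {A : Finset α}
    (hA : A ∈ D.powersetCard k) (hc : c ∈ A) (heA : e ∉ A) :
    insert e (A.erase c) ∈ D.powersetCard k ∧ e ∈ insert e (A.erase c) ∧
      c ∉ insert e (A.erase c) ∧ insert c ((insert e (A.erase c)).erase e) = A := by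
  rw [mem_powersetCard] at hA ⊢
  have h1 : e ∉ A.erase c := fun h => heA (mem_of_mem_erase h)
  refine ⟨⟨?_, ?_⟩, mem_insert_self _ _, ?_, ?_⟩
  · intro x hx
    rcases mem_insert.mp hx with rfl | hx
    · exact he
    · exact hA.1 (mem_of_mem_erase hx)
  · rw [card_insert_of_notMem h1, card_erase_of_mem hc, hA.2]
    have : 1 ≤ k := by rw [← hA.2]; exact card_pos.mpr ⟨c, hc⟩
    omega
  · intro h
    rcases mem_insert.mp h with h | h
    · exact hce h
    · exact (notMem_erase c A) h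
  · rw [erase_insert h1, insert_erase hc]

/-- `a_c - a_e` as a sum of Johnson-edge differences. -/
lemma av_sub_av {c e : α} (hce : c ≠ e) (hc : c ∈ D) (he : e ∈ D) :
    av D k g c - av D k g e =
      ∑ A ∈ (D.powersetCard k).filter (fun A => c ∈ A ∧ e ∉ A),
        (g A - g (insert e (A.erase c))) := by
  have hbij : ∑ A ∈ (D.powersetCard k).filter (fun A => c ∈ A ∧ e ∉ A), g (insert e (A.erase c))
      = ∑ A ∈ (D.powersetCard k).filter (fun A => e ∈ A ∧ c ∉ A), g A := by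
    refine sum_nbij' (fun A => insert e (A.erase c)) (fun A => insert c (A.erase e)) ?_ ?_ ?_ ?_ ?_
    · intro A hA
      rw [mem_filter] at hA ⊢
      obtain ⟨h1, h2, h3, _⟩ := swap_mem D k hce he hA.1 hA.2.1 hA.2.2
      exact ⟨h1, h2, h3⟩
    · intro A hA
      rw [mem_filter] at hA ⊢
      obtain ⟨h1, h2, h3, _⟩ := swap_mem D k hce.symm hc hA.1 hA.2.1 hA.2.2
      exact ⟨h1, h2, h3⟩
    · intro A hA
      rw [mem_filter] at hA
      exact (swap_mem D k hce he hA.1 hA.2.1 hA.2.2).2.2.2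
    · intro A hA
      rw [mem_filter] at hA
      exact (swap_mem D k hce.symm hc hA.1 hA.2.1 hA.2.2).2.2.2
    · intro A _
      rfl
  rw [sum_sub_distrib, hbij]
  unfold av
  rw [sum_filter, sum_filter, ← sum_sub_distrib, ← sum_sub_distrib]
  refine sum_congr rfl fun A _ => ?_
  by_cases h1 : c ∈ A <;> by_cases h2 : e ∈ A <;> simp [h1, h2]

lemma card_filter_le {c e : α} (hce : c ≠ e) (hc : c ∈ D) (he : e ∈ D) :
    ((D.powersetCard k).filter (fun A => c ∈ A ∧ e ∉ A)).card ≤ (D.card - 2).choose (k - 1) := by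
  have hcard : ((D.erase c).erase e).card = D.card - 2 := by
    rw [card_erase_of_mem (mem_erase.mpr ⟨hce.symm, he⟩), card_erase_of_mem hc]
    omega
  rw [← hcard, ← card_powersetCard]
  refine card_le_card_of_injOn (fun A => A.erase c) ?_ ?_
  · intro A hA
    rw [mem_coe, mem_filter, mem_powersetCard] at hA
    rw [mem_coe, mem_powersetCard]
    obtain ⟨⟨hsub, hk⟩, hcA, heA⟩ := hA
    refine ⟨?_, ?_⟩
    · intro x hx
      have hx' := mem_erase.mp hx
      refine mem_erase.mpr ⟨?_, mem_erase.mpr ⟨hx'.1, hsub hx'.2⟩⟩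
      rintro rfl
      exact heA hx'.2
    · rw [card_erase_of_mem hcA, hk]
  · intro A hA B hB hAB
    rw [mem_coe, mem_filter] at hA hB
    have := congrArg (insert c) hAB
    simp only at this
    rwa [insert_erase hA.2.1, insert_erase hB.2.1] at this

/-- Reordering the triple sum over `(c, e, A)` with `c ∈ A`, `e ∉ A`. -/
lemma sum_triple (φ : α → α → Finset α → ℝ) :
    ∑ c ∈ D, ∑ e ∈ D.erase c, ∑ A ∈ (D.powersetCard k).filter (fun A => c ∈ A ∧ e ∉ A), φ c e A
      = ∑ A ∈ D.powersetCard k, ∑ c ∈ A, ∑ e ∈ D \ A, φ c e A := by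
  have h1 : ∀ c ∈ D, ∑ e ∈ D.erase c,
      ∑ A ∈ (D.powersetCard k).filter (fun A => c ∈ A ∧ e ∉ A), φ c e A
      = ∑ A ∈ D.powersetCard k, ∑ e ∈ D.erase c, if c ∈ A ∧ e ∉ A then φ c e A else 0 := by
    intro c _
    rw [sum_comm]
    exact sum_congr rfl fun e _ => sum_filter _ _
  rw [sum_congr rfl h1, sum_comm]
  refine sum_congr rfl fun A hA => ?_
  rw [mem_powersetCard] at hA
  have h2 : ∑ c ∈ A, ∑ e ∈ D \ A, φ c e A
      = ∑ c ∈ D, if c ∈ A then ∑ e ∈ D \ A, φ c e A else 0 := by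
    rw [← sum_filter, filter_mem_eq_inter, inter_eq_right.mpr hA.1]
  rw [h2]
  refine sum_congr rfl fun c _ => ?_
  by_cases hcA : c ∈ A
  · simp only [hcA, true_and, if_true]
    rw [← sum_filter]
    refine sum_congr ?_ fun _ _ => rfl
    ext x
    simp only [mem_filter, mem_erase, mem_sdiff]
    constructor
    · rintro ⟨⟨_, hxD⟩, hxA⟩
      exact ⟨hxD, hxA⟩
    · rintro ⟨hxD, hxA⟩
      refine ⟨⟨?_, hxD⟩, hxA⟩
      rintro rfl
      exact hxA hcA
  · simp [hcA]

/-- Inequality (i): `2 N ∑ a_c² ≤ C(N-2,k-1) · EE`. -/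
lemma ineq_one (hg : ∑ A ∈ D.powersetCard k, g A = 0) :
    2 * (D.card : ℝ) * S1 D k g ≤ ((D.card - 2).choose (k - 1) : ℝ) * EE D k g := by
  have hsum : ∑ c ∈ D, av D k g c = 0 := by rw [sum_av, hg, mul_zero]
  have hexp : ∑ c ∈ D, ∑ e ∈ D.erase c, (av D k g c - av D k g e) ^ 2
      = 2 * (D.card : ℝ) * S1 D k g := by
    have key : ∀ c ∈ D, ∑ e ∈ D.erase c, (av D k g c - av D k g e) ^ 2
        = ((D.card : ℝ) - 1) * av D k g c ^ 2 + (S1 D k g - av D k g c ^ 2)
          + 2 * av D k g c ^ 2 := by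
      intro c hc
      have h1 : ∑ e ∈ D.erase c, av D k g e = - av D k g c := by
        rw [sum_erase_eq_sub hc, hsum]; ring
      have h3 : ∑ e ∈ D.erase c, av D k g e ^ 2 = S1 D k g - av D k g c ^ 2 := by
        unfold S1; rw [sum_erase_eq_sub hc]
      have h4 := card_erase_cast D hc
      calc ∑ e ∈ D.erase c, (av D k g c - av D k g e) ^ 2
          = ∑ e ∈ D.erase c, (av D k g c ^ 2 + av D k g e ^ 2
              - 2 * av D k g c * av D k g e) := by
            refine sum_congr rfl fun e _ => ?_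
            ring
        _ = _ := by
            simp only [sum_add_distrib, sum_sub_distrib, ← mul_sum, sum_const, nsmul_eq_mul,
              h1, h3, h4]
            ring
    rw [sum_congr rfl key]
    simp only [sum_add_distrib, sum_sub_distrib, ← mul_sum, sum_const, nsmul_eq_mul]
    unfold S1
    ring
  rw [← hexp]
  have hC : (0 : ℝ) ≤ ((D.card - 2).choose (k - 1) : ℝ) := Nat.cast_nonneg _
  calc ∑ c ∈ D, ∑ e ∈ D.erase c, (av D k g c - av D k g e) ^ 2
      ≤ ∑ c ∈ D, ∑ e ∈ D.erase c, ((D.card - 2).choose (k - 1) : ℝ) *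
          ∑ A ∈ (D.powersetCard k).filter (fun A => c ∈ A ∧ e ∉ A),
            (g A - g (insert e (A.erase c))) ^ 2 := by
        refine sum_le_sum fun c hc => sum_le_sum fun e he => ?_
        have hne : c ≠ e := fun h => (mem_erase.mp he).1 h.symm
        have heD : e ∈ D := (mem_erase.mp he).2
        rw [av_sub_av D k g hne hc heD]
        refine le_trans sq_sum_le_card_mul_sum_sq ?_
        refine mul_le_mul_of_nonneg_right ?_ (sum_nonneg fun _ _ => sq_nonneg _)
        exact_mod_cast card_filter_le D k hne hc heD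
    _ = ((D.card - 2).choose (k - 1) : ℝ) * EE D k g := by
        simp only [← mul_sum]
        rw [sum_triple D k (fun c e A => (g A - g (insert e (A.erase c))) ^ 2)]
        rfl

/-! ### The second Cauchy–Schwarz step -/

/-- `a_{ce} - a_{cf}` as a sum of Johnson-edge differences. -/
lemma av2_sub_av2 {c e f : α} (hce : c ≠ e) (hcf : c ≠ f) (hef : e ≠ f)
    (he : e ∈ D) (hf : f ∈ D) :
    av2 D k g c e - av2 D k g c f =
      ∑ A ∈ (D.powersetCard k).filter (fun A => c ∈ A ∧ e ∈ A ∧ f ∉ A),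
        (g A - g (insert f (A.erase e))) := by
  have hbij : ∑ A ∈ (D.powersetCard k).filter (fun A => c ∈ A ∧ e ∈ A ∧ f ∉ A),
        g (insert f (A.erase e))
      = ∑ A ∈ (D.powersetCard k).filter (fun A => c ∈ A ∧ f ∈ A ∧ e ∉ A), g A := by
    refine sum_nbij' (fun A => insert f (A.erase e)) (fun A => insert e (A.erase f)) ?_ ?_ ?_ ?_ ?_
    · intro A hA
      rw [mem_filter] at hA ⊢
      obtain ⟨h1, h2, h3, _⟩ := swap_mem D k hef hf hA.1 hA.2.2.1 hA.2.2.2
      exact ⟨h1, mem_insert_of_mem (mem_erase.mpr ⟨hce, hA.2.1⟩), h2, h3⟩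
    · intro A hA
      rw [mem_filter] at hA ⊢
      obtain ⟨h1, h2, h3, _⟩ := swap_mem D k hef.symm he hA.1 hA.2.2.1 hA.2.2.2
      exact ⟨h1, mem_insert_of_mem (mem_erase.mpr ⟨hcf, hA.2.1⟩), h2, h3⟩
    · intro A hA
      rw [mem_filter] at hA
      exact (swap_mem D k hef hf hA.1 hA.2.2.1 hA.2.2.2).2.2.2
    · intro A hA
      rw [mem_filter] at hA
      exact (swap_mem D k hef.symm he hA.1 hA.2.2.1 hA.2.2.2).2.2.2
    · intro A _
      rfl
  rw [sum_sub_distrib, hbij]
  unfold av2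
  rw [sum_filter, sum_filter, ← sum_sub_distrib, ← sum_sub_distrib]
  refine sum_congr rfl fun A _ => ?_
  by_cases h1 : c ∈ A <;> by_cases h2 : e ∈ A <;> by_cases h3 : f ∈ A <;> simp [h1, h2, h3]

lemma card_filter_le2 {c e f : α} (hce : c ≠ e) (hcf : c ≠ f) (hef : e ≠ f)
    (hc : c ∈ D) (he : e ∈ D) (hf : f ∈ D) :
    ((D.powersetCard k).filter (fun A => c ∈ A ∧ e ∈ A ∧ f ∉ A)).card
      ≤ (D.card - 3).choose (k - 2) := by
  have hcard : (((D.erase c).erase e).erase f).card = D.card - 3 := by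
    rw [card_erase_of_mem (mem_erase.mpr ⟨hef.symm, mem_erase.mpr ⟨hcf.symm, hf⟩⟩),
      card_erase_of_mem (mem_erase.mpr ⟨hce.symm, he⟩), card_erase_of_mem hc]
    omega
  rw [← hcard, ← card_powersetCard]
  refine card_le_card_of_injOn (fun A => (A.erase c).erase e) ?_ ?_
  · intro A hA
    rw [mem_coe, mem_filter, mem_powersetCard] at hA
    rw [mem_coe, mem_powersetCard]
    obtain ⟨⟨hsub, hk⟩, hcA, heA, hfA⟩ := hA
    refine ⟨?_, ?_⟩
    · intro x hx
      have hx1 := mem_erase.mp hx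
      have hx2 := mem_erase.mp hx1.2
      refine mem_erase.mpr ⟨?_, mem_erase.mpr ⟨hx1.1, mem_erase.mpr ⟨hx2.1, hsub hx2.2⟩⟩⟩
      rintro rfl
      exact hfA hx2.2
    · rw [card_erase_of_mem (mem_erase.mpr ⟨hce.symm, heA⟩), card_erase_of_mem hcA, hk]
      omega
  · intro A hA B hB hAB
    rw [mem_coe, mem_filter] at hA hB
    have h1 : e ∈ A.erase c := mem_erase.mpr ⟨hce.symm, hA.2.2.1⟩
    have h2 : e ∈ B.erase c := mem_erase.mpr ⟨hce.symm, hB.2.2.1⟩
    have h3 := congrArg (insert e) hAB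
    simp only at h3
    rw [insert_erase h1, insert_erase h2] at h3
    have h4 := congrArg (insert c) h3
    rwa [insert_erase hA.2.1, insert_erase hB.2.1] at h4

/-- Reordering the quadruple sum over `(c, e, f, A)` with `c, e ∈ A`, `f ∉ A`
(the summand does not depend on `c`). -/
lemma sum_quad (ψ : α → α → Finset α → ℝ) :
    ∑ c ∈ D, ∑ e ∈ D.erase c, ∑ f ∈ (D.erase c).erase e,
        ∑ A ∈ (D.powersetCard k).filter (fun A => c ∈ A ∧ e ∈ A ∧ f ∉ A), ψ e f A
      = ((k : ℝ) - 1) * ∑ A ∈ D.powersetCard k, ∑ e ∈ A, ∑ f ∈ D \ A, ψ e f A := by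
  have h1 : ∀ c ∈ D, ∑ e ∈ D.erase c, ∑ f ∈ (D.erase c).erase e,
        ∑ A ∈ (D.powersetCard k).filter (fun A => c ∈ A ∧ e ∈ A ∧ f ∉ A), ψ e f A
      = ∑ A ∈ D.powersetCard k, ∑ e ∈ D.erase c, ∑ f ∈ (D.erase c).erase e,
          if c ∈ A ∧ e ∈ A ∧ f ∉ A then ψ e f A else 0 := by
    intro c _
    rw [sum_comm]
    refine sum_congr rfl fun e _ => ?_
    rw [sum_comm]
    exact sum_congr rfl fun f _ => sum_filter _ _
  rw [sum_congr rfl h1, sum_comm, mul_sum]
  refine sum_congr rfl fun A hA => ?_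
  rw [mem_powersetCard] at hA
  rw [sum_offdiag_comm]
  have h2 : ∑ e ∈ A, ∑ f ∈ D \ A, ψ e f A
      = ∑ e ∈ D, if e ∈ A then ∑ f ∈ D \ A, ψ e f A else 0 := by
    rw [← sum_filter, filter_mem_eq_inter, inter_eq_right.mpr hA.1]
  rw [h2, mul_sum]
  refine sum_congr rfl fun e _ => ?_
  by_cases heA : e ∈ A
  · simp only [heA, true_and, if_true]
    have h3 : ∀ c ∈ D.erase e, ∑ f ∈ (D.erase c).erase e, (if c ∈ A ∧ f ∉ A then ψ e f A else 0)
        = if c ∈ A then ∑ f ∈ D \ A, ψ e f A else 0 := by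
      intro c _
      by_cases hcA : c ∈ A
      · simp only [hcA, true_and, if_true]
        rw [← sum_filter]
        refine sum_congr ?_ fun _ _ => rfl
        ext x
        simp only [mem_filter, mem_erase, mem_sdiff]
        constructor
        · rintro ⟨⟨_, _, hxD⟩, hxA⟩
          exact ⟨hxD, hxA⟩
        · rintro ⟨hxD, hxA⟩
          refine ⟨⟨?_, ?_, hxD⟩, hxA⟩
          · rintro rfl
            exact hxA heA
          · rintro rfl
            exact hxA hcA
      · simp [hcA]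
    rw [sum_congr rfl h3, ← sum_filter, filter_mem_eq_inter]
    have h4 : D.erase e ∩ A = A.erase e := by
      ext x
      simp only [mem_inter, mem_erase]
      constructor
      · rintro ⟨⟨hne, _⟩, hxA⟩
        exact ⟨hne, hxA⟩
      · rintro ⟨hne, hxA⟩
        exact ⟨⟨hne, hA.1 hxA⟩, hxA⟩
    rw [h4, sum_const, card_erase_of_mem heA, hA.2, nsmul_eq_mul]
    have hk : 1 ≤ k := by
      rw [← hA.2]; exact card_pos.mpr ⟨e, heA⟩
    rw [Nat.cast_sub hk, Nat.cast_one]
  · simp [heA]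

/-- Inequality (ii): `2(N-1) ∑ a_{ce}² - 2 (k-1)² ∑ a_c² ≤ C(N-3,k-2) (k-1) EE`. -/
lemma ineq_two :
    2 * ((D.card : ℝ) - 1) * S2 D k g - 2 * ((k : ℝ) - 1) ^ 2 * S1 D k g
      ≤ ((D.card - 3).choose (k - 2) : ℝ) * (((k : ℝ) - 1) * EE D k g) := by
  have hexp : ∑ c ∈ D, ∑ e ∈ D.erase c, ∑ f ∈ (D.erase c).erase e,
        (av2 D k g c e - av2 D k g c f) ^ 2
      = 2 * ((D.card : ℝ) - 1) * S2 D k g - 2 * ((k : ℝ) - 1) ^ 2 * S1 D k g := by
    have key : ∀ c ∈ D, ∑ e ∈ D.erase c, ∑ f ∈ (D.erase c).erase e,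
          (av2 D k g c e - av2 D k g c f) ^ 2
        = 2 * ((D.card : ℝ) - 1) * ∑ e ∈ D.erase c, av2 D k g c e ^ 2
          - 2 * ((k : ℝ) - 1) ^ 2 * av D k g c ^ 2 := by
      intro c hc
      have hs := sum_av2 D k g c
      have hin : ∀ e ∈ D.erase c, ∑ f ∈ (D.erase c).erase e,
            (av2 D k g c e - av2 D k g c f) ^ 2
          = ((D.card : ℝ) - 2) * av2 D k g c e ^ 2
            + (∑ f ∈ D.erase c, av2 D k g c f ^ 2 - av2 D k g c e ^ 2)
            - 2 * av2 D k g c e * (((k : ℝ) - 1) * av D k g c - av2 D k g c e) := by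
        intro e he
        have h1 : ∑ f ∈ (D.erase c).erase e, av2 D k g c f
            = ((k : ℝ) - 1) * av D k g c - av2 D k g c e := by
          rw [sum_erase_eq_sub he, hs]
        have h3 : ∑ f ∈ (D.erase c).erase e, av2 D k g c f ^ 2
            = ∑ f ∈ D.erase c, av2 D k g c f ^ 2 - av2 D k g c e ^ 2 := by
          rw [sum_erase_eq_sub he]
        have h4 : (((D.erase c).erase e).card : ℝ) = (D.card : ℝ) - 2 := by
          rw [card_erase_cast (D.erase c) he, card_erase_cast D hc]; ring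
        calc ∑ f ∈ (D.erase c).erase e, (av2 D k g c e - av2 D k g c f) ^ 2
            = ∑ f ∈ (D.erase c).erase e, (av2 D k g c e ^ 2 + av2 D k g c f ^ 2
                - 2 * av2 D k g c e * av2 D k g c f) := by
              refine sum_congr rfl fun f _ => ?_
              ring
          _ = _ := by
              simp only [sum_add_distrib, sum_sub_distrib, ← mul_sum, sum_const, nsmul_eq_mul,
                h1, h3, h4]
      rw [sum_congr rfl hin]
      have h5 := card_erase_cast D hc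
      simp only [sum_add_distrib, sum_sub_distrib, ← mul_sum, sum_const, nsmul_eq_mul, h5]
      have h6 : ∑ e ∈ D.erase c, av2 D k g c e * (((k : ℝ) - 1) * av D k g c - av2 D k g c e)
          = ((k : ℝ) - 1) * av D k g c * (((k : ℝ) - 1) * av D k g c)
            - ∑ e ∈ D.erase c, av2 D k g c e ^ 2 := by
        have : ∀ e ∈ D.erase c, av2 D k g c e * (((k : ℝ) - 1) * av D k g c - av2 D k g c e)
            = (((k : ℝ) - 1) * av D k g c) * av2 D k g c e - av2 D k g c e ^ 2 := by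
          intro e _; ring
        rw [sum_congr rfl this, sum_sub_distrib, ← mul_sum, hs]
      have h7 : ∑ e ∈ D.erase c, 2 * av2 D k g c e *
            (((k : ℝ) - 1) * av D k g c - av2 D k g c e)
          = 2 * ∑ e ∈ D.erase c, av2 D k g c e *
            (((k : ℝ) - 1) * av D k g c - av2 D k g c e) := by
        rw [mul_sum]
        exact sum_congr rfl fun e _ => by ring
      rw [h7, h6]
      ring
    rw [sum_congr rfl key]
    simp only [sum_sub_distrib, ← mul_sum]
    unfold S1 S2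
    ring
  rw [← hexp]
  calc ∑ c ∈ D, ∑ e ∈ D.erase c, ∑ f ∈ (D.erase c).erase e,
        (av2 D k g c e - av2 D k g c f) ^ 2
      ≤ ∑ c ∈ D, ∑ e ∈ D.erase c, ∑ f ∈ (D.erase c).erase e,
          ((D.card - 3).choose (k - 2) : ℝ) *
          ∑ A ∈ (D.powersetCard k).filter (fun A => c ∈ A ∧ e ∈ A ∧ f ∉ A),
            (g A - g (insert f (A.erase e))) ^ 2 := by
        refine sum_le_sum fun c hc => sum_le_sum fun e he => sum_le_sum fun f hf => ?_
        have hce : c ≠ e := fun h => (mem_erase.mp he).1 h.symm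
        have heD : e ∈ D := (mem_erase.mp he).2
        have hef : e ≠ f := fun h => (mem_erase.mp hf).1 h.symm
        have hf' := (mem_erase.mp hf).2
        have hcf : c ≠ f := fun h => (mem_erase.mp hf').1 h.symm
        have hfD : f ∈ D := (mem_erase.mp hf').2
        rw [av2_sub_av2 D k g hce hcf hef heD hfD]
        refine le_trans sq_sum_le_card_mul_sum_sq ?_
        refine mul_le_mul_of_nonneg_right ?_ (sum_nonneg fun _ _ => sq_nonneg _)
        exact_mod_cast card_filter_le2 D k hce hcf hef hc heD hfD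
    _ = ((D.card - 3).choose (k - 2) : ℝ) * (((k : ℝ) - 1) * EE D k g) := by
        simp only [← mul_sum]
        rw [sum_quad D k (fun e f A => (g A - g (insert f (A.erase e))) ^ 2)]
        rfl

/-! ### The main case `1 ≤ k ≤ N/2` -/

omit [DecidableEq α] in
lemma choose_rel (hk : 2 ≤ k) (hN : 3 ≤ D.card) :
    ((D.card - 3).choose (k - 2) : ℝ) * ((D.card : ℝ) - 2)
      = ((D.card - 2).choose (k - 1) : ℝ) * ((k : ℝ) - 1) := by
  have h := Nat.add_one_mul_choose_eq (D.card - 3) (k - 2)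
  have e1 : D.card - 3 + 1 = D.card - 2 := by omega
  have e2 : k - 2 + 1 = k - 1 := by omega
  rw [e1, e2] at h
  have h' : (((D.card - 2 : ℕ) : ℝ)) * ((D.card - 3).choose (k - 2) : ℝ)
      = ((D.card - 2).choose (k - 1) : ℝ) * (((k - 1 : ℕ)) : ℝ) := by
    exact_mod_cast h
  have c1 : (((D.card - 2 : ℕ)) : ℝ) = (D.card : ℝ) - 2 := by
    rw [Nat.cast_sub (by omega)]; norm_num
  have c2 : (((k - 1 : ℕ)) : ℝ) = (k : ℝ) - 1 := by
    rw [Nat.cast_sub (by omega)]; norm_num
  rw [c1, c2] at h'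
  linarith

lemma johnson_slice_small (hk1 : 1 ≤ k) (hk2 : 2 * k ≤ D.card)
    (hg : ∑ A ∈ D.powersetCard k, g A = 0) :
    ∑ c ∈ D, ∑ e ∈ D.erase c, sv D k g c e ^ 2
      ≤ ((D.card - 2).choose (k - 1) : ℝ) * EE D k g := by
  rw [T_expand D k g hg]
  have hI := ineq_one D k g hg
  have hII := ineq_two D k g
  have hx := S1_nonneg D k g
  have hw := S2_nonneg D k g
  have hE := EE_nonneg D k g
  have hC1 : (0 : ℝ) ≤ ((D.card - 2).choose (k - 1) : ℝ) := Nat.cast_nonneg _
  have hC2 : (0 : ℝ) ≤ ((D.card - 3).choose (k - 2) : ℝ) := Nat.cast_nonneg _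
  have hκ1 : (1 : ℝ) ≤ (k : ℝ) := by exact_mod_cast hk1
  have hκ2 : 2 * (k : ℝ) ≤ (D.card : ℝ) := by exact_mod_cast hk2
  rcases Nat.lt_or_ge D.card 3 with hN | hN
  · -- `N = 2`, `k = 1`
    have hNeq : D.card = 2 := by omega
    have hkeq : k = 1 := by omega
    have hn : (D.card : ℝ) = 2 := by exact_mod_cast hNeq
    have hκ : (k : ℝ) = 1 := by exact_mod_cast hkeq
    rw [hn, hκ] at hII ⊢
    have hy := mul_nonneg hC1 hE
    nlinarith
  · -- `N ≥ 3`
    have hn3 : (3 : ℝ) ≤ (D.card : ℝ) := by exact_mod_cast hN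
    -- the relation between the two binomial coefficients, in the form we need
    have hrel : ((D.card - 3).choose (k - 2) : ℝ) * (((k : ℝ) - 1) * EE D k g)
          * ((D.card : ℝ) - 2)
        = ((k : ℝ) - 1) ^ 2 * (((D.card - 2).choose (k - 1) : ℝ) * EE D k g) := by
      rcases Nat.lt_or_ge k 2 with hk | hk
      · have hkeq : k = 1 := by omega
        have hκ : (k : ℝ) = 1 := by exact_mod_cast hkeq
        rw [hκ]; ring
      · have h := choose_rel D k hk hN
        calc ((D.card - 3).choose (k - 2) : ℝ) * (((k : ℝ) - 1) * EE D k g)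
              * ((D.card : ℝ) - 2)
            = (((D.card - 3).choose (k - 2) : ℝ) * ((D.card : ℝ) - 2))
                * (((k : ℝ) - 1) * EE D k g) := by ring
          _ = _ := by rw [h]; ring
    set n : ℝ := (D.card : ℝ) with hn_def
    set κ : ℝ := (k : ℝ) with hκ_def
    set x : ℝ := S1 D k g with hx_def
    set w : ℝ := S2 D k g with hw_def
    set y : ℝ := ((D.card - 2).choose (k - 1) : ℝ) * EE D k g with hy_def
    have hy : 0 ≤ y := mul_nonneg hC1 hE
    -- (★): 2(n-1)(n-2) w ≤ 2(κ-1)²(n-2) x + (κ-1)² y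
    have hstar : 2 * (n - 1) * (n - 2) * w ≤ 2 * (κ - 1) ^ 2 * (n - 2) * x + (κ - 1) ^ 2 * y := by
      have h1 : (2 * (n - 1) * w - 2 * (κ - 1) ^ 2 * x) * (n - 2)
          ≤ ((D.card - 3).choose (k - 2) : ℝ) * ((κ - 1) * EE D k g) * (n - 2) :=
        mul_le_mul_of_nonneg_right hII (by linarith)
      rw [hrel] at h1
      nlinarith
    have ha : 2 * (κ - 1) ^ 2 ≤ (n - 1) * (n - 2) := by
      nlinarith [mul_nonneg (by linarith : (0 : ℝ) ≤ n - 2 - 2 * (κ - 1))
        (by linarith : (0 : ℝ) ≤ n - 2 + 2 * (κ - 1))]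
    have hb : (n - 2) * (1 - 2 * κ) + 2 * (κ - 1) ^ 2 ≤ 0 := by
      nlinarith [mul_nonneg (by linarith : (0 : ℝ) ≤ n - 2 - 2 * (κ - 1))
        (by linarith : (0 : ℝ) ≤ 2 * κ - 1), mul_nonneg (by linarith : (0 : ℝ) ≤ κ - 1)
        (by linarith : (0 : ℝ) ≤ κ)]
    have hpos : 0 < (n - 1) * (n - 2) := by nlinarith
    -- multiply the goal by (n-1)(n-2)
    refine le_of_mul_le_mul_left ?_ hpos
    set P : ℝ := 2 * (n - 2) * ((n - 1) * (n - 4 * κ + 2) + 2 * (κ - 1) ^ 2) with hP_def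
    have hstep : (n - 1) * (n - 2) * (2 * (n - 4 * κ + 2) * x + 4 * w)
        ≤ P * x + 2 * (κ - 1) ^ 2 * y := by
      rw [hP_def]; nlinarith
    refine le_trans hstep ?_
    rcases le_or_gt P 0 with hP | hP
    · have h1 : P * x ≤ 0 := mul_nonpos_of_nonpos_of_nonneg hP hx
      have h2 : 2 * (κ - 1) ^ 2 * y ≤ (n - 1) * (n - 2) * y :=
        mul_le_mul_of_nonneg_right ha hy
      linarith
    · -- `2 n x ≤ y`, so `2 n P x ≤ P y`
      have h1 : P * (2 * n * x) ≤ P * y := mul_le_mul_of_nonneg_left hI hP.le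
      have h2 : (P + 4 * n * (κ - 1) ^ 2 - 2 * n * ((n - 1) * (n - 2))) * y ≤ 0 := by
        have h3 : P + 4 * n * (κ - 1) ^ 2 - 2 * n * ((n - 1) * (n - 2))
            = 4 * (n - 1) * ((n - 2) * (1 - 2 * κ) + 2 * (κ - 1) ^ 2) := by
          rw [hP_def]; ring
        rw [h3]
        have h4 : 4 * (n - 1) * ((n - 2) * (1 - 2 * κ) + 2 * (κ - 1) ^ 2) ≤ 0 :=
          mul_nonpos_of_nonneg_of_nonpos (by linarith) hb
        exact mul_nonpos_of_nonpos_of_nonneg h4 hy
      have hn0 : 0 < 2 * n := by linarith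
      refine le_of_mul_le_mul_left ?_ hn0
      nlinarith

/-! ### Degenerate cases and the complement symmetry -/

lemma sv_eq_zero_of_degenerate (h : k = 0 ∨ D.card ≤ k) {c e : α} (hc : c ∈ D) (he : e ∈ D) :
    sv D k g c e = 0 := by
  unfold sv
  refine sum_eq_zero fun A hA => ?_
  exfalso
  rw [mem_filter, mem_powersetCard] at hA
  obtain ⟨⟨hsub, hcard⟩, hP⟩ := hA
  rcases h with h | h
  · subst h
    have hA0 : A = ∅ := card_eq_zero.mp hcard
    subst hA0
    rcases hP with ⟨h1, _⟩ | ⟨_, h2⟩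
    · exact notMem_empty _ h1
    · exact notMem_empty _ h2
  · have hAD : A = D := eq_of_subset_of_card_le hsub (by rw [hcard]; exact h)
    subst hAD
    rcases hP with ⟨_, h2⟩ | ⟨h1, _⟩
    · exact h2 he
    · exact h1 hc

/-- Reindexing along the complement `B ↦ D \ B`. -/
lemma sum_compl (hk : k ≤ D.card) (h : Finset α → ℝ) :
    ∑ B ∈ D.powersetCard (D.card - k), h (D \ B) = ∑ A ∈ D.powersetCard k, h A := by
  refine sum_nbij' (fun B => D \ B) (fun A => D \ A) ?_ ?_ ?_ ?_ ?_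
  · intro B hB
    rw [mem_powersetCard] at hB ⊢
    refine ⟨sdiff_subset, ?_⟩
    rw [card_sdiff_of_subset hB.1, hB.2]
    omega
  · intro A hA
    rw [mem_powersetCard] at hA ⊢
    refine ⟨sdiff_subset, ?_⟩
    rw [card_sdiff_of_subset hA.1, hA.2]
  · intro B hB
    rw [mem_powersetCard] at hB
    exact Finset.sdiff_sdiff_eq_self hB.1
  · intro A hA
    rw [mem_powersetCard] at hA
    exact Finset.sdiff_sdiff_eq_self hA.1
  · intro B _
    rfl

lemma sv_compl (hk : k ≤ D.card) {c e : α} (hc : c ∈ D) (he : e ∈ D) :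
    sv D (D.card - k) (fun B => g (D \ B)) c e = sv D k g c e := by
  unfold sv
  rw [sum_filter, sum_filter,
    ← sum_compl D k hk (fun A => if (c ∈ A ∧ e ∉ A) ∨ (c ∉ A ∧ e ∈ A) then g A else 0)]
  refine sum_congr rfl fun B _ => ?_
  have h1 : c ∈ D \ B ↔ c ∉ B := by simp [hc]
  have h2 : e ∈ D \ B ↔ e ∉ B := by simp [he]
  have hiff : ((c ∈ B ∧ e ∉ B) ∨ (c ∉ B ∧ e ∈ B)) ↔
      ((c ∈ D \ B ∧ e ∉ D \ B) ∨ (c ∉ D \ B ∧ e ∈ D \ B)) := by
    rw [h1, h2]; tauto
  by_cases hP : (c ∈ B ∧ e ∉ B) ∨ (c ∉ B ∧ e ∈ B)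
  · rw [if_pos hP, if_pos (hiff.mp hP)]
  · rw [if_neg hP, if_neg (fun h => hP (hiff.mpr h))]

lemma EE_compl (hk : k ≤ D.card) :
    EE D (D.card - k) (fun B => g (D \ B)) = EE D k g := by
  unfold EE
  rw [← sum_compl D k hk
    (fun A => ∑ c ∈ A, ∑ e ∈ D \ A, (g A - g (insert e (A.erase c))) ^ 2)]
  refine sum_congr rfl fun B hB => ?_
  rw [mem_powersetCard] at hB
  beta_reduce
  rw [Finset.sdiff_sdiff_eq_self hB.1, sum_comm]
  refine sum_congr rfl fun v hv => sum_congr rfl fun u hu => ?_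
  -- `v ∈ D \ B`, `u ∈ B`
  have hvD : v ∈ D := (mem_sdiff.mp hv).1
  have hvB : v ∉ B := (mem_sdiff.mp hv).2
  have huv : u ≠ v := fun h => hvB (h ▸ hu)
  have hset : D \ insert v (B.erase u) = insert u ((D \ B).erase v) := by
    ext x
    simp only [mem_sdiff, mem_insert, mem_erase, not_or, not_and]
    constructor
    · rintro ⟨hxD, hxv, hx⟩
      by_cases hxu : x = u
      · exact Or.inl hxu
      · exact Or.inr ⟨hxv, hxD, hx hxu⟩
    · rintro (rfl | ⟨hxv, hxD, hxB⟩)
      · exact ⟨hB.1 hu, huv, fun h => absurd rfl h⟩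
      · exact ⟨hxD, hxv, fun _ => hxB⟩
  rw [hset]

/-- **The Johnson-slice lemma** (Lemma J): for `g` on the `k`-subsets of `D` with `∑ g = 0`,
`∑_{c ≠ e} (∑_{A ∈ M_{ce}} g A)² ≤ C(N-2,k-1) · (ordered Johnson-edge energy of g)`. -/
theorem johnson_slice (hg : ∑ A ∈ D.powersetCard k, g A = 0) :
    ∑ c ∈ D, ∑ e ∈ D.erase c,
        (∑ A ∈ (D.powersetCard k).filter (fun A => (c ∈ A ∧ e ∉ A) ∨ (c ∉ A ∧ e ∈ A)), g A) ^ 2
      ≤ ((D.card - 2).choose (k - 1) : ℝ) *
          ∑ A ∈ D.powersetCard k, ∑ c ∈ A, ∑ e ∈ D \ A, (g A - g (insert e (A.erase c))) ^ 2 := by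
  change ∑ c ∈ D, ∑ e ∈ D.erase c, sv D k g c e ^ 2
      ≤ ((D.card - 2).choose (k - 1) : ℝ) * EE D k g
  by_cases h0 : k = 0 ∨ D.card ≤ k
  · have hz : ∑ c ∈ D, ∑ e ∈ D.erase c, sv D k g c e ^ 2 = 0 := by
      refine sum_eq_zero fun c hc => sum_eq_zero fun e he => ?_
      rw [sv_eq_zero_of_degenerate D k g h0 hc (mem_erase.mp he).2]
      norm_num
    rw [hz]
    exact mul_nonneg (Nat.cast_nonneg _) (EE_nonneg D k g)
  · obtain ⟨hk0, hkN'⟩ := not_or.mp h0
    have hkN : k < D.card := not_le.mp hkN'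
    by_cases h2 : 2 * k ≤ D.card
    · exact johnson_slice_small D k g (by omega) h2 hg
    · -- pass to complements
      have hk : k ≤ D.card := hkN.le
      have hg' : ∑ B ∈ D.powersetCard (D.card - k), (fun B => g (D \ B)) B = 0 := by
        rw [sum_compl D k hk g]; exact hg
      have key := johnson_slice_small D (D.card - k) (fun B => g (D \ B)) (by omega) (by omega) hg'
      rw [EE_compl D k g hk] at key
      have hch : (D.card - 2).choose (D.card - k - 1) = (D.card - 2).choose (k - 1) := by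
        have h := Nat.choose_symm (n := D.card - 2) (k := k - 1) (by omega)
        have e : D.card - 2 - (k - 1) = D.card - k - 1 := by omega
        rw [e] at h
        exact h
      rw [hch] at key
      refine le_trans (le_of_eq ?_) key
      refine sum_congr rfl fun c hc => sum_congr rfl fun e he => ?_
      rw [sv_compl D k g hk hc (mem_erase.mp he).2]

/-- Lemma J for an arbitrary `F`, centred by its mean `m` over the `k`-subsets. -/
theorem johnson_slice_mean (F : Finset α → ℝ) (m : ℝ)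
    (hm : ∑ A ∈ D.powersetCard k, F A = ((D.powersetCard k).card : ℝ) * m) :
    ∑ c ∈ D, ∑ e ∈ D.erase c,
        (∑ A ∈ (D.powersetCard k).filter (fun A => (c ∈ A ∧ e ∉ A) ∨ (c ∉ A ∧ e ∈ A)),
          (F A - m)) ^ 2
      ≤ ((D.card - 2).choose (k - 1) : ℝ) *
          ∑ A ∈ D.powersetCard k, ∑ c ∈ A, ∑ e ∈ D \ A, (F A - F (insert e (A.erase c))) ^ 2 := by
  have hg : ∑ A ∈ D.powersetCard k, (fun A => F A - m) A = 0 := by
    simp only [sum_sub_distrib, sum_const, nsmul_eq_mul]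
    rw [hm]; ring
  have h := johnson_slice D k (fun A => F A - m) hg
  refine le_trans h (le_of_eq ?_)
  congr 1
  refine sum_congr rfl fun A _ => sum_congr rfl fun c _ => sum_congr rfl fun e _ => ?_
  ring

end Crest.Agent.S0453J
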