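import Mathlib
import Crest.Agent.S0453.JohnsonSlice

/-!
Row 299 / S0453 — module [J-GRAPH] (helper47), abstract layers.

Class form of the Johnson-slice lemma (Lemma J of board post 956) on `D.powersetCard k`
(`johnson_class`, `johnson_class_pairs`), and its transport along a bijection from an arbitrary
finite class onto `D.powersetCard k` (`johnson_transport`).  Imports Mathlib and the
Mathlib-only file `JohnsonSlice.lean` (helper18) only.
-/

set_option autoImplicit false
open Finset

namespace Crest.Agent.S0453R.JGraph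

variable {α : Type*} [DecidableEq α]

/-- the slice `{A ∈ D.powersetCard k : exactly one of c, e lies in A}` -/
def xorSlice (D : Finset α) (k : ℕ) (c e : α) : Finset (Finset α) :=
  (D.powersetCard k).filter (fun A => (c ∈ A ∧ e ∉ A) ∨ (c ∉ A ∧ e ∈ A))

lemma card_in_out (D : Finset α) (k : ℕ) (hk : 1 ≤ k) {c e : α} (hc : c ∈ D) (he : e ∈ D)
    (hce : c ≠ e) :
    ((D.powersetCard k).filter (fun A => c ∈ A ∧ e ∉ A)).card = (D.card - 2).choose (k - 1) := by
  have hcard : ((D.erase c).erase e).card = D.card - 2 := by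
    rw [card_erase_of_mem (mem_erase.mpr ⟨hce.symm, he⟩), card_erase_of_mem hc]
    omega
  rw [← hcard, ← card_powersetCard]
  apply card_nbij' (fun A => A.erase c) (fun B => insert c B)
  · intro A hA
    simp only [mem_coe, mem_filter, mem_powersetCard] at hA
    obtain ⟨⟨hAD, hAk⟩, hcA, heA⟩ := hA
    simp only [mem_coe, mem_powersetCard]
    refine ⟨?_, ?_⟩
    · intro x hx
      rw [mem_erase] at hx
      rw [mem_erase, mem_erase]
      refine ⟨?_, hx.1, hAD hx.2⟩
      rintro rfl
      exact heA hx.2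
    · rw [card_erase_of_mem hcA, hAk]
  · intro B hB
    simp only [mem_coe, mem_powersetCard] at hB
    obtain ⟨hBD, hBk⟩ := hB
    have hcB : c ∉ B := fun h => by
      have := hBD h
      rw [mem_erase, mem_erase] at this
      exact this.2.1 rfl
    have heB : e ∉ B := fun h => by
      have := hBD h
      rw [mem_erase] at this
      exact this.1 rfl
    simp only [mem_coe, mem_filter, mem_powersetCard]
    refine ⟨⟨?_, ?_⟩, mem_insert_self _ _, ?_⟩
    · intro x hx
      rw [mem_insert] at hx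
      rcases hx with rfl | hx
      · exact hc
      · have := hBD hx
        rw [mem_erase, mem_erase] at this
        exact this.2.2
    · rw [card_insert_of_notMem hcB, hBk]; omega
    · rw [mem_insert]
      rintro (h | h)
      · exact hce h.symm
      · exact heB h
  · intro A hA
    simp only [mem_coe, mem_filter, mem_powersetCard] at hA
    exact insert_erase hA.2.1
  · intro B hB
    simp only [mem_coe, mem_powersetCard] at hB
    have hcB : c ∉ B := fun h => by
      have := hB.1 h
      rw [mem_erase, mem_erase] at this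
      exact this.2.1 rfl
    exact erase_insert hcB

lemma card_xorSlice (D : Finset α) (k : ℕ) (hk : 1 ≤ k) {c e : α} (hc : c ∈ D) (he : e ∈ D)
    (hce : c ≠ e) :
    (xorSlice D k c e).card = 2 * (D.card - 2).choose (k - 1) := by
  unfold xorSlice
  rw [filter_or, card_union_of_disjoint, card_in_out D k hk hc he hce]
  · have h2 : ((D.powersetCard k).filter (fun A => c ∉ A ∧ e ∈ A))
        = (D.powersetCard k).filter (fun A => e ∈ A ∧ c ∉ A) := by
      apply filter_congr; intro A _; exact and_comm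
    rw [h2, card_in_out D k hk he hc hce.symm]; ring
  · rw [disjoint_filter]
    intro A _ h1 h2
    exact h2.1 h1.1


/-- **Class form of Lemma J** on `D.powersetCard k`.  Ordered pairs `(c, e)` on the left,
ordered Johnson moves on the right. -/
theorem johnson_class (D : Finset α) (k : ℕ) (F : Finset α → ℝ) :
    ∑ c ∈ D, ∑ e ∈ D.erase c, ∑ _A ∈ xorSlice D k c e,
        ((∑ B ∈ xorSlice D k c e, F B) / (xorSlice D k c e).card
          - (∑ B ∈ D.powersetCard k, F B) / (D.powersetCard k).card) ^ 2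
      ≤ (1 / 2) * ∑ A ∈ D.powersetCard k, ∑ c ∈ A, ∑ e ∈ D \ A,
          (F A - F (insert e (A.erase c))) ^ 2 := by
  classical
  set K := D.powersetCard k with hK
  set m : ℝ := (∑ B ∈ K, F B) / K.card with hm
  have hg0 : ∑ A ∈ K, (F A - m) = 0 := by
    rw [sum_sub_distrib, sum_const, nsmul_eq_mul]
    by_cases hK0 : K.card = 0
    · have : K = ∅ := card_eq_zero.mp hK0
      simp [this]
    · have : (K.card : ℝ) ≠ 0 := by exact_mod_cast hK0
      rw [hm]; field_simp; ring
  have hJ' := Crest.Agent.S0453J.johnson_slice D k (fun A => F A - m) hg0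
  change ∑ c ∈ D, ∑ e ∈ D.erase c, (∑ A ∈ xorSlice D k c e, (F A - m)) ^ 2 ≤ _ at hJ'
  have hEE : ∑ A ∈ K, ∑ c ∈ A, ∑ e ∈ D \ A,
        ((F A - m) - (F (insert e (A.erase c)) - m)) ^ 2
      = ∑ A ∈ K, ∑ c ∈ A, ∑ e ∈ D \ A, (F A - F (insert e (A.erase c))) ^ 2 := by
    refine sum_congr rfl fun A _ => sum_congr rfl fun c _ => sum_congr rfl fun e _ => ?_
    ring
  rw [hEE] at hJ'
  set EE := ∑ A ∈ K, ∑ c ∈ A, ∑ e ∈ D \ A, (F A - F (insert e (A.erase c))) ^ 2 with hEEdef
  have hEE0 : 0 ≤ EE :=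
    sum_nonneg fun A _ => sum_nonneg fun c _ => sum_nonneg fun e _ => sq_nonneg _
  rcases Nat.eq_zero_or_pos k with hk0 | hk1
  · have hempty : ∀ c e, xorSlice D k c e = ∅ := by
      intro c e
      unfold xorSlice
      rw [filter_eq_empty_iff]
      intro A hA
      rw [hk0, powersetCard_zero, mem_singleton] at hA
      subst hA
      simp
    simp only [hempty, sum_empty, sum_const_zero]
    positivity
  · set C := (D.card - 2).choose (k - 1) with hC
    have hterm : ∀ c ∈ D, ∀ e ∈ D.erase c,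
        ∑ _A ∈ xorSlice D k c e,
            ((∑ B ∈ xorSlice D k c e, F B) / (xorSlice D k c e).card - m) ^ 2
          = (∑ A ∈ xorSlice D k c e, (F A - m)) ^ 2 / (2 * C) := by
      intro c hc e he
      have hce : c ≠ e := (ne_of_mem_erase he).symm
      have hcard : (xorSlice D k c e).card = 2 * C :=
        card_xorSlice D k hk1 hc (mem_of_mem_erase he) hce
      rw [sum_const, nsmul_eq_mul, sum_sub_distrib, sum_const, nsmul_eq_mul, hcard]
      push_cast
      by_cases hC0 : C = 0
      · simp [hC0]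
      · have hCne : (C : ℝ) ≠ 0 := by exact_mod_cast hC0
        field_simp
    rw [sum_congr rfl (fun c hc => sum_congr rfl (fun e he => hterm c hc e he))]
    simp only [← sum_div]
    by_cases hC0 : C = 0
    · simp only [hC0, Nat.cast_zero, mul_zero, div_zero]
      positivity
    · have hCpos : (0 : ℝ) < C := by exact_mod_cast Nat.pos_of_ne_zero hC0
      rw [div_le_iff₀ (by positivity)]
      calc _ ≤ (C : ℝ) * EE := hJ'
        _ = 1 / 2 * EE * (2 * C) := by ring

/-! ### Unordered pairs -/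

/-- the slice `{A ∈ D.powersetCard k : exactly one element of the pair b' lies in A}` -/
def pairSlice (D : Finset α) (k : ℕ) (b' : Finset α) : Finset (Finset α) :=
  (D.powersetCard k).filter (fun A => (b' ∩ A).card = 1)

lemma card_pair_inter {c e : α} (hce : c ≠ e) (A : Finset α) :
    (({c, e} : Finset α) ∩ A).card = 1 ↔ (c ∈ A ∧ e ∉ A) ∨ (c ∉ A ∧ e ∈ A) := by
  by_cases hc : c ∈ A <;> by_cases he : e ∈ A
  · have : ({c, e} : Finset α) ∩ A = {c, e} := by
      rw [inter_eq_left]
      intro x hx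
      rw [mem_insert, mem_singleton] at hx
      rcases hx with rfl | rfl <;> assumption
    rw [this, card_pair hce]
    simp [hc, he]
  · rw [insert_inter_of_mem hc, singleton_inter_of_notMem he]
    simp [hc, he]
  · rw [insert_inter_of_notMem hc, singleton_inter_of_mem he]
    simp [hc, he]
  · rw [insert_inter_of_notMem hc, singleton_inter_of_notMem he]
    simp [hc, he]

lemma pairSlice_pair (D : Finset α) (k : ℕ) {c e : α} (hce : c ≠ e) :
    pairSlice D k {c, e} = xorSlice D k c e := by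
  unfold pairSlice xorSlice
  exact filter_congr fun A _ => card_pair_inter hce A

lemma symmDiff_pair_of_mem {c e : α} {A : Finset α} (hc : c ∈ A) (he : e ∉ A) :
    symmDiff A {c, e} = insert e (A.erase c) := by
  ext x
  simp only [Finset.mem_symmDiff, mem_insert, mem_singleton, mem_erase]
  constructor
  · rintro (⟨hxA, hx⟩ | ⟨hx, hxA⟩)
    · rw [not_or] at hx
      exact Or.inr ⟨hx.1, hxA⟩
    · rcases hx with rfl | rfl
      · exact absurd hc hxA
      · exact Or.inl rfl
  · rintro (rfl | ⟨hxc, hxA⟩)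
    · exact Or.inr ⟨Or.inr rfl, he⟩
    · refine Or.inl ⟨hxA, ?_⟩
      rintro (h | rfl)
      · exact hxc h
      · exact he hxA

/-- ordered pairs of distinct elements versus 2-subsets -/
lemma sum_offDiag_pair (D : Finset α) (T : Finset α → ℝ) :
    ∑ c ∈ D, ∑ e ∈ D.erase c, T {c, e} = 2 * ∑ b' ∈ D.powersetCard 2, T b' := by
  have h1 : ∀ b' ∈ D.powersetCard 2, ∑ c ∈ b', ∑ e ∈ b'.erase c, T {c, e} = 2 * T b' := by
    intro b' hb'
    rw [mem_powersetCard] at hb'
    obtain ⟨x, y, hxy, rfl⟩ := card_eq_two.mp hb'.2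
    have e1 : ({x, y} : Finset α).erase x = {y} := by
      ext z
      simp only [mem_erase, mem_insert, mem_singleton]
      constructor
      · rintro ⟨h1, h2 | h2⟩
        · exact absurd h2 h1
        · exact h2
      · rintro rfl
        exact ⟨hxy.symm, Or.inr rfl⟩
    have e2 : ({x, y} : Finset α).erase y = {x} := by
      ext z
      simp only [mem_erase, mem_insert, mem_singleton]
      constructor
      · rintro ⟨h1, h2 | h2⟩
        · exact h2
        · exact absurd h2 h1
      · rintro rfl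
        exact ⟨hxy, Or.inl rfl⟩
    rw [sum_pair hxy, e1, e2, sum_singleton, sum_singleton, pair_comm y x]
    ring
  rw [mul_sum, ← sum_congr rfl h1]
  -- swap the order of summation twice
  have h2 : ∑ b' ∈ D.powersetCard 2, ∑ c ∈ b', ∑ e ∈ b'.erase c, T {c, e}
      = ∑ c ∈ D, ∑ b' ∈ (D.powersetCard 2).filter (fun b' => c ∈ b'),
          ∑ e ∈ b'.erase c, T {c, e} := by
    apply sum_comm'
    intro b' c
    simp only [mem_filter, mem_powersetCard]
    constructor
    · rintro ⟨⟨hs, hcard⟩, hc⟩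
      exact ⟨⟨⟨hs, hcard⟩, hc⟩, hs hc⟩
    · rintro ⟨⟨⟨hs, hcard⟩, hc⟩, -⟩
      exact ⟨⟨hs, hcard⟩, hc⟩
  rw [h2]
  refine sum_congr rfl fun c hc => ?_
  have h3 : ∑ b' ∈ (D.powersetCard 2).filter (fun b' => c ∈ b'), ∑ e ∈ b'.erase c, T {c, e}
      = ∑ e ∈ D.erase c, ∑ _b' ∈ (D.powersetCard 2).filter (fun b' => c ∈ b' ∧ e ∈ b'),
          T {c, e} := by
    apply sum_comm'
    intro b' e
    simp only [mem_filter, mem_powersetCard, mem_erase]
    constructor
    · rintro ⟨⟨⟨hs, hcard⟩, hc⟩, hec, he⟩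
      exact ⟨⟨⟨hs, hcard⟩, hc, he⟩, hec, hs he⟩
    · rintro ⟨⟨⟨hs, hcard⟩, hc, he⟩, hec, -⟩
      exact ⟨⟨⟨hs, hcard⟩, hc⟩, hec, he⟩
  rw [h3]
  refine sum_congr rfl fun e he => ?_
  rw [mem_erase] at he
  have h4 : (D.powersetCard 2).filter (fun b' => c ∈ b' ∧ e ∈ b') = {{c, e}} := by
    ext b'
    simp only [mem_filter, mem_powersetCard, mem_singleton]
    constructor
    · rintro ⟨⟨-, hcard⟩, hcb, heb⟩
      symm
      apply eq_of_subset_of_card_le
      · intro x hx
        rw [mem_insert, mem_singleton] at hx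
        rcases hx with rfl | rfl <;> assumption
      · rw [hcard, card_pair he.1.symm]
    · rintro rfl
      refine ⟨⟨?_, card_pair he.1.symm⟩, mem_insert_self _ _, ?_⟩
      · intro x hx
        rw [mem_insert, mem_singleton] at hx
        rcases hx with rfl | rfl
        · exact hc
        · exact he.2
      · exact mem_insert_of_mem (mem_singleton_self _)
  rw [h4, sum_singleton]

/-- the ordered sum over the xor-slices of the symmetric-difference moves is twice the ordered
Johnson energy -/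
lemma sum_xor_symmDiff (D : Finset α) (k : ℕ) (F : Finset α → ℝ) :
    ∑ c ∈ D, ∑ e ∈ D.erase c, ∑ A ∈ xorSlice D k c e, (F A - F (symmDiff A {c, e})) ^ 2
      = 2 * ∑ A ∈ D.powersetCard k, ∑ c ∈ A, ∑ e ∈ D \ A,
          (F A - F (insert e (A.erase c))) ^ 2 := by
  have hsplit : ∀ c e : α, ∑ A ∈ xorSlice D k c e, (F A - F (symmDiff A {c, e})) ^ 2
      = ∑ A ∈ (D.powersetCard k).filter (fun A => c ∈ A ∧ e ∉ A),
          (F A - F (insert e (A.erase c))) ^ 2
        + ∑ A ∈ (D.powersetCard k).filter (fun A => e ∈ A ∧ c ∉ A),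
          (F A - F (insert c (A.erase e))) ^ 2 := by
    intro c e
    unfold xorSlice
    rw [filter_or, sum_union]
    · congr 1
      · refine sum_congr rfl fun A hA => ?_
        rw [mem_filter] at hA
        rw [symmDiff_pair_of_mem hA.2.1 hA.2.2]
      · have hf : (D.powersetCard k).filter (fun A => c ∉ A ∧ e ∈ A)
            = (D.powersetCard k).filter (fun A => e ∈ A ∧ c ∉ A) :=
          filter_congr fun A _ => and_comm
        rw [hf]
        refine sum_congr rfl fun A hA => ?_
        rw [mem_filter] at hA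
        rw [pair_comm c e, symmDiff_pair_of_mem hA.2.1 hA.2.2]
    · rw [disjoint_filter]
      intro A _ h1 h2
      exact h2.1 h1.1
  simp only [hsplit, sum_add_distrib]
  have hswap : ∑ c ∈ D, ∑ e ∈ D.erase c,
        ∑ A ∈ (D.powersetCard k).filter (fun A => e ∈ A ∧ c ∉ A),
          (F A - F (insert c (A.erase e))) ^ 2
      = ∑ e ∈ D, ∑ c ∈ D.erase e,
        ∑ A ∈ (D.powersetCard k).filter (fun A => e ∈ A ∧ c ∉ A),
          (F A - F (insert c (A.erase e))) ^ 2 := by
    apply sum_comm'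
    intro c e
    simp only [mem_erase]
    constructor
    · rintro ⟨hc, hec, he⟩
      exact ⟨⟨fun h => hec h.symm, hc⟩, he⟩
    · rintro ⟨⟨hce, hc⟩, he⟩
      exact ⟨hc, fun h => hce h.symm, he⟩
  rw [hswap,
    Crest.Agent.S0453J.sum_triple D k (fun c e A => (F A - F (insert e (A.erase c))) ^ 2)]
  ring

/-- **Class form of Lemma J, unordered pairs**: on `K = D.powersetCard k`, the sum over the
2-subsets `b'` of `D` of `∑_{A ∈ slice b'} (mean_{slice b'} F − mean_K F)²` is at most a quarter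
of the sum over `b'` of the `b'`-move energy `∑_{A ∈ slice b'} (F A − F (A ∆ b'))²`. -/
theorem johnson_class_pairs (D : Finset α) (k : ℕ) (F : Finset α → ℝ) :
    ∑ b' ∈ D.powersetCard 2, ∑ _A ∈ pairSlice D k b',
        ((∑ B ∈ pairSlice D k b', F B) / ((pairSlice D k b').card : ℝ)
          - (∑ B ∈ D.powersetCard k, F B) / ((D.powersetCard k).card : ℝ)) ^ 2
      ≤ (1 / 4) * ∑ b' ∈ D.powersetCard 2, ∑ A ∈ pairSlice D k b',
          (F A - F (symmDiff A b')) ^ 2 := by
  have hL := sum_offDiag_pair D (fun b' => ∑ _A ∈ pairSlice D k b',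
        ((∑ B ∈ pairSlice D k b', F B) / ((pairSlice D k b').card : ℝ)
          - (∑ B ∈ D.powersetCard k, F B) / ((D.powersetCard k).card : ℝ)) ^ 2)
  have hR := sum_offDiag_pair D (fun b' => ∑ A ∈ pairSlice D k b',
          (F A - F (symmDiff A b')) ^ 2)
  have hL' : ∑ c ∈ D, ∑ e ∈ D.erase c, ∑ _A ∈ pairSlice D k {c, e},
        ((∑ B ∈ pairSlice D k {c, e}, F B) / ((pairSlice D k {c, e}).card : ℝ)
          - (∑ B ∈ D.powersetCard k, F B) / ((D.powersetCard k).card : ℝ)) ^ 2
      = ∑ c ∈ D, ∑ e ∈ D.erase c, ∑ _A ∈ xorSlice D k c e,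
        ((∑ B ∈ xorSlice D k c e, F B) / ((xorSlice D k c e).card : ℝ)
          - (∑ B ∈ D.powersetCard k, F B) / ((D.powersetCard k).card : ℝ)) ^ 2 := by
    refine sum_congr rfl fun c _ => sum_congr rfl fun e he => ?_
    rw [pairSlice_pair D k (ne_of_mem_erase he).symm]
  have hR' : ∑ c ∈ D, ∑ e ∈ D.erase c, ∑ A ∈ pairSlice D k {c, e},
          (F A - F (symmDiff A {c, e})) ^ 2
      = ∑ c ∈ D, ∑ e ∈ D.erase c, ∑ A ∈ xorSlice D k c e,
          (F A - F (symmDiff A {c, e})) ^ 2 := by
    refine sum_congr rfl fun c _ => sum_congr rfl fun e he => ?_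
    rw [pairSlice_pair D k (ne_of_mem_erase he).symm]
  rw [hL'] at hL
  rw [hR', sum_xor_symmDiff] at hR
  have hJ := johnson_class D k F
  linarith

/-! ### Transport along a bijection onto `P.powersetCard k` -/

section transport

variable {γ : Type*}

omit [DecidableEq α] in
/-- reindexing a filtered sum along a bijection -/
lemma sum_filter_bijOn {K : Finset γ} {K' : Finset (Finset α)} {φ : γ → Finset α}
    (hφ : Set.BijOn φ (K : Set γ) (K' : Set (Finset α)))
    (p : Finset α → Prop) [DecidablePred p] (g : Finset α → ℝ) :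
    ∑ G ∈ K.filter (fun G => p (φ G)), g (φ G) = ∑ A ∈ K'.filter p, g A := by
  refine sum_nbij φ ?_ ?_ ?_ (fun _ _ => rfl)
  · intro G hG
    rw [mem_filter] at hG ⊢
    exact ⟨hφ.mapsTo hG.1, hG.2⟩
  · intro G hG G' hG' h
    rw [mem_coe, mem_filter] at hG hG'
    exact hφ.injOn hG.1 hG'.1 h
  · intro A hA
    rw [mem_coe, mem_filter] at hA
    obtain ⟨G, hG, rfl⟩ := hφ.surjOn hA.1
    exact ⟨G, by rw [mem_coe, mem_filter]; exact ⟨hG, hA.2⟩, rfl⟩

/-- **Lemma J on an abstract class** `K`, in bijection `φ` with the `k`-subsets of `P`.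
`J` is a family of 2-sets containing all 2-subsets of `P`; for `b' ∈ J`, `M b'` is the part of the
class where the move `fl b'` is available (exactly one element of `b'` in `φ G`, `b' ⊆ P`), and
`fl b'` acts on `φ` as the symmetric difference with `b'`. -/
theorem johnson_transport (K : Finset γ) (P : Finset α) (k : ℕ) (φ : γ → Finset α)
    (hφ : Set.BijOn φ (K : Set γ) (P.powersetCard k : Set (Finset α)))
    (J : Finset (Finset α)) (hJ2 : ∀ b' ∈ J, b'.card = 2)
    (hJP : ∀ b' : Finset α, b'.card = 2 → b' ⊆ P → b' ∈ J)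
    (M : Finset α → γ → Prop) [∀ b', DecidablePred (M b')]
    (hM : ∀ b' ∈ J, ∀ G ∈ K, (M b' G ↔ b' ⊆ P ∧ (b' ∩ φ G).card = 1))
    (fl : Finset α → γ → γ)
    (hfl : ∀ b' ∈ J, ∀ G ∈ K, M b' G → fl b' G ∈ K ∧ φ (fl b' G) = symmDiff (φ G) b')
    (f : γ → ℝ) :
    ∑ b' ∈ J, ∑ _G ∈ K.filter (M b'),
        ((∑ G' ∈ K.filter (M b'), f G') / ((K.filter (M b')).card : ℝ)
          - (∑ G' ∈ K, f G') / (K.card : ℝ)) ^ 2
      ≤ (1 / 4) * ∑ b' ∈ J, ∑ G ∈ K, (f G - f (fl b' G)) ^ 2 := by
  classical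
  -- the function on `k`-subsets
  let F : Finset α → ℝ := fun A => if h : ∃ G ∈ K, φ G = A then f h.choose else 0
  have hF : ∀ G ∈ K, F (φ G) = f G := by
    intro G hG
    have h : ∃ G' ∈ K, φ G' = φ G := ⟨G, hG, rfl⟩
    have : F (φ G) = f h.choose := dif_pos h
    rw [this]
    congr 1
    exact hφ.injOn h.choose_spec.1 hG h.choose_spec.2
  -- the pairs inside `P`
  have hJf : J.filter (fun b' => b' ⊆ P) = P.powersetCard 2 := by
    ext b'
    rw [mem_filter, mem_powersetCard]
    exact ⟨fun h => ⟨h.2, hJ2 b' h.1⟩, fun h => ⟨hJP b' h.2 h.1, h.1⟩⟩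
  -- the `M`-part of the class
  have hMP : ∀ b' ∈ J, b' ⊆ P →
      K.filter (M b') = K.filter (fun G => (b' ∩ φ G).card = 1) := by
    intro b' hb' hP
    refine filter_congr fun G hG => ?_
    rw [hM b' hb' G hG]
    exact ⟨fun h => h.2, fun h => ⟨hP, h⟩⟩
  have hMempty : ∀ b' ∈ J, ¬ b' ⊆ P → K.filter (M b') = ∅ := by
    intro b' hb' hP
    rw [filter_eq_empty_iff]
    intro G hG h
    exact hP ((hM b' hb' G hG).mp h).1
  -- totals
  have htot : ∑ G' ∈ K, f G' = ∑ A ∈ P.powersetCard k, F A := by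
    have h1 := sum_filter_bijOn hφ (fun _ => True) F
    simp only [filter_true] at h1
    rw [← h1]
    exact sum_congr rfl fun G hG => (hF G hG).symm
  have hcardK : (K.card : ℝ) = ((P.powersetCard k).card : ℝ) := by
    have h1 := sum_filter_bijOn hφ (fun _ => True) (fun _ => (1 : ℝ))
    simp only [filter_true, sum_const, nsmul_eq_mul, mul_one] at h1
    exact h1
  -- slices
  have hslice_sum : ∀ b' ∈ J, b' ⊆ P →
      ∑ G' ∈ K.filter (M b'), f G' = ∑ A ∈ pairSlice P k b', F A := by
    intro b' hb' hP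
    rw [hMP b' hb' hP]
    have h1 := sum_filter_bijOn hφ (fun A => (b' ∩ A).card = 1) F
    unfold pairSlice
    rw [← h1]
    exact sum_congr rfl fun G hG => (hF G (mem_filter.mp hG).1).symm
  have hslice_card : ∀ b' ∈ J, b' ⊆ P →
      ((K.filter (M b')).card : ℝ) = ((pairSlice P k b').card : ℝ) := by
    intro b' hb' hP
    rw [hMP b' hb' hP]
    have h1 := sum_filter_bijOn hφ (fun A => (b' ∩ A).card = 1) (fun _ => (1 : ℝ))
    simp only [sum_const, nsmul_eq_mul, mul_one] at h1
    exact h1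
  have hslice_move : ∀ b' ∈ J, b' ⊆ P →
      ∑ G ∈ K.filter (M b'), (f G - f (fl b' G)) ^ 2
        = ∑ A ∈ pairSlice P k b', (F A - F (symmDiff A b')) ^ 2 := by
    intro b' hb' hP
    have h1 := sum_filter_bijOn hφ (fun A => (b' ∩ A).card = 1)
      (fun A => (F A - F (symmDiff A b')) ^ 2)
    unfold pairSlice
    rw [← h1, ← hMP b' hb' hP]
    refine sum_congr rfl fun G hG => ?_
    rw [mem_filter] at hG
    obtain ⟨h2, h3⟩ := hfl b' hb' G hG.1 hG.2
    rw [hF G hG.1, ← h3, hF _ h2]
  -- left side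
  have hLHS : ∑ b' ∈ J, ∑ _G ∈ K.filter (M b'),
        ((∑ G' ∈ K.filter (M b'), f G') / ((K.filter (M b')).card : ℝ)
          - (∑ G' ∈ K, f G') / (K.card : ℝ)) ^ 2
      = ∑ b' ∈ P.powersetCard 2, ∑ _A ∈ pairSlice P k b',
        ((∑ B ∈ pairSlice P k b', F B) / ((pairSlice P k b').card : ℝ)
          - (∑ B ∈ P.powersetCard k, F B) / ((P.powersetCard k).card : ℝ)) ^ 2 := by
    rw [← hJf]
    have hz : ∀ b' ∈ J, b' ∉ J.filter (fun b' => b' ⊆ P) →
        ∑ _G ∈ K.filter (M b'),
          ((∑ G' ∈ K.filter (M b'), f G') / ((K.filter (M b')).card : ℝ)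
            - (∑ G' ∈ K, f G') / (K.card : ℝ)) ^ 2 = 0 := by
      intro b' hb' hnot
      have hP : ¬ b' ⊆ P := fun h => hnot (mem_filter.mpr ⟨hb', h⟩)
      rw [hMempty b' hb' hP, sum_empty]
    rw [← sum_subset (filter_subset _ J) hz]
    refine sum_congr rfl fun b' hb' => ?_
    rw [mem_filter] at hb'
    rw [hslice_sum b' hb'.1 hb'.2, htot, hcardK]
    simp only [sum_const, nsmul_eq_mul]
    rw [hslice_card b' hb'.1 hb'.2]
  -- right side
  have hRHS : ∑ b' ∈ P.powersetCard 2, ∑ A ∈ pairSlice P k b', (F A - F (symmDiff A b')) ^ 2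
      ≤ ∑ b' ∈ J, ∑ G ∈ K, (f G - f (fl b' G)) ^ 2 := by
    rw [← hJf]
    calc ∑ b' ∈ J.filter (fun b' => b' ⊆ P), ∑ A ∈ pairSlice P k b',
            (F A - F (symmDiff A b')) ^ 2
        = ∑ b' ∈ J.filter (fun b' => b' ⊆ P), ∑ G ∈ K.filter (M b'),
            (f G - f (fl b' G)) ^ 2 := by
          refine sum_congr rfl fun b' hb' => ?_
          rw [mem_filter] at hb'
          rw [hslice_move b' hb'.1 hb'.2]
      _ ≤ ∑ b' ∈ J.filter (fun b' => b' ⊆ P), ∑ G ∈ K, (f G - f (fl b' G)) ^ 2 := by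
          refine sum_le_sum fun b' _ => ?_
          exact sum_le_sum_of_subset_of_nonneg (filter_subset _ _) fun _ _ _ => sq_nonneg _
      _ ≤ ∑ b' ∈ J, ∑ G ∈ K, (f G - f (fl b' G)) ^ 2 := by
          exact sum_le_sum_of_subset_of_nonneg (filter_subset _ _)
            fun _ _ _ => sum_nonneg fun _ _ => sq_nonneg _
  rw [hLHS]
  have hJc := johnson_class_pairs P k F
  linarith

end transport

end Crest.Agent.S0453R.JGraph
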