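import Mathlib
import Crest.Prelude.Def_SwitchChain
import Crest.Agent.S0453.Avg
import Crest.Agent.S0453.CoupleDefs
import Crest.Agent.S0453.PairClass
import Crest.Agent.S0453.G4
import Crest.Agent.S0453.JGraph

/-!
Row 299 / S0453 — module [J-GRAPH] (helper47), graph layer: `jgraph d : JGraph d`
(the Johnson-slice lemma `∑_{b'} Q^b_(b,b') ≤ (1/4) ∑_{b'} swE_(b,b')` of `CoupleDefs.lean`).

Both sides are split into the pair classes of `b = {a, a'}`; on a class `K` (in bijection with the
`k`-subsets of the private set via `PC.sideA a a'`, `PairClass.lean`), `E_b f` is the class mean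
and `P_b^s f` the mean over the `M_s`-part, and the claim is `JGraph.johnson_transport`
(`JGraph.lean`).  The two graph facts used are `JGraph.Ms_iff_slice` (the switch of the couple
`(b, b')` is available iff `b'` consists of two private vertices exactly one of which is on the side
of `a`) and `JGraph.flip_eq_resplit` (the switch is then the Johnson move `A ↦ A ∆ b'`).
-/

set_option autoImplicit false
open Finset

namespace Crest.Agent.S0453R

open Crest.SwitchChain

variable {n : ℕ}

namespace JGraph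

/-- the number of block edges of `G` at a vertex `x` of `b` -/
lemma card_cross_filter {b b' : Finset (Fin n)} (hd : Disjoint b b') (G : Finset (Edge n))
    {x : Fin n} (hx : x ∈ b) :
    ((G ∩ cross b b').filter fun e => x ∈ e.1).card
      = (b'.filter fun y => PC.adj G x y).card := by
  symm
  refine card_bij (fun y hy => (⟨s(x, y), by
      have := PC.adj_ne (mem_filter.mp hy).2
      simpa using this⟩ : Edge n)) ?_ ?_ ?_
  · intro y hy
    rw [mem_filter] at hy
    rw [mem_filter, mem_inter, mem_cross]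
    exact ⟨⟨(PC.mem_iff_adj _ rfl).mpr hy.2, ⟨x, hx, by simp⟩, ⟨y, hy.1, by simp⟩⟩, by simp⟩
  · intro y₁ _ y₂ _ h
    have h' : s(x, y₁) = s(x, y₂) := congrArg Subtype.val h
    exact Sym2.congr_right.mp h'
  · intro e he
    rw [mem_filter, mem_inter, mem_cross] at he
    obtain ⟨⟨heG, -, ⟨w, hw, hwe⟩⟩, hxe⟩ := he
    obtain ⟨y, hy⟩ := Sym2.mem_iff_exists.mp hxe
    have hwy : w = y := by
      rw [hy, Sym2.mem_iff] at hwe
      rcases hwe with rfl | rfl
      · exact absurd hw (disjoint_left.mp hd hx)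
      · rfl
    subst hwy
    refine ⟨w, ?_, Subtype.ext hy.symm⟩
    rw [mem_filter]
    exact ⟨hw, (PC.mem_iff_adj e hy).mp heG⟩

/-- `M_s` in terms of adjacency counts -/
lemma Ms_iff_adj {b b' : Finset (Fin n)} (hd : Disjoint b b') (G : Finset (Edge n)) :
    Ms b b' G ↔ (∀ x ∈ b, (b'.filter fun y => PC.adj G x y).card = 1) ∧
      (∀ y ∈ b', (b.filter fun x => PC.adj G y x).card = 1) := by
  unfold Ms
  constructor
  · intro h
    refine ⟨fun x hx => ?_, fun y hy => ?_⟩
    · rw [← card_cross_filter hd G hx]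
      exact h x (mem_union_left _ hx)
    · rw [← card_cross_filter hd.symm G hy, cross_comm]
      exact h y (mem_union_right _ hy)
  · rintro ⟨h1, h2⟩ x hx
    rcases mem_union.mp hx with hx | hx
    · rw [card_cross_filter hd G hx]
      exact h1 x hx
    · rw [cross_comm, card_cross_filter hd.symm G hx]
      exact h2 x hx

/-- a vertex outside the pair is private iff it is adjacent to exactly one of `a`, `a'` -/
lemma card_filter_pair_adj {a a' : Fin n} (haa : a ≠ a') (G : Finset (Edge n)) {y : Fin n}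
    (hya : y ≠ a) (hya' : y ≠ a') :
    (({a, a'} : Finset (Fin n)).filter fun x => PC.adj G y x).card = 1 ↔ y ∈ PC.priv a a' G := by
  rw [PC.mem_priv, PC.adj_comm (x := a) (y := y), PC.adj_comm (x := a') (y := y)]
  by_cases h1 : PC.adj G y a <;> by_cases h2 : PC.adj G y a' <;>
    simp [filter_insert, filter_singleton, h1, h2, haa, hya, hya']

/-- **(N1)** on one graph: the switch of the couple `({a,a'}, b')` is available iff `b'` consists
of two private vertices, exactly one of them on the side of `a`. -/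
theorem Ms_iff_slice' {a a' : Fin n} (haa : a ≠ a') (G : Finset (Edge n))
    {b' : Finset (Fin n)} (hb' : b'.card = 2) (hd : Disjoint ({a, a'} : Finset (Fin n)) b') :
    Ms {a, a'} b' G ↔ b' ⊆ PC.priv a a' G ∧ (b' ∩ PC.sideA a a' G).card = 1 := by
  have hne : ∀ y ∈ b', y ≠ a ∧ y ≠ a' := by
    intro y hy
    have h1 : a ∉ b' := disjoint_left.mp hd (by simp)
    have h2 : a' ∉ b' := disjoint_left.mp hd (by simp)
    exact ⟨fun h => h1 (h ▸ hy), fun h => h2 (h ▸ hy)⟩
  have hside : b' ⊆ PC.priv a a' G →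
      b' ∩ PC.sideA a a' G = b'.filter fun y => PC.adj G a y := by
    intro hsub
    ext y
    rw [mem_inter, PC.mem_sideA, mem_filter]
    exact ⟨fun h => ⟨h.1, h.2.2⟩, fun h => ⟨h.1, hsub h.1, h.2⟩⟩
  rw [Ms_iff_adj hd]
  constructor
  · rintro ⟨h1, h2⟩
    have hsub : b' ⊆ PC.priv a a' G := fun y hy =>
      (card_filter_pair_adj haa G (hne y hy).1 (hne y hy).2).mp (h2 y hy)
    refine ⟨hsub, ?_⟩
    rw [hside hsub]
    exact h1 a (by simp)
  · rintro ⟨hsub, hone⟩
    rw [hside hsub] at hone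
    refine ⟨?_, fun y hy => (card_filter_pair_adj haa G (hne y hy).1 (hne y hy).2).mpr (hsub hy)⟩
    intro x hx
    rw [mem_insert, mem_singleton] at hx
    rcases hx with rfl | rfl
    · exact hone
    · have hcongr : (b'.filter fun y => PC.adj G x y) = b'.filter fun y => ¬ PC.adj G a y := by
        refine filter_congr fun y hy => ?_
        have := (PC.mem_priv.mp (hsub hy)).2.2
        tauto
      have hsum := card_filter_add_card_filter_not (s := b') (fun y => PC.adj G a y)
      rw [hcongr]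
      omega

/-- **(N1)** the `M_s` dictionary on a pair class -/
theorem Ms_iff_slice (d : Fin n → ℕ) {a a' : Fin n} (haa : a ≠ a') {G0 G : Finset (Edge n)}
    (hG0 : G0 ∈ realizations d) (hG : G ∈ PC.cls d a a' G0) {b' : Finset (Fin n)}
    (hb' : b' ∈ pairs n) (hd : Disjoint ({a, a'} : Finset (Fin n)) b') :
    Ms {a, a'} b' G ↔ b' ⊆ PC.priv a a' G0 ∧ (b' ∩ PC.sideA a a' G).card = 1 := by
  have hb2 : b'.card = 2 := by
    rw [pairs, mem_powersetCard] at hb'
    exact hb'.2
  rw [Ms_iff_slice' haa G hb2 hd, PC.cls_priv_eq haa hG0 hG]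

/-- membership of an edge in the block -/
lemma mkE_mem_cross_iff (b b' : Finset (Fin n)) {x y : Fin n} (hxy : x ≠ y) :
    mkE x y hxy ∈ cross b b' ↔ (x ∈ b ∨ y ∈ b) ∧ (x ∈ b' ∨ y ∈ b') := by
  rw [mem_cross]
  constructor
  · rintro ⟨⟨u, hu, hue⟩, ⟨w, hw, hwe⟩⟩
    rw [mem_mkE] at hue hwe
    refine ⟨?_, ?_⟩
    · rcases hue with rfl | rfl
      · exact Or.inl hu
      · exact Or.inr hu
    · rcases hwe with rfl | rfl
      · exact Or.inl hw
      · exact Or.inr hw
  · rintro ⟨h1, h2⟩
    refine ⟨?_, ?_⟩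
    · rcases h1 with h | h
      · exact ⟨x, h, (mem_mkE hxy).mpr (Or.inl rfl)⟩
      · exact ⟨y, h, (mem_mkE hxy).mpr (Or.inr rfl)⟩
    · rcases h2 with h | h
      · exact ⟨x, h, (mem_mkE hxy).mpr (Or.inl rfl)⟩
      · exact ⟨y, h, (mem_mkE hxy).mpr (Or.inr rfl)⟩

/-- adjacency after complementing the block -/
lemma adj_symmDiff_cross (b b' : Finset (Fin n)) (G : Finset (Edge n)) (x y : Fin n) :
    PC.adj (symmDiff G (cross b b')) x y ↔
      x ≠ y ∧ (PC.adj G x y ↔ ¬ ((x ∈ b ∨ y ∈ b) ∧ (x ∈ b' ∨ y ∈ b'))) := by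
  by_cases hxy : x = y
  · subst hxy
    simp [PC.adj_irrefl]
  · rw [PC.adj_iff_mkE hxy, PC.adj_iff_mkE hxy, Finset.mem_symmDiff, mkE_mem_cross_iff b b' hxy]
    constructor
    · intro h
      refine ⟨hxy, ?_⟩
      tauto
    · rintro ⟨-, h⟩
      tauto

lemma prop_xor (p q : Prop) : (p ↔ ¬ q) ↔ (p ∧ ¬ q ∨ q ∧ ¬ p) := by tauto

lemma prop_nxor (p q : Prop) : (¬ p ↔ ¬ q) ↔ ¬ (p ∧ ¬ q ∨ q ∧ ¬ p) := by tauto

/-- the block relation at a vertex of the pair `{a, a'}` -/
lemma cross_rel_left {b b' : Finset (Fin n)} {x : Fin n} (hx : x ∈ b) (hx' : x ∉ b') (y : Fin n) :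
    ((x ∈ b ∨ y ∈ b) ∧ (x ∈ b' ∨ y ∈ b')) ↔ y ∈ b' := by
  constructor
  · rintro ⟨-, h | h⟩
    · exact absurd h hx'
    · exact h
  · intro h
    exact ⟨Or.inl hx, Or.inr h⟩

/-- (N2), adjacency to `a` -/
lemma flip_adj_a (d : Fin n → ℕ) {a a' : Fin n} (haa : a ≠ a') {G0 G : Finset (Edge n)}
    (hG0 : G0 ∈ realizations d) (hG : G ∈ PC.cls d a a' G0) {b' : Finset (Fin n)}
    (hd : Disjoint ({a, a'} : Finset (Fin n)) b') (hsub : b' ⊆ PC.priv a a' G0) (y : Fin n) :
    PC.adj (symmDiff G (cross {a, a'} b')) a y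
      ↔ PC.adj (PC.resplit a a' G0 (symmDiff (PC.sideA a a' G) b')) a y := by
  have hpriv := PC.cls_priv_eq haa hG0 hG
  have hab' : a ∉ b' := disjoint_left.mp hd (by simp)
  rw [adj_symmDiff_cross, PC.adj_resplit_a haa,
    cross_rel_left (b := ({a, a'} : Finset (Fin n))) (by simp) hab' y]
  by_cases hy : y ∈ PC.priv a a' G0
  · have hA : PC.adj G a y ↔ y ∈ PC.sideA a a' G := by
      rw [PC.mem_sideA, hpriv]
      exact ⟨fun h => ⟨hy, h⟩, fun h => h.2⟩
    have hya : a ≠ y := fun h => (PC.mem_priv.mp hy).1 h.symm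
    rw [if_pos hy, hA, Finset.mem_symmDiff, prop_xor]
    exact ⟨fun h => h.2, fun h => ⟨hya, h⟩⟩
  · rw [if_neg hy, ← PC.cls_nonpriv_a haa hG0 hG hy]
    have hyb : y ∉ b' := fun h => hy (hsub h)
    constructor
    · rintro ⟨-, h⟩
      exact h.mpr hyb
    · intro h
      exact ⟨PC.adj_ne h, fun _ => hyb, fun _ => h⟩

/-- (N2), adjacency to `a'` -/
lemma flip_adj_a' (d : Fin n → ℕ) {a a' : Fin n} (haa : a ≠ a') {G0 G : Finset (Edge n)}
    (hG0 : G0 ∈ realizations d) (hG : G ∈ PC.cls d a a' G0) {b' : Finset (Fin n)}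
    (hd : Disjoint ({a, a'} : Finset (Fin n)) b') (hsub : b' ⊆ PC.priv a a' G0) (y : Fin n) :
    PC.adj (symmDiff G (cross {a, a'} b')) a' y
      ↔ PC.adj (PC.resplit a a' G0 (symmDiff (PC.sideA a a' G) b')) a' y := by
  have hpriv := PC.cls_priv_eq haa hG0 hG
  have ha'b' : a' ∉ b' := disjoint_left.mp hd (by simp)
  rw [adj_symmDiff_cross, PC.adj_resplit_b haa,
    cross_rel_left (b := ({a, a'} : Finset (Fin n))) (by simp) ha'b' y]
  by_cases hy : y ∈ PC.priv a a' G0
  · have hA' : PC.adj G a' y ↔ y ∉ PC.sideA a a' G := by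
      have h1 := (PC.mem_priv.mp (hpriv ▸ hy)).2.2
      rw [PC.mem_sideA, hpriv]
      constructor
      · intro h h2
        exact (h1.mp h2.2) h
      · intro h
        by_contra h3
        exact h ⟨hy, h1.mpr h3⟩
    have hya : a' ≠ y := fun h => (PC.mem_priv.mp hy).2.1 h.symm
    rw [if_pos hy, hA', Finset.mem_symmDiff, prop_nxor]
    exact ⟨fun h => h.2, fun h => ⟨hya, h⟩⟩
  · rw [if_neg hy, ← PC.cls_nonpriv_b haa hG0 hG hy]
    have hyb : y ∉ b' := fun h => hy (hsub h)
    constructor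
    · rintro ⟨-, h⟩
      exact h.mpr hyb
    · intro h
      exact ⟨PC.adj_ne h, fun _ => hyb, fun _ => h⟩

/-- **(N2)** the switch of the couple is a re-split: on the pair class of `G0`, the switch of the
couple `({a,a'}, b')` moves the side of `a` by the symmetric difference with `b'`. -/
theorem flip_eq_resplit (d : Fin n → ℕ) {a a' : Fin n} (haa : a ≠ a') {G0 G : Finset (Edge n)}
    (hG0 : G0 ∈ realizations d) (hG : G ∈ PC.cls d a a' G0) {b' : Finset (Fin n)}
    (hb' : b' ∈ pairs n) (hd : Disjoint ({a, a'} : Finset (Fin n)) b')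
    (hMs : Ms {a, a'} b' G) :
    flip {a, a'} b' G = PC.resplit a a' G0 (symmDiff (PC.sideA a a' G) b') := by
  obtain ⟨hsub, -⟩ := (Ms_iff_slice d haa hG0 hG hb' hd).mp hMs
  have hoff := (PC.mem_cls.mp hG).2
  have key_a := flip_adj_a d haa hG0 hG hd hsub
  have key_b := flip_adj_a' d haa hG0 hG hd hsub
  unfold flip
  rw [if_pos hMs]
  apply PC.ext_adj
  intro x y
  by_cases hxa : x = a
  · subst hxa; exact key_a y
  by_cases hxb : x = a'
  · subst hxb; exact key_b y
  by_cases hya : y = a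
  · subst hya; rw [PC.adj_comm, key_a x, PC.adj_comm]
  by_cases hyb : y = a'
  · subst hyb; rw [PC.adj_comm, key_b x, PC.adj_comm]
  rw [PC.adj_resplit_off haa G0 _ hxa hxb hya hyb, adj_symmDiff_cross, hoff x y hxa hxb hya hyb]
  have hcr : ¬ ((x ∈ ({a, a'} : Finset (Fin n)) ∨ y ∈ ({a, a'} : Finset (Fin n)))
      ∧ (x ∈ b' ∨ y ∈ b')) := by
    rintro ⟨h | h, -⟩
    · rw [mem_insert, mem_singleton] at h
      rcases h with h | h
      · exact hxa h
      · exact hxb h
    · rw [mem_insert, mem_singleton] at h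
      rcases h with h | h
      · exact hya h
      · exact hyb h
  constructor
  · rintro ⟨-, h⟩
    exact h.mpr hcr
  · intro h
    exact ⟨PC.adj_ne h, fun _ => hcr, fun _ => h⟩

end JGraph

namespace JGraph

/-- comparing two sums over `Ω` class by class -/
lemma sum_le_sum_of_class {α : Type*} {Ω : Finset α} {r : α → α → Prop} [DecidableRel r]
    (h : EquivOn Ω r) (g g' : α → ℝ)
    (hc : ∀ x ∈ Ω, ∑ y ∈ Ω.filter (r x), g y ≤ ∑ y ∈ Ω.filter (r x), g' y) :
    ∑ x ∈ Ω, g x ≤ ∑ x ∈ Ω, g' x := by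
  rw [Crest.Agent.S0453.Caputo20.sum_eq_sum_class_avg Ω r h.refl h.symm h.trans g,
    Crest.Agent.S0453.Caputo20.sum_eq_sum_class_avg Ω r h.refl h.symm h.trans g']
  exact sum_le_sum fun x hx => div_le_div_of_nonneg_right (hc x hx) (Nat.cast_nonneg _)

/-- a symmetric difference with a 2-set meeting `A` in exactly one point keeps the cardinality -/
lemma card_symmDiff_pair {α : Type*} [DecidableEq α] {A b' : Finset α} (hb' : b'.card = 2)
    (h1 : (b' ∩ A).card = 1) : (symmDiff A b').card = A.card := by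
  obtain ⟨c, e, hce, rfl⟩ := card_eq_two.mp hb'
  have key : ∀ {x y : α}, x ≠ y → x ∈ A → y ∉ A → (insert y (A.erase x)).card = A.card := by
    intro x y _ hx hy
    rw [card_insert_of_notMem (fun h => hy (mem_of_mem_erase h)), card_erase_of_mem hx]
    have : 0 < A.card := card_pos.mpr ⟨x, hx⟩
    omega
  rcases (card_pair_inter hce A).mp h1 with ⟨hc, he⟩ | ⟨hc, he⟩
  · rw [symmDiff_pair_of_mem hc he]
    exact key hce hc he
  · rw [pair_comm c e, symmDiff_pair_of_mem he hc]
    exact key hce.symm he hc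

end JGraph

open JGraph in
/-- **(J-graph)**: the Johnson-slice lemma for every pair `b`. -/
theorem jgraph (d : Fin n → ℕ) : JGraph d := by
  intro b hb f
  have hb2 : b.card = 2 := by
    rw [pairs, mem_powersetCard] at hb
    exact hb.2
  obtain ⟨a, a', haa, rfl⟩ := card_eq_two.mp hb2
  -- both sides as sums over `Ω`
  have hL : ∑ b' ∈ (pairs n).filter (Disjoint ({a, a'} : Finset (Fin n))), Q d {a, a'} b' f
      = ∑ G ∈ realizations d, ∑ b' ∈ (pairs n).filter (Disjoint ({a, a'} : Finset (Fin n))),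
          if Ms {a, a'} b' G then (P d {a, a'} b' f G - E d {a, a'} f G) ^ 2 else 0 := by
    rw [sum_comm]
    refine sum_congr rfl fun b' _ => ?_
    unfold Q
    rw [sum_filter]
  have hR : (1 / 4) * ∑ b' ∈ (pairs n).filter (Disjoint ({a, a'} : Finset (Fin n))),
        swE d {a, a'} b' f
      = ∑ G ∈ realizations d, (1 / 4) *
          ∑ b' ∈ (pairs n).filter (Disjoint ({a, a'} : Finset (Fin n))),
            (f G - f (flip {a, a'} b' G)) ^ 2 := by
    rw [← mul_sum, sum_comm]
    rfl
  rw [hL, hR]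
  refine sum_le_sum_of_class (sameOff_equivOn (realizations d) {a, a'}) _ _ fun G0 hG0 => ?_
  -- one pair class
  have hKcls : (realizations d).filter (sameOff {a, a'} G0) = PC.cls d a a' G0 :=
    filter_sameOff_eq_cls d a a' G0
  have hEq := sameOff_equivOn (realizations d) ({a, a'} : Finset (Fin n))
  -- `E` on the class
  have hE : ∀ G ∈ (realizations d).filter (sameOff {a, a'} G0),
      E d {a, a'} f G = (∑ G' ∈ (realizations d).filter (sameOff {a, a'} G0), f G')
        / (((realizations d).filter (sameOff {a, a'} G0)).card : ℝ) := by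
    intro G hG
    rw [mem_filter] at hG
    rw [E_def, class_eq_of_rel hEq hG0 hG.1 hG.2]
  -- `P` on the `M_s`-part of the class
  have hP : ∀ b' : Finset (Fin n), ∀ G ∈ (realizations d).filter (sameOff {a, a'} G0),
      Ms {a, a'} b' G →
      P d {a, a'} b' f G
        = (∑ G' ∈ ((realizations d).filter (sameOff {a, a'} G0)).filter (Ms {a, a'} b'), f G')
          / ((((realizations d).filter (sameOff {a, a'} G0)).filter (Ms {a, a'} b')).card : ℝ) := by
    intro b' G hG hMs
    rw [mem_filter] at hG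
    have hset : (realizations d).filter (sameOffM {a, a'} b' G)
        = ((realizations d).filter (sameOff {a, a'} G0)).filter (Ms {a, a'} b') := by
      ext G'
      simp only [mem_filter, sameOffM]
      constructor
      · rintro ⟨hG', hs, hm⟩
        exact ⟨⟨hG', sameOff_trans hG.2 hs⟩, hm.mp hMs⟩
      · rintro ⟨⟨hG', hs⟩, hm⟩
        exact ⟨hG', sameOff_trans (sameOff_symm hG.2) hs, fun _ => hm, fun _ => hMs⟩
    unfold P
    rw [avgOn_def, hset]
  -- left side on the class
  have hLK : ∑ G ∈ (realizations d).filter (sameOff {a, a'} G0),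
        ∑ b' ∈ (pairs n).filter (Disjoint ({a, a'} : Finset (Fin n))),
          (if Ms {a, a'} b' G then (P d {a, a'} b' f G - E d {a, a'} f G) ^ 2 else 0)
      = ∑ b' ∈ (pairs n).filter (Disjoint ({a, a'} : Finset (Fin n))),
        ∑ _G ∈ ((realizations d).filter (sameOff {a, a'} G0)).filter (Ms {a, a'} b'),
          ((∑ G' ∈ ((realizations d).filter (sameOff {a, a'} G0)).filter (Ms {a, a'} b'), f G')
            / ((((realizations d).filter (sameOff {a, a'} G0)).filter (Ms {a, a'} b')).card : ℝ)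
          - (∑ G' ∈ (realizations d).filter (sameOff {a, a'} G0), f G')
            / (((realizations d).filter (sameOff {a, a'} G0)).card : ℝ)) ^ 2 := by
    rw [sum_comm]
    refine sum_congr rfl fun b' _ => ?_
    rw [← sum_filter]
    refine sum_congr rfl fun G hG => ?_
    rw [mem_filter] at hG
    rw [hP b' G hG.1 hG.2, hE G hG.1]
  have hRK : ∑ G ∈ (realizations d).filter (sameOff {a, a'} G0), (1 / 4) *
        ∑ b' ∈ (pairs n).filter (Disjoint ({a, a'} : Finset (Fin n))),
          (f G - f (flip {a, a'} b' G)) ^ 2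
      = (1 / 4) * ∑ b' ∈ (pairs n).filter (Disjoint ({a, a'} : Finset (Fin n))),
        ∑ G ∈ (realizations d).filter (sameOff {a, a'} G0),
          (f G - f (flip {a, a'} b' G)) ^ 2 := by
    rw [← mul_sum, sum_comm]
  rw [hLK, hRK]
  -- the class is in bijection with the `k`-subsets of the private set
  have hφ : Set.BijOn (PC.sideA a a') (((realizations d).filter (sameOff {a, a'} G0) :
        Finset (Finset (Edge n))) : Set (Finset (Edge n)))
      (((PC.priv a a' G0).powersetCard (PC.sideA a a' G0).card : Finset (Finset (Fin n))) :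
        Set (Finset (Fin n))) := by
    rw [hKcls]
    refine ⟨?_, ?_, ?_⟩
    · intro G hG
      rw [Finset.mem_coe] at hG
      rw [Finset.mem_coe, mem_powersetCard]
      exact ⟨(PC.cls_priv_eq haa hG0 hG) ▸ PC.sideA_subset a a' G, PC.cls_card_sideA haa hG0 hG⟩
    · intro G hG G' hG' hEq'
      rw [Finset.mem_coe] at hG hG'
      rw [← PC.resplit_sideA haa hG0 hG, ← PC.resplit_sideA haa hG0 hG', hEq']
    · intro A hA
      rw [Finset.mem_coe, mem_powersetCard] at hA
      exact ⟨PC.resplit a a' G0 A, Finset.mem_coe.2 (PC.resplit_mem_cls haa hG0 hA.1 hA.2),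
        PC.sideA_resplit haa G0 hA.1⟩
  have hJ2 : ∀ b' ∈ (pairs n).filter (Disjoint ({a, a'} : Finset (Fin n))), b'.card = 2 := by
    intro b' hb'
    rw [mem_filter, pairs, mem_powersetCard] at hb'
    exact hb'.1.2
  have hJP : ∀ b' : Finset (Fin n), b'.card = 2 → b' ⊆ PC.priv a a' G0 →
      b' ∈ (pairs n).filter (Disjoint ({a, a'} : Finset (Fin n))) := by
    intro b' hcard hsub
    rw [mem_filter, pairs, mem_powersetCard]
    refine ⟨⟨subset_univ _, hcard⟩, ?_⟩
    rw [disjoint_left]
    intro x hx hxb'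
    have hpriv := PC.mem_priv.mp (hsub hxb')
    rw [mem_insert, mem_singleton] at hx
    rcases hx with rfl | rfl
    · exact hpriv.1 rfl
    · exact hpriv.2.1 rfl
  have hM : ∀ b' ∈ (pairs n).filter (Disjoint ({a, a'} : Finset (Fin n))),
      ∀ G ∈ (realizations d).filter (sameOff {a, a'} G0),
        (Ms {a, a'} b' G ↔ b' ⊆ PC.priv a a' G0 ∧ (b' ∩ PC.sideA a a' G).card = 1) := by
    intro b' hb' G hG
    rw [mem_filter] at hb'
    rw [hKcls] at hG
    exact Ms_iff_slice d haa hG0 hG hb'.1 hb'.2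
  have hfl : ∀ b' ∈ (pairs n).filter (Disjoint ({a, a'} : Finset (Fin n))),
      ∀ G ∈ (realizations d).filter (sameOff {a, a'} G0), Ms {a, a'} b' G →
        flip {a, a'} b' G ∈ (realizations d).filter (sameOff {a, a'} G0) ∧
          PC.sideA a a' (flip {a, a'} b' G) = symmDiff (PC.sideA a a' G) b' := by
    intro b' hb' G hG hMs
    have hb'2 := hJ2 b' hb'
    rw [mem_filter] at hb'
    rw [hKcls] at hG ⊢
    obtain ⟨hsub, hone⟩ := (Ms_iff_slice d haa hG0 hG hb'.1 hb'.2).mp hMs
    have hAsub : PC.sideA a a' G ⊆ PC.priv a a' G0 :=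
      (PC.cls_priv_eq haa hG0 hG) ▸ PC.sideA_subset a a' G
    have hA' : symmDiff (PC.sideA a a' G) b' ⊆ PC.priv a a' G0 := by
      intro x hx
      rw [Finset.mem_symmDiff] at hx
      rcases hx with ⟨hx, -⟩ | ⟨hx, -⟩
      · exact hAsub hx
      · exact hsub hx
    have hcard : (symmDiff (PC.sideA a a' G) b').card = (PC.sideA a a' G0).card := by
      rw [card_symmDiff_pair hb'2 hone, PC.cls_card_sideA haa hG0 hG]
    rw [flip_eq_resplit d haa hG0 hG hb'.1 hb'.2 hMs]
    exact ⟨PC.resplit_mem_cls haa hG0 hA' hcard, PC.sideA_resplit haa G0 hA'⟩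
  exact johnson_transport ((realizations d).filter (sameOff {a, a'} G0)) (PC.priv a a' G0)
    (PC.sideA a a' G0).card (PC.sideA a a') hφ
    ((pairs n).filter (Disjoint ({a, a'} : Finset (Fin n)))) hJ2 hJP
    (fun b' => Ms {a, a'} b') hM (fun b' => flip {a, a'} b') hfl f

end Crest.Agent.S0453R
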