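import Mathlib

/-!
Row 299 / S0453 — abstract layer for the couple lemma (helper67).

* `CG.cls`, `CG.avg` : class averages on a finset `Ω` of an ambient type, classes given by a key.
* `CG.avg_comm_of_bij` : two class averages commute as soon as, for equivalent `x, x''` (first
  key), there is a bijection between their classes of the second key that preserves the first key.
* `CG.couple_ineq` : the abstract couple inequality (Lemma S of board post 956).
-/

set_option autoImplicit false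
set_option linter.unusedSectionVars false
set_option linter.unusedVariables false
open Finset

namespace Crest.Agent.S0453.CG

variable {α : Type*} [DecidableEq α]

/-- inner product on `Ω` -/
def ip (Ω : Finset α) (u v : α → ℝ) : ℝ := ∑ x ∈ Ω, u x * v x

lemma ip_comm (Ω : Finset α) (u v : α → ℝ) : ip Ω u v = ip Ω v u := by
  unfold ip; exact sum_congr rfl fun x _ => mul_comm _ _

lemma ip_congr {Ω : Finset α} {u u' v v' : α → ℝ} (hu : ∀ x ∈ Ω, u x = u' x)
    (hv : ∀ x ∈ Ω, v x = v' x) : ip Ω u v = ip Ω u' v' := by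
  unfold ip; exact sum_congr rfl fun x hx => by rw [hu x hx, hv x hx]

lemma ip_add_left (Ω : Finset α) (u u' v : α → ℝ) :
    ip Ω (fun x => u x + u' x) v = ip Ω u v + ip Ω u' v := by
  unfold ip; rw [← sum_add_distrib]; exact sum_congr rfl fun x _ => by ring

lemma ip_sub_left (Ω : Finset α) (u u' v : α → ℝ) :
    ip Ω (fun x => u x - u' x) v = ip Ω u v - ip Ω u' v := by
  unfold ip; rw [← sum_sub_distrib]; exact sum_congr rfl fun x _ => by ring

lemma ip_add_right (Ω : Finset α) (u v v' : α → ℝ) :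
    ip Ω u (fun x => v x + v' x) = ip Ω u v + ip Ω u v' := by
  unfold ip; rw [← sum_add_distrib]; exact sum_congr rfl fun x _ => by ring

lemma ip_sub_right (Ω : Finset α) (u v v' : α → ℝ) :
    ip Ω u (fun x => v x - v' x) = ip Ω u v - ip Ω u v' := by
  unfold ip; rw [← sum_sub_distrib]; exact sum_congr rfl fun x _ => by ring

lemma ip_self_nonneg (Ω : Finset α) (u : α → ℝ) : 0 ≤ ip Ω u u := by
  unfold ip; exact sum_nonneg fun x _ => mul_self_nonneg _

/-- two functions with the same inner products against everything agree on `Ω` -/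
lemma eq_on_of_ip {Ω : Finset α} {u w : α → ℝ} (h : ∀ g : α → ℝ, ip Ω u g = ip Ω w g) :
    ∀ x ∈ Ω, u x = w x := by
  intro x hx
  have := h (fun y => if y = x then 1 else 0)
  unfold ip at this
  simpa [mul_ite, sum_ite_eq', hx] using this

section avg
variable {κ : Type*} [DecidableEq κ]

/-- the class of `x` in `Ω` for the key `k` -/
def cls (Ω : Finset α) (k : α → κ) (x : α) : Finset α := Ω.filter fun y => k y = k x

lemma mem_cls {Ω : Finset α} {k : α → κ} {x y : α} : y ∈ cls Ω k x ↔ y ∈ Ω ∧ k y = k x := by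
  simp [cls]

lemma self_mem_cls {Ω : Finset α} {k : α → κ} {x : α} (hx : x ∈ Ω) : x ∈ cls Ω k x :=
  mem_cls.2 ⟨hx, rfl⟩

lemma cls_congr {Ω : Finset α} {k : α → κ} {x x' : α} (h : k x = k x') :
    cls Ω k x = cls Ω k x' := by
  unfold cls; rw [h]

lemma card_cls_pos {Ω : Finset α} {k : α → κ} {x : α} (hx : x ∈ Ω) :
    (0 : ℝ) < ((cls Ω k x).card : ℝ) := by
  exact_mod_cast card_pos.2 ⟨x, self_mem_cls hx⟩

/-- the class average -/
noncomputable def avg (Ω : Finset α) (k : α → κ) (f : α → ℝ) (x : α) : ℝ :=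
  (∑ y ∈ cls Ω k x, f y) / ((cls Ω k x).card : ℝ)

lemma avg_congr_key {Ω : Finset α} {k : α → κ} (f : α → ℝ) {x x' : α} (h : k x = k x') :
    avg Ω k f x = avg Ω k f x' := by
  unfold avg; rw [cls_congr h]

lemma avg_congr {Ω : Finset α} {k : α → κ} {f f' : α → ℝ} (h : ∀ x ∈ Ω, f x = f' x) (x : α) :
    avg Ω k f x = avg Ω k f' x := by
  unfold avg
  congr 1
  exact sum_congr rfl fun y hy => h y (mem_cls.1 hy).1

lemma avg_add (Ω : Finset α) (k : α → κ) (f g : α → ℝ) (x : α) :
    avg Ω k (fun y => f y + g y) x = avg Ω k f x + avg Ω k g x := by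
  unfold avg; rw [sum_add_distrib, add_div]

lemma avg_sub (Ω : Finset α) (k : α → κ) (f g : α → ℝ) (x : α) :
    avg Ω k (fun y => f y - g y) x = avg Ω k f x - avg Ω k g x := by
  unfold avg; rw [sum_sub_distrib, sub_div]

/-- the average of a function that is constant on the class -/
lemma avg_of_const {Ω : Finset α} {k : α → κ} {h : α → ℝ} {x : α} (hx : x ∈ Ω)
    (hc : ∀ y ∈ Ω, k y = k x → h y = h x) : avg Ω k h x = h x := by
  unfold avg
  have : ∑ y ∈ cls Ω k x, h y = ((cls Ω k x).card : ℝ) * h x := by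
    rw [sum_congr rfl fun y hy => hc y (mem_cls.1 hy).1 (mem_cls.1 hy).2, sum_const, nsmul_eq_mul]
  rw [this, mul_comm, mul_div_assoc, div_self (card_cls_pos hx).ne', mul_one]

lemma avg_avg {Ω : Finset α} {k : α → κ} (f : α → ℝ) {x : α} (hx : x ∈ Ω) :
    avg Ω k (avg Ω k f) x = avg Ω k f x :=
  avg_of_const hx fun _ _ hy => avg_congr_key f hy

/-- the class average is symmetric -/
lemma ip_avg (Ω : Finset α) (k : α → κ) (u v : α → ℝ) :
    ip Ω (avg Ω k u) v = ip Ω u (avg Ω k v) := by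
  unfold ip avg
  have h1 : ∀ x ∈ Ω, (∑ y ∈ cls Ω k x, u y) / ((cls Ω k x).card : ℝ) * v x
      = ∑ y ∈ Ω, if k y = k x then u y * v x / ((cls Ω k x).card : ℝ) else 0 := by
    intro x _
    rw [div_mul_eq_mul_div, sum_mul, sum_div, cls, sum_filter]
  have h2 : ∀ y ∈ Ω, u y * ((∑ x ∈ cls Ω k y, v x) / ((cls Ω k y).card : ℝ))
      = ∑ x ∈ Ω, if k y = k x then u y * v x / ((cls Ω k x).card : ℝ) else 0 := by
    intro y _
    rw [← mul_div_assoc, mul_sum, sum_div, cls, sum_filter]
    refine sum_congr rfl fun x _ => ?_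
    by_cases h : k x = k y
    · rw [if_pos h, if_pos h.symm]
      have : (Ω.filter fun y' => k y' = k y) = cls Ω k x := by
        rw [cls]; congr 1; ext y'; rw [h]
      rw [this]
    · rw [if_neg h, if_neg (fun h' => h h'.symm)]
  rw [sum_congr rfl h1, sum_congr rfl h2, sum_comm]

/-- refinement: averaging a coarse average over finer classes does nothing -/
lemma avg_fine_coarse {κ' : Type*} [DecidableEq κ'] {Ω : Finset α} {k : α → κ} {p : α → κ'}
    (hp : ∀ x y, p x = p y → k x = k y) (f : α → ℝ) {x : α} (hx : x ∈ Ω) :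
    avg Ω p (avg Ω k f) x = avg Ω k f x :=
  avg_of_const hx fun _ _ hy => avg_congr_key f (hp _ _ hy)

/-- refinement: the coarse average of a finer average is the coarse average -/
lemma avg_coarse_fine {κ' : Type*} [DecidableEq κ'] {Ω : Finset α} {k : α → κ} {p : α → κ'}
    (hp : ∀ x y, p x = p y → k x = k y) (f : α → ℝ) : ∀ x ∈ Ω,
    avg Ω k (avg Ω p f) x = avg Ω k f x := by
  apply eq_on_of_ip
  intro g
  rw [ip_avg, ip_avg, ip_avg]
  exact ip_congr (fun _ _ => rfl) (fun x hx => avg_fine_coarse hp g hx)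

/-- **Commutation criterion.** If for `k`-equivalent `x, x''` there is a bijection between the
`l`-classes of `x` and `x''` that preserves the `k`-key, then the two class averages commute. -/
theorem avg_comm_of_bij {κ' : Type*} [DecidableEq κ'] (Ω : Finset α) (k : α → κ) (l : α → κ')
    (h : ∀ x ∈ Ω, ∀ x'' ∈ Ω, k x = k x'' →
      ∃ φ ψ : α → α,
        (∀ y ∈ Ω, l y = l x → φ y ∈ Ω ∧ l (φ y) = l x'' ∧ k (φ y) = k y ∧ ψ (φ y) = y) ∧
        (∀ y ∈ Ω, l y = l x'' → ψ y ∈ Ω ∧ l (ψ y) = l x ∧ φ (ψ y) = y))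
    (f : α → ℝ) : ∀ x ∈ Ω, avg Ω k (avg Ω l f) x = avg Ω l (avg Ω k f) x := by
  -- step 1: `avg l` maps `k`-invariant functions to `k`-invariant functions
  have step1 : ∀ g : α → ℝ, (∀ y ∈ Ω, ∀ z ∈ Ω, k y = k z → g y = g z) →
      ∀ x ∈ Ω, ∀ x'' ∈ Ω, k x = k x'' → avg Ω l g x = avg Ω l g x'' := by
    intro g hg x hx x'' hx'' hk
    obtain ⟨φ, ψ, h1, h2⟩ := h x hx x'' hx'' hk
    have hsum : ∀ w : α → ℝ, (∀ y ∈ Ω, ∀ z ∈ Ω, k y = k z → w y = w z) →
        ∑ y ∈ cls Ω l x, w y = ∑ y ∈ cls Ω l x'', w y := by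
      intro w hw
      refine sum_bij' (fun y _ => φ y) (fun y _ => ψ y) ?_ ?_ ?_ ?_ ?_
      · intro y hy
        obtain ⟨hy1, hy2⟩ := mem_cls.1 hy
        exact mem_cls.2 ⟨(h1 y hy1 hy2).1, (h1 y hy1 hy2).2.1⟩
      · intro y hy
        obtain ⟨hy1, hy2⟩ := mem_cls.1 hy
        exact mem_cls.2 ⟨(h2 y hy1 hy2).1, (h2 y hy1 hy2).2.1⟩
      · intro y hy
        obtain ⟨hy1, hy2⟩ := mem_cls.1 hy
        exact (h1 y hy1 hy2).2.2.2
      · intro y hy
        obtain ⟨hy1, hy2⟩ := mem_cls.1 hy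
        exact (h2 y hy1 hy2).2.2
      · intro y hy
        obtain ⟨hy1, hy2⟩ := mem_cls.1 hy
        exact (hw _ (h1 y hy1 hy2).1 _ hy1 (h1 y hy1 hy2).2.2.1).symm
    have hcard : ((cls Ω l x).card : ℝ) = ((cls Ω l x'').card : ℝ) := by
      have := hsum (fun _ => 1) (fun _ _ _ _ _ => rfl)
      simpa using this
    unfold avg
    rw [hsum g hg, hcard]
  -- step 2: `E_k E_l E_k = E_l E_k` on `Ω`
  have step2 : ∀ g : α → ℝ, ∀ x ∈ Ω,
      avg Ω k (avg Ω l (avg Ω k g)) x = avg Ω l (avg Ω k g) x := by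
    intro g x hx
    refine avg_of_const hx fun y hy hyx => ?_
    exact step1 (avg Ω k g) (fun y _ z _ hyz => avg_congr_key g hyz) y hy x hx hyx
  -- step 3: duality
  apply eq_on_of_ip
  intro g
  calc ip Ω (avg Ω k (avg Ω l f)) g
      = ip Ω f (avg Ω l (avg Ω k g)) := by rw [ip_avg, ip_avg]
    _ = ip Ω f (avg Ω k (avg Ω l (avg Ω k g))) :=
        ip_congr (fun _ _ => rfl) (fun x hx => (step2 g x hx).symm)
    _ = ip Ω (avg Ω k (avg Ω l (avg Ω k f))) g := by rw [ip_avg, ip_avg, ip_avg]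
    _ = ip Ω (avg Ω l (avg Ω k f)) g := ip_congr (fun x hx => step2 f x hx) (fun _ _ => rfl)

end avg

/-! ### Projections on `Ω` and the commuting-projections lemma -/

/-- a symmetric idempotent operator on functions, everything read on `Ω` -/
structure IsProj (Ω : Finset α) (A : (α → ℝ) → (α → ℝ)) : Prop where
  symm : ∀ u v, ip Ω (A u) v = ip Ω u (A v)
  idem : ∀ u, ∀ x ∈ Ω, A (A u) x = A u x
  congr : ∀ u u', (∀ x ∈ Ω, u x = u' x) → ∀ x ∈ Ω, A u x = A u' x

/-- for commuting projections `A, B`: `⟨A f, B f⟩ = ‖A B f‖² ≥ 0` -/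
lemma ip_proj_nonneg {Ω : Finset α} {A B : (α → ℝ) → (α → ℝ)} (hA : IsProj Ω A)
    (hB : IsProj Ω B) (hc : ∀ u, ∀ x ∈ Ω, A (B u) x = B (A u) x) (f : α → ℝ) :
    0 ≤ ip Ω (A f) (B f) := by
  have h1 : ip Ω (A f) (B f) = ip Ω (A (B f)) (A (B f)) := by
    calc ip Ω (A f) (B f) = ip Ω f (A (B f)) := hA.symm _ _
      _ = ip Ω f (A (B (B f))) :=
          ip_congr (fun _ _ => rfl) (fun x hx => (hA.congr _ _ (hB.idem f) x hx).symm)
      _ = ip Ω f (B (A (B f))) := ip_congr (fun _ _ => rfl) (fun x hx => hc (B f) x hx)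
      _ = ip Ω (B f) (A (B f)) := (hB.symm _ _).symm
      _ = ip Ω (B f) (A (A (B f))) :=
          ip_congr (fun _ _ => rfl) (fun x hx => (hA.idem (B f) x hx).symm)
      _ = ip Ω (A (B f)) (A (B f)) := (hA.symm _ _).symm
  rw [h1]; exact ip_self_nonneg _ _

section projs
variable {κ : Type*} [DecidableEq κ]

lemma isProj_avg (Ω : Finset α) (k : α → κ) : IsProj Ω (avg Ω k) where
  symm := ip_avg Ω k
  idem := fun u _ hx => avg_avg u hx
  congr := fun _ _ h x _ => avg_congr h x

lemma isProj_one_sub_avg (Ω : Finset α) (k : α → κ) :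
    IsProj Ω (fun u x => u x - avg Ω k u x) where
  symm := by
    intro u v
    rw [ip_sub_left, ip_sub_right, ip_avg]
  idem := by
    intro u x hx
    show (u x - avg Ω k u x) - avg Ω k (fun y => u y - avg Ω k u y) x = u x - avg Ω k u x
    rw [avg_sub, avg_avg u hx]; ring
  congr := by
    intro u u' h x hx
    show u x - avg Ω k u x = u' x - avg Ω k u' x
    rw [h x hx, avg_congr h x]

lemma isProj_avg_sub_avg {κ' : Type*} [DecidableEq κ'] (Ω : Finset α) (k : α → κ) (p : α → κ')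
    (hp : ∀ x y, p x = p y → k x = k y) :
    IsProj Ω (fun u x => avg Ω p u x - avg Ω k u x) where
  symm := by
    intro u v
    rw [ip_sub_left, ip_sub_right, ip_avg, ip_avg]
  idem := by
    intro u x hx
    show avg Ω p (fun y => avg Ω p u y - avg Ω k u y) x
        - avg Ω k (fun y => avg Ω p u y - avg Ω k u y) x = avg Ω p u x - avg Ω k u x
    rw [avg_sub, avg_sub, avg_avg u hx, avg_avg u hx, avg_fine_coarse hp u hx,
      avg_coarse_fine hp u x hx]
    ring
  congr := by
    intro u u' h x _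
    show avg Ω p u x - avg Ω k u x = avg Ω p u' x - avg Ω k u' x
    rw [avg_congr h x, avg_congr h x]

end projs

/-! ### The abstract couple inequality (Lemma S) -/

section sigma
variable {κ : Type*} [DecidableEq κ]

/-- an involution of `Ω` preserving the key permutes every class -/
lemma sum_cls_comp_invol {Ω : Finset α} {σ : α → α} (hσΩ : ∀ x ∈ Ω, σ x ∈ Ω)
    (hσσ : ∀ x ∈ Ω, σ (σ x) = x) (k : α → κ) (hk : ∀ x ∈ Ω, k (σ x) = k x)
    (w : α → ℝ) (x : α) : ∑ y ∈ cls Ω k x, w (σ y) = ∑ y ∈ cls Ω k x, w y := by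
  refine sum_bij' (fun y _ => σ y) (fun y _ => σ y) ?_ ?_ ?_ ?_ (fun _ _ => rfl)
  · intro y hy
    obtain ⟨hy1, hy2⟩ := mem_cls.1 hy
    exact mem_cls.2 ⟨hσΩ y hy1, (hk y hy1).trans hy2⟩
  · intro y hy
    obtain ⟨hy1, hy2⟩ := mem_cls.1 hy
    exact mem_cls.2 ⟨hσΩ y hy1, (hk y hy1).trans hy2⟩
  · intro y hy; exact hσσ y (mem_cls.1 hy).1
  · intro y hy; exact hσσ y (mem_cls.1 hy).1

lemma avg_comp_invol {Ω : Finset α} {σ : α → α} (hσΩ : ∀ x ∈ Ω, σ x ∈ Ω)
    (hσσ : ∀ x ∈ Ω, σ (σ x) = x) (k : α → κ) (hk : ∀ x ∈ Ω, k (σ x) = k x)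
    (w : α → ℝ) (x : α) : avg Ω k (fun y => w (σ y)) x = avg Ω k w x := by
  unfold avg
  rw [sum_cls_comp_invol hσΩ hσσ k hk w x]

/-- odd functions are killed by the class average of a `σ`-invariant key -/
lemma avg_odd_eq_zero {Ω : Finset α} {σ : α → α} (hσΩ : ∀ x ∈ Ω, σ x ∈ Ω)
    (hσσ : ∀ x ∈ Ω, σ (σ x) = x) (k : α → κ) (hk : ∀ x ∈ Ω, k (σ x) = k x)
    (o : α → ℝ) (ho : ∀ x ∈ Ω, o (σ x) = - o x) (x : α) : avg Ω k o x = 0 := by
  have h1 := avg_comp_invol hσΩ hσσ k hk o x
  have h2 : avg Ω k (fun y => o (σ y)) x = - avg Ω k o x := by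
    unfold avg
    rw [sum_congr rfl fun y hy => ho y (mem_cls.1 hy).1, sum_neg_distrib, neg_div]
  linarith

/-- on a class without `M`-split the refined average is the coarse one -/
lemma avg_refine_eq {Ω : Finset α} (k : α → κ) (M : α → Prop) [DecidablePred M] (f : α → ℝ)
    {x : α} (hx : x ∈ Ω) (hno : ∀ y ∈ Ω, k y = k x → ¬ M y) :
    avg Ω (fun y => (k y, decide (M y))) f x = avg Ω k f x := by
  have : cls Ω (fun y => (k y, decide (M y))) x = cls Ω k x := by
    ext y
    rw [mem_cls, mem_cls]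
    constructor
    · rintro ⟨hy, hyp⟩; exact ⟨hy, congrArg Prod.fst hyp⟩
    · rintro ⟨hy, hye⟩
      refine ⟨hy, ?_⟩
      show (k y, decide (M y)) = (k x, decide (M x))
      rw [hye]
      congr 1
      have h1 : ¬ M y := hno y hy hye
      have h2 : ¬ M x := hno x hx rfl
      simp [h1, h2]
  unfold avg
  rw [this]

end sigma

section couple
variable {κ κ' : Type*} [DecidableEq κ] [DecidableEq κ']

/-- **Abstract couple inequality.**  `e, e'` are the keys of the two pair classes, `M` the set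
where the switch is available, `σ` the switch, `p, p'` the keys refined by membership in `M`. -/
theorem couple_ineq (Ω : Finset α) (e : α → κ) (e' : α → κ') (M : α → Prop) [DecidablePred M]
    (σ : α → α)
    (hσΩ : ∀ x ∈ Ω, σ x ∈ Ω) (hσσ : ∀ x ∈ Ω, σ (σ x) = x)
    (hσe : ∀ x ∈ Ω, e (σ x) = e x) (hσe' : ∀ x ∈ Ω, e' (σ x) = e' x)
    (hσM : ∀ x ∈ Ω, (M (σ x) ↔ M x))
    (hPE' : ∀ f : α → ℝ, ∀ x ∈ Ω,
      avg Ω (fun y => (e y, decide (M y))) (avg Ω e' f) x
        = avg Ω e' (avg Ω (fun y => (e y, decide (M y))) f) x)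
    (hPP' : ∀ f : α → ℝ, ∀ x ∈ Ω,
      avg Ω (fun y => (e y, decide (M y))) (avg Ω (fun y => (e' y, decide (M y))) f) x
        = avg Ω (fun y => (e' y, decide (M y))) (avg Ω (fun y => (e y, decide (M y))) f) x)
    (hEP' : ∀ f : α → ℝ, ∀ x ∈ Ω,
      avg Ω e (avg Ω (fun y => (e' y, decide (M y))) f) x
        = avg Ω (fun y => (e' y, decide (M y))) (avg Ω e f) x)
    (hsupp : ∀ x ∈ Ω, ¬ M x →
      (∀ y ∈ Ω, e y = e x → ¬ M y) ∨ (∀ y ∈ Ω, e' y = e' x → ¬ M y))
    (f : α → ℝ) :
    (1 / 2) * ∑ x ∈ Ω, (f x - f (σ x)) ^ 2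
        - ∑ x ∈ Ω.filter M, (avg Ω (fun y => (e y, decide (M y))) f x - avg Ω e f x) ^ 2
        - ∑ x ∈ Ω.filter M, (avg Ω (fun y => (e' y, decide (M y))) f x - avg Ω e' f x) ^ 2
      ≤ 2 * ∑ x ∈ Ω, (f x - avg Ω e f x) * (f x - avg Ω e' f x) := by
  have hpe : ∀ x y : α, (e x, decide (M x)) = (e y, decide (M y)) → e x = e y :=
    fun x y h => congrArg Prod.fst h
  have hpe' : ∀ x y : α, (e' x, decide (M x)) = (e' y, decide (M y)) → e' x = e' y :=
    fun x y h => congrArg Prod.fst h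
  -- σ is a bijection of Ω
  have hσbij : ∀ w : α → ℝ, ∑ x ∈ Ω, w (σ x) = ∑ x ∈ Ω, w x := by
    intro w
    refine sum_bij' (fun x _ => σ x) (fun x _ => σ x) (fun x hx => hσΩ x hx)
      (fun x hx => hσΩ x hx) (fun x hx => hσσ x hx) (fun x hx => hσσ x hx) (fun _ _ => rfl)
  have hσp : ∀ x ∈ Ω, (e (σ x), decide (M (σ x))) = (e x, decide (M x)) := by
    intro x hx
    rw [hσe x hx]
    congr 1
    exact decide_eq_decide.2 (hσM x hx)
  -- odd and even parts
  obtain ⟨o, ho⟩ : ∃ o : α → ℝ, o = fun x => (f x - f (σ x)) / 2 := ⟨_, rfl⟩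
  obtain ⟨ev, hev⟩ : ∃ ev : α → ℝ, ev = fun x => (f x + f (σ x)) / 2 := ⟨_, rfl⟩
  have hf : ∀ x, f x = o x + ev x := fun x => by rw [ho, hev]; ring
  have hoσ : ∀ x ∈ Ω, o (σ x) = - o x := by
    intro x hx; rw [ho]; simp only; rw [hσσ x hx]; ring
  have hevσ : ∀ x ∈ Ω, ev (σ x) = ev x := by
    intro x hx; rw [hev]; simp only; rw [hσσ x hx]; ring
  have hoo : ip Ω o o = (1 / 4) * ∑ x ∈ Ω, (f x - f (σ x)) ^ 2 := by
    unfold ip
    rw [mul_sum]
    exact sum_congr rfl fun x _ => by rw [ho]; ring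
  -- odd ⟂ σ-even
  have horth : ∀ w : α → ℝ, (∀ x ∈ Ω, w (σ x) = w x) → ip Ω o w = 0 := by
    intro w hw
    have h1 : ip Ω o w = ∑ x ∈ Ω, o (σ x) * w (σ x) := (hσbij (fun x => o x * w x)).symm
    have h2 : ∑ x ∈ Ω, o (σ x) * w (σ x) = - ip Ω o w := by
      unfold ip
      rw [← sum_neg_distrib]
      exact sum_congr rfl fun x hx => by rw [hoσ x hx, hw x hx]; ring
    linarith
  -- Term 1
  have T1 : ip Ω o o ≤ ip Ω (fun x => f x - avg Ω (fun y => (e y, decide (M y))) f x)
      (fun x => f x - avg Ω e' f x) := by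
    have e1 : ∀ x ∈ Ω, f x - avg Ω (fun y => (e y, decide (M y))) f x
        = o x + (ev x - avg Ω (fun y => (e y, decide (M y))) ev x) := by
      intro x hx
      have h1 : avg Ω (fun y => (e y, decide (M y))) f x
          = avg Ω (fun y => (e y, decide (M y))) o x
            + avg Ω (fun y => (e y, decide (M y))) ev x := by
        rw [← avg_add]; exact avg_congr (fun y _ => hf y) x
      rw [h1, avg_odd_eq_zero hσΩ hσσ _ hσp o hoσ x, hf x]; ring
    have e2 : ∀ x ∈ Ω, f x - avg Ω e' f x = o x + (ev x - avg Ω e' ev x) := by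
      intro x hx
      have h1 : avg Ω e' f x = avg Ω e' o x + avg Ω e' ev x := by
        rw [← avg_add]; exact avg_congr (fun y _ => hf y) x
      rw [h1, avg_odd_eq_zero hσΩ hσσ _ hσe' o hoσ x, hf x]; ring
    rw [ip_congr e1 e2, ip_add_left, ip_add_right, ip_add_right]
    have z1 : ip Ω o (fun x => ev x - avg Ω e' ev x) = 0 := by
      apply horth
      intro x hx
      show ev (σ x) - avg Ω e' ev (σ x) = ev x - avg Ω e' ev x
      rw [hevσ x hx, avg_congr_key ev (hσe' x hx)]
    have z2 : ip Ω (fun x => ev x - avg Ω (fun y => (e y, decide (M y))) ev x) o = 0 := by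
      rw [ip_comm]
      apply horth
      intro x hx
      show ev (σ x) - avg Ω (fun y => (e y, decide (M y))) ev (σ x)
          = ev x - avg Ω (fun y => (e y, decide (M y))) ev x
      rw [hevσ x hx, avg_congr_key (k := fun y => (e y, decide (M y))) ev (hσp x hx)]
    have z3 : 0 ≤ ip Ω (fun x => ev x - avg Ω (fun y => (e y, decide (M y))) ev x)
        (fun x => ev x - avg Ω e' ev x) := by
      refine ip_proj_nonneg (A := fun w x => w x - avg Ω (fun y => (e y, decide (M y))) w x)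
        (B := fun w x => w x - avg Ω e' w x)
        (isProj_one_sub_avg Ω _) (isProj_one_sub_avg Ω e') ?_ ev
      intro w x hx
      show (w x - avg Ω e' w x) - avg Ω (fun y => (e y, decide (M y)))
            (fun y => w y - avg Ω e' w y) x
          = (w x - avg Ω (fun y => (e y, decide (M y))) w x)
            - avg Ω e' (fun y => w y - avg Ω (fun y => (e y, decide (M y))) w y) x
      rw [avg_sub, avg_sub, hPE' w x hx]; ring
    linarith
  -- Term 2
  have T2 : 0 ≤ ip Ω (fun x => avg Ω (fun y => (e y, decide (M y))) f x - avg Ω e f x)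
      (fun x => f x - avg Ω (fun y => (e' y, decide (M y))) f x) := by
    refine ip_proj_nonneg (A := fun w x => avg Ω (fun y => (e y, decide (M y))) w x - avg Ω e w x)
      (B := fun w x => w x - avg Ω (fun y => (e' y, decide (M y))) w x)
      (isProj_avg_sub_avg Ω e _ hpe) (isProj_one_sub_avg Ω _) ?_ f
    intro w x hx
    show avg Ω (fun y => (e y, decide (M y)))
          (fun y => w y - avg Ω (fun y => (e' y, decide (M y))) w y) x
        - avg Ω e (fun y => w y - avg Ω (fun y => (e' y, decide (M y))) w y) x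
        = (avg Ω (fun y => (e y, decide (M y))) w x - avg Ω e w x)
          - avg Ω (fun y => (e' y, decide (M y)))
              (fun y => avg Ω (fun y => (e y, decide (M y))) w y - avg Ω e w y) x
    rw [avg_sub, avg_sub, avg_sub, hPP' w x hx, hEP' w x hx]; ring
  -- Term 3: the product v v' is supported on M
  have T3 : - (1 / 2) * ∑ x ∈ Ω.filter M,
        (avg Ω (fun y => (e y, decide (M y))) f x - avg Ω e f x) ^ 2
      - (1 / 2) * ∑ x ∈ Ω.filter M,
        (avg Ω (fun y => (e' y, decide (M y))) f x - avg Ω e' f x) ^ 2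
      ≤ ip Ω (fun x => avg Ω (fun y => (e y, decide (M y))) f x - avg Ω e f x)
          (fun x => avg Ω (fun y => (e' y, decide (M y))) f x - avg Ω e' f x) := by
    have h1 : ip Ω (fun x => avg Ω (fun y => (e y, decide (M y))) f x - avg Ω e f x)
          (fun x => avg Ω (fun y => (e' y, decide (M y))) f x - avg Ω e' f x)
        = ∑ x ∈ Ω.filter M, (avg Ω (fun y => (e y, decide (M y))) f x - avg Ω e f x)
            * (avg Ω (fun y => (e' y, decide (M y))) f x - avg Ω e' f x) := by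
      unfold ip
      rw [sum_filter]
      refine sum_congr rfl fun x hx => ?_
      by_cases hM : M x
      · rw [if_pos hM]
      · rw [if_neg hM]
        beta_reduce
        rcases hsupp x hx hM with h | h
        · rw [avg_refine_eq e M f hx h, sub_self, zero_mul]
        · rw [avg_refine_eq e' M f hx h, sub_self, mul_zero]
    rw [h1, mul_sum, mul_sum, ← sum_sub_distrib]
    refine sum_le_sum fun x _ => ?_
    nlinarith [sq_nonneg ((avg Ω (fun y => (e y, decide (M y))) f x - avg Ω e f x)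
      + (avg Ω (fun y => (e' y, decide (M y))) f x - avg Ω e' f x))]
  -- assemble
  have hsplit : ip Ω (fun x => f x - avg Ω e f x) (fun x => f x - avg Ω e' f x)
      = ip Ω (fun x => f x - avg Ω (fun y => (e y, decide (M y))) f x)
          (fun x => f x - avg Ω e' f x)
        + ip Ω (fun x => avg Ω (fun y => (e y, decide (M y))) f x - avg Ω e f x)
          (fun x => f x - avg Ω (fun y => (e' y, decide (M y))) f x)
        + ip Ω (fun x => avg Ω (fun y => (e y, decide (M y))) f x - avg Ω e f x)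
          (fun x => avg Ω (fun y => (e' y, decide (M y))) f x - avg Ω e' f x) := by
    unfold ip
    rw [← sum_add_distrib, ← sum_add_distrib]
    exact sum_congr rfl fun x _ => by ring
  have hgoal : ∑ x ∈ Ω, (f x - avg Ω e f x) * (f x - avg Ω e' f x)
      = ip Ω (fun x => f x - avg Ω e f x) (fun x => f x - avg Ω e' f x) := rfl
  rw [hgoal, hsplit]
  linarith

end couple

end Crest.Agent.S0453.CG
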