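import Mathlib
import Crest.Prelude.Def_SwitchChain
import Crest.Agent.S0453.PM
import Crest.Agent.S0453.Avg
import Crest.Agent.S0453.CGAvg

/-!
Row 299 / S0453 — graph-level Lemma C + Lemma S for one couple (helper67, "track B").

For disjoint pairs `b, b'` of vertices the statement `sgraph` is Lemma S of board post 956 in the
interface of board post 1038 (`cross`, `Ms`, `flip`, `sameOffM`):

  (1/2) ∑_G (f G − f (flip G))² − Q^b − Q^{b'} ≤ 2 ∑_G (f G − E_b f G)(f G − E_{b'} f G).

The three commutations (Lemma C) are proved by ONE explicit class bijection `phi`: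
`phi H = (RA-edges of G'') ∪ (non-RA edges of H, relabelled by τ)`, where the RA-edges are the
edges touching `b` but not `b'` and `τ` is the identity or the transposition of the two vertices
of `b`.
-/

set_option autoImplicit false
set_option linter.unusedSectionVars false
set_option linter.unusedVariables false
open Finset

namespace Crest.Agent.S0453.CG

open Crest.SwitchChain
open Crest.Agent.S0453R (mkE mem_mkE mkE_eq_iff avgOn sameOff E pairs)

variable {n : ℕ}

/-! ### Edges -/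

lemma mem_realizations {d : Fin n → ℕ} {G : Finset (Edge n)} :
    G ∈ realizations d ↔ ∀ v, deg G v = d v := by
  simp [realizations]

lemma mkE_comm {x y : Fin n} (h : x ≠ y) : mkE x y h = mkE y x h.symm :=
  Subtype.ext Sym2.eq_swap

/-- an edge containing two distinct vertices is the edge joining them -/
lemma edge_eq_mkE_iff {x y : Fin n} (h : x ≠ y) (e : Edge n) :
    (x ∈ e.1 ∧ y ∈ e.1) ↔ e = mkE x y h := by
  rw [Sym2.mem_and_mem_iff h]
  constructor
  · intro he; exact Subtype.ext he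
  · intro he; rw [he]; rfl

/-- an edge has only two endpoints -/
lemma mem_edge_cases {x y v : Fin n} (h : x ≠ y) {e : Edge n} (hx : x ∈ e.1) (hy : y ∈ e.1)
    (hv : v ∈ e.1) : v = x ∨ v = y := by
  have he := (edge_eq_mkE_iff h e).1 ⟨hx, hy⟩
  rw [he] at hv
  exact (mem_mkE h).1 hv

/-- relabel the endpoints of an edge by an involution of the vertices -/
def emap (τ : Fin n → Fin n) (hτ : Function.Involutive τ) (e : Edge n) : Edge n :=
  ⟨Sym2.map τ e.1, by rw [Sym2.isDiag_map hτ.injective]; exact e.2⟩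

lemma mem_emap {τ : Fin n → Fin n} (hτ : Function.Involutive τ) (e : Edge n) (v : Fin n) :
    v ∈ (emap τ hτ e).1 ↔ τ v ∈ e.1 := by
  show v ∈ Sym2.map τ e.1 ↔ _
  rw [Sym2.mem_map]
  constructor
  · rintro ⟨a, ha, rfl⟩; rwa [hτ a]
  · intro h; exact ⟨τ v, h, hτ v⟩

lemma emap_emap {τ : Fin n → Fin n} (hτ : Function.Involutive τ) (e : Edge n) :
    emap τ hτ (emap τ hτ e) = e := by
  apply Subtype.ext
  show Sym2.map τ (Sym2.map τ e.1) = e.1
  rw [Sym2.map_map]
  have : τ ∘ τ = id := funext hτ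
  rw [this, Sym2.map_id]; rfl

lemma emap_eq_self {τ : Fin n → Fin n} (hτ : Function.Involutive τ) {e : Edge n}
    (h : ∀ v ∈ e.1, τ v = v) : emap τ hτ e = e := by
  apply Subtype.ext
  show Sym2.map τ e.1 = e.1
  have : Sym2.map τ e.1 = Sym2.map id e.1 := Sym2.map_congr (fun x hx => h x hx)
  rw [this, Sym2.map_id]; rfl

/-- the edge touches the vertex set `b` -/
def tch (b : Finset (Fin n)) (e : Edge n) : Prop := ∃ x ∈ b, x ∈ e.1

instance (b : Finset (Fin n)) : DecidablePred (tch b) := fun e => by unfold tch; infer_instance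

lemma not_tch_iff {b : Finset (Fin n)} {e : Edge n} : ¬ tch b e ↔ ∀ u ∈ b, u ∉ e.1 := by
  simp only [tch, not_exists, not_and]

/-! ### Restricted degrees -/

/-- the number of edges of `X` at `v` satisfying `P` -/
def rdeg (P : Edge n → Prop) [DecidablePred P] (X : Finset (Edge n)) (v : Fin n) : ℕ :=
  (X.filter fun e => P e ∧ v ∈ e.1).card

lemma rdeg_split (P Q R : Edge n → Prop) [DecidablePred P] [DecidablePred Q] [DecidablePred R]
    (h : ∀ e, P e ↔ (Q e ∨ R e)) (hd : ∀ e, Q e → R e → False) (X : Finset (Edge n)) (v : Fin n) :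
    rdeg P X v = rdeg Q X v + rdeg R X v := by
  unfold rdeg
  rw [← card_union_of_disjoint]
  · congr 1
    ext e
    simp only [mem_filter, mem_union]
    rw [h]; tauto
  · rw [disjoint_left]
    intro e he he'
    simp only [mem_filter] at he he'
    exact hd e he.2.1 he'.2.1

lemma deg_split (Q R : Edge n → Prop) [DecidablePred Q] [DecidablePred R]
    (h : ∀ e, Q e ∨ R e) (hd : ∀ e, Q e → R e → False) (X : Finset (Edge n)) (v : Fin n) :
    deg X v = rdeg Q X v + rdeg R X v := by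
  have h0 : deg X v = rdeg (fun _ => True) X v := by
    unfold deg rdeg; congr 1; ext e; simp
  rw [h0]
  exact rdeg_split _ Q R (fun e => by simp [h e]) hd X v

lemma rdeg_congr {P : Edge n → Prop} [DecidablePred P] {X Y : Finset (Edge n)} {v : Fin n}
    (h : ∀ e, P e → v ∈ e.1 → (e ∈ X ↔ e ∈ Y)) : rdeg P X v = rdeg P Y v := by
  unfold rdeg
  congr 1
  ext e
  simp only [mem_filter]
  constructor
  · rintro ⟨h1, h2, h3⟩; exact ⟨(h e h2 h3).1 h1, h2, h3⟩
  · rintro ⟨h1, h2, h3⟩; exact ⟨(h e h2 h3).2 h1, h2, h3⟩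

lemma rdeg_congr_pred {P Q : Edge n → Prop} [DecidablePred P] [DecidablePred Q]
    {X : Finset (Edge n)} {v : Fin n} (h : ∀ e, v ∈ e.1 → (P e ↔ Q e)) :
    rdeg P X v = rdeg Q X v := by
  unfold rdeg
  congr 1
  ext e
  simp only [mem_filter]
  constructor
  · rintro ⟨h1, h2, h3⟩; exact ⟨h1, (h e h3).1 h2, h3⟩
  · rintro ⟨h1, h2, h3⟩; exact ⟨h1, (h e h3).2 h2, h3⟩

lemma rdeg_eq_zero {P : Edge n → Prop} [DecidablePred P] {X : Finset (Edge n)} {v : Fin n}
    (h : ∀ e, P e → v ∉ e.1) : rdeg P X v = 0 := by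
  unfold rdeg
  rw [card_eq_zero, filter_eq_empty_iff]
  intro e _ he
  exact h e he.1 he.2

/-- restricted degrees of a relabelled graph -/
lemma rdeg_emap {τ : Fin n → Fin n} (hτ : Function.Involutive τ) {P : Edge n → Prop}
    [DecidablePred P] {X Y : Finset (Edge n)} (hP : ∀ e, P (emap τ hτ e) ↔ P e)
    (hXY : ∀ e, P e → (e ∈ Y ↔ emap τ hτ e ∈ X)) (v : Fin n) :
    rdeg P Y v = rdeg P X (τ v) := by
  unfold rdeg
  refine card_bij' (fun e _ => emap τ hτ e) (fun e _ => emap τ hτ e) ?_ ?_ ?_ ?_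
  · intro e he
    simp only [mem_filter] at he ⊢
    refine ⟨(hXY e he.2.1).1 he.1, (hP e).2 he.2.1, ?_⟩
    rw [mem_emap, hτ v]; exact he.2.2
  · intro e he
    simp only [mem_filter] at he ⊢
    have hPe : P (emap τ hτ e) := (hP e).2 he.2.1
    refine ⟨(hXY _ hPe).2 (by rw [emap_emap]; exact he.1), hPe, ?_⟩
    rw [mem_emap]; exact he.2.2
  · intro e _; exact emap_emap hτ e
  · intro e _; exact emap_emap hτ e

/-! ### The class bijection -/

/-- an involution of the vertices that permutes `b` and fixes every other vertex -/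
structure Good (b : Finset (Fin n)) (τ : Fin n → Fin n) : Prop where
  invol : Function.Involutive τ
  mem : ∀ x ∈ b, τ x ∈ b
  fix : ∀ x, x ∉ b → τ x = x

lemma Good.tch_emap {b : Finset (Fin n)} {τ : Fin n → Fin n} (h : Good b τ) (e : Edge n) :
    tch b (emap τ h.invol e) ↔ tch b e := by
  unfold tch
  constructor
  · rintro ⟨x, hx, hxe⟩
    exact ⟨τ x, h.mem x hx, (mem_emap h.invol e x).1 hxe⟩
  · rintro ⟨x, hx, hxe⟩
    exact ⟨τ x, h.mem x hx, (mem_emap h.invol e (τ x)).2 (by rw [h.invol x]; exact hxe)⟩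

lemma Good.tch_emap' {b b' : Finset (Fin n)} {τ : Fin n → Fin n} (h : Good b τ)
    (hd : Disjoint b b') (e : Edge n) : tch b' (emap τ h.invol e) ↔ tch b' e := by
  unfold tch
  have hfix : ∀ x ∈ b', τ x = x := fun x hx => h.fix x (fun hxb => disjoint_left.1 hd hxb hx)
  constructor
  · rintro ⟨x, hx, hxe⟩
    exact ⟨x, hx, by have := (mem_emap h.invol e x).1 hxe; rwa [hfix x hx] at this⟩
  · rintro ⟨x, hx, hxe⟩
    exact ⟨x, hx, (mem_emap h.invol e x).2 (by rw [hfix x hx]; exact hxe)⟩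

lemma Good.emap_of_not_tch {b : Finset (Fin n)} {τ : Fin n → Fin n} (h : Good b τ) {e : Edge n}
    (he : ¬ tch b e) : emap τ h.invol e = e :=
  emap_eq_self h.invol fun v hv => h.fix v fun hvb => he ⟨v, hvb, hv⟩

/-- the class bijection: RA-edges (touching `b`, not `b'`) from `G''`, all other edges from `H`
after relabelling by `τ` -/
def phi (τ : Fin n → Fin n) (hτ : Function.Involutive τ) (b b' : Finset (Fin n))
    (G'' H : Finset (Edge n)) : Finset (Edge n) :=
  univ.filter fun e => if tch b e ∧ ¬ tch b' e then e ∈ G'' else emap τ hτ e ∈ H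

lemma mem_phi {τ : Fin n → Fin n} {hτ : Function.Involutive τ} {b b' : Finset (Fin n)}
    {G'' H : Finset (Edge n)} {e : Edge n} :
    e ∈ phi τ hτ b b' G'' H ↔ if tch b e ∧ ¬ tch b' e then e ∈ G'' else emap τ hτ e ∈ H := by
  simp [phi]

section phi
variable {b b' : Finset (Fin n)} {τ : Fin n → Fin n}

lemma phi_sameOff_b (h : Good b τ) (G'' H : Finset (Edge n)) :
    sameOff b (phi τ h.invol b b' G'' H) H := by
  intro e he
  have hne : ¬ tch b e := not_tch_iff.2 he
  rw [mem_phi, if_neg (fun h' => hne h'.1), h.emap_of_not_tch hne]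

lemma phi_sameOff_b' (h : Good b τ) {G G'' H : Finset (Edge n)} (h1 : sameOff b G G'')
    (h2 : sameOff b' H G) : sameOff b' (phi τ h.invol b b' G'' H) G'' := by
  intro e he
  have hne' : ¬ tch b' e := not_tch_iff.2 he
  rw [mem_phi]
  by_cases hb : tch b e
  · rw [if_pos ⟨hb, hne'⟩]
  · rw [if_neg (fun h' => hb h'.1), h.emap_of_not_tch hb, h2 e he, h1 e (not_tch_iff.1 hb)]

lemma phi_phi (h : Good b τ) (hd : Disjoint b b') {G G'' H : Finset (Edge n)}
    (h2 : sameOff b' H G) : phi τ h.invol b b' G (phi τ h.invol b b' G'' H) = H := by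
  ext e
  rw [mem_phi]
  by_cases hRA : tch b e ∧ ¬ tch b' e
  · rw [if_pos hRA]
    exact (h2 e (not_tch_iff.1 hRA.2)).symm
  · rw [if_neg hRA, mem_phi]
    have : ¬ (tch b (emap τ h.invol e) ∧ ¬ tch b' (emap τ h.invol e)) := by
      rw [h.tch_emap, h.tch_emap' hd]; exact hRA
    rw [if_neg this, emap_emap]

/-- the degrees of `phi H` -/
lemma deg_phi (h : Good b τ) (hd : Disjoint b b') (G'' H : Finset (Edge n)) (v : Fin n) :
    deg (phi τ h.invol b b' G'' H) v
      = rdeg (fun e => tch b e ∧ ¬ tch b' e) G'' v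
        + rdeg (fun e => ¬ (tch b e ∧ ¬ tch b' e)) H (τ v) := by
  rw [deg_split (fun e => tch b e ∧ ¬ tch b' e) (fun e => ¬ (tch b e ∧ ¬ tch b' e))
    (fun e => em _) (fun e h1 h2 => h2 h1)]
  congr 1
  · apply rdeg_congr
    intro e he _
    rw [mem_phi, if_pos he]
  · apply rdeg_emap h.invol
    · intro e
      rw [h.tch_emap, h.tch_emap' hd]
    · intro e he
      rw [mem_phi, if_neg he]

/-- the block degrees of `phi H` -/
lemma bdeg_phi (h : Good b τ) (hd : Disjoint b b') (G'' H : Finset (Edge n)) (v : Fin n) :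
    rdeg (fun e => tch b e ∧ tch b' e) (phi τ h.invol b b' G'' H) v
      = rdeg (fun e => tch b e ∧ tch b' e) H (τ v) := by
  apply rdeg_emap h.invol
  · intro e
    rw [h.tch_emap, h.tch_emap' hd]
  · intro e he
    rw [mem_phi, if_neg (fun h' => h'.2 he.2)]

/-- `phi H` is a realization -/
lemma phi_mem (h : Good b τ) (hd : Disjoint b b') {d : Fin n → ℕ} {G G'' H : Finset (Edge n)}
    (hG : G ∈ realizations d) (hG'' : G'' ∈ realizations d) (hH : H ∈ realizations d)
    (h2 : sameOff b' H G)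
    (hτ : ∀ v, rdeg (fun e => ¬ (tch b e ∧ ¬ tch b' e)) G (τ v)
      = rdeg (fun e => ¬ (tch b e ∧ ¬ tch b' e)) G'' v) :
    phi τ h.invol b b' G'' H ∈ realizations d := by
  rw [mem_realizations] at hG hG'' hH ⊢
  intro v
  rw [deg_phi h hd]
  -- the non-RA degrees of `H` and `G` agree
  have hA : ∀ w, rdeg (fun e => ¬ (tch b e ∧ ¬ tch b' e)) H w
      = rdeg (fun e => ¬ (tch b e ∧ ¬ tch b' e)) G w := by
    intro w
    have e1 := deg_split (fun e => tch b e ∧ ¬ tch b' e) (fun e => ¬ (tch b e ∧ ¬ tch b' e))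
      (fun e => em _) (fun e h1 h2 => h2 h1) H w
    have e2 := deg_split (fun e => tch b e ∧ ¬ tch b' e) (fun e => ¬ (tch b e ∧ ¬ tch b' e))
      (fun e => em _) (fun e h1 h2 => h2 h1) G w
    have e3 : rdeg (fun e => tch b e ∧ ¬ tch b' e) H w
        = rdeg (fun e => tch b e ∧ ¬ tch b' e) G w :=
      rdeg_congr fun e he _ => h2 e (not_tch_iff.1 he.2)
    have := hH w
    have := hG w
    omega
  rw [hA, hτ]
  have e2 := deg_split (fun e => tch b e ∧ ¬ tch b' e) (fun e => ¬ (tch b e ∧ ¬ tch b' e))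
    (fun e => em _) (fun e h1 h2 => h2 h1) G'' v
  have := hG'' v
  omega

end phi

/-! ### The couple: block, `Ms`, `flip` (definitions of board post 1038) -/

/-- block slots of the couple `(b, b')`: all edges joining `b` to `b'` -/
def cross (b b' : Finset (Fin n)) : Finset (Edge n) :=
  univ.filter fun e => (∃ x ∈ b, x ∈ e.1) ∧ (∃ y ∈ b', y ∈ e.1)

/-- the switch of the couple is available at `G`: the block of `G` is a perfect matching -/
def Ms (b b' : Finset (Fin n)) (G : Finset (Edge n)) : Prop :=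
  ∀ x ∈ b ∪ b', ((G ∩ cross b b').filter fun e => x ∈ e.1).card = 1

instance (b b' : Finset (Fin n)) : DecidablePred (Ms b b') := fun G => by
  unfold Ms; infer_instance

/-- complement the block where it is a matching, identity elsewhere -/
def flip (b b' : Finset (Fin n)) (G : Finset (Edge n)) : Finset (Edge n) :=
  if Ms b b' G then symmDiff G (cross b b') else G

/-- the `b`-class split by the `Ms`-status -/
def sameOffM (b b' : Finset (Fin n)) (G G' : Finset (Edge n)) : Prop :=
  sameOff b G G' ∧ (Ms b b' G ↔ Ms b b' G')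

instance (b b' : Finset (Fin n)) : DecidableRel (sameOffM b b') := fun G G' => by
  unfold sameOffM; infer_instance

lemma mem_cross {b b' : Finset (Fin n)} {e : Edge n} : e ∈ cross b b' ↔ tch b e ∧ tch b' e := by
  simp [cross, tch]

/-- block degree -/
def bd (b b' : Finset (Fin n)) (X : Finset (Edge n)) (x : Fin n) : ℕ :=
  rdeg (fun e => tch b e ∧ tch b' e) X x

lemma Ms_iff {b b' : Finset (Fin n)} {G : Finset (Edge n)} :
    Ms b b' G ↔ ∀ x ∈ b ∪ b', bd b b' G x = 1 := by
  unfold Ms bd rdeg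
  refine forall_congr' fun x => forall_congr' fun _ => ?_
  have : (G ∩ cross b b').filter (fun e => x ∈ e.1)
      = G.filter (fun e => (tch b e ∧ tch b' e) ∧ x ∈ e.1) := by
    ext e
    simp only [mem_filter, mem_inter, mem_cross]
    tauto
  rw [this]

lemma bd_comm (b b' : Finset (Fin n)) (X : Finset (Edge n)) (x : Fin n) :
    bd b b' X x = bd b' b X x :=
  rdeg_congr_pred fun _ _ => and_comm

lemma Ms_comm {b b' : Finset (Fin n)} {G : Finset (Edge n)} : Ms b b' G ↔ Ms b' b G := by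
  rw [Ms_iff, Ms_iff, union_comm]
  exact forall_congr' fun x => forall_congr' fun _ => by rw [bd_comm]

lemma card_filter_eq_or {α : Type*} [DecidableEq α] (X : Finset α) {x y : α} (hxy : x ≠ y) :
    (X.filter (fun e => e = x ∨ e = y)).card
      = (if x ∈ X then 1 else 0) + (if y ∈ X then 1 else 0) := by
  rw [filter_or, card_union_of_disjoint, filter_eq', filter_eq']
  · split_ifs <;> simp
  · rw [disjoint_filter]
    intro e _ h1 h2
    exact hxy (h1.symm.trans h2)

/-- the block degree in bits -/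
lemma bd_left {b b' : Finset (Fin n)} {p q r : Fin n} (hp : p ∈ b) (hb' : b' = {q, r})
    (hpq : p ≠ q) (hpr : p ≠ r) (hqr : q ≠ r) (X : Finset (Edge n)) :
    bd b b' X p = (if mkE p q hpq ∈ X then 1 else 0) + (if mkE p r hpr ∈ X then 1 else 0) := by
  have hne : mkE p q hpq ≠ mkE p r hpr := by
    intro h
    rw [mkE_eq_iff] at h
    rcases h with ⟨_, h⟩ | ⟨h, _⟩
    · exact hqr h
    · exact hpr h
  rw [← card_filter_eq_or X hne]
  unfold bd rdeg
  congr 1
  apply filter_congr
  intro e _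
  rw [← edge_eq_mkE_iff hpq e, ← edge_eq_mkE_iff hpr e]
  constructor
  · rintro ⟨⟨_, ⟨y, hy, hye⟩⟩, hpe⟩
    rw [hb'] at hy
    simp only [mem_insert, mem_singleton] at hy
    rcases hy with rfl | rfl
    · left; exact ⟨hpe, hye⟩
    · right; exact ⟨hpe, hye⟩
  · rintro (⟨hpe, hqe⟩ | ⟨hpe, hre⟩)
    · exact ⟨⟨⟨p, hp, hpe⟩, ⟨q, by rw [hb']; simp, hqe⟩⟩, hpe⟩
    · exact ⟨⟨⟨p, hp, hpe⟩, ⟨r, by rw [hb']; simp, hre⟩⟩, hpe⟩

/-- block edges only meet `b ∪ b'` -/
lemma bd_eq_zero {b b' : Finset (Fin n)} (hd : Disjoint b b') {v : Fin n} (hv : v ∉ b ∪ b')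
    (X : Finset (Edge n)) : bd b b' X v = 0 := by
  apply rdeg_eq_zero
  rintro e ⟨⟨x, hx, hxe⟩, ⟨y, hy, hye⟩⟩ hve
  have hxy : x ≠ y := fun h => disjoint_left.1 hd hx (h ▸ hy)
  rcases mem_edge_cases hxy hxe hye hve with rfl | rfl
  · exact hv (mem_union_left _ hx)
  · exact hv (mem_union_right _ hy)

lemma rdeg_off_eq_zero {b : Finset (Fin n)} {v : Fin n} (hv : v ∈ b) (X : Finset (Edge n)) :
    rdeg (fun e => ¬ tch b e) X v = 0 :=
  rdeg_eq_zero fun e he hve => he ⟨v, hv, hve⟩

/-- at a vertex of `b'` the degree is the off-`b` degree plus the block degree -/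
lemma deg_eq_off_add_bd {b b' : Finset (Fin n)} {v : Fin n} (hv : v ∈ b') (X : Finset (Edge n)) :
    deg X v = rdeg (fun e => ¬ tch b e) X v + bd b b' X v := by
  rw [deg_split (fun e => ¬ tch b e) (fun e => tch b e) (fun e => (em _).symm)
    (fun e h1 h2 => h1 h2)]
  congr 1
  apply rdeg_congr_pred
  intro e hve
  exact ⟨fun h => ⟨h, v, hv, hve⟩, fun h => h.1⟩

/-- the block degrees at `b'` are constant on the `b`-class -/
lemma bd_eq_of_sameOff {b b' : Finset (Fin n)} {d : Fin n → ℕ} {G G'' : Finset (Edge n)}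
    (hG : G ∈ realizations d) (hG'' : G'' ∈ realizations d) (h : sameOff b G G'') {v : Fin n}
    (hv : v ∈ b') : bd b b' G v = bd b b' G'' v := by
  have e1 : rdeg (fun e => ¬ tch b e) G v = rdeg (fun e => ¬ tch b e) G'' v :=
    rdeg_congr fun e he _ => h e (not_tch_iff.1 he)
  have h1 := deg_eq_off_add_bd (b := b) hv G
  have h2 := deg_eq_off_add_bd (b := b) hv G''
  have h3 := mem_realizations.1 hG v
  have h4 := mem_realizations.1 hG'' v
  omega

/-- non-RA degree = off-`b` degree + block degree -/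
lemma rdeg_nonRA (b b' : Finset (Fin n)) (X : Finset (Edge n)) (v : Fin n) :
    rdeg (fun e => ¬ (tch b e ∧ ¬ tch b' e)) X v
      = rdeg (fun e => ¬ tch b e) X v + bd b b' X v :=
  rdeg_split _ _ _ (fun e => by tauto) (fun e h1 h2 => h1 h2.1) X v

lemma Ms_phi {b b' : Finset (Fin n)} {τ : Fin n → Fin n} (h : Good b τ) (hd : Disjoint b b')
    (G'' H : Finset (Edge n)) : Ms b b' (phi τ h.invol b b' G'' H) ↔ Ms b b' H := by
  have hmem : ∀ x ∈ b ∪ b', τ x ∈ b ∪ b' := by
    intro x hx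
    rcases mem_union.1 hx with hx | hx
    · exact mem_union_left _ (h.mem x hx)
    · rw [h.fix x (fun hxb => disjoint_left.1 hd hxb hx)]; exact mem_union_right _ hx
  rw [Ms_iff, Ms_iff]
  constructor
  · intro hM x hx
    have := hM (τ x) (hmem x hx)
    unfold bd at this ⊢
    rwa [bdeg_phi h hd, h.invol x] at this
  · intro hM x hx
    unfold bd
    rw [bdeg_phi h hd]
    exact hM (τ x) (hmem x hx)

/-! ### Existence of the relabelling -/

lemma rows_cases (m1 m2 m3 m4 k1 k2 k3 k4 : ℕ) (h1 : m1 ≤ 1) (h2 : m2 ≤ 1) (h3 : m3 ≤ 1)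
    (h4 : m4 ≤ 1) (g1 : k1 ≤ 1) (g2 : k2 ≤ 1) (g3 : k3 ≤ 1) (g4 : k4 ≤ 1)
    (hc : m1 + m3 = k1 + k3) (hc' : m2 + m4 = k2 + k4)
    (hM : (m1 + m2 = 1 ∧ m3 + m4 = 1 ∧ m1 + m3 = 1 ∧ m2 + m4 = 1)
      ↔ (k1 + k2 = 1 ∧ k3 + k4 = 1 ∧ k1 + k3 = 1 ∧ k2 + k4 = 1)) :
    (m1 + m2 = k1 + k2 ∧ m3 + m4 = k3 + k4) ∨ (m3 + m4 = k1 + k2 ∧ m1 + m2 = k3 + k4) := by
  omega

lemma ite_le_one (p : Prop) [Decidable p] : (if p then 1 else 0 : ℕ) ≤ 1 := by
  split_ifs <;> omega

/-- the data of two disjoint pairs -/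
structure TwoPairs (b b' : Finset (Fin n)) (a a' c c' : Fin n) : Prop where
  hb : b = {a, a'}
  hb' : b' = {c, c'}
  haa' : a ≠ a'
  hcc' : c ≠ c'
  hac : a ≠ c
  hac' : a ≠ c'
  ha'c : a' ≠ c
  ha'c' : a' ≠ c'

namespace TwoPairs
variable {b b' : Finset (Fin n)} {a a' c c' : Fin n} (T : TwoPairs b b' a a' c c')
include T

lemma ha : a ∈ b := by rw [T.hb]; simp
lemma ha' : a' ∈ b := by rw [T.hb]; simp
lemma hc : c ∈ b' := by rw [T.hb']; simp
lemma hc' : c' ∈ b' := by rw [T.hb']; simp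

lemma mem_b {x : Fin n} (hx : x ∈ b) : x = a ∨ x = a' := by
  rw [T.hb] at hx; simpa using hx

lemma mem_b' {x : Fin n} (hx : x ∈ b') : x = c ∨ x = c' := by
  rw [T.hb'] at hx; simpa using hx

lemma disj : Disjoint b b' := by
  rw [disjoint_left]
  intro x hx hx'
  rcases T.mem_b hx with rfl | rfl <;> rcases T.mem_b' hx' with h' | h'
  · exact T.hac h'
  · exact T.hac' h'
  · exact T.ha'c h'
  · exact T.ha'c' h'

lemma bd_a (X : Finset (Edge n)) : bd b b' X a
    = (if mkE a c T.hac ∈ X then 1 else 0) + (if mkE a c' T.hac' ∈ X then 1 else 0) :=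
  bd_left T.ha T.hb' T.hac T.hac' T.hcc' X

lemma bd_a' (X : Finset (Edge n)) : bd b b' X a'
    = (if mkE a' c T.ha'c ∈ X then 1 else 0) + (if mkE a' c' T.ha'c' ∈ X then 1 else 0) :=
  bd_left T.ha' T.hb' T.ha'c T.ha'c' T.hcc' X

lemma bd_c (X : Finset (Edge n)) : bd b b' X c
    = (if mkE a c T.hac ∈ X then 1 else 0) + (if mkE a' c T.ha'c ∈ X then 1 else 0) := by
  rw [bd_comm, bd_left (b := b') (b' := b) T.hc T.hb T.hac.symm T.ha'c.symm T.haa' X,
    mkE_comm T.hac.symm, mkE_comm T.ha'c.symm]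

lemma bd_c' (X : Finset (Edge n)) : bd b b' X c'
    = (if mkE a c' T.hac' ∈ X then 1 else 0) + (if mkE a' c' T.ha'c' ∈ X then 1 else 0) := by
  rw [bd_comm, bd_left (b := b') (b' := b) T.hc' T.hb T.hac'.symm T.ha'c'.symm T.haa' X,
    mkE_comm T.hac'.symm, mkE_comm T.ha'c'.symm]

lemma Ms_four (X : Finset (Edge n)) : Ms b b' X ↔
    (bd b b' X a = 1 ∧ bd b b' X a' = 1 ∧ bd b b' X c = 1 ∧ bd b b' X c' = 1) := by
  rw [Ms_iff]
  constructor
  · intro h
    exact ⟨h a (mem_union_left _ T.ha), h a' (mem_union_left _ T.ha'),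
      h c (mem_union_right _ T.hc), h c' (mem_union_right _ T.hc')⟩
  · rintro ⟨h1, h2, h3, h4⟩ x hx
    rcases mem_union.1 hx with hx | hx
    · rcases T.mem_b hx with rfl | rfl
      · exact h1
      · exact h2
    · rcases T.mem_b' hx with rfl | rfl
      · exact h3
      · exact h4

/-- every vertex of the couple has two block slots -/
lemma bd_univ {x : Fin n} (hx : x ∈ b ∪ b') : bd b b' univ x = 2 := by
  rcases mem_union.1 hx with hx | hx
  · rcases T.mem_b hx with rfl | rfl
    · rw [T.bd_a]; simp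
    · rw [T.bd_a']; simp
  · rcases T.mem_b' hx with rfl | rfl
    · rw [T.bd_c]; simp
    · rw [T.bd_c']; simp

/-- **Existence of the relabelling**: for `G, G''` in the same refined `b`-class the non-RA
degrees agree up to the identity or the transposition of `b`. -/
lemma exists_good {d : Fin n → ℕ} {G G'' : Finset (Edge n)}
    (hG : G ∈ realizations d) (hG'' : G'' ∈ realizations d) (h : sameOff b G G'')
    (hM : Ms b b' G ↔ Ms b b' G'') :
    ∃ τ : Fin n → Fin n, ∃ hτ : Good b τ,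
      ∀ v, rdeg (fun e => ¬ (tch b e ∧ ¬ tch b' e)) G (τ v)
        = rdeg (fun e => ¬ (tch b e ∧ ¬ tch b' e)) G'' v := by
  have hd := T.disj
  have hcG : bd b b' G c = bd b b' G'' c := bd_eq_of_sameOff hG hG'' h T.hc
  have hc'G : bd b b' G c' = bd b b' G'' c' := bd_eq_of_sameOff hG hG'' h T.hc'
  have key : (bd b b' G a = bd b b' G'' a ∧ bd b b' G a' = bd b b' G'' a')
      ∨ (bd b b' G a' = bd b b' G'' a ∧ bd b b' G a = bd b b' G'' a') := by
    have hM' := hM
    rw [T.Ms_four G, T.Ms_four G''] at hM'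
    rw [T.bd_a G, T.bd_a G'', T.bd_a' G, T.bd_a' G'', T.bd_c G, T.bd_c G'', T.bd_c' G,
      T.bd_c' G''] at hM'
    rw [T.bd_c G, T.bd_c G''] at hcG
    rw [T.bd_c' G, T.bd_c' G''] at hc'G
    rw [T.bd_a G, T.bd_a G'', T.bd_a' G, T.bd_a' G'']
    exact rows_cases _ _ _ _ _ _ _ _ (ite_le_one _) (ite_le_one _) (ite_le_one _) (ite_le_one _)
      (ite_le_one _) (ite_le_one _) (ite_le_one _) (ite_le_one _) hcG hc'G hM'
  have hOff : ∀ v, rdeg (fun e => ¬ tch b e) G v = rdeg (fun e => ¬ tch b e) G'' v :=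
    fun v => rdeg_congr fun e he _ => h e (not_tch_iff.1 he)
  have hbd_off : ∀ v, v ∉ b → bd b b' G v = bd b b' G'' v := by
    intro v hv
    by_cases hv' : v ∈ b'
    · exact bd_eq_of_sameOff hG hG'' h hv'
    · have : v ∉ b ∪ b' := by
        rw [mem_union]; tauto
      rw [bd_eq_zero hd this, bd_eq_zero hd this]
  rcases key with ⟨k1, k2⟩ | ⟨k1, k2⟩
  · refine ⟨id, ⟨fun x => rfl, fun x hx => hx, fun x _ => rfl⟩, fun v => ?_⟩
    rw [rdeg_nonRA, rdeg_nonRA]
    show rdeg (fun e => ¬ tch b e) G v + bd b b' G v = _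
    rw [hOff v]
    congr 1
    by_cases hv : v ∈ b
    · rcases T.mem_b hv with rfl | rfl
      · exact k1
      · exact k2
    · exact hbd_off v hv
  · have hgood : Good b (Equiv.swap a a') := by
      refine ⟨fun x => Equiv.swap_apply_self a a' x, ?_, ?_⟩
      · intro x hx
        rcases T.mem_b hx with rfl | rfl
        · rw [Equiv.swap_apply_left]; exact T.ha'
        · rw [Equiv.swap_apply_right]; exact T.ha
      · intro x hx
        apply Equiv.swap_apply_of_ne_of_ne
        · rintro rfl; exact hx T.ha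
        · rintro rfl; exact hx T.ha'
    refine ⟨Equiv.swap a a', hgood, fun v => ?_⟩
    rw [rdeg_nonRA, rdeg_nonRA]
    by_cases hv : v ∈ b
    · rcases T.mem_b hv with rfl | rfl
      · rw [Equiv.swap_apply_left, rdeg_off_eq_zero T.ha', rdeg_off_eq_zero T.ha, k1]
      · rw [Equiv.swap_apply_right, rdeg_off_eq_zero T.ha, rdeg_off_eq_zero T.ha', k2]
    · have : Equiv.swap a a' v = v := hgood.fix v hv
      rw [this, hOff v, hbd_off v hv]

end TwoPairs

/-! ### The switch `flip` -/

lemma bd_symmDiff (b b' : Finset (Fin n)) (X : Finset (Edge n)) (x : Fin n) :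
    bd b b' (symmDiff X (cross b b')) x + bd b b' X x = bd b b' univ x := by
  unfold bd rdeg
  rw [← card_union_of_disjoint]
  · congr 1
    ext e
    simp only [mem_union, mem_filter, mem_symmDiff, mem_cross, mem_univ, true_and]
    tauto
  · rw [disjoint_left]
    intro e he he'
    simp only [mem_filter, mem_symmDiff, mem_cross] at he he'
    tauto

lemma sameOff_symmDiff_left (b b' : Finset (Fin n)) (X : Finset (Edge n)) :
    sameOff b (symmDiff X (cross b b')) X := by
  intro e he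
  have : e ∉ cross b b' := fun h => (not_tch_iff.2 he) (mem_cross.1 h).1
  simp [mem_symmDiff, this]

lemma sameOff_symmDiff_right (b b' : Finset (Fin n)) (X : Finset (Edge n)) :
    sameOff b' (symmDiff X (cross b b')) X := by
  intro e he
  have : e ∉ cross b b' := fun h => (not_tch_iff.2 he) (mem_cross.1 h).2
  simp [mem_symmDiff, this]

namespace TwoPairs
variable {b b' : Finset (Fin n)} {a a' c c' : Fin n} (T : TwoPairs b b' a a' c c')
include T

lemma Ms_symmDiff {G : Finset (Edge n)} (hM : Ms b b' G) :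
    Ms b b' (symmDiff G (cross b b')) := by
  rw [Ms_iff] at hM ⊢
  intro x hx
  have := bd_symmDiff b b' G x
  rw [T.bd_univ hx, hM x hx] at this
  omega

lemma symmDiff_mem {d : Fin n → ℕ} {G : Finset (Edge n)} (hG : G ∈ realizations d)
    (hM : Ms b b' G) : symmDiff G (cross b b') ∈ realizations d := by
  rw [mem_realizations] at hG ⊢
  intro v
  rw [← hG v]
  rw [deg_split (fun e => tch b e ∧ tch b' e) (fun e => ¬ (tch b e ∧ tch b' e)) (fun e => em _)
    (fun e h1 h2 => h2 h1) (symmDiff G (cross b b')) v,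
    deg_split (fun e => tch b e ∧ tch b' e) (fun e => ¬ (tch b e ∧ tch b' e)) (fun e => em _)
    (fun e h1 h2 => h2 h1) G v]
  have e1 : rdeg (fun e => ¬ (tch b e ∧ tch b' e)) (symmDiff G (cross b b')) v
      = rdeg (fun e => ¬ (tch b e ∧ tch b' e)) G v :=
    rdeg_congr fun e he _ => by
      have : e ∉ cross b b' := fun h => he (mem_cross.1 h)
      simp [mem_symmDiff, this]
  have e2 : bd b b' (symmDiff G (cross b b')) v = bd b b' G v := by
    by_cases hv : v ∈ b ∪ b'
    · have := bd_symmDiff b b' G v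
      rw [T.bd_univ hv, Ms_iff.1 hM v hv] at this
      rw [Ms_iff.1 hM v hv]
      omega
    · rw [bd_eq_zero T.disj hv, bd_eq_zero T.disj hv]
  unfold bd at e2
  rw [e1, e2]

lemma flip_mem {d : Fin n → ℕ} {G : Finset (Edge n)} (hG : G ∈ realizations d) :
    flip b b' G ∈ realizations d := by
  unfold flip
  split_ifs with hM
  · exact T.symmDiff_mem hG hM
  · exact hG

lemma flip_flip (G : Finset (Edge n)) : flip b b' (flip b b' G) = G := by
  by_cases hM : Ms b b' G
  · have h1 : flip b b' G = symmDiff G (cross b b') := if_pos hM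
    have h2 : flip b b' (symmDiff G (cross b b'))
        = symmDiff (symmDiff G (cross b b')) (cross b b') := if_pos (T.Ms_symmDiff hM)
    rw [h1, h2]
    exact symmDiff_symmDiff_cancel_right _ _
  · have h1 : flip b b' G = G := if_neg hM
    rw [h1, h1]

lemma Ms_flip (G : Finset (Edge n)) : Ms b b' (flip b b' G) ↔ Ms b b' G := by
  by_cases hM : Ms b b' G
  · have h1 : flip b b' G = symmDiff G (cross b b') := if_pos hM
    rw [h1]
    exact ⟨fun _ => hM, fun _ => T.Ms_symmDiff hM⟩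
  · have h1 : flip b b' G = G := if_neg hM
    rw [h1]

end TwoPairs

lemma flip_sameOff_left (b b' : Finset (Fin n)) (G : Finset (Edge n)) :
    sameOff b (flip b b' G) G := by
  unfold flip
  split_ifs
  · exact sameOff_symmDiff_left b b' G
  · exact Crest.Agent.S0453R.sameOff_refl b G

lemma flip_sameOff_right (b b' : Finset (Fin n)) (G : Finset (Edge n)) :
    sameOff b' (flip b b' G) G := by
  unfold flip
  split_ifs
  · exact sameOff_symmDiff_right b b' G
  · exact Crest.Agent.S0453R.sameOff_refl b' G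

/-- off `Ms`, the `b`-class or the `b'`-class misses `Ms` -/
lemma supp_Ms {b b' : Finset (Fin n)} {d : Fin n → ℕ} {G : Finset (Edge n)}
    (hG : G ∈ realizations d) (hM : ¬ Ms b b' G) :
    (∀ H ∈ realizations d, sameOff b H G → ¬ Ms b b' H)
      ∨ (∀ H ∈ realizations d, sameOff b' H G → ¬ Ms b b' H) := by
  rw [Ms_iff] at hM
  simp only [not_forall] at hM
  obtain ⟨x, hx, hne⟩ := hM
  rcases mem_union.1 hx with hxb | hxb'
  · right
    intro H hH hs hMH
    have h1 := Ms_iff.1 hMH x hx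
    have e : bd b b' H x = bd b b' G x := by
      rw [bd_comm b b' H, bd_comm b b' G]
      exact bd_eq_of_sameOff hH hG hs hxb
    exact hne (e ▸ h1)
  · left
    intro H hH hs hMH
    have h1 := Ms_iff.1 hMH x hx
    have e : bd b b' H x = bd b b' G x := bd_eq_of_sameOff hH hG hs hxb'
    exact hne (e ▸ h1)

/-! ### Keys and the bridge to `avgOn` -/

/-- the key of the `b`-class: the edges not touching `b` -/
def kb (b : Finset (Fin n)) (G : Finset (Edge n)) : Finset (Edge n) :=
  G.filter fun e => ¬ tch b e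

lemma sameOff_iff_kb {b : Finset (Fin n)} {G G' : Finset (Edge n)} :
    sameOff b G G' ↔ kb b G = kb b G' := by
  constructor
  · intro h
    ext e
    simp only [kb, mem_filter]
    constructor
    · rintro ⟨h1, h2⟩; exact ⟨(h e (not_tch_iff.1 h2)).1 h1, h2⟩
    · rintro ⟨h1, h2⟩; exact ⟨(h e (not_tch_iff.1 h2)).2 h1, h2⟩
  · intro h e he
    have h1 : e ∈ kb b G ↔ e ∈ kb b G' := by rw [h]
    simp only [kb, mem_filter, not_tch_iff.2 he, not_false_eq_true, and_true] at h1
    exact h1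

lemma avgOn_eq_avg {α κ : Type*} [DecidableEq α] [DecidableEq κ] (Ω : Finset α)
    (r : α → α → Prop) [DecidableRel r] (k : α → κ) (h : ∀ x y, r x y ↔ k y = k x)
    (f : α → ℝ) (x : α) : avgOn Ω r f x = avg Ω k f x := by
  have : Ω.filter (r x) = cls Ω k x := by
    unfold cls
    exact filter_congr fun y _ => h x y
  rw [Crest.Agent.S0453R.avgOn_def, this]
  rfl

lemma E_eq_avg (d : Fin n → ℕ) (b : Finset (Fin n)) (f : Finset (Edge n) → ℝ)
    (G : Finset (Edge n)) : E d b f G = avg (realizations d) (kb b) f G :=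
  avgOn_eq_avg _ _ _ (fun x y => by rw [sameOff_iff_kb, eq_comm]) f G

lemma P_eq_avg (d : Fin n → ℕ) (b b' : Finset (Fin n)) (M : Finset (Edge n) → Prop)
    [DecidablePred M] (hM : ∀ G, M G ↔ Ms b b' G) (f : Finset (Edge n) → ℝ)
    (G : Finset (Edge n)) :
    avgOn (realizations d) (sameOffM b b') f G
      = avg (realizations d) (fun G => (kb b G, decide (M G))) f G := by
  refine avgOn_eq_avg _ _ _ (fun x y => ?_) f G
  unfold sameOffM
  rw [sameOff_iff_kb, Prod.mk.injEq, decide_eq_decide, hM, hM]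
  constructor
  · rintro ⟨h1, h2⟩; exact ⟨h1.symm, h2.symm⟩
  · rintro ⟨h1, h2⟩; exact ⟨h1.symm, h2.symm⟩

/-! ### Lemma C: the three commutations -/

section commute
variable {b b' : Finset (Fin n)} {a a' c c' : Fin n}

lemma TwoPairs.symm (T : TwoPairs b b' a a' c c') : TwoPairs b' b c c' a a' :=
  ⟨T.hb', T.hb, T.hcc', T.haa', T.hac.symm, T.ha'c.symm, T.hac'.symm, T.ha'c'.symm⟩

lemma exists_twoPairs {b b' : Finset (Fin n)} (hb : b ∈ pairs n) (hb' : b' ∈ pairs n)
    (hd : Disjoint b b') : ∃ a a' c c', TwoPairs b b' a a' c c' := by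
  unfold pairs at hb hb'
  obtain ⟨a, a', haa', rfl⟩ := card_eq_two.1 (mem_powersetCard.1 hb).2
  obtain ⟨c, c', hcc', rfl⟩ := card_eq_two.1 (mem_powersetCard.1 hb').2
  rw [disjoint_left] at hd
  refine ⟨a, a', c, c', rfl, rfl, haa', hcc', ?_, ?_, ?_, ?_⟩
  · rintro rfl; exact hd (a := a) (by simp) (by simp)
  · rintro rfl; exact hd (a := a) (by simp) (by simp)
  · rintro rfl; exact hd (a := a') (by simp) (by simp)
  · rintro rfl; exact hd (a := a') (by simp) (by simp)

/-- the class bijection between the `b'`-classes of two graphs in the same refined `b`-class -/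
lemma exists_bij (T : TwoPairs b b' a a' c c') {d : Fin n → ℕ} {G G'' : Finset (Edge n)}
    (hG : G ∈ realizations d) (hG'' : G'' ∈ realizations d) (hk1 : sameOff b G G'')
    (hk2 : Ms b b' G ↔ Ms b b' G'') :
    ∃ φ ψ : Finset (Edge n) → Finset (Edge n),
      (∀ H ∈ realizations d, sameOff b' H G →
        φ H ∈ realizations d ∧ sameOff b' (φ H) G'' ∧ sameOff b (φ H) H ∧
          (Ms b b' (φ H) ↔ Ms b b' H) ∧ ψ (φ H) = H) ∧
      (∀ H ∈ realizations d, sameOff b' H G'' →
        ψ H ∈ realizations d ∧ sameOff b' (ψ H) G ∧ sameOff b (ψ H) H ∧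
          (Ms b b' (ψ H) ↔ Ms b b' H) ∧ φ (ψ H) = H) := by
  obtain ⟨τ, hτ, hdeg⟩ := T.exists_good hG hG'' hk1 hk2
  have hd := T.disj
  have hdeg' : ∀ v, rdeg (fun e => ¬ (tch b e ∧ ¬ tch b' e)) G'' (τ v)
      = rdeg (fun e => ¬ (tch b e ∧ ¬ tch b' e)) G v := fun v => by
    rw [← hdeg (τ v), hτ.invol v]
  refine ⟨phi τ hτ.invol b b' G'', phi τ hτ.invol b b' G, ?_, ?_⟩
  · intro H hH hl
    exact ⟨phi_mem hτ hd hG hG'' hH hl hdeg, phi_sameOff_b' hτ hk1 hl, phi_sameOff_b hτ G'' H,
      Ms_phi hτ hd G'' H, phi_phi hτ hd hl⟩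
  · intro H hH hl
    exact ⟨phi_mem hτ hd hG'' hG hH hl hdeg',
      phi_sameOff_b' hτ (Crest.Agent.S0453R.sameOff_symm hk1) hl,
      phi_sameOff_b hτ G H, Ms_phi hτ hd G H, phi_phi hτ hd hl⟩

/-- `P_b` commutes with `E_{b'}` -/
lemma comm_PE (T : TwoPairs b b' a a' c c') (d : Fin n → ℕ) (M : Finset (Edge n) → Prop)
    [DecidablePred M] (hM : ∀ G, M G ↔ Ms b b' G) (f : Finset (Edge n) → ℝ) :
    ∀ G ∈ realizations d,
      avg (realizations d) (fun G => (kb b G, decide (M G))) (avg (realizations d) (kb b') f) G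
        = avg (realizations d) (kb b')
            (avg (realizations d) (fun G => (kb b G, decide (M G))) f) G := by
  apply avg_comm_of_bij
  intro G hG G'' hG'' hk
  have hk1 : sameOff b G G'' := sameOff_iff_kb.2 (congrArg Prod.fst hk)
  have hk2 : Ms b b' G ↔ Ms b b' G'' := by
    have := congrArg Prod.snd hk
    simp only [decide_eq_decide] at this
    rw [← hM, ← hM]; exact this
  obtain ⟨φ, ψ, h1, h2⟩ := exists_bij T hG hG'' hk1 hk2
  refine ⟨φ, ψ, ?_, ?_⟩
  · intro H hH hl
    obtain ⟨p1, p2, p3, p4, p5⟩ := h1 H hH (sameOff_iff_kb.2 hl)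
    refine ⟨p1, sameOff_iff_kb.1 p2, ?_, p5⟩
    show (kb b (φ H), decide (M (φ H))) = (kb b H, decide (M H))
    rw [sameOff_iff_kb.1 p3, Prod.mk.injEq, decide_eq_decide, hM, hM]
    exact ⟨rfl, p4⟩
  · intro H hH hl
    obtain ⟨p1, p2, p3, p4, p5⟩ := h2 H hH (sameOff_iff_kb.2 hl)
    exact ⟨p1, sameOff_iff_kb.1 p2, p5⟩

/-- `P_b` commutes with `P_{b'}` -/
lemma comm_PP (T : TwoPairs b b' a a' c c') (d : Fin n → ℕ) (M : Finset (Edge n) → Prop)
    [DecidablePred M] (hM : ∀ G, M G ↔ Ms b b' G) (f : Finset (Edge n) → ℝ) :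
    ∀ G ∈ realizations d,
      avg (realizations d) (fun G => (kb b G, decide (M G)))
          (avg (realizations d) (fun G => (kb b' G, decide (M G))) f) G
        = avg (realizations d) (fun G => (kb b' G, decide (M G)))
            (avg (realizations d) (fun G => (kb b G, decide (M G))) f) G := by
  apply avg_comm_of_bij
  intro G hG G'' hG'' hk
  have hk1 : sameOff b G G'' := sameOff_iff_kb.2 (congrArg Prod.fst hk)
  have hk2 : Ms b b' G ↔ Ms b b' G'' := by
    have := congrArg Prod.snd hk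
    simp only [decide_eq_decide] at this
    rw [← hM, ← hM]; exact this
  obtain ⟨φ, ψ, h1, h2⟩ := exists_bij T hG hG'' hk1 hk2
  refine ⟨φ, ψ, ?_, ?_⟩
  · intro H hH hl
    have hl1 : sameOff b' H G := sameOff_iff_kb.2 (congrArg Prod.fst hl)
    have hl2 : Ms b b' H ↔ Ms b b' G := by
      have := congrArg Prod.snd hl
      simp only [decide_eq_decide] at this
      rw [← hM, ← hM]; exact this
    obtain ⟨p1, p2, p3, p4, p5⟩ := h1 H hH hl1
    refine ⟨p1, ?_, ?_, p5⟩
    · show (kb b' (φ H), decide (M (φ H))) = (kb b' G'', decide (M G''))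
      rw [sameOff_iff_kb.1 p2, Prod.mk.injEq, decide_eq_decide, hM, hM]
      exact ⟨rfl, p4.trans (hl2.trans hk2)⟩
    · show (kb b (φ H), decide (M (φ H))) = (kb b H, decide (M H))
      rw [sameOff_iff_kb.1 p3, Prod.mk.injEq, decide_eq_decide, hM, hM]
      exact ⟨rfl, p4⟩
  · intro H hH hl
    have hl1 : sameOff b' H G'' := sameOff_iff_kb.2 (congrArg Prod.fst hl)
    have hl2 : Ms b b' H ↔ Ms b b' G'' := by
      have := congrArg Prod.snd hl
      simp only [decide_eq_decide] at this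
      rw [← hM, ← hM]; exact this
    obtain ⟨p1, p2, p3, p4, p5⟩ := h2 H hH hl1
    refine ⟨p1, ?_, p5⟩
    show (kb b' (ψ H), decide (M (ψ H))) = (kb b' G, decide (M G))
    rw [sameOff_iff_kb.1 p2, Prod.mk.injEq, decide_eq_decide, hM, hM]
    exact ⟨rfl, p4.trans (hl2.trans hk2.symm)⟩

end commute

/-! ### Lemma S on graphs -/

/-- **(S-graph)**: Lemma S of board post 956 for one couple of disjoint pairs `b, b'`, in the
interface of board post 1038. -/
theorem sgraph (d : Fin n → ℕ) {b b' : Finset (Fin n)} (hb : b ∈ pairs n) (hb' : b' ∈ pairs n)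
    (hd : Disjoint b b') (f : Finset (Edge n) → ℝ) :
    (1 / 2) * ∑ G ∈ realizations d, (f G - f (flip b b' G)) ^ 2
        - ∑ G ∈ (realizations d).filter (Ms b b'),
            (avgOn (realizations d) (sameOffM b b') f G - E d b f G) ^ 2
        - ∑ G ∈ (realizations d).filter (Ms b' b),
            (avgOn (realizations d) (sameOffM b' b) f G - E d b' f G) ^ 2
      ≤ 2 * ∑ G ∈ realizations d, (f G - E d b f G) * (f G - E d b' f G) := by
  obtain ⟨a, a', c, c', T⟩ := exists_twoPairs hb hb' hd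
  have key := couple_ineq (realizations d) (kb b) (kb b') (Ms b b') (flip b b')
    (fun G hG => T.flip_mem hG) (fun G _ => T.flip_flip G)
    (fun G _ => sameOff_iff_kb.1 (flip_sameOff_left b b' G))
    (fun G _ => sameOff_iff_kb.1 (flip_sameOff_right b b' G))
    (fun G _ => T.Ms_flip G)
    (comm_PE T d (Ms b b') (fun _ => Iff.rfl))
    (comm_PP T d (Ms b b') (fun _ => Iff.rfl))
    (fun f G hG => (comm_PE T.symm d (Ms b b') (fun _ => Ms_comm) f G hG).symm)
    (fun G hG hM => by
      rcases supp_Ms hG hM with h | h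
      · left; intro H hH hk; exact h H hH (sameOff_iff_kb.2 hk)
      · right; intro H hH hk; exact h H hH (sameOff_iff_kb.2 hk))
    f
  have hfilter : (realizations d).filter (Ms b' b) = (realizations d).filter (Ms b b') :=
    filter_congr fun G _ => Ms_comm
  rw [hfilter]
  simp only [E_eq_avg, P_eq_avg d b b' (Ms b b') (fun _ => Iff.rfl),
    P_eq_avg d b' b (Ms b b') (fun _ => Ms_comm)]
  exact key

end Crest.Agent.S0453.CG
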