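import Mathlib
import Crest.Prelude.Def_SwitchChain
import Crest.Agent.S0453.CoupleDefs
import Crest.Agent.S0453.CoupleGraph

/-!
Row 299 / S0453 — `SGraph d` (the couple lemma, Lemma S of board post 956, in the interface
`CoupleDefs.lean` of board post 1038), proved by helper67's track B (`CoupleGraph.lean`:
one explicit class bijection for the three commutations of Lemma C + the abstract couple
inequality of `CGAvg.lean`).
-/

set_option autoImplicit false
open Finset

namespace Crest.Agent.S0453R

open Crest.SwitchChain

/-- **(S-graph) holds.** -/
theorem sGraph_holds {n : ℕ} (d : Fin n → ℕ) : SGraph d := by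
  intro b hb b' hb' hd f
  exact Crest.Agent.S0453.CG.sgraph d hb hb' hd f

end Crest.Agent.S0453R
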