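import Mathlib
import Crest.Prelude.Def_SwitchChain
import Crest.Agent.S0453.PM

/-!
Row 299 / S0453 (helper35), module [T-GRAPH], part 1: adjacency API for edge sets
`Finset (Edge n)` (namespace `Crest.Agent.S0453R.T35`, so that nothing clashes).

* `Adj G u v`       : `u ≠ v` and the edge `uv` lies in `G` (decidable, symmetric, irreflexive);
* `ext_adj`         : an edge set is determined by its adjacency relation;
* `deg_eq_card_adj` : `deg G v = #{u | Adj G v u}`;
* `ofAdj A`         : the edge set of a symmetric relation `A`, with `adj_ofAdj`;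
* `away S G`        : the edges of `G` not touching the vertex set `S` (`G - S`), `away_eq_iff`.
-/

set_option autoImplicit false
open Finset

namespace Crest.Agent.S0453R.T35

open Crest.SwitchChain

variable {n : ℕ}

/-- adjacency in the edge set `G` -/
def Adj (G : Finset (Edge n)) (u v : Fin n) : Prop := ∃ h : u ≠ v, mkE u v h ∈ G

instance (G : Finset (Edge n)) : DecidableRel (Adj G) := fun u v => by
  unfold Adj; infer_instance

lemma mkE_comm {u v : Fin n} (h : u ≠ v) : mkE u v h = mkE v u h.symm :=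
  Subtype.ext Sym2.eq_swap

lemma edge_eq_mkE (e : Edge n) : ∃ (u v : Fin n) (h : u ≠ v), e = mkE u v h := by
  obtain ⟨e, he⟩ := e
  induction e using Sym2.ind with
  | _ u v =>
    have h : u ≠ v := by
      intro huv; apply he; subst huv; simp
    exact ⟨u, v, h, rfl⟩

lemma Adj.ne {G : Finset (Edge n)} {u v : Fin n} (h : Adj G u v) : u ≠ v := h.1

lemma adj_comm {G : Finset (Edge n)} {u v : Fin n} : Adj G u v ↔ Adj G v u := by
  constructor
  · rintro ⟨h, hm⟩; exact ⟨h.symm, by rwa [← mkE_comm]⟩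
  · rintro ⟨h, hm⟩; exact ⟨h.symm, by rwa [← mkE_comm]⟩

lemma not_adj_self {G : Finset (Edge n)} {u : Fin n} : ¬ Adj G u u := fun h => h.1 rfl

lemma mkE_mem_iff {G : Finset (Edge n)} {u v : Fin n} (h : u ≠ v) : mkE u v h ∈ G ↔ Adj G u v :=
  ⟨fun hm => ⟨h, hm⟩, fun ⟨_, hm⟩ => hm⟩

/-- an edge set is determined by its adjacency relation -/
lemma ext_adj {G G' : Finset (Edge n)} (h : ∀ u v, Adj G u v ↔ Adj G' u v) : G = G' := by
  ext e
  obtain ⟨u, v, huv, rfl⟩ := edge_eq_mkE e
  rw [mkE_mem_iff, mkE_mem_iff]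
  exact h u v

/-- the degree counts neighbours -/
lemma deg_eq_card_adj (G : Finset (Edge n)) (v : Fin n) :
    deg G v = (univ.filter fun u => Adj G v u).card := by
  unfold deg
  symm
  refine card_bij (fun u hu => mkE v u (mem_filter.mp hu).2.1) ?_ ?_ ?_
  · intro u hu
    have := (mem_filter.mp hu).2
    rw [mem_filter]
    exact ⟨this.2, by simp⟩
  · intro u₁ h₁ u₂ h₂ he
    rw [mkE_eq_iff] at he
    rcases he with ⟨-, h⟩ | ⟨h, h'⟩
    · exact h
    · exact absurd h (mem_filter.mp h₂).2.1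
  · intro e he
    rw [mem_filter] at he
    obtain ⟨u, w, huw, rfl⟩ := edge_eq_mkE e
    have hv := he.2
    rw [mem_mkE] at hv
    rcases hv with rfl | rfl
    · exact ⟨w, mem_filter.mpr ⟨mem_univ _, huw, he.1⟩, rfl⟩
    · refine ⟨u, mem_filter.mpr ⟨mem_univ _, huw.symm, ?_⟩, ?_⟩
      · rw [← mkE_comm]; exact he.1
      · rw [← mkE_comm]

/-- the edge set of a relation (meant for symmetric `A`) -/
def ofAdj (A : Fin n → Fin n → Prop) [DecidableRel A] : Finset (Edge n) :=
  univ.filter fun e => ∀ u v : Fin n, e.1 = s(u, v) → A u v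

lemma adj_ofAdj {A : Fin n → Fin n → Prop} [DecidableRel A] (hA : ∀ u v, A u v → A v u)
    {u v : Fin n} : Adj (ofAdj A) u v ↔ u ≠ v ∧ A u v := by
  constructor
  · rintro ⟨h, hm⟩
    refine ⟨h, ?_⟩
    have := (mem_filter.mp hm).2
    exact this u v rfl
  · rintro ⟨h, hA'⟩
    refine ⟨h, mem_filter.mpr ⟨mem_univ _, ?_⟩⟩
    intro u' v' he
    have he' : s(u, v) = s(u', v') := he
    rw [Sym2.eq_iff] at he'
    rcases he' with ⟨rfl, rfl⟩ | ⟨rfl, rfl⟩
    · exact hA'
    · exact hA _ _ hA'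

/-- the edges of `G` not touching the vertex set `S` (the graph `G - S`) -/
def away (S : Finset (Fin n)) (G : Finset (Edge n)) : Finset (Edge n) :=
  G.filter fun e => ∀ v ∈ S, v ∉ e.1

lemma adj_away {S : Finset (Fin n)} {G : Finset (Edge n)} {u v : Fin n} :
    Adj (away S G) u v ↔ Adj G u v ∧ u ∉ S ∧ v ∉ S := by
  constructor
  · rintro ⟨h, hm⟩
    rw [away, mem_filter] at hm
    refine ⟨⟨h, hm.1⟩, ?_, ?_⟩
    · intro hu; exact hm.2 u hu (by simp)
    · intro hv; exact hm.2 v hv (by simp)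
  · rintro ⟨⟨h, hm⟩, hu, hv⟩
    refine ⟨h, ?_⟩
    rw [away, mem_filter]
    refine ⟨hm, ?_⟩
    intro w hw hwe
    rw [mem_mkE] at hwe
    rcases hwe with rfl | rfl
    · exact hu hw
    · exact hv hw

lemma away_eq_iff {S : Finset (Fin n)} {G G' : Finset (Edge n)} :
    away S G = away S G' ↔ ∀ u v, u ∉ S → v ∉ S → (Adj G u v ↔ Adj G' u v) := by
  constructor
  · intro h u v hu hv
    have h1 : Adj G u v ↔ Adj (away S G) u v := by rw [adj_away]; tauto
    have h2 : Adj G' u v ↔ Adj (away S G') u v := by rw [adj_away]; tauto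
    rw [h1, h2, h]
  · intro h
    apply ext_adj
    intro u v
    rw [adj_away, adj_away]
    constructor
    · rintro ⟨ha, hu, hv⟩; exact ⟨(h u v hu hv).mp ha, hu, hv⟩
    · rintro ⟨ha, hu, hv⟩; exact ⟨(h u v hu hv).mpr ha, hu, hv⟩

end Crest.Agent.S0453R.T35
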