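import Mathlib
import Crest.Prelude.Def_SwitchChain
import Crest.Agent.S0453.PM
import Crest.Agent.S0453.T35Adj
import Crest.Agent.S0453T.Defs

/-!
Row 299 / S0453 (helper35), module [T-GRAPH], part 2: the transport.

The class of a realization `G₀` under "agree away from the three vertices `τ 0, τ 1, τ 2`" is put in
bijection (`Phi` / `Psi`) with the 3-box system `Crest.Agent.S0453T.states` of helper48's `Defs.lean`
(outside vertices with one / two neighbours in the triple are `+` / `-` balls, the inner edges are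
one pseudo-column), the three pair classes going to the three box classes `S0453T.cls`.
Output: `class_transport` (every expression in `f G` and the three pair averages has the same sum
over the triple class as the corresponding expression over the box system), hence
`T_sq_tau : ThreeBoxStmt → ∑_Ω f · (X_T f) ≤ ∑_Ω (X_T f)²`.
-/

set_option autoImplicit false
open Finset

namespace Crest.Agent.S0453R.T35

open Crest.SwitchChain

/-! ### columns with three entries -/

/-- number of `true` entries of a column -/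
def cnt (v : Fin 3 → Bool) : ℕ := (univ.filter fun i => v i = true).card
/-- the odd position of a column -/
def odd (v : Fin 3 → Bool) : Fin 3 := if v 0 = v 1 then 2 else if v 0 = v 2 then 1 else 0
/-- the column with `c` ones and odd position `l` -/
def recon (c : ℕ) (l : Fin 3) : Fin 3 → Bool := fun i =>
  if c = 3 then true else if c = 1 then decide (l = i) else if c = 2 then decide (l ≠ i) else false
/-- sign of a column with `c` ones -/
def sgn (c : ℕ) : ℤ := if c = 1 then 1 else -1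

lemma cnt_le : ∀ v : Fin 3 → Bool, cnt v ≤ 3 := by decide

lemma id_col : ∀ (v : Fin 3 → Bool) (i : Fin 3),
    (if v i = true then (1 : ℤ) else 0) = (if cnt v = 3 then 1 else 0) + (if cnt v = 2 then 1 else 0)
      + (if (cnt v = 1 ∨ cnt v = 2) ∧ odd v = i then sgn (cnt v) else 0) := by decide

lemma recon_cnt_odd : ∀ v : Fin 3 → Bool, recon (cnt v) (odd v) = v := by decide

lemma cnt_recon' : ∀ c : Fin 4, ∀ l : Fin 3, cnt (recon c.1 l) = c.1 := by decide

lemma cnt_recon {c : ℕ} (hc : c ≤ 3) (l : Fin 3) : cnt (recon c l) = c :=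
  cnt_recon' ⟨c, by omega⟩ l

lemma odd_recon' : ∀ c : Fin 4, (c.1 = 1 ∨ c.1 = 2) → ∀ l : Fin 3, odd (recon c.1 l) = l := by
  decide

lemma odd_recon {c : ℕ} (hc : c = 1 ∨ c = 2) (l : Fin 3) : odd (recon c l) = l :=
  odd_recon' ⟨c, by omega⟩ hc l

lemma recon_irrel' : ∀ c : Fin 4, ¬ (c.1 = 1 ∨ c.1 = 2) → ∀ l l' : Fin 3,
    recon c.1 l = recon c.1 l' := by decide

lemma odd_spec1 : ∀ (v : Fin 3 → Bool) (i : Fin 3), cnt v = 1 → (odd v = i ↔ v i = true) := by
  decide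
lemma odd_spec2 : ∀ (v : Fin 3 → Bool) (i : Fin 3), cnt v = 2 → (odd v = i ↔ v i = false) := by
  decide
lemma cnt_zero : ∀ (v : Fin 3 → Bool) (i : Fin 3), cnt v = 0 → v i = false := by decide
lemma cnt_three : ∀ (v : Fin 3 → Bool) (i : Fin 3), cnt v = 3 → v i = true := by decide

lemma cnt_eq_sum (v : Fin 3 → Bool) : (cnt v : ℤ) = ∑ i, (if v i = true then (1 : ℤ) else 0) := by
  unfold cnt
  rw [card_filter]
  push_cast
  rfl

lemma fin3_third : ∀ i j : Fin 3, i ≠ j →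
    (i = -(i + j) + 1 ∧ j = -(i + j) + 2) ∨ (j = -(i + j) + 1 ∧ i = -(i + j) + 2) := by decide

lemma fin3_pair : ∀ i i' : Fin 3,
    (i + 1 = i' + 1 ∧ i + 2 = i' + 2) ∨ (i + 2 = i' + 1 ∧ i + 1 = i' + 2) → i = i' := by decide

lemma fin3_ne : ∀ i : Fin 3, i + 1 ≠ i + 2 := by decide

/-! ### the 3-box lemma (shape of `Crest.Agent.S0453T.three_box`) -/

/-- the abstract 3-box lemma `⟨f, A f⟩ ≤ ⟨A f, A f⟩`, `A = ∑ i, (I - condE i)` -/
def ThreeBoxStmt : Prop :=
  ∀ (K : Type) [Fintype K] [DecidableEq K] (ε : K → ℤ), (∀ k, ε k = 1 ∨ ε k = -1) →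
    ∀ (ρ : Fin 3 → ℤ) (f : (K → Fin 3) → ℝ),
      ∑ pos ∈ S0453T.states ε ρ, f pos * ∑ i, (f pos - S0453T.condE ε ρ i f pos)
        ≤ ∑ pos ∈ S0453T.states ε ρ, (∑ i, (f pos - S0453T.condE ε ρ i f pos)) ^ 2

lemma box_eq_iff {K : Type} [Fintype K] [DecidableEq K] (q p : K → Fin 3) (i : Fin 3) :
    S0453T.box q i = S0453T.box p i ↔ ∀ k, q k = i ↔ p k = i := by
  unfold S0453T.box
  rw [Finset.ext_iff]
  simp

/-! ### classes of realizations -/

variable {n : ℕ}

/-- the `S`-class of `G`: realizations agreeing with `G` away from `S` -/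
def cls (d : Fin n → ℕ) (S : Finset (Fin n)) (G : Finset (Edge n)) : Finset (Finset (Edge n)) :=
  (realizations d).filter fun G' => away S G' = away S G

/-- the class average `E_S f` -/
noncomputable def avg (d : Fin n → ℕ) (S : Finset (Fin n)) (f : Finset (Edge n) → ℝ)
    (G : Finset (Edge n)) : ℝ :=
  (∑ G' ∈ cls d S G, f G') / ((cls d S G).card : ℝ)

lemma mem_realizations {d : Fin n → ℕ} {G : Finset (Edge n)} :
    G ∈ realizations d ↔ ∀ v, deg G v = d v := by
  simp [realizations]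

/-! ### patterns -/

section Pattern

variable (τ : Fin 3 → Fin n)

/-- the active triple -/
def TT : Finset (Fin n) := univ.image τ

lemma mem_TT {u : Fin n} : u ∈ TT τ ↔ ∃ i, τ i = u := by simp [TT]

lemma tau_mem (i : Fin 3) : τ i ∈ TT τ := (mem_TT τ).mpr ⟨i, rfl⟩

/-- columns: the outside vertices and one pseudo-column for the inner edges -/
abbrev Col := Option {x : Fin n // x ∉ TT τ}

/-- the entry of column `k` in row `i` -/
def pat (G : Finset (Edge n)) : Col τ → Fin 3 → Bool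
  | some x, i => decide (Adj G (τ i) x.1)
  | none, i => !decide (Adj G (τ (i + 1)) (τ (i + 2)))

/-- column sums -/
def cs (G : Finset (Edge n)) (k : Col τ) : ℕ := cnt (pat τ G k)

lemma deg_eq_sum (G : Finset (Edge n)) (v : Fin n) :
    (deg G v : ℤ) = ∑ u, (if Adj G v u then (1 : ℤ) else 0) := by
  rw [deg_eq_card_adj, card_filter]
  push_cast
  rfl

variable {τ}

lemma sum_split (hτ : Function.Injective τ) (g : Fin n → ℤ) :
    ∑ u, g u = ∑ x : {x : Fin n // x ∉ TT τ}, g x.1 + ∑ j : Fin 3, g (τ j) := by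
  rw [← sum_filter_add_sum_filter_not univ (fun u => u ∉ TT τ) g]
  congr 1
  · exact sum_subtype (univ.filter fun u => u ∉ TT τ) (by simp) g
  · have : (univ.filter fun u => ¬ u ∉ TT τ) = univ.image τ := by
      ext u; simp [TT]
    rw [this, sum_image (fun i _ j _ h => hτ h)]

/-- row identity: degree of an active vertex -/
lemma deg_tau (hτ : Function.Injective τ) (G : Finset (Edge n)) (i : Fin 3) :
    (deg G (τ i) : ℤ) + cs τ G none
      = ∑ k : Col τ, (if pat τ G k i = true then (1 : ℤ) else 0) + 2 := by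
  rw [deg_eq_sum, sum_split hτ, Fintype.sum_option]
  have h1 : ∀ x : {x : Fin n // x ∉ TT τ},
      (if Adj G (τ i) x.1 then (1 : ℤ) else 0) = (if pat τ G (some x) i = true then 1 else 0) := by
    intro x; simp [pat]
  rw [sum_congr rfl fun x _ => h1 x]
  have h2 : ∑ j : Fin 3, (if Adj G (τ i) (τ j) then (1 : ℤ) else 0) + cs τ G none
      = (if pat τ G none i = true then (1 : ℤ) else 0) + 2 := by
    unfold cs
    rw [cnt_eq_sum, Fin.sum_univ_three, Fin.sum_univ_three]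
    have c10 : Adj G (τ 1) (τ 0) ↔ Adj G (τ 0) (τ 1) := adj_comm
    have c20 : Adj G (τ 2) (τ 0) ↔ Adj G (τ 0) (τ 2) := adj_comm
    have c21 : Adj G (τ 2) (τ 1) ↔ Adj G (τ 1) (τ 2) := adj_comm
    have n0 : ¬ Adj G (τ 0) (τ 0) := not_adj_self
    have n1 : ¬ Adj G (τ 1) (τ 1) := not_adj_self
    have n2 : ¬ Adj G (τ 2) (τ 2) := not_adj_self
    fin_cases i <;> simp [pat, c10, c20, c21, n0, n1, n2] <;>
      by_cases h01 : Adj G (τ 0) (τ 1) <;> by_cases h02 : Adj G (τ 0) (τ 2) <;>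
      by_cases h12 : Adj G (τ 1) (τ 2) <;> simp [h01, h02, h12]
  linarith

/-- column identity: degree of an outside vertex -/
lemma deg_out (hτ : Function.Injective τ) (G : Finset (Edge n)) (x : {x : Fin n // x ∉ TT τ}) :
    (deg G x.1 : ℤ) = ∑ y : {y : Fin n // y ∉ TT τ}, (if Adj G x.1 y.1 then (1 : ℤ) else 0)
      + cs τ G (some x) := by
  rw [deg_eq_sum, sum_split hτ]
  congr 1
  unfold cs
  rw [cnt_eq_sum]
  refine sum_congr rfl fun j _ => ?_
  have : Adj G x.1 (τ j) ↔ Adj G (τ j) x.1 := adj_comm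
  simp [pat, this]

/-- column sums are constant on a class -/
lemma cs_eq_of_away (hτ : Function.Injective τ) {G G' : Finset (Edge n)}
    (hdeg : ∀ v, deg G v = deg G' v) (haw : away (TT τ) G = away (TT τ) G') (k : Col τ) :
    cs τ G k = cs τ G' k := by
  have hreal : ∀ x : {x : Fin n // x ∉ TT τ}, cs τ G (some x) = cs τ G' (some x) := by
    intro x
    have h1 := deg_out hτ G x
    have h2 := deg_out hτ G' x
    have h3 : ∑ y : {y : Fin n // y ∉ TT τ}, (if Adj G x.1 y.1 then (1 : ℤ) else 0)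
        = ∑ y : {y : Fin n // y ∉ TT τ}, (if Adj G' x.1 y.1 then (1 : ℤ) else 0) := by
      refine sum_congr rfl fun y _ => ?_
      have := (away_eq_iff.mp haw) x.1 y.1 x.2 y.2
      simp [this]
    rw [hdeg] at h1
    have : (cs τ G (some x) : ℤ) = cs τ G' (some x) := by linarith
    exact_mod_cast this
  cases k with
  | some x => exact hreal x
  | none =>
    have key : ∀ H : Finset (Edge n), ∑ i : Fin 3, (deg H (τ i) : ℤ) + 2 * cs τ H none
        = ∑ x : {x : Fin n // x ∉ TT τ}, (cs τ H (some x) : ℤ) + 6 := by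
      intro H
      have hs : ∑ i : Fin 3, ((deg H (τ i) : ℤ) + cs τ H none)
          = ∑ i : Fin 3, (∑ k : Col τ, (if pat τ H k i = true then (1 : ℤ) else 0) + 2) :=
        sum_congr rfl fun i _ => deg_tau hτ H i
      rw [sum_add_distrib, sum_add_distrib, sum_comm] at hs
      have hk : ∑ k : Col τ, ∑ i : Fin 3, (if pat τ H k i = true then (1 : ℤ) else 0)
          = ∑ k : Col τ, (cs τ H k : ℤ) := sum_congr rfl fun k _ => (cnt_eq_sum _).symm
      rw [hk, Fintype.sum_option] at hs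
      simp only [sum_const, card_univ, Fintype.card_fin, nsmul_eq_mul] at hs
      push_cast at hs
      linarith
    have k1 := key G
    have k2 := key G'
    have e1 : ∑ i : Fin 3, (deg G (τ i) : ℤ) = ∑ i : Fin 3, (deg G' (τ i) : ℤ) :=
      sum_congr rfl fun i _ => by rw [hdeg]
    have e2 : ∑ x : {x : Fin n // x ∉ TT τ}, (cs τ G (some x) : ℤ)
        = ∑ x : {x : Fin n // x ∉ TT τ}, (cs τ G' (some x) : ℤ) :=
      sum_congr rfl fun x _ => by rw [hreal x]
    have : (cs τ G none : ℤ) = cs τ G' none := by linarith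
    exact_mod_cast this

/-- inner adjacency in terms of the pseudo-column -/
lemma adj_inner (G : Finset (Edge n)) (l : Fin 3) :
    Adj G (τ (l + 1)) (τ (l + 2)) ↔ pat τ G none l = false := by
  simp [pat]

lemma adj_cross (G : Finset (Edge n)) (i : Fin 3) (x : {x : Fin n // x ∉ TT τ}) :
    Adj G (τ i) x.1 ↔ pat τ G (some x) i = true := by
  simp [pat]

/-- a graph is determined by its part away from the triple and its pattern -/
lemma ext_pat {G G' : Finset (Edge n)} (haw : away (TT τ) G = away (TT τ) G')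
    (hp : pat τ G = pat τ G') : G = G' := by
  apply ext_adj
  intro u v
  by_cases hu : u ∈ TT τ
  · obtain ⟨i, rfl⟩ := (mem_TT τ).mp hu
    by_cases hv : v ∈ TT τ
    · obtain ⟨j, rfl⟩ := (mem_TT τ).mp hv
      by_cases hij : i = j
      · subst hij
        exact ⟨fun h => absurd h not_adj_self, fun h => absurd h not_adj_self⟩
      · rcases fin3_third i j hij with ⟨h1, h2⟩ | ⟨h1, h2⟩
        · have e1 := adj_inner (τ := τ) G (-(i + j))
          have e2 := adj_inner (τ := τ) G' (-(i + j))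
          rw [← h1, ← h2] at e1 e2
          rw [e1, e2, hp]
        · have e1 := adj_inner (τ := τ) G (-(i + j))
          have e2 := adj_inner (τ := τ) G' (-(i + j))
          rw [← h1, ← h2] at e1 e2
          rw [adj_comm, e1, adj_comm (G := G'), e2, hp]
    · rw [adj_cross G i ⟨v, hv⟩, adj_cross G' i ⟨v, hv⟩, hp]
  · by_cases hv : v ∈ TT τ
    · obtain ⟨j, rfl⟩ := (mem_TT τ).mp hv
      rw [adj_comm, adj_cross G j ⟨u, hu⟩, adj_comm (G := G'), adj_cross G' j ⟨u, hu⟩, hp]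
    · exact (away_eq_iff.mp haw) u v hu hv

end Pattern

/-! ### the bijection for a fixed reference graph `G₀` -/

section Fix

variable (d : Fin n → ℕ) (τ : Fin 3 → Fin n) (G₀ : Finset (Edge n))

/-- marked columns: column sum `1` or `2` -/
abbrev Kap := {k : Col τ // cs τ G₀ k = 1 ∨ cs τ G₀ k = 2}

/-- signs -/
def sgK (k : Kap τ G₀) : ℤ := sgn (cs τ G₀ k.1)

lemma sgK_pm (k : Kap τ G₀) : sgK τ G₀ k = 1 ∨ sgK τ G₀ k = -1 := by
  unfold sgK sgn; split_ifs <;> simp

/-- number of full columns -/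
def n3 : ℤ := ∑ k : Col τ, (if cs τ G₀ k = 3 then (1 : ℤ) else 0)
/-- number of columns with sum two -/
def m2 : ℤ := ∑ k : Col τ, (if cs τ G₀ k = 2 then (1 : ℤ) else 0)
/-- charges -/
def rho (i : Fin 3) : ℤ := (d (τ i) : ℤ) - 2 + cs τ G₀ none - n3 τ G₀ - m2 τ G₀

/-- the labelling of a graph -/
def Phi (G : Finset (Edge n)) (k : Kap τ G₀) : Fin 3 := odd (pat τ G k.1)

lemma cs_le (G : Finset (Edge n)) (k : Col τ) : cs τ G k ≤ 3 := cnt_le _

lemma sum_marked (Q : Col τ → Prop) [DecidablePred Q] (g : Col τ → ℤ) :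
    ∑ k : Col τ, (if (cs τ G₀ k = 1 ∨ cs τ G₀ k = 2) ∧ Q k then g k else 0)
      = ∑ k : Kap τ G₀, (if Q k.1 then g k.1 else 0) := by
  rw [← sum_subtype (univ.filter fun k : Col τ => cs τ G₀ k = 1 ∨ cs τ G₀ k = 2) (by simp)
    (fun k => if Q k then g k else 0)]
  rw [sum_filter]
  refine sum_congr rfl fun k _ => ?_
  by_cases h : (cs τ G₀ k = 1 ∨ cs τ G₀ k = 2) <;> simp [h]

lemma sum_pat_eq (P : Col τ → Fin 3 → Bool) (hP : ∀ k, cnt (P k) = cs τ G₀ k) (i : Fin 3) :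
    ∑ k : Col τ, (if P k i = true then (1 : ℤ) else 0)
      = n3 τ G₀ + m2 τ G₀ + ∑ k : Kap τ G₀, (if odd (P k.1) = i then sgK τ G₀ k else 0) := by
  have h1 : ∀ k : Col τ, (if P k i = true then (1 : ℤ) else 0)
      = (if cs τ G₀ k = 3 then 1 else 0) + (if cs τ G₀ k = 2 then 1 else 0)
        + (if (cs τ G₀ k = 1 ∨ cs τ G₀ k = 2) ∧ odd (P k) = i then sgn (cs τ G₀ k) else 0) := by
    intro k
    have := id_col (P k) i
    rw [hP k] at this
    exact this
  rw [sum_congr rfl fun k _ => h1 k, sum_add_distrib, sum_add_distrib,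
    sum_marked τ G₀ (fun k => odd (P k) = i) (fun k => sgn (cs τ G₀ k))]
  rfl

variable {τ} in
lemma Phi_mem (hτ : Function.Injective τ) {G : Finset (Edge n)} (hG : G ∈ realizations d)
    (hcs : ∀ k, cs τ G k = cs τ G₀ k) : Phi τ G₀ G ∈ S0453T.states (sgK τ G₀) (rho d τ G₀) := by
  rw [S0453T.states, mem_filter]
  refine ⟨mem_univ _, fun i => ?_⟩
  have h1 := deg_tau hτ G i
  rw [mem_realizations.mp hG, hcs none, sum_pat_eq τ G₀ (pat τ G) (fun k => hcs k) i] at h1
  unfold rho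
  have h2 : ∑ k : Kap τ G₀, (if Phi τ G₀ G k = i then sgK τ G₀ k else 0)
      = ∑ k : Kap τ G₀, (if odd (pat τ G k.1) = i then sgK τ G₀ k else 0) := rfl
  rw [h2]
  linarith

/-- the pattern encoded by a labelling -/
def qpat (p : Kap τ G₀ → Fin 3) (k : Col τ) : Fin 3 → Bool :=
  recon (cs τ G₀ k) (if h : cs τ G₀ k = 1 ∨ cs τ G₀ k = 2 then p ⟨k, h⟩ else 0)

lemma cnt_qpat (p : Kap τ G₀ → Fin 3) (k : Col τ) : cnt (qpat τ G₀ p k) = cs τ G₀ k :=
  cnt_recon (cs_le τ G₀ k) _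

lemma odd_qpat (p : Kap τ G₀ → Fin 3) (k : Kap τ G₀) : odd (qpat τ G₀ p k.1) = p k := by
  unfold qpat
  rw [dif_pos k.2, odd_recon k.2]

/-- the adjacency relation encoded by a labelling -/
def Arel (p : Kap τ G₀ → Fin 3) (u v : Fin n) : Prop :=
  (u ∉ TT τ ∧ v ∉ TT τ ∧ Adj G₀ u v) ∨
  (∃ i : Fin 3, ∃ x : {x : Fin n // x ∉ TT τ},
    ((u = τ i ∧ v = x.1) ∨ (v = τ i ∧ u = x.1)) ∧ qpat τ G₀ p (some x) i = true) ∨
  (∃ i : Fin 3, ((u = τ (i + 1) ∧ v = τ (i + 2)) ∨ (v = τ (i + 1) ∧ u = τ (i + 2))) ∧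
    qpat τ G₀ p none i = false)

instance (p : Kap τ G₀ → Fin 3) : DecidableRel (Arel τ G₀ p) := fun u v => by
  unfold Arel; infer_instance

lemma Arel_symm (p : Kap τ G₀ → Fin 3) (u v : Fin n) : Arel τ G₀ p u v → Arel τ G₀ p v u := by
  rintro (⟨hu, hv, h⟩ | ⟨i, x, h, hq⟩ | ⟨i, h, hq⟩)
  · exact Or.inl ⟨hv, hu, adj_comm.mp h⟩
  · exact Or.inr (Or.inl ⟨i, x, h.symm, hq⟩)
  · exact Or.inr (Or.inr ⟨i, h.symm, hq⟩)

/-- the graph of a labelling -/
def Psi (p : Kap τ G₀ → Fin 3) : Finset (Edge n) := ofAdj (Arel τ G₀ p)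

lemma adj_Psi_out (p : Kap τ G₀ → Fin 3) {u v : Fin n} (hu : u ∉ TT τ) (hv : v ∉ TT τ) :
    Adj (Psi τ G₀ p) u v ↔ Adj G₀ u v := by
  unfold Psi
  rw [adj_ofAdj (Arel_symm τ G₀ p)]
  constructor
  · rintro ⟨-, (⟨-, -, h⟩ | ⟨i, x, h, -⟩ | ⟨i, h, -⟩)⟩
    · exact h
    · rcases h with ⟨rfl, -⟩ | ⟨rfl, -⟩
      · exact absurd (tau_mem τ i) hu
      · exact absurd (tau_mem τ i) hv
    · rcases h with ⟨rfl, -⟩ | ⟨rfl, -⟩
      · exact absurd (tau_mem τ _) hu
      · exact absurd (tau_mem τ _) hv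
  · intro h
    exact ⟨h.ne, Or.inl ⟨hu, hv, h⟩⟩

variable {τ} in
lemma adj_Psi_cross (hτ : Function.Injective τ) (p : Kap τ G₀ → Fin 3) (i : Fin 3)
    (x : {x : Fin n // x ∉ TT τ}) :
    Adj (Psi τ G₀ p) (τ i) x.1 ↔ qpat τ G₀ p (some x) i = true := by
  unfold Psi
  rw [adj_ofAdj (Arel_symm τ G₀ p)]
  constructor
  · rintro ⟨-, (⟨hu, -, -⟩ | ⟨i', x', h, hq⟩ | ⟨i', h, -⟩)⟩
    · exact absurd (tau_mem τ i) hu
    · rcases h with ⟨h1, h2⟩ | ⟨h1, h2⟩
      · have := hτ h1; subst this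
        have : x = x' := Subtype.ext h2
        subst this
        exact hq
      · exact absurd (h1 ▸ tau_mem τ i') x.2
    · rcases h with ⟨-, h2⟩ | ⟨h1, -⟩
      · exact absurd (h2 ▸ tau_mem τ _) x.2
      · exact absurd (h1 ▸ tau_mem τ _) x.2
  · intro hq
    refine ⟨?_, Or.inr (Or.inl ⟨i, x, Or.inl ⟨rfl, rfl⟩, hq⟩)⟩
    intro h
    exact x.2 (h ▸ tau_mem τ i)

variable {τ} in
lemma adj_Psi_inner (hτ : Function.Injective τ) (p : Kap τ G₀ → Fin 3) (l : Fin 3) :
    Adj (Psi τ G₀ p) (τ (l + 1)) (τ (l + 2)) ↔ qpat τ G₀ p none l = false := by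
  unfold Psi
  rw [adj_ofAdj (Arel_symm τ G₀ p)]
  constructor
  · rintro ⟨-, (⟨hu, -, -⟩ | ⟨i', x', h, -⟩ | ⟨i', h, hq⟩)⟩
    · exact absurd (tau_mem τ _) hu
    · rcases h with ⟨-, h2⟩ | ⟨-, h2⟩
      · exact absurd (h2 ▸ tau_mem τ _) x'.2
      · exact absurd (h2 ▸ tau_mem τ _) x'.2
    · have : l = i' := by
        apply fin3_pair
        rcases h with ⟨h1, h2⟩ | ⟨h1, h2⟩
        · exact Or.inl ⟨hτ h1, hτ h2⟩
        · exact Or.inr ⟨hτ h1, hτ h2⟩
      subst this
      exact hq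
  · intro hq
    exact ⟨fun h => fin3_ne l (hτ h), Or.inr (Or.inr ⟨l, Or.inl ⟨rfl, rfl⟩, hq⟩)⟩

variable {τ} in
lemma pat_Psi (hτ : Function.Injective τ) (p : Kap τ G₀ → Fin 3) :
    pat τ (Psi τ G₀ p) = qpat τ G₀ p := by
  funext k i
  cases k with
  | some x =>
    have := adj_Psi_cross G₀ hτ p i x
    by_cases h : qpat τ G₀ p (some x) i = true
    · rw [h]; exact (adj_cross _ i x).mp (this.mpr h)
    · have h' : ¬ Adj (Psi τ G₀ p) (τ i) x.1 := fun ha => h (this.mp ha)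
      rw [Bool.not_eq_true] at h
      rw [h]
      simp [pat, h']
  | none =>
    have := adj_Psi_inner G₀ hτ p i
    by_cases h : qpat τ G₀ p none i = false
    · rw [h]; exact (adj_inner _ i).mp (this.mpr h)
    · have h' : ¬ Adj (Psi τ G₀ p) (τ (i + 1)) (τ (i + 2)) := fun ha => h (this.mp ha)
      rw [Bool.not_eq_false] at h
      rw [h]
      simp [pat, h']

lemma away_Psi (p : Kap τ G₀ → Fin 3) : away (TT τ) (Psi τ G₀ p) = away (TT τ) G₀ :=
  away_eq_iff.mpr fun _ _ hu hv => adj_Psi_out τ G₀ p hu hv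

variable {τ} in
lemma cs_Psi (hτ : Function.Injective τ) (p : Kap τ G₀ → Fin 3) (k : Col τ) :
    cs τ (Psi τ G₀ p) k = cs τ G₀ k := by
  unfold cs
  rw [pat_Psi G₀ hτ p]
  exact cnt_qpat τ G₀ p k

variable {τ} in
lemma Psi_mem (hτ : Function.Injective τ) (hG₀ : G₀ ∈ realizations d) {p : Kap τ G₀ → Fin 3}
    (hp : p ∈ S0453T.states (sgK τ G₀) (rho d τ G₀)) : Psi τ G₀ p ∈ realizations d := by
  rw [mem_realizations]
  intro v
  by_cases hv : v ∈ TT τ
  · obtain ⟨i, rfl⟩ := (mem_TT τ).mp hv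
    have h1 := deg_tau hτ (Psi τ G₀ p) i
    rw [cs_Psi G₀ hτ p none,
      sum_pat_eq τ G₀ (pat τ (Psi τ G₀ p)) (fun k => cs_Psi G₀ hτ p k) i] at h1
    have h2 := (mem_filter.mp hp).2 i
    have h3 : ∑ k : Kap τ G₀, (if odd (pat τ (Psi τ G₀ p) k.1) = i then sgK τ G₀ k else 0)
        = rho d τ G₀ i := by
      rw [← h2]
      refine sum_congr rfl fun k _ => ?_
      rw [pat_Psi G₀ hτ p, odd_qpat]
    rw [h3] at h1
    unfold rho at h1
    have : (deg (Psi τ G₀ p) (τ i) : ℤ) = d (τ i) := by linarith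
    exact_mod_cast this
  · have h1 := deg_out hτ (Psi τ G₀ p) ⟨v, hv⟩
    have h2 := deg_out hτ G₀ ⟨v, hv⟩
    have h3 : ∑ y : {y : Fin n // y ∉ TT τ}, (if Adj (Psi τ G₀ p) v y.1 then (1 : ℤ) else 0)
        = ∑ y : {y : Fin n // y ∉ TT τ}, (if Adj G₀ v y.1 then (1 : ℤ) else 0) := by
      refine sum_congr rfl fun y _ => ?_
      simp [adj_Psi_out τ G₀ p hv y.2]
    simp only at h1 h2
    rw [h3, cs_Psi G₀ hτ p] at h1
    rw [mem_realizations.mp hG₀ v] at h2
    have : (deg (Psi τ G₀ p) v : ℤ) = d v := by linarith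
    exact_mod_cast this

variable {τ} in
lemma Phi_Psi (hτ : Function.Injective τ) (p : Kap τ G₀ → Fin 3) :
    Phi τ G₀ (Psi τ G₀ p) = p := by
  funext k
  unfold Phi
  rw [pat_Psi G₀ hτ p, odd_qpat]

variable {τ} in
lemma Psi_Phi (hτ : Function.Injective τ) {G : Finset (Edge n)}
    (haw : away (TT τ) G = away (TT τ) G₀) (hcs : ∀ k, cs τ G k = cs τ G₀ k) :
    Psi τ G₀ (Phi τ G₀ G) = G := by
  apply ext_pat (τ := τ)
  · rw [away_Psi, haw]
  · rw [pat_Psi G₀ hτ]
    funext k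
    unfold qpat
    by_cases h : cs τ G₀ k = 1 ∨ cs τ G₀ k = 2
    · rw [dif_pos h]
      show recon (cs τ G₀ k) (odd (pat τ G k)) = pat τ G k
      rw [← hcs k]
      exact recon_cnt_odd _
    · rw [dif_neg h]
      have h3 := cs_le τ G₀ k
      have := recon_irrel' ⟨cs τ G₀ k, by omega⟩ h 0 (odd (pat τ G k))
      simp only at this
      rw [this, ← hcs k]
      exact recon_cnt_odd _

end Fix

/-! ### pair classes -/

lemma bool_eq_of_iff : ∀ b b' c : Bool, (b' = c ↔ b = c) → b' = b := by decide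

lemma bool_eq_of_ite : ∀ b b' : Bool,
    (if b' = true then (1 : ℤ) else 0) = (if b = true then (1 : ℤ) else 0) → b' = b := by decide

lemma away_mono {S S' : Finset (Fin n)} (hS : S ⊆ S') {G G' : Finset (Edge n)}
    (h : away S G = away S G') : away S' G = away S' G' := by
  rw [away_eq_iff] at h ⊢
  intro u v hu hv
  exact h u v (fun hu' => hu (hS hu')) (fun hv' => hv (hS hv'))

section Pair

variable {τ : Fin 3 → Fin n}

lemma away_erase_iff {G G' : Finset (Edge n)} (haw : away (TT τ) G' = away (TT τ) G) (i : Fin 3) :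
    away ((TT τ).erase (τ i)) G' = away ((TT τ).erase (τ i)) G ↔
      ∀ x : {x : Fin n // x ∉ TT τ}, pat τ G' (some x) i = pat τ G (some x) i := by
  rw [away_eq_iff]
  have hmem : ∀ u, u ∉ (TT τ).erase (τ i) ↔ (u = τ i ∨ u ∉ TT τ) := by
    intro u; rw [mem_erase]; tauto
  constructor
  · intro h x
    have := h (τ i) x.1 ((hmem _).mpr (Or.inl rfl)) ((hmem _).mpr (Or.inr x.2))
    simp only [pat]
    exact decide_eq_decide.mpr this
  · intro h u v hu hv
    rcases (hmem u).mp hu with rfl | hu'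
    · rcases (hmem v).mp hv with rfl | hv'
      · exact ⟨fun h => absurd h not_adj_self, fun h => absurd h not_adj_self⟩
      · rw [adj_cross G' i ⟨v, hv'⟩, adj_cross G i ⟨v, hv'⟩, h ⟨v, hv'⟩]
    · rcases (hmem v).mp hv with rfl | hv'
      · rw [adj_comm, adj_cross G' i ⟨u, hu'⟩, adj_comm (G := G), adj_cross G i ⟨u, hu'⟩,
          h ⟨u, hu'⟩]
      · exact (away_eq_iff.mp haw) u v hu' hv'

variable (G₀ : Finset (Edge n))

lemma Phi_eq_iff {H : Finset (Edge n)} (hH : ∀ k, cs τ H k = cs τ G₀ k) (i : Fin 3)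
    (k : Kap τ G₀) : Phi τ G₀ H k = i ↔ pat τ H k.1 i = decide (cs τ G₀ k.1 = 1) := by
  unfold Phi
  rcases k.2 with h1 | h2
  · have hc : cnt (pat τ H k.1) = 1 := (hH k.1).trans h1
    rw [odd_spec1 _ i hc]
    simp [h1]
  · have hc : cnt (pat τ H k.1) = 2 := (hH k.1).trans h2
    rw [odd_spec2 _ i hc]
    simp [h2]

lemma pat_iff_Phi (hτ : Function.Injective τ) {G G' : Finset (Edge n)} (i : Fin 3)
    (hdeg : deg G' (τ i) = deg G (τ i)) (hcs : ∀ k, cs τ G k = cs τ G₀ k)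
    (hcs' : ∀ k, cs τ G' k = cs τ G₀ k) :
    (∀ x : {x : Fin n // x ∉ TT τ}, pat τ G' (some x) i = pat τ G (some x) i) ↔
      (∀ k : Kap τ G₀, Phi τ G₀ G' k = i ↔ Phi τ G₀ G k = i) := by
  constructor
  · intro h k
    rw [Phi_eq_iff G₀ hcs' i k, Phi_eq_iff G₀ hcs i k]
    have hpk : pat τ G' k.1 i = pat τ G k.1 i := by
      obtain ⟨k, hk⟩ := k
      cases k with
      | some x => exact h x
      | none =>
        have e1 := deg_tau hτ G i
        have e2 := deg_tau hτ G' i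
        rw [Fintype.sum_option] at e1 e2
        rw [hdeg, hcs' none] at e2
        rw [hcs none] at e1
        have e3 : ∑ x : {x : Fin n // x ∉ TT τ},
              (if pat τ G' (some x) i = true then (1 : ℤ) else 0)
            = ∑ x : {x : Fin n // x ∉ TT τ},
              (if pat τ G (some x) i = true then (1 : ℤ) else 0) :=
          sum_congr rfl fun x _ => by rw [h x]
        have e4 : (if pat τ G' none i = true then (1 : ℤ) else 0)
            = (if pat τ G none i = true then (1 : ℤ) else 0) := by linarith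
        exact bool_eq_of_ite _ _ e4
    rw [hpk]
  · intro h x
    by_cases hk : cs τ G₀ (some x) = 1 ∨ cs τ G₀ (some x) = 2
    · have := h ⟨some x, hk⟩
      rw [Phi_eq_iff G₀ hcs' i ⟨some x, hk⟩, Phi_eq_iff G₀ hcs i ⟨some x, hk⟩] at this
      exact bool_eq_of_iff _ _ _ this
    · have h3 := cs_le τ G₀ (some x)
      have hc : cs τ G₀ (some x) = 0 ∨ cs τ G₀ (some x) = 3 := by omega
      rcases hc with h0 | h3'
      · rw [cnt_zero _ i ((hcs' _).trans h0), cnt_zero _ i ((hcs _).trans h0)]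
      · rw [cnt_three _ i ((hcs' _).trans h3'), cnt_three _ i ((hcs _).trans h3')]

end Pair

/-! ### transport -/

/-- transport of sums of expressions in `f` and three class averages along a bijection -/
lemma transport_sum {α β : Type*} [DecidableEq α] [DecidableEq β] (C : Finset α) (S : Finset β)
    (Ψ : β → α) (Φ : α → β)
    (hΨ : ∀ p ∈ S, Ψ p ∈ C) (hΦ : ∀ G ∈ C, Φ G ∈ S)
    (h1 : ∀ p ∈ S, Φ (Ψ p) = p) (h2 : ∀ G ∈ C, Ψ (Φ G) = G)
    (clC : Fin 3 → α → Finset α) (clS : Fin 3 → β → Finset β)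
    (hclS : ∀ i p, clS i p ⊆ S)
    (hcl : ∀ i, ∀ p ∈ S, ∀ G, G ∈ clC i (Ψ p) ↔ (G ∈ C ∧ Φ G ∈ clS i p))
    (f : α → ℝ) (P : ℝ → (Fin 3 → ℝ) → ℝ) :
    ∑ G ∈ C, P (f G) (fun i => (∑ G' ∈ clC i G, f G') / ((clC i G).card : ℝ))
      = ∑ p ∈ S, P (f (Ψ p)) (fun i => (∑ q ∈ clS i p, f (Ψ q)) / ((clS i p).card : ℝ)) := by
  have hsum : ∀ g : α → ℝ, ∑ G ∈ C, g G = ∑ p ∈ S, g (Ψ p) := by
    intro g
    refine sum_nbij' Φ Ψ hΦ hΨ h2 h1 ?_
    intro G hG; rw [h2 G hG]
  have hclsum : ∀ i, ∀ p ∈ S, ∑ G' ∈ clC i (Ψ p), f G' = ∑ q ∈ clS i p, f (Ψ q) := by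
    intro i p hp
    refine sum_nbij' Φ Ψ ?_ ?_ ?_ ?_ ?_
    · intro G hG; exact ((hcl i p hp G).mp hG).2
    · intro q hq
      have hqS := hclS i p hq
      exact (hcl i p hp (Ψ q)).mpr ⟨hΨ q hqS, by rw [h1 q hqS]; exact hq⟩
    · intro G hG; exact h2 G ((hcl i p hp G).mp hG).1
    · intro q hq; exact h1 q (hclS i p hq)
    · intro G hG; rw [h2 G ((hcl i p hp G).mp hG).1]
  have hclcard : ∀ i, ∀ p ∈ S, (clC i (Ψ p)).card = (clS i p).card := by
    intro i p hp
    refine card_nbij' Φ Ψ ?_ ?_ ?_ ?_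
    · intro G hG; exact ((hcl i p hp G).mp hG).2
    · intro q hq
      have hqS := hclS i p hq
      exact (hcl i p hp (Ψ q)).mpr ⟨hΨ q hqS, by rw [h1 q hqS]; exact hq⟩
    · intro G hG; exact h2 G ((hcl i p hp G).mp hG).1
    · intro q hq; exact h1 q (hclS i p hq)
  rw [hsum (fun G => P (f G) (fun i => (∑ G' ∈ clC i G, f G') / ((clC i G).card : ℝ)))]
  refine sum_congr rfl fun p hp => ?_
  have : (fun i => (∑ G' ∈ clC i (Ψ p), f G') / ((clC i (Ψ p)).card : ℝ))
      = (fun i => (∑ q ∈ clS i p, f (Ψ q)) / ((clS i p).card : ℝ)) :=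
    funext fun i => by rw [hclsum i p hp, hclcard i p hp]
  rw [this]

section Final

variable {τ : Fin 3 → Fin n}

/-- **transport for one triple class**: sums over the class of `G₀` of any expression in `f G`
and the three pair averages equal the corresponding sums over the 3-box system -/
lemma class_transport (d : Fin n → ℕ) (hτ : Function.Injective τ) {G₀ : Finset (Edge n)}
    (hG₀ : G₀ ∈ realizations d) (f : Finset (Edge n) → ℝ) (P : ℝ → (Fin 3 → ℝ) → ℝ) :
    ∑ G ∈ cls d (TT τ) G₀, P (f G) (fun i => avg d ((TT τ).erase (τ i)) f G)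
      = ∑ p ∈ S0453T.states (sgK τ G₀) (rho d τ G₀), P (f (Psi τ G₀ p))
          (fun i => S0453T.condE (sgK τ G₀) (rho d τ G₀) i (fun q => f (Psi τ G₀ q)) p) := by
  have hC : ∀ G ∈ cls d (TT τ) G₀, G ∈ realizations d ∧ away (TT τ) G = away (TT τ) G₀ :=
    fun G hG => mem_filter.mp hG
  have hcsC : ∀ G ∈ cls d (TT τ) G₀, ∀ k, cs τ G k = cs τ G₀ k := by
    intro G hG k
    obtain ⟨hGr, haw⟩ := hC G hG
    refine cs_eq_of_away hτ (fun v => ?_) haw k
    rw [mem_realizations.mp hGr v, mem_realizations.mp hG₀ v]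
  have hPsiC : ∀ p ∈ S0453T.states (sgK τ G₀) (rho d τ G₀), Psi τ G₀ p ∈ cls d (TT τ) G₀ :=
    fun p hp => mem_filter.mpr ⟨Psi_mem d G₀ hτ hG₀ hp, away_Psi τ G₀ p⟩
  refine transport_sum (cls d (TT τ) G₀) (S0453T.states (sgK τ G₀) (rho d τ G₀)) (Psi τ G₀)
    (Phi τ G₀) hPsiC ?_ ?_ ?_ (fun i G => cls d ((TT τ).erase (τ i)) G)
    (fun i p => S0453T.cls (sgK τ G₀) (rho d τ G₀) i p) ?_ ?_ f P
  · intro G hG
    exact Phi_mem d G₀ hτ (hC G hG).1 (hcsC G hG)
  · intro p _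
    exact Phi_Psi G₀ hτ p
  · intro G hG
    exact Psi_Phi G₀ hτ (hC G hG).2 (hcsC G hG)
  · intro i p
    exact filter_subset _ _
  · intro i p hp G
    have hP := hPsiC p hp
    have hPr := (hC _ hP).1
    constructor
    · intro hG
      obtain ⟨hGr, haw⟩ := mem_filter.mp hG
      have haw' : away (TT τ) G = away (TT τ) (Psi τ G₀ p) :=
        away_mono (erase_subset _ _) haw
      have hGC : G ∈ cls d (TT τ) G₀ :=
        mem_filter.mpr ⟨hGr, haw'.trans (away_Psi τ G₀ p)⟩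
      refine ⟨hGC, mem_filter.mpr ⟨Phi_mem d G₀ hτ hGr (hcsC G hGC), ?_⟩⟩
      have h1 := (away_erase_iff haw' i).mp haw
      have h2 := (pat_iff_Phi G₀ hτ i
        (by rw [mem_realizations.mp hGr, mem_realizations.mp hPr])
        (hcsC _ hP) (hcsC G hGC)).mp h1
      rw [Phi_Psi G₀ hτ p] at h2
      exact (box_eq_iff _ _ i).mpr h2
    · rintro ⟨hGC, hG⟩
      obtain ⟨hGr, haw⟩ := hC G hGC
      have haw' : away (TT τ) G = away (TT τ) (Psi τ G₀ p) :=
        haw.trans (away_Psi τ G₀ p).symm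
      have h2 := (box_eq_iff _ _ i).mp (mem_filter.mp hG).2
      have h1 := (pat_iff_Phi G₀ hτ i
        (by rw [mem_realizations.mp hGr, mem_realizations.mp hPr])
        (hcsC _ hP) (hcsC G hGC)).mpr (by rw [Phi_Psi G₀ hτ p]; exact h2)
      exact mem_filter.mpr ⟨hGr, (away_erase_iff haw' i).mpr h1⟩

/-- the 3-vertex inequality on one triple class -/
lemma class_sq (hTB : ThreeBoxStmt) (d : Fin n → ℕ) (hτ : Function.Injective τ)
    {G₀ : Finset (Edge n)} (hG₀ : G₀ ∈ realizations d) (f : Finset (Edge n) → ℝ) :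
    ∑ G ∈ cls d (TT τ) G₀, f G * ∑ i : Fin 3, (f G - avg d ((TT τ).erase (τ i)) f G)
      ≤ ∑ G ∈ cls d (TT τ) G₀, (∑ i : Fin 3, (f G - avg d ((TT τ).erase (τ i)) f G)) ^ 2 := by
  have e1 := class_transport d hτ hG₀ f (fun t e => t * ∑ i : Fin 3, (t - e i))
  have e2 := class_transport d hτ hG₀ f (fun t e => (∑ i : Fin 3, (t - e i)) ^ 2)
  simp only at e1 e2
  rw [e1, e2]
  exact hTB (Kap τ G₀) (sgK τ G₀) (sgK_pm τ G₀) (rho d τ G₀) (fun p => f (Psi τ G₀ p))

/-- **(T) for the triple `τ 0, τ 1, τ 2`** in the form `⟨f, X_T f⟩ ≤ ⟨X_T f, X_T f⟩`,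
`X_T = ∑_i (I - E_{T - τ i})` (class averages `avg`) -/
theorem T_sq_tau (hTB : ThreeBoxStmt) (d : Fin n → ℕ) (hτ : Function.Injective τ)
    (f : Finset (Edge n) → ℝ) :
    ∑ G ∈ realizations d, f G * ∑ i : Fin 3, (f G - avg d ((TT τ).erase (τ i)) f G)
      ≤ ∑ G ∈ realizations d, (∑ i : Fin 3, (f G - avg d ((TT τ).erase (τ i)) f G)) ^ 2 := by
  rw [← sum_fiberwise_of_maps_to (g := away (TT τ)) (t := (realizations d).image (away (TT τ)))
      (fun G hG => mem_image_of_mem _ hG)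
      (fun G => f G * ∑ i : Fin 3, (f G - avg d ((TT τ).erase (τ i)) f G)),
    ← sum_fiberwise_of_maps_to (g := away (TT τ)) (t := (realizations d).image (away (TT τ)))
      (fun G hG => mem_image_of_mem _ hG)
      (fun G => (∑ i : Fin 3, (f G - avg d ((TT τ).erase (τ i)) f G)) ^ 2)]
  refine sum_le_sum fun y hy => ?_
  obtain ⟨G₀, hG₀, rfl⟩ := mem_image.mp hy
  exact class_sq hTB d hτ hG₀ f

end Final

end Crest.Agent.S0453R.T35
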