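import Mathlib
import Crest.Prelude.Def_SwitchChain
import Crest.Agent.S0453.Avg
import Crest.Agent.S0453.T35Transport

/-!
Row 299 / S0453 (helper35), module [T-GRAPH], part 3: the target `(G1)` of the driver's interface
(board post 1020) in the canonical names of `Avg.lean`, from the abstract 3-box lemma:

`G1_of_threeBox : ThreeBoxStmt → ∀ T ∈ univ.powersetCard 3, ∀ f,
   0 ≤ ∑ b ∈ T.powersetCard 2, ∑ b' ∈ (T.powersetCard 2).erase b,
         ∑ G ∈ realizations d, (f G - E d b f G) * (f G - E d b' f G)`.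

`ThreeBoxStmt` is verbatim the statement of `Crest.Agent.S0453T.three_box` (for all `K`, `ε`, `ρ`,
`f`), so the final glue is `G1_of_threeBox (fun K _ _ ε hε ρ f => S0453T.three_box ε hε ρ f)`.
-/

set_option autoImplicit false
open Finset

namespace Crest.Agent.S0453R.T35

open Crest.SwitchChain

variable {n : ℕ}

lemma sameOff_iff_away (U : Finset (Fin n)) (G G' : Finset (Edge n)) :
    sameOff U G G' ↔ away U G' = away U G := by
  unfold sameOff away
  constructor
  · intro h
    ext e
    simp only [mem_filter]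
    constructor
    · rintro ⟨he, hU⟩; exact ⟨(h e hU).mpr he, hU⟩
    · rintro ⟨he, hU⟩; exact ⟨(h e hU).mp he, hU⟩
  · intro h e hU
    have := Finset.ext_iff.mp h e
    simp only [mem_filter] at this
    constructor
    · intro he; exact (this.mpr ⟨he, hU⟩).1
    · intro he; exact (this.mp ⟨he, hU⟩).1

/-- the class average of this module is the canonical `E` -/
lemma avg_eq_E (d : Fin n → ℕ) (U : Finset (Fin n)) (f : Finset (Edge n) → ℝ)
    (G : Finset (Edge n)) : avg d U f G = E d U f G := by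
  have : cls d U G = (realizations d).filter (sameOff U G) := by
    unfold cls
    exact filter_congr fun G' _ => (sameOff_iff_away U G G').symm
  unfold avg
  rw [E_def, this]

lemma exists_tau {T : Finset (Fin n)} (hT : T ∈ (univ : Finset (Fin n)).powersetCard 3) :
    ∃ τ : Fin 3 → Fin n, Function.Injective τ ∧ TT τ = T := by
  obtain ⟨a, b, c, hab, hac, hbc, rfl⟩ := card_eq_three.mp (mem_powersetCard.mp hT).2
  refine ⟨![a, b, c], ?_, ?_⟩
  · intro i j h
    fin_cases i <;> fin_cases j <;> simp at h <;> first | rfl | (exfalso; tauto)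
  · ext u
    simp [TT, Fin.exists_fin_succ, eq_comm]

lemma powersetCard_two_TT {τ : Fin 3 → Fin n} (hτ : Function.Injective τ) :
    (TT τ).powersetCard 2 = univ.image (fun i : Fin 3 => (TT τ).erase (τ i)) := by
  have hcard : (TT τ).card = 3 := by
    rw [TT, card_image_of_injective _ hτ]; simp
  ext b
  rw [mem_powersetCard, mem_image]
  constructor
  · rintro ⟨hb, hb2⟩
    have h1 : ((TT τ) \ b).card = 1 := by
      rw [card_sdiff_of_subset hb]; omega
    obtain ⟨x, hx⟩ := card_eq_one.mp h1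
    have hxT : x ∈ TT τ ∧ x ∉ b := by
      have : x ∈ (TT τ) \ b := by rw [hx]; exact mem_singleton_self x
      exact mem_sdiff.mp this
    obtain ⟨i, rfl⟩ := (mem_TT τ).mp hxT.1
    refine ⟨i, mem_univ _, ?_⟩
    ext u
    rw [mem_erase]
    constructor
    · rintro ⟨hne, huT⟩
      by_contra hub
      have : u ∈ (TT τ) \ b := mem_sdiff.mpr ⟨huT, hub⟩
      rw [hx, mem_singleton] at this
      exact hne this
    · intro hub
      exact ⟨fun h => hxT.2 (h ▸ hub), hb hub⟩
  · rintro ⟨i, -, rfl⟩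
    exact ⟨erase_subset _ _, by rw [card_erase_of_mem (tau_mem τ i), hcard]⟩

lemma erase_tau_inj {τ : Fin 3 → Fin n} (hτ : Function.Injective τ) {i j : Fin 3}
    (h : (TT τ).erase (τ i) = (TT τ).erase (τ j)) : i = j := by
  by_contra hij
  have h1 : τ i ∈ (TT τ).erase (τ j) :=
    mem_erase.mpr ⟨fun e => hij (hτ e), tau_mem τ i⟩
  rw [← h] at h1
  exact (mem_erase.mp h1).1 rfl

/-- **(G1)**: the overlapping part of Caputo's identity for one triple, from the 3-box lemma -/
theorem G1_of_threeBox (hTB : ThreeBoxStmt) (d : Fin n → ℕ) (T : Finset (Fin n))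
    (hT : T ∈ (univ : Finset (Fin n)).powersetCard 3) (f : Finset (Edge n) → ℝ) :
    0 ≤ ∑ b ∈ T.powersetCard 2, ∑ b' ∈ (T.powersetCard 2).erase b,
      ∑ G ∈ realizations d, (f G - E d b f G) * (f G - E d b' f G) := by
  obtain ⟨τ, hτ, rfl⟩ := exists_tau hT
  have key := T_sq_tau hTB d hτ f
  simp only [avg_eq_E] at key
  have hsumB : ∀ g : Finset (Fin n) → ℝ,
      ∑ b ∈ (TT τ).powersetCard 2, g b = ∑ i : Fin 3, g ((TT τ).erase (τ i)) := by
    intro g
    rw [powersetCard_two_TT hτ, sum_image]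
    intro i _ j _ h
    exact erase_tau_inj hτ h
  -- pointwise: (∑_b x_b)² = ∑_b x_b² + ∑_{b ≠ b'} x_b x_b'
  have hpt : ∀ G : Finset (Edge n),
      (∑ b ∈ (TT τ).powersetCard 2, (f G - E d b f G)) ^ 2
        = ∑ b ∈ (TT τ).powersetCard 2, (f G - E d b f G) ^ 2
          + ∑ b ∈ (TT τ).powersetCard 2, ∑ b' ∈ ((TT τ).powersetCard 2).erase b,
              (f G - E d b f G) * (f G - E d b' f G) := by
    intro G
    rw [sq, sum_mul_sum, ← sum_add_distrib]
    refine sum_congr rfl fun b hb => ?_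
    rw [← add_sum_erase _ _ hb]
    ring
  have h1 : ∑ b ∈ (TT τ).powersetCard 2, ∑ b' ∈ ((TT τ).powersetCard 2).erase b,
        ∑ G ∈ realizations d, (f G - E d b f G) * (f G - E d b' f G)
      = ∑ G ∈ realizations d, ∑ b ∈ (TT τ).powersetCard 2,
          ∑ b' ∈ ((TT τ).powersetCard 2).erase b, (f G - E d b f G) * (f G - E d b' f G) := by
    rw [sum_comm]
    refine sum_congr rfl fun b _ => ?_
    rw [sum_comm]
  have h2 : ∑ G ∈ realizations d, ∑ b ∈ (TT τ).powersetCard 2, (f G - E d b f G) ^ 2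
      = ∑ G ∈ realizations d, f G * ∑ b ∈ (TT τ).powersetCard 2, (f G - E d b f G) := by
    rw [sum_comm]
    have : ∑ G ∈ realizations d, f G * ∑ b ∈ (TT τ).powersetCard 2, (f G - E d b f G)
        = ∑ b ∈ (TT τ).powersetCard 2, ∑ G ∈ realizations d, f G * (f G - E d b f G) := by
      rw [sum_comm]
      exact sum_congr rfl fun G _ => mul_sum _ _ _
    rw [this]
    exact sum_congr rfl fun b _ => sum_sq_sub_E d b f
  have h3 : ∑ G ∈ realizations d, ∑ b ∈ (TT τ).powersetCard 2,
        ∑ b' ∈ ((TT τ).powersetCard 2).erase b, (f G - E d b f G) * (f G - E d b' f G)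
      = ∑ G ∈ realizations d, (∑ b ∈ (TT τ).powersetCard 2, (f G - E d b f G)) ^ 2
        - ∑ G ∈ realizations d, f G * ∑ b ∈ (TT τ).powersetCard 2, (f G - E d b f G) := by
    rw [← h2, ← sum_sub_distrib]
    refine sum_congr rfl fun G _ => ?_
    rw [hpt G]
    ring
  rw [h1, h3, sub_nonneg]
  simp only [hsumB]
  exact key

end Crest.Agent.S0453R.T35
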