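import Mathlib

/-!
Row 299 / S0453 (helper81): class averages ("conditional expectations") on a finite type with
the uniform weight, for a class FUNCTION `c : Ω → κ` (two points are in the same class iff `c`
takes the same value).

* `ip f g = ∑ G, f G * g G`;
* `avg c : (Ω → ℝ) →ₗ[ℝ] (Ω → ℝ)` : average over the class;
* self-adjoint, idempotent, tower property;
* `avg_comp_avg_of_rect` : the rectangle criterion for `avg c₁ ∘ avg c₂ = avg j`;
* `avg_comp_comm` : then also `avg c₂ ∘ avg c₁ = avg j`;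
* `ip_nonneg_of_comm` : commuting projections have a positive semidefinite product.
-/

set_option autoImplicit false
open Finset

namespace Crest.Agent.S0453C

variable {Ω : Type*} [Fintype Ω]

/-- the counting inner product -/
def ip (f g : Ω → ℝ) : ℝ := ∑ G, f G * g G

lemma ip_comm (f g : Ω → ℝ) : ip f g = ip g f := by
  unfold ip; exact sum_congr rfl fun G _ => mul_comm _ _

lemma ip_add_left (f g h : Ω → ℝ) : ip (f + g) h = ip f h + ip g h := by
  unfold ip; rw [← sum_add_distrib]; exact sum_congr rfl fun G _ => by simp [add_mul]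

lemma ip_sub_left (f g h : Ω → ℝ) : ip (f - g) h = ip f h - ip g h := by
  unfold ip; rw [← sum_sub_distrib]; exact sum_congr rfl fun G _ => by simp [sub_mul]

lemma ip_add_right (f g h : Ω → ℝ) : ip f (g + h) = ip f g + ip f h := by
  unfold ip; rw [← sum_add_distrib]; exact sum_congr rfl fun G _ => by simp [mul_add]

lemma ip_sub_right (f g h : Ω → ℝ) : ip f (g - h) = ip f g - ip f h := by
  unfold ip; rw [← sum_sub_distrib]; exact sum_congr rfl fun G _ => by simp [mul_sub]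

lemma ip_smul_left (r : ℝ) (f g : Ω → ℝ) : ip (r • f) g = r * ip f g := by
  unfold ip; rw [mul_sum]; exact sum_congr rfl fun G _ => by simp [mul_assoc]

lemma ip_smul_right (r : ℝ) (f g : Ω → ℝ) : ip f (r • g) = r * ip f g := by
  unfold ip; rw [mul_sum]; exact sum_congr rfl fun G _ => by simp; ring

lemma ip_self_nonneg (f : Ω → ℝ) : 0 ≤ ip f f :=
  sum_nonneg fun G _ => mul_self_nonneg _

lemma ip_ext {a b : Ω → ℝ} (h : ∀ t, ip t a = ip t b) : a = b := by
  have h0 : ip (a - b) (a - b) = 0 := by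
    rw [ip_sub_right, h, sub_self]
  unfold ip at h0
  have h1 := (sum_eq_zero_iff_of_nonneg (fun G _ => mul_self_nonneg _)).mp h0
  funext G
  have := h1 G (mem_univ G)
  have h2 : (a - b) G = 0 := mul_self_eq_zero.mp this
  simpa [sub_eq_zero] using h2

section avg
open Classical

/-- the class of `G` for the class function `c` -/
noncomputable def cls {κ : Type*} (c : Ω → κ) (G : Ω) : Finset Ω :=
  univ.filter fun G' => c G' = c G

lemma mem_cls {κ : Type*} {c : Ω → κ} {G G' : Ω} : G' ∈ cls c G ↔ c G' = c G := by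
  simp [cls]

lemma self_mem_cls {κ : Type*} (c : Ω → κ) (G : Ω) : G ∈ cls c G := mem_cls.mpr rfl

lemma cls_congr {κ : Type*} {c : Ω → κ} {G G' : Ω} (h : c G = c G') : cls c G = cls c G' := by
  ext G''; simp [mem_cls, h]

lemma card_cls_pos {κ : Type*} (c : Ω → κ) (G : Ω) : 0 < ((cls c G).card : ℝ) := by
  exact_mod_cast card_pos.mpr ⟨G, self_mem_cls c G⟩

/-- class average, as a linear map -/
noncomputable def avg {κ : Type*} (c : Ω → κ) : (Ω → ℝ) →ₗ[ℝ] (Ω → ℝ) where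
  toFun f G := (∑ G' ∈ cls c G, f G') / (cls c G).card
  map_add' f g := by
    funext G
    simp only [Pi.add_apply, sum_add_distrib, add_div]
  map_smul' r f := by
    funext G
    simp only [Pi.smul_apply, smul_eq_mul, RingHom.id_apply, ← mul_sum, mul_div_assoc]

lemma avg_apply {κ : Type*} (c : Ω → κ) (f : Ω → ℝ) (G : Ω) :
    avg c f G = (∑ G' ∈ cls c G, f G') / (cls c G).card := rfl

/-- `avg` only depends on the classes; usable to convert from any other presentation -/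
lemma avg_apply_of_mem {κ : Type*} (c : Ω → κ) (f : Ω → ℝ) (G : Ω) (S : Finset Ω)
    (hS : ∀ G', G' ∈ S ↔ c G' = c G) :
    avg c f G = (∑ G' ∈ S, f G') / S.card := by
  have : S = cls c G := by ext G'; rw [hS, mem_cls]
  rw [this, avg_apply]

lemma avg_congr_fun {κ κ' : Type*} (c : Ω → κ) (c' : Ω → κ')
    (h : ∀ G G', c G = c G' ↔ c' G = c' G') : avg c = avg c' := by
  refine LinearMap.ext fun f => funext fun G => ?_
  exact avg_apply_of_mem c f G (cls c' G) (fun G' => by rw [mem_cls, h])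

/-- `g` is constant on the classes of `c` -/
def Meas {κ : Type*} (c : Ω → κ) (g : Ω → ℝ) : Prop := ∀ G G', c G = c G' → g G = g G'

lemma meas_avg {κ : Type*} (c : Ω → κ) (f : Ω → ℝ) : Meas c (avg c f) := by
  intro G G' h
  rw [avg_apply, avg_apply, cls_congr h]

lemma Meas.of_coarser {κ κ' : Type*} {c : Ω → κ} {c' : Ω → κ'}
    (hc : ∀ G G', c G = c G' → c' G = c' G') {g : Ω → ℝ} (hg : Meas c' g) : Meas c g :=
  fun G G' h => hg G G' (hc G G' h)

lemma Meas.sub {κ : Type*} {c : Ω → κ} {g h : Ω → ℝ} (hg : Meas c g) (hh : Meas c h) :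
    Meas c (g - h) := fun G G' e => by simp [hg G G' e, hh G G' e]

lemma avg_of_meas {κ : Type*} {c : Ω → κ} {g : Ω → ℝ} (hg : Meas c g) : avg c g = g := by
  funext G
  rw [avg_apply]
  have : ∑ G' ∈ cls c G, g G' = ∑ G' ∈ cls c G, g G :=
    sum_congr rfl fun G' h => hg G' G (mem_cls.mp h)
  rw [this, sum_const, nsmul_eq_mul]
  have := card_cls_pos c G
  rw [mul_div_cancel_left₀ _ this.ne']

/-- the double-sum form of `ip g (avg c f)` -/
lemma ip_avg_eq {κ : Type*} (c : Ω → κ) (f g : Ω → ℝ) :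
    ip g (avg c f) = ∑ G, ∑ G', if c G' = c G then g G * f G' / (cls c G).card else 0 := by
  unfold ip
  refine sum_congr rfl fun G _ => ?_
  rw [avg_apply, mul_div_assoc', mul_sum, sum_div, cls, sum_filter]

lemma avg_sa {κ : Type*} (c : Ω → κ) (f g : Ω → ℝ) : ip (avg c f) g = ip f (avg c g) := by
  rw [ip_comm, ip_avg_eq, ip_avg_eq, sum_comm]
  refine sum_congr rfl fun G _ => sum_congr rfl fun G' _ => ?_
  by_cases h : c G = c G'
  · rw [if_pos h, if_pos h.symm, cls_congr h]; ring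
  · rw [if_neg h, if_neg (Ne.symm h)]

lemma ip_avg_of_meas {κ : Type*} {c : Ω → κ} {g : Ω → ℝ} (hg : Meas c g) (f : Ω → ℝ) :
    ip g (avg c f) = ip g f := by
  rw [← avg_sa, avg_of_meas hg]

lemma avg_idem {κ : Type*} (c : Ω → κ) (f : Ω → ℝ) : avg c (avg c f) = avg c f :=
  avg_of_meas (meas_avg c f)

/-- tower property, finer average outside -/
lemma avg_avg_of_coarser {κ κ' : Type*} {c : Ω → κ} {c' : Ω → κ'}
    (hc : ∀ G G', c G = c G' → c' G = c' G') (f : Ω → ℝ) : avg c (avg c' f) = avg c' f :=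
  avg_of_meas ((meas_avg c' f).of_coarser hc)

/-- tower property, coarser average outside -/
lemma avg_coarser_avg {κ κ' : Type*} {c : Ω → κ} {c' : Ω → κ'}
    (hc : ∀ G G', c G = c G' → c' G = c' G') (f : Ω → ℝ) : avg c' (avg c f) = avg c' f := by
  apply ip_ext
  intro t
  rw [← avg_sa, ip_avg_of_meas ((meas_avg c' t).of_coarser hc), avg_sa]

lemma ip_avg_self {κ : Type*} (c : Ω → κ) (f : Ω → ℝ) :
    ip (avg c f) (avg c f) = ip f (avg c f) := by
  rw [avg_sa, avg_idem]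

/-- sums over a class -/
lemma sum_cls_avg {κ κ' : Type*} {c : Ω → κ} {j : Ω → κ'}
    (hc : ∀ G G', c G = c G' → j G = j G') (f : Ω → ℝ) (G : Ω) :
    ∑ G' ∈ cls j G, avg c f G' = ∑ G' ∈ cls j G, f G' := by
  have h1 : ∀ h : Ω → ℝ, ∑ G' ∈ cls j G, h G' = ip (fun G' => if j G' = j G then 1 else 0) h := by
    intro h
    unfold ip
    rw [cls, sum_filter]
    refine sum_congr rfl fun G' _ => ?_
    by_cases e : j G' = j G
    · simp only [if_pos e, one_mul]
    · simp only [if_neg e, zero_mul]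
  rw [h1, h1]
  apply ip_avg_of_meas
  intro G₁ G₂ h12
  simp only [hc G₁ G₂ h12]

/-- **Rectangle criterion.**  Inside every `j`-class the points are parametrised bijectively by
`(u, w)` ranging over a full rectangle, the `c₂`-classes are the `u`-fibres and the `c₁`-classes
are unions of `w`-fibres.  Then `avg c₁ ∘ avg c₂ = avg j`. -/
theorem avg_comp_avg_of_rect {κ₁ κ₂ J A B : Type*} (c₁ : Ω → κ₁) (c₂ : Ω → κ₂) (j : Ω → J)
    (u : Ω → A) (w : Ω → B)
    (h2 : ∀ G G', c₂ G = c₂ G' ↔ (j G = j G' ∧ u G = u G'))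
    (h1 : ∀ G G', j G = j G' → w G = w G' → c₁ G = c₁ G')
    (h1j : ∀ G G', c₁ G = c₁ G' → j G = j G')
    (hex : ∀ G G', j G = j G' → ∃ G'', j G'' = j G ∧ u G'' = u G ∧ w G'' = w G')
    (huniq : ∀ G G', j G = j G' → u G = u G' → w G = w G' → G = G') :
    avg c₁ ∘ₗ avg c₂ = avg j := by
  refine LinearMap.ext fun f => funext fun G => ?_
  simp only [LinearMap.comp_apply]
  set h := avg c₂ f with hh
  have hmeas : ∀ G₁ G₂, j G₁ = j G₂ → u G₁ = u G₂ → h G₁ = h G₂ := fun G₁ G₂ e1 e2 =>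
    meas_avg c₂ f G₁ G₂ ((h2 G₁ G₂).mpr ⟨e1, e2⟩)
  -- the mixing map
  let mix : Ω → Ω → Ω := fun G₁ G₂ =>
    if e : j G₁ = j G₂ then Classical.choose (hex G₁ G₂ e) else G₁
  have mix_spec : ∀ G₁ G₂, j G₁ = j G₂ →
      j (mix G₁ G₂) = j G₁ ∧ u (mix G₁ G₂) = u G₁ ∧ w (mix G₁ G₂) = w G₂ := by
    intro G₁ G₂ e
    simp only [mix, dif_pos e]
    exact Classical.choose_spec (hex G₁ G₂ e)
  have key : ((cls j G).card : ℝ) * ∑ G₁ ∈ cls c₁ G, h G₁
      = ((cls c₁ G).card : ℝ) * ∑ G₂ ∈ cls j G, h G₂ := by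
    have e1 : ∑ p ∈ cls c₁ G ×ˢ cls j G, h p.1 = ((cls j G).card : ℝ) * ∑ G₁ ∈ cls c₁ G, h G₁ := by
      rw [sum_product, mul_sum]
      refine sum_congr rfl fun G₁ _ => ?_
      simp only [sum_const, nsmul_eq_mul]
    have e2 : ∑ p ∈ cls c₁ G ×ˢ cls j G, h p.2 = ((cls c₁ G).card : ℝ) * ∑ G₂ ∈ cls j G, h G₂ := by
      rw [sum_product]
      simp only [sum_const, nsmul_eq_mul]
    rw [← e1, ← e2]
    symm
    refine sum_nbij' (fun p => (mix p.2 p.1, mix p.1 p.2)) (fun p => (mix p.2 p.1, mix p.1 p.2))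
      ?_ ?_ ?_ ?_ ?_
    · rintro ⟨G₁, G₂⟩ hp
      simp only [mem_product, mem_cls] at hp ⊢
      have hj1 : j G₁ = j G := h1j _ _ hp.1
      have e21 : j G₂ = j G₁ := hp.2.trans hj1.symm
      obtain ⟨a1, a2, a3⟩ := mix_spec G₂ G₁ e21
      obtain ⟨b1, b2, b3⟩ := mix_spec G₁ G₂ e21.symm
      refine ⟨?_, ?_⟩
      · rw [h1 _ G₁ (a1.trans e21) a3]; exact hp.1
      · rw [b1]; exact hj1
    · rintro ⟨G₁, G₂⟩ hp
      simp only [mem_product, mem_cls] at hp ⊢
      have hj1 : j G₁ = j G := h1j _ _ hp.1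
      have e21 : j G₂ = j G₁ := hp.2.trans hj1.symm
      obtain ⟨a1, a2, a3⟩ := mix_spec G₂ G₁ e21
      obtain ⟨b1, b2, b3⟩ := mix_spec G₁ G₂ e21.symm
      refine ⟨?_, ?_⟩
      · rw [h1 _ G₁ (a1.trans e21) a3]; exact hp.1
      · rw [b1]; exact hj1
    · rintro ⟨G₁, G₂⟩ hp
      simp only [mem_product, mem_cls] at hp
      have hj1 : j G₁ = j G := h1j _ _ hp.1
      have e21 : j G₂ = j G₁ := hp.2.trans hj1.symm
      obtain ⟨a1, a2, a3⟩ := mix_spec G₂ G₁ e21
      obtain ⟨b1, b2, b3⟩ := mix_spec G₁ G₂ e21.symm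
      have e' : j (mix G₁ G₂) = j (mix G₂ G₁) := by rw [a1, b1, e21]
      obtain ⟨c1, c2, c3⟩ := mix_spec _ _ e'
      obtain ⟨d1, d2, d3⟩ := mix_spec _ _ e'.symm
      refine Prod.ext ?_ ?_
      · exact huniq _ _ (c1.trans b1) (c2.trans b2) (c3.trans a3)
      · exact huniq _ _ (d1.trans a1) (d2.trans a2) (d3.trans b3)
    · rintro ⟨G₁, G₂⟩ hp
      simp only [mem_product, mem_cls] at hp
      have hj1 : j G₁ = j G := h1j _ _ hp.1
      have e21 : j G₂ = j G₁ := hp.2.trans hj1.symm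
      obtain ⟨a1, a2, a3⟩ := mix_spec G₂ G₁ e21
      obtain ⟨b1, b2, b3⟩ := mix_spec G₁ G₂ e21.symm
      have e' : j (mix G₁ G₂) = j (mix G₂ G₁) := by rw [a1, b1, e21]
      obtain ⟨c1, c2, c3⟩ := mix_spec _ _ e'
      obtain ⟨d1, d2, d3⟩ := mix_spec _ _ e'.symm
      refine Prod.ext ?_ ?_
      · exact huniq _ _ (c1.trans b1) (c2.trans b2) (c3.trans a3)
      · exact huniq _ _ (d1.trans a1) (d2.trans a2) (d3.trans b3)
    · rintro ⟨G₁, G₂⟩ hp
      simp only [mem_product, mem_cls] at hp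
      have hj1 : j G₁ = j G := h1j _ _ hp.1
      have e21 : j G₂ = j G₁ := hp.2.trans hj1.symm
      obtain ⟨a1, a2, a3⟩ := mix_spec G₂ G₁ e21
      exact (hmeas _ _ a1 a2).symm
  have hc2j : ∀ G G', c₂ G = c₂ G' → j G = j G' := fun G G' e => ((h2 G G').mp e).1
  have hsum : ∑ G₂ ∈ cls j G, h G₂ = ∑ G₂ ∈ cls j G, f G₂ := sum_cls_avg hc2j f G
  rw [avg_apply, avg_apply]
  have p1 := card_cls_pos c₁ G
  have p2 := card_cls_pos j G
  rw [div_eq_div_iff p1.ne' p2.ne', ← hsum]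
  linarith [key]

/-- if `avg c₁ ∘ avg c₂` is a class average then so is the other product, with the same value -/
theorem avg_comp_comm {κ₁ κ₂ J : Type*} {c₁ : Ω → κ₁} {c₂ : Ω → κ₂} {j : Ω → J}
    (h : avg c₁ ∘ₗ avg c₂ = avg j) : avg c₂ ∘ₗ avg c₁ = avg j := by
  refine LinearMap.ext fun f => funext fun G => ?_
  have : avg c₂ (avg c₁ f) = avg j f := by
    apply ip_ext
    intro t
    rw [← avg_sa, ← avg_sa, ← LinearMap.comp_apply, h, avg_sa]
  simpa using congrFun this G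

end avg

/-- self-adjoint idempotents -/
structure IsProj (T : (Ω → ℝ) →ₗ[ℝ] (Ω → ℝ)) : Prop where
  sa : ∀ f g, ip (T f) g = ip f (T g)
  idem : ∀ f, T (T f) = T f

lemma isProj_avg {κ : Type*} (c : Ω → κ) : IsProj (avg c) := ⟨avg_sa c, avg_idem c⟩

lemma IsProj.one_sub {T : (Ω → ℝ) →ₗ[ℝ] (Ω → ℝ)} (hT : IsProj T) :
    IsProj (LinearMap.id - T) := by
  refine ⟨fun f g => ?_, fun f => ?_⟩
  · simp only [LinearMap.sub_apply, LinearMap.id_apply, ip_sub_left, ip_sub_right, hT.sa]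
  · simp only [LinearMap.sub_apply, LinearMap.id_apply, map_sub, hT.idem, sub_self, sub_zero]

/-- difference of nested projections -/
lemma IsProj.sub {S T : (Ω → ℝ) →ₗ[ℝ] (Ω → ℝ)} (hS : IsProj S) (hT : IsProj T)
    (h1 : ∀ f, S (T f) = T f) (h2 : ∀ f, T (S f) = T f) : IsProj (S - T) := by
  refine ⟨fun f g => ?_, fun f => ?_⟩
  · simp only [LinearMap.sub_apply, ip_sub_left, ip_sub_right, hS.sa, hT.sa]
  · simp only [LinearMap.sub_apply, map_sub, hS.idem, hT.idem, h1, h2, sub_self, sub_zero]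

lemma IsProj.ip_self_nonneg {T : (Ω → ℝ) →ₗ[ℝ] (Ω → ℝ)} (hT : IsProj T) (f : Ω → ℝ) :
    0 ≤ ip f (T f) := by
  rw [← hT.idem, ← hT.sa]; exact S0453C.ip_self_nonneg _

/-- commuting projections: the product is positive semidefinite -/
theorem ip_nonneg_of_comm {S T : (Ω → ℝ) →ₗ[ℝ] (Ω → ℝ)} (hS : IsProj S) (hT : IsProj T)
    (hc : ∀ f, S (T f) = T (S f)) (f : Ω → ℝ) : 0 ≤ ip (S f) (T f) := by
  have : ip (S f) (T f) = ip (T (S f)) (T (S f)) := by
    calc ip (S f) (T f) = ip (S (S f)) (T f) := by rw [hS.idem]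
      _ = ip (S f) (S (T f)) := hS.sa _ _
      _ = ip (S f) (T (S f)) := by rw [hc]
      _ = ip (S f) (T (T (S f))) := by rw [hT.idem]
      _ = ip (T (S f)) (T (S f)) := (hT.sa _ _).symm
  rw [this]; exact S0453C.ip_self_nonneg _

end Crest.Agent.S0453C
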