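import Mathlib
import Crest.Agent.S0453.CondExp

/-!
Row 299 / S0453 (helper81): the abstract couple lemma (Lemma C + Lemma S of board post 956)
on the coordinate model of one couple `s = (b, b')`, `b = {a,a'}`, `b' = {c,c'}`.

A state `G` has coordinates
* `m G : Blk`          the four block bits `(ac, ac', a'c, a'c')`,
* `x G : Finset ι`     the outside private `b`-columns adjacent to `a`,
* `z G : Finset ι`     the outside private `b'`-columns adjacent to `c`,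
* `ρ G : R`            everything else.
-/

set_option autoImplicit false
open Finset

namespace Crest.Agent.S0453C

/-- the block of a couple: the bits `(ac, ac', a'c, a'c')` -/
abbrev Blk := Bool × Bool × Bool × Bool

namespace Blk

/-- number of ones -/
def wt (m : Blk) : ℕ := m.1.toNat + m.2.1.toNat + m.2.2.1.toNat + m.2.2.2.toNat
/-- row sum of `a` -/
def ra (m : Blk) : ℕ := m.1.toNat + m.2.1.toNat
/-- column sum of `c` -/
def cc (m : Blk) : ℕ := m.1.toNat + m.2.2.1.toNat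
/-- the matching `ac, a'c'` -/
def M1 : Blk := (true, false, false, true)
/-- the matching `ac', a'c` -/
def M2 : Blk := (false, true, true, false)
/-- the block is the first matching -/
def isM1 (m : Blk) : Bool := decide (m = M1)
/-- the block is a perfect matching -/
def isM (m : Blk) : Bool := decide (m = M1) || decide (m = M2)
/-- both edges in one row -/
def isR (m : Blk) : Bool := decide (wt m = 2) && !decide (ra m = 1)
/-- both edges in one column -/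
def isC (m : Blk) : Bool := decide (wt m = 2) && !decide (cc m = 1)

lemma isM_of_isM1 : ∀ m : Blk, m = M1 → isM m = true := by decide
lemma isM_of_isM2 : ∀ m : Blk, m = M2 → isM m = true := by decide
lemma isM_iff : ∀ m : Blk, isM m = true ↔ m = M1 ∨ m = M2 := by decide

/-- `(wt, ra, cc)` determine the block up to the two matchings -/
lemma eq_of : ∀ m m' : Blk, wt m = wt m' → ra m = ra m' → cc m = cc m' →
    isM1 m = isM1 m' → m = m' := by decide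

lemma isM_eq_of_cc : ∀ m m' : Blk, wt m = wt m' → cc m = cc m' → isR m = isR m' →
    isM1 m = isM1 m' → isM m = isM m' := by decide

lemma isM_eq_of_ra : ∀ m m' : Blk, wt m = wt m' → ra m = ra m' → isC m = isC m' →
    isM1 m = isM1 m' → isM m = isM m' := by decide

lemma isR_eq_of_cc : ∀ m m' : Blk, wt m = wt m' → cc m = cc m' → isM m = isM m' →
    isR m = isR m' := by decide

lemma isC_eq_of_ra : ∀ m m' : Blk, wt m = wt m' → ra m = ra m' → isM m = isM m' →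
    isC m = isC m' := by decide

lemma isR_eq_of_ra : ∀ m m' : Blk, wt m = wt m' → ra m = ra m' → isR m = isR m' := by decide

lemma isC_eq_of_cc : ∀ m m' : Blk, wt m = wt m' → cc m = cc m' → isC m = isC m' := by decide

set_option synthInstance.maxHeartbeats 400000 in
set_option synthInstance.maxSize 2048 in
/-- mixing for `P E'` : row data of `m₁`, column data of `m₂` -/
lemma mix_R : ∀ m₁ m₂ : Blk, wt m₁ = wt m₂ → isR m₁ = isR m₂ →
    ∃ m' : Blk, wt m' = wt m₁ ∧ ra m' = ra m₁ ∧ cc m' = cc m₂ ∧ isR m' = isR m₁ ∧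
      isM1 m' = isM1 m₂ := by decide

set_option synthInstance.maxHeartbeats 400000 in
set_option synthInstance.maxSize 2048 in
/-- mixing for `P' E` : column data of `m₁`, row data of `m₂` -/
lemma mix_C : ∀ m₁ m₂ : Blk, wt m₁ = wt m₂ → isC m₁ = isC m₂ →
    ∃ m' : Blk, wt m' = wt m₁ ∧ cc m' = cc m₁ ∧ ra m' = ra m₂ ∧ isC m' = isC m₁ ∧
      isM1 m' = isM1 m₂ := by decide

/-- mixing for `P P'` -/
lemma mix_K : ∀ m₁ m₂ : Blk, wt m₁ = wt m₂ → isM m₁ = isM m₂ → isR m₁ = isR m₂ →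
    isC m₁ = isC m₂ →
    ∃ m' : Blk, wt m' = wt m₁ ∧ ra m' = ra m₁ ∧ cc m' = cc m₂ ∧ isM m' = isM m₁ ∧
      isR m' = isR m₁ ∧ isC m' = isC m₁ ∧ isM1 m' = isM1 m₂ := by decide

lemma isM_of_ra_cc : ∀ m m₁ m₂ : Blk, wt m = wt m₁ → wt m = wt m₂ → cc m = cc m₁ →
    ra m = ra m₂ → isM m₁ = true → isM m₂ = true → isM m = true := by decide

end Blk

/-- The coordinate model of one couple. -/
structure Model (Ω ι R : Type*) where
  /-- block -/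
  m : Ω → Blk
  /-- outside private `b`-columns adjacent to `a` -/
  x : Ω → Finset ι
  /-- outside private `b'`-columns adjacent to `c` -/
  z : Ω → Finset ι
  /-- everything else -/
  ρ : Ω → R
  inj : ∀ G G', m G = m G' → x G = x G' → z G = z G' → ρ G = ρ G' → G = G'
  wt_eq : ∀ G G', ρ G = ρ G' → (m G).wt = (m G').wt
  x_card : ∀ G G', ρ G = ρ G' → (x G).card + (m G).ra = (x G').card + (m G').ra
  z_card : ∀ G G', ρ G = ρ G' → (z G).card + (m G).cc = (z G').card + (m G').cc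
  /-- mixing: rows `a,a'` of `G`, rows `c,c'` of `G'`, any compatible block -/
  full : ∀ G G' (m' : Blk), ρ G = ρ G' → m'.wt = (m G).wt → m'.ra = (m G).ra →
    m'.cc = (m G').cc → ∃ G'', ρ G'' = ρ G ∧ m G'' = m' ∧ x G'' = x G ∧ z G'' = z G'

namespace Model

variable {Ω ι R : Type*} [Fintype Ω] (𝔐 : Model Ω ι R)

/-- class function of the `b`-class -/
def cb (G : Ω) : R × Finset ι := (𝔐.ρ G, 𝔐.z G)
/-- class function of the `b'`-class -/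
def cb' (G : Ω) : R × Finset ι := (𝔐.ρ G, 𝔐.x G)
/-- class function of the `b`-class split by `M_s` -/
def pb (G : Ω) : R × Finset ι × Bool := (𝔐.ρ G, 𝔐.z G, (𝔐.m G).isM)
/-- class function of the `b'`-class split by `M_s` -/
def pb' (G : Ω) : R × Finset ι × Bool := (𝔐.ρ G, 𝔐.x G, (𝔐.m G).isM)

lemma ra_eq {G G' : Ω} (h : 𝔐.ρ G = 𝔐.ρ G') (hx : 𝔐.x G = 𝔐.x G') :
    (𝔐.m G).ra = (𝔐.m G').ra := by
  have := 𝔐.x_card G G' h
  rw [hx] at this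
  omega

lemma cc_eq {G G' : Ω} (h : 𝔐.ρ G = 𝔐.ρ G') (hz : 𝔐.z G = 𝔐.z G') :
    (𝔐.m G).cc = (𝔐.m G').cc := by
  have := 𝔐.z_card G G' h
  rw [hz] at this
  omega

/-- `P E' = ` average over the join classes `(ρ, isR)` -/
theorem P_E' : avg 𝔐.pb ∘ₗ avg 𝔐.cb' = avg (fun G => (𝔐.ρ G, (𝔐.m G).isR)) := by
  refine avg_comp_avg_of_rect 𝔐.pb 𝔐.cb' _ 𝔐.x (fun G => (𝔐.z G, (𝔐.m G).isM1)) ?_ ?_ ?_ ?_ ?_
  · intro G G'
    simp only [cb', Prod.mk.injEq]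
    constructor
    · rintro ⟨h1, h2⟩
      exact ⟨⟨h1, Blk.isR_eq_of_ra _ _ (𝔐.wt_eq G G' h1) (𝔐.ra_eq h1 h2)⟩, h2⟩
    · rintro ⟨⟨h1, -⟩, h2⟩
      exact ⟨h1, h2⟩
  · intro G G' hj hw
    simp only [Prod.mk.injEq] at hj hw
    simp only [pb, Prod.mk.injEq]
    exact ⟨hj.1, hw.1, Blk.isM_eq_of_cc _ _ (𝔐.wt_eq G G' hj.1) (𝔐.cc_eq hj.1 hw.1) hj.2 hw.2⟩
  · intro G G' h
    simp only [pb, Prod.mk.injEq] at h
    simp only [Prod.mk.injEq]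
    exact ⟨h.1, Blk.isR_eq_of_cc _ _ (𝔐.wt_eq G G' h.1) (𝔐.cc_eq h.1 h.2.1) h.2.2⟩
  · intro G G' hj
    simp only [Prod.mk.injEq] at hj
    obtain ⟨m', e1, e2, e3, e4, e5⟩ := Blk.mix_R (𝔐.m G) (𝔐.m G') (𝔐.wt_eq G G' hj.1) hj.2
    obtain ⟨G'', f1, f2, f3, f4⟩ := 𝔐.full G G' m' hj.1 e1 e2 e3
    refine ⟨G'', ?_, f3, ?_⟩
    · simp only [Prod.mk.injEq]; exact ⟨f1, by rw [f2, e4]⟩
    · simp only [Prod.mk.injEq]; exact ⟨f4, by rw [f2, e5]⟩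
  · intro G G' hj hu hw
    simp only [Prod.mk.injEq] at hj hw
    exact 𝔐.inj G G' (Blk.eq_of _ _ (𝔐.wt_eq G G' hj.1) (𝔐.ra_eq hj.1 hu) (𝔐.cc_eq hj.1 hw.1) hw.2)
      hu hw.1 hj.1

/-- `P' E = ` average over the join classes `(ρ, isC)` -/
theorem P'_E : avg 𝔐.pb' ∘ₗ avg 𝔐.cb = avg (fun G => (𝔐.ρ G, (𝔐.m G).isC)) := by
  refine avg_comp_avg_of_rect 𝔐.pb' 𝔐.cb _ 𝔐.z (fun G => (𝔐.x G, (𝔐.m G).isM1)) ?_ ?_ ?_ ?_ ?_
  · intro G G'
    simp only [cb, Prod.mk.injEq]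
    constructor
    · rintro ⟨h1, h2⟩
      exact ⟨⟨h1, Blk.isC_eq_of_cc _ _ (𝔐.wt_eq G G' h1) (𝔐.cc_eq h1 h2)⟩, h2⟩
    · rintro ⟨⟨h1, -⟩, h2⟩
      exact ⟨h1, h2⟩
  · intro G G' hj hw
    simp only [Prod.mk.injEq] at hj hw
    simp only [pb', Prod.mk.injEq]
    exact ⟨hj.1, hw.1, Blk.isM_eq_of_ra _ _ (𝔐.wt_eq G G' hj.1) (𝔐.ra_eq hj.1 hw.1) hj.2 hw.2⟩
  · intro G G' h
    simp only [pb', Prod.mk.injEq] at h
    simp only [Prod.mk.injEq]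
    exact ⟨h.1, Blk.isC_eq_of_ra _ _ (𝔐.wt_eq G G' h.1) (𝔐.ra_eq h.1 h.2.1) h.2.2⟩
  · intro G G' hj
    simp only [Prod.mk.injEq] at hj
    obtain ⟨m', e1, e2, e3, e4, e5⟩ := Blk.mix_C (𝔐.m G) (𝔐.m G') (𝔐.wt_eq G G' hj.1) hj.2
    obtain ⟨G'', f1, f2, f3, f4⟩ := 𝔐.full G' G m' hj.1.symm (e1.trans (𝔐.wt_eq G G' hj.1)) e3 e2
    refine ⟨G'', ?_, f4, ?_⟩
    · simp only [Prod.mk.injEq]; exact ⟨f1.trans hj.1.symm, by rw [f2, e4]⟩
    · simp only [Prod.mk.injEq]; exact ⟨f3, by rw [f2, e5]⟩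
  · intro G G' hj hu hw
    simp only [Prod.mk.injEq] at hj hw
    exact 𝔐.inj G G' (Blk.eq_of _ _ (𝔐.wt_eq G G' hj.1) (𝔐.ra_eq hj.1 hw.1) (𝔐.cc_eq hj.1 hu) hw.2)
      hw.1 hu hj.1

/-- `P P' = ` average over the join classes `(ρ, kind)` -/
theorem P_P' : avg 𝔐.pb ∘ₗ avg 𝔐.pb' =
    avg (fun G => (𝔐.ρ G, (𝔐.m G).isM, (𝔐.m G).isR, (𝔐.m G).isC)) := by
  refine avg_comp_avg_of_rect 𝔐.pb 𝔐.pb' _ 𝔐.x (fun G => (𝔐.z G, (𝔐.m G).isM1)) ?_ ?_ ?_ ?_ ?_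
  · intro G G'
    simp only [pb', Prod.mk.injEq]
    constructor
    · rintro ⟨h1, h2, h3⟩
      exact ⟨⟨h1, h3, Blk.isR_eq_of_ra _ _ (𝔐.wt_eq G G' h1) (𝔐.ra_eq h1 h2),
        Blk.isC_eq_of_ra _ _ (𝔐.wt_eq G G' h1) (𝔐.ra_eq h1 h2) h3⟩, h2⟩
    · rintro ⟨⟨h1, h3, -, -⟩, h2⟩
      exact ⟨h1, h2, h3⟩
  · intro G G' hj hw
    simp only [Prod.mk.injEq] at hj hw
    simp only [pb, Prod.mk.injEq]
    exact ⟨hj.1, hw.1, hj.2.1⟩
  · intro G G' h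
    simp only [pb, Prod.mk.injEq] at h
    simp only [Prod.mk.injEq]
    exact ⟨h.1, h.2.2, Blk.isR_eq_of_cc _ _ (𝔐.wt_eq G G' h.1) (𝔐.cc_eq h.1 h.2.1) h.2.2,
      Blk.isC_eq_of_cc _ _ (𝔐.wt_eq G G' h.1) (𝔐.cc_eq h.1 h.2.1)⟩
  · intro G G' hj
    simp only [Prod.mk.injEq] at hj
    obtain ⟨m', e1, e2, e3, e4, e5, e6, e7⟩ :=
      Blk.mix_K (𝔐.m G) (𝔐.m G') (𝔐.wt_eq G G' hj.1) hj.2.1 hj.2.2.1 hj.2.2.2
    obtain ⟨G'', f1, f2, f3, f4⟩ := 𝔐.full G G' m' hj.1 e1 e2 e3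
    refine ⟨G'', ?_, f3, ?_⟩
    · simp only [Prod.mk.injEq]; exact ⟨f1, by rw [f2, e4], by rw [f2, e5], by rw [f2, e6]⟩
    · simp only [Prod.mk.injEq]; exact ⟨f4, by rw [f2, e7]⟩
  · intro G G' hj hu hw
    simp only [Prod.mk.injEq] at hj hw
    exact 𝔐.inj G G' (Blk.eq_of _ _ (𝔐.wt_eq G G' hj.1) (𝔐.ra_eq hj.1 hu) (𝔐.cc_eq hj.1 hw.1) hw.2)
      hu hw.1 hj.1

end Model

/-! ### involutions -/

section invol

variable {Ω : Type*} [Fintype Ω]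

lemma ip_comp_invol (σ : Ω → Ω) (hσ : ∀ G, σ (σ G) = G) (f g : Ω → ℝ) :
    ip (fun G => f (σ G)) (fun G => g (σ G)) = ip f g := by
  unfold ip
  exact sum_nbij' σ σ (fun _ _ => mem_univ _) (fun _ _ => mem_univ _) (fun G _ => hσ G)
    (fun G _ => hσ G) (fun G _ => rfl)

lemma avg_comp_invol {κ : Type*} (c : Ω → κ) (σ : Ω → Ω) (hσ : ∀ G, σ (σ G) = G)
    (hc : ∀ G, c (σ G) = c G) (f : Ω → ℝ) : avg c (fun G => f (σ G)) = avg c f := by
  funext G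
  rw [avg_apply, avg_apply]
  congr 1
  exact sum_nbij' σ σ (fun G' h => by rw [mem_cls] at h ⊢; rw [hc, h])
    (fun G' h => by rw [mem_cls] at h ⊢; rw [hc, h]) (fun G' _ => hσ G') (fun G' _ => hσ G')
    (fun G' _ => rfl)

/-- **First term of Lemma S.**  Two commuting class averages whose classes are preserved by the
involution `σ`: `(I - E₁)(I - E₂) ≥ (I - σ)/2`. -/
theorem term1 {κ₁ κ₂ : Type*} (c₁ : Ω → κ₁) (c₂ : Ω → κ₂) (σ : Ω → Ω) (hσ : ∀ G, σ (σ G) = G)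
    (h1 : ∀ G, c₁ (σ G) = c₁ G) (h2 : ∀ G, c₂ (σ G) = c₂ G)
    (hcomm : ∀ f, avg c₁ (avg c₂ f) = avg c₂ (avg c₁ f)) (f : Ω → ℝ) :
    (1 / 4) * ∑ G, (f G - f (σ G)) ^ 2 ≤ ip (f - avg c₁ f) (f - avg c₂ f) := by
  set s : Ω → ℝ := fun G => f (σ G) with hs
  set a : Ω → ℝ := f - avg c₁ f with ha
  set b : Ω → ℝ := f - avg c₂ f with hb
  set aσ : Ω → ℝ := fun G => a (σ G) with haσ
  set bσ : Ω → ℝ := fun G => b (σ G) with hbσ
  have e1 : aσ = s - avg c₁ s := by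
    funext G
    simp only [haσ, ha, hs, Pi.sub_apply, avg_comp_invol c₁ σ hσ h1 f]
    rw [meas_avg c₁ f _ _ (h1 G)]
  have e2 : bσ = s - avg c₂ s := by
    funext G
    simp only [hbσ, hb, hs, Pi.sub_apply, avg_comp_invol c₂ σ hσ h2 f]
    rw [meas_avg c₂ f _ _ (h2 G)]
  have i1 : 0 ≤ ip (a + aσ) (b + bσ) := by
    have := ip_nonneg_of_comm (isProj_avg c₁).one_sub (isProj_avg c₂).one_sub
      (fun g => by
        simp only [LinearMap.sub_apply, LinearMap.id_apply, map_sub, hcomm]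
        abel) (f + s)
    have ea : ((LinearMap.id : (Ω → ℝ) →ₗ[ℝ] (Ω → ℝ)) - avg c₁) (f + s) = a + aσ := by
      rw [e1, ha]
      simp only [LinearMap.sub_apply, LinearMap.id_apply, map_add]
      try abel
    have eb : ((LinearMap.id : (Ω → ℝ) →ₗ[ℝ] (Ω → ℝ)) - avg c₂) (f + s) = b + bσ := by
      rw [e2, hb]
      simp only [LinearMap.sub_apply, LinearMap.id_apply, map_add]
      try abel
    rwa [ea, eb] at this
  have z1 : avg c₁ f = avg c₁ s := (avg_comp_invol c₁ σ hσ h1 f).symm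
  have z2 : avg c₂ f = avg c₂ s := (avg_comp_invol c₂ σ hσ h2 f).symm
  have d1 : a - aσ = f - s := by rw [e1, ha, z1]; abel
  have d2 : b - bσ = f - s := by rw [e2, hb, z2]; abel
  have i2 : ip (a - aσ) (b - bσ) = ∑ G, (f G - f (σ G)) ^ 2 := by
    rw [d1, d2]
    unfold ip
    refine sum_congr rfl fun G _ => ?_
    simp only [Pi.sub_apply, hs]
    ring
  have r1 : ip aσ bσ = ip a b := ip_comp_invol σ hσ a b
  have r2 : ip aσ b = ip a bσ := by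
    have := ip_comp_invol σ hσ aσ b
    have e : (fun G => aσ (σ G)) = a := by
      funext G; simp only [haσ, hσ]
    rw [e] at this
    exact this.symm
  rw [ip_add_left, ip_add_right a b bσ, ip_add_right aσ b bσ] at i1
  rw [ip_sub_left, ip_sub_right a b bσ, ip_sub_right aσ b bσ] at i2
  linarith

end invol

namespace Model

variable {Ω ι R : Type*} [Fintype Ω] (𝔐 : Model Ω ι R)

/-- `σ` is the switch of the couple: it exchanges the two matchings and fixes everything else -/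
structure IsSwitch (σ : Ω → Ω) : Prop where
  m1 : ∀ G, 𝔐.m G = Blk.M1 →
    𝔐.m (σ G) = Blk.M2 ∧ 𝔐.x (σ G) = 𝔐.x G ∧ 𝔐.z (σ G) = 𝔐.z G ∧ 𝔐.ρ (σ G) = 𝔐.ρ G
  m2 : ∀ G, 𝔐.m G = Blk.M2 →
    𝔐.m (σ G) = Blk.M1 ∧ 𝔐.x (σ G) = 𝔐.x G ∧ 𝔐.z (σ G) = 𝔐.z G ∧ 𝔐.ρ (σ G) = 𝔐.ρ G
  fix : ∀ G, (𝔐.m G).isM = false → σ G = G

variable {𝔐} {σ : Ω → Ω}

lemma IsSwitch.spec (hσ : 𝔐.IsSwitch σ) (G : Ω) :
    (𝔐.m (σ G)).isM = (𝔐.m G).isM ∧ 𝔐.x (σ G) = 𝔐.x G ∧ 𝔐.z (σ G) = 𝔐.z G ∧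
      𝔐.ρ (σ G) = 𝔐.ρ G := by
  by_cases h : (𝔐.m G).isM = true
  · rcases (Blk.isM_iff _).mp h with h1 | h2
    · obtain ⟨a, b, c, d⟩ := hσ.m1 G h1
      exact ⟨by rw [a, h1]; rfl, b, c, d⟩
    · obtain ⟨a, b, c, d⟩ := hσ.m2 G h2
      exact ⟨by rw [a, h2]; rfl, b, c, d⟩
  · have h' : (𝔐.m G).isM = false := by simpa using h
    rw [hσ.fix G h']
    exact ⟨rfl, rfl, rfl, rfl⟩

lemma IsSwitch.invol (hσ : 𝔐.IsSwitch σ) (G : Ω) : σ (σ G) = G := by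
  by_cases h : (𝔐.m G).isM = true
  · rcases (Blk.isM_iff _).mp h with h1 | h2
    · obtain ⟨a, b, c, d⟩ := hσ.m1 G h1
      obtain ⟨a', b', c', d'⟩ := hσ.m2 (σ G) a
      exact 𝔐.inj _ _ (a'.trans h1.symm) (b'.trans b) (c'.trans c) (d'.trans d)
    · obtain ⟨a, b, c, d⟩ := hσ.m2 G h2
      obtain ⟨a', b', c', d'⟩ := hσ.m1 (σ G) a
      exact 𝔐.inj _ _ (a'.trans h2.symm) (b'.trans b) (c'.trans c) (d'.trans d)
  · have h' : (𝔐.m G).isM = false := by simpa using h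
    rw [hσ.fix G h', hσ.fix G h']

lemma IsSwitch.pb (hσ : 𝔐.IsSwitch σ) (G : Ω) : 𝔐.pb (σ G) = 𝔐.pb G := by
  obtain ⟨a, b, c, d⟩ := hσ.spec G
  simp only [Model.pb, a, c, d]

lemma IsSwitch.cb' (hσ : 𝔐.IsSwitch σ) (G : Ω) : 𝔐.cb' (σ G) = 𝔐.cb' G := by
  obtain ⟨a, b, c, d⟩ := hσ.spec G
  simp only [Model.cb', b, d]

variable (𝔐)

lemma pb_cb {G G' : Ω} (h : 𝔐.pb G = 𝔐.pb G') : 𝔐.cb G = 𝔐.cb G' := by
  simp only [pb, cb, Prod.mk.injEq] at h ⊢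
  exact ⟨h.1, h.2.1⟩

lemma pb'_cb' {G G' : Ω} (h : 𝔐.pb' G = 𝔐.pb' G') : 𝔐.cb' G = 𝔐.cb' G' := by
  simp only [pb', cb', Prod.mk.injEq] at h ⊢
  exact ⟨h.1, h.2.1⟩

/-- second term of Lemma S -/
theorem term2 (f : Ω → ℝ) : 0 ≤ ip (avg 𝔐.pb f - avg 𝔐.cb f) (f - avg 𝔐.pb' f) := by
  have hS : IsProj (avg 𝔐.pb - avg 𝔐.cb) :=
    (isProj_avg 𝔐.pb).sub (isProj_avg 𝔐.cb)
      (fun g => avg_avg_of_coarser (fun G G' h => 𝔐.pb_cb h) g)
      (fun g => avg_coarser_avg (fun G G' h => 𝔐.pb_cb h) g)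
  have hT : IsProj (LinearMap.id - avg 𝔐.pb') := (isProj_avg 𝔐.pb').one_sub
  have c1 : ∀ g, avg 𝔐.pb (avg 𝔐.pb' g) = avg 𝔐.pb' (avg 𝔐.pb g) := by
    intro g
    have a := 𝔐.P_P'
    have b := avg_comp_comm a
    rw [← LinearMap.comp_apply, a, ← LinearMap.comp_apply, b]
  have c2 : ∀ g, avg 𝔐.cb (avg 𝔐.pb' g) = avg 𝔐.pb' (avg 𝔐.cb g) := by
    intro g
    have a := 𝔐.P'_E
    have b := avg_comp_comm a
    rw [← LinearMap.comp_apply, b, ← LinearMap.comp_apply, a]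
  have key := ip_nonneg_of_comm hS hT (fun g => by
    simp only [LinearMap.sub_apply, LinearMap.id_apply, map_sub, c1, c2]
    abel) f
  have e : (avg 𝔐.pb - avg 𝔐.cb) f = avg 𝔐.pb f - avg 𝔐.cb f := rfl
  have e' : ((LinearMap.id : (Ω → ℝ) →ₗ[ℝ] (Ω → ℝ)) - avg 𝔐.pb') f = f - avg 𝔐.pb' f := rfl
  rwa [e, e'] at key

/-- support of the third term: off `M_s` one of the two factors vanishes -/
lemma term3_support (f : Ω → ℝ) (G : Ω) (hG : (𝔐.m G).isM = false) :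
    (avg 𝔐.pb f G - avg 𝔐.cb f G) * (avg 𝔐.pb' f G - avg 𝔐.cb' f G) = 0 := by
  by_cases h1 : ∀ G', 𝔐.cb G' = 𝔐.cb G → (𝔐.m G').isM = false
  · -- the b-class of G does not meet M_s
    have : avg 𝔐.pb f G = avg 𝔐.cb f G := by
      refine avg_apply_of_mem 𝔐.pb f G (cls 𝔐.cb G) (fun G' => ?_)
      rw [mem_cls]
      constructor
      · intro h
        have h' := h1 G' h
        simp only [cb, Prod.mk.injEq] at h
        simp only [pb, Prod.mk.injEq]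
        exact ⟨h.1, h.2, by rw [h', hG]⟩
      · exact fun h => 𝔐.pb_cb h
    rw [this, sub_self, zero_mul]
  · by_cases h2 : ∀ G', 𝔐.cb' G' = 𝔐.cb' G → (𝔐.m G').isM = false
    · have : avg 𝔐.pb' f G = avg 𝔐.cb' f G := by
        refine avg_apply_of_mem 𝔐.pb' f G (cls 𝔐.cb' G) (fun G' => ?_)
        rw [mem_cls]
        constructor
        · intro h
          have h' := h2 G' h
          simp only [cb', Prod.mk.injEq] at h
          simp only [pb', Prod.mk.injEq]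
          exact ⟨h.1, h.2, by rw [h', hG]⟩
        · exact fun h => 𝔐.pb'_cb' h
      rw [this, sub_self, mul_zero]
    · exfalso
      simp only [not_forall] at h1 h2
      obtain ⟨G₁, e1, m1⟩ := h1
      obtain ⟨G₂, e2, m2⟩ := h2
      simp only [cb, Prod.mk.injEq] at e1
      simp only [cb', Prod.mk.injEq] at e2
      have m1' : (𝔐.m G₁).isM = true := by simpa using m1
      have m2' : (𝔐.m G₂).isM = true := by simpa using m2
      have := Blk.isM_of_ra_cc (𝔐.m G) (𝔐.m G₁) (𝔐.m G₂) (𝔐.wt_eq _ _ e1.1.symm)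
        (𝔐.wt_eq _ _ e2.1.symm) (𝔐.cc_eq e1.1.symm e1.2.symm) (𝔐.ra_eq e2.1.symm e2.2.symm) m1' m2'
      rw [hG] at this
      exact Bool.false_ne_true this

/-- **Lemma S** on the coordinate model. -/
theorem couple_ineq (hσ : 𝔐.IsSwitch σ) (f : Ω → ℝ) :
    (1 / 2) * ∑ G, (f G - f (σ G)) ^ 2
        - ∑ G ∈ univ.filter (fun G => (𝔐.m G).isM = true), (avg 𝔐.pb f G - avg 𝔐.cb f G) ^ 2
        - ∑ G ∈ univ.filter (fun G => (𝔐.m G).isM = true), (avg 𝔐.pb' f G - avg 𝔐.cb' f G) ^ 2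
      ≤ 2 * ∑ G, (f G - avg 𝔐.cb f G) * (f G - avg 𝔐.cb' f G) := by
  -- term 1
  have c1 : ∀ g, avg 𝔐.pb (avg 𝔐.cb' g) = avg 𝔐.cb' (avg 𝔐.pb g) := by
    intro g
    have a := 𝔐.P_E'
    have b := avg_comp_comm a
    rw [← LinearMap.comp_apply, a, ← LinearMap.comp_apply, b]
  have t1 := term1 𝔐.pb 𝔐.cb' σ hσ.invol hσ.pb hσ.cb' c1 f
  have t2 := 𝔐.term2 f
  -- term 3
  have t3 : -(1 / 2) * (∑ G ∈ univ.filter (fun G => (𝔐.m G).isM = true),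
        (avg 𝔐.pb f G - avg 𝔐.cb f G) ^ 2
      + ∑ G ∈ univ.filter (fun G => (𝔐.m G).isM = true), (avg 𝔐.pb' f G - avg 𝔐.cb' f G) ^ 2)
      ≤ ip (avg 𝔐.pb f - avg 𝔐.cb f) (avg 𝔐.pb' f - avg 𝔐.cb' f) := by
    unfold ip
    rw [← sum_add_distrib, mul_sum, sum_filter]
    refine sum_le_sum fun G _ => ?_
    simp only [Pi.sub_apply]
    by_cases hG : (𝔐.m G).isM = true
    · rw [if_pos hG]
      nlinarith [sq_nonneg ((avg 𝔐.pb f G - avg 𝔐.cb f G) + (avg 𝔐.pb' f G - avg 𝔐.cb' f G))]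
    · rw [if_neg hG]
      have hG' : (𝔐.m G).isM = false := by simpa using hG
      rw [𝔐.term3_support f G hG']
  have split : ∑ G, (f G - avg 𝔐.cb f G) * (f G - avg 𝔐.cb' f G)
      = ip (f - avg 𝔐.pb f) (f - avg 𝔐.cb' f) + ip (avg 𝔐.pb f - avg 𝔐.cb f) (f - avg 𝔐.pb' f)
        + ip (avg 𝔐.pb f - avg 𝔐.cb f) (avg 𝔐.pb' f - avg 𝔐.cb' f) := by
    unfold ip
    rw [← sum_add_distrib, ← sum_add_distrib]
    refine sum_congr rfl fun G _ => ?_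
    simp only [Pi.sub_apply]
    ring
  rw [split]
  linarith

end Model

/-! ### The finset form (bridge to `avgOn`) -/

section bridge

variable {α : Type*}

/-- the class average on a finset for a relation; this is, by `rfl`, the canonical `avgOn` of
`Caputo20.lean` / `Avg.lean` -/
@[reducible] noncomputable def avgF (Ω : Finset α) (r : α → α → Prop) [DecidableRel r]
    (f : α → ℝ) (x : α) : ℝ :=
  (∑ y ∈ Ω.filter (r x), f y) / ((Ω.filter (r x)).card : ℝ)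

lemma avg_subtype_eq {κ : Type*} (Ω : Finset α) (c : Ω → κ) (r : α → α → Prop) [DecidableRel r]
    (f : α → ℝ) (G : Ω) (h : ∀ G' : Ω, c G' = c G ↔ r G.1 G'.1) :
    avg c (fun G' => f G'.1) G = avgF Ω r f G.1 := by
  classical
  rw [avg_apply_of_mem c _ G (univ.filter fun G' : Ω => r G.1 G'.1)
    (fun G' => by rw [mem_filter, h]; simp)]
  unfold avgF
  congr 1
  · rw [sum_filter, sum_filter]
    exact Finset.sum_coe_sort Ω (fun y => if r G.1 y then f y else 0)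
  · rw [card_eq_sum_ones, card_eq_sum_ones, sum_filter, sum_filter]
    push_cast
    exact Finset.sum_coe_sort Ω (fun y => if r G.1 y then (1 : ℝ) else 0)

/-- **Lemma S, finset form.**  `Ω` a finset of states with coordinates `(m, x, z, ρ)` satisfying
the model axioms on `Ω`; `rb`, `rb'` the class relations of the two pairs, `rP`, `rP'` their
refinements by the `M_s`-status, `σ` the switch.  All averages are `avgOn Ω _` (`avgF` unfolds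
to the same expression). -/
theorem couple_ineq_on {ι R : Type*} (Ω : Finset α)
    (m : α → Blk) (x z : α → Finset ι) (ρ : α → R)
    (hinj : ∀ G ∈ Ω, ∀ G' ∈ Ω, m G = m G' → x G = x G' → z G = z G' → ρ G = ρ G' → G = G')
    (hwt : ∀ G ∈ Ω, ∀ G' ∈ Ω, ρ G = ρ G' → (m G).wt = (m G').wt)
    (hxc : ∀ G ∈ Ω, ∀ G' ∈ Ω, ρ G = ρ G' → (x G).card + (m G).ra = (x G').card + (m G').ra)
    (hzc : ∀ G ∈ Ω, ∀ G' ∈ Ω, ρ G = ρ G' → (z G).card + (m G).cc = (z G').card + (m G').cc)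
    (hfull : ∀ G ∈ Ω, ∀ G' ∈ Ω, ∀ m' : Blk, ρ G = ρ G' → m'.wt = (m G).wt → m'.ra = (m G).ra →
      m'.cc = (m G').cc → ∃ G'' ∈ Ω, ρ G'' = ρ G ∧ m G'' = m' ∧ x G'' = x G ∧ z G'' = z G')
    (rb rb' rP rP' : α → α → Prop) [DecidableRel rb] [DecidableRel rb'] [DecidableRel rP]
    [DecidableRel rP']
    (hrb : ∀ G ∈ Ω, ∀ G' ∈ Ω, rb G G' ↔ (ρ G = ρ G' ∧ z G = z G'))
    (hrb' : ∀ G ∈ Ω, ∀ G' ∈ Ω, rb' G G' ↔ (ρ G = ρ G' ∧ x G = x G'))
    (hrP : ∀ G ∈ Ω, ∀ G' ∈ Ω, rP G G' ↔ (ρ G = ρ G' ∧ z G = z G' ∧ (m G).isM = (m G').isM))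
    (hrP' : ∀ G ∈ Ω, ∀ G' ∈ Ω, rP' G G' ↔ (ρ G = ρ G' ∧ x G = x G' ∧ (m G).isM = (m G').isM))
    (M M' : α → Prop) [DecidablePred M] [DecidablePred M']
    (hM : ∀ G ∈ Ω, M G ↔ (m G).isM = true) (hM' : ∀ G ∈ Ω, M' G ↔ (m G).isM = true)
    (σ : α → α) (hσΩ : ∀ G ∈ Ω, σ G ∈ Ω)
    (hσ1 : ∀ G ∈ Ω, m G = Blk.M1 → m (σ G) = Blk.M2 ∧ x (σ G) = x G ∧ z (σ G) = z G ∧ ρ (σ G) = ρ G)
    (hσ2 : ∀ G ∈ Ω, m G = Blk.M2 → m (σ G) = Blk.M1 ∧ x (σ G) = x G ∧ z (σ G) = z G ∧ ρ (σ G) = ρ G)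
    (hσ0 : ∀ G ∈ Ω, (m G).isM = false → σ G = G)
    (f : α → ℝ) :
    (1 / 2) * ∑ G ∈ Ω, (f G - f (σ G)) ^ 2
        - ∑ G ∈ Ω.filter M, (avgF Ω rP f G - avgF Ω rb f G) ^ 2
        - ∑ G ∈ Ω.filter M', (avgF Ω rP' f G - avgF Ω rb' f G) ^ 2
      ≤ 2 * ∑ G ∈ Ω, (f G - avgF Ω rb f G) * (f G - avgF Ω rb' f G) := by
  classical
  let 𝔐 : Model Ω ι R :=
    { m := fun G => m G.1
      x := fun G => x G.1
      z := fun G => z G.1
      ρ := fun G => ρ G.1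
      inj := fun G G' h1 h2 h3 h4 => Subtype.ext (hinj G.1 G.2 G'.1 G'.2 h1 h2 h3 h4)
      wt_eq := fun G G' h => hwt G.1 G.2 G'.1 G'.2 h
      x_card := fun G G' h => hxc G.1 G.2 G'.1 G'.2 h
      z_card := fun G G' h => hzc G.1 G.2 G'.1 G'.2 h
      full := fun G G' m' h1 h2 h3 h4 => by
        obtain ⟨G'', hG'', e⟩ := hfull G.1 G.2 G'.1 G'.2 m' h1 h2 h3 h4
        exact ⟨⟨G'', hG''⟩, e⟩ }
  let σ' : Ω → Ω := fun G => ⟨σ G.1, hσΩ G.1 G.2⟩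
  have hsw : 𝔐.IsSwitch σ' :=
    { m1 := fun G h => hσ1 G.1 G.2 h
      m2 := fun G h => hσ2 G.1 G.2 h
      fix := fun G h => Subtype.ext (hσ0 G.1 G.2 h) }
  have key := 𝔐.couple_ineq hsw (fun G => f G.1)
  -- the four averages
  have eb : ∀ G : Ω, avg 𝔐.cb (fun G' => f G'.1) G = avgF Ω rb f G.1 := fun G =>
    avg_subtype_eq Ω 𝔐.cb rb f G (fun G' => by
      rw [hrb G.1 G.2 G'.1 G'.2]
      simp only [Model.cb, Prod.mk.injEq, 𝔐]
      constructor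
      · rintro ⟨a, b⟩; exact ⟨a.symm, b.symm⟩
      · rintro ⟨a, b⟩; exact ⟨a.symm, b.symm⟩)
  have eb' : ∀ G : Ω, avg 𝔐.cb' (fun G' => f G'.1) G = avgF Ω rb' f G.1 := fun G =>
    avg_subtype_eq Ω 𝔐.cb' rb' f G (fun G' => by
      rw [hrb' G.1 G.2 G'.1 G'.2]
      simp only [Model.cb', Prod.mk.injEq, 𝔐]
      constructor
      · rintro ⟨a, b⟩; exact ⟨a.symm, b.symm⟩
      · rintro ⟨a, b⟩; exact ⟨a.symm, b.symm⟩)
  have eP : ∀ G : Ω, avg 𝔐.pb (fun G' => f G'.1) G = avgF Ω rP f G.1 := fun G =>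
    avg_subtype_eq Ω 𝔐.pb rP f G (fun G' => by
      rw [hrP G.1 G.2 G'.1 G'.2]
      simp only [Model.pb, Prod.mk.injEq, 𝔐]
      constructor
      · rintro ⟨a, b, c⟩; exact ⟨a.symm, b.symm, c.symm⟩
      · rintro ⟨a, b, c⟩; exact ⟨a.symm, b.symm, c.symm⟩)
  have eP' : ∀ G : Ω, avg 𝔐.pb' (fun G' => f G'.1) G = avgF Ω rP' f G.1 := fun G =>
    avg_subtype_eq Ω 𝔐.pb' rP' f G (fun G' => by
      rw [hrP' G.1 G.2 G'.1 G'.2]
      simp only [Model.pb', Prod.mk.injEq, 𝔐]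
      constructor
      · rintro ⟨a, b, c⟩; exact ⟨a.symm, b.symm, c.symm⟩
      · rintro ⟨a, b, c⟩; exact ⟨a.symm, b.symm, c.symm⟩)
  -- rewrite the four sums
  have s1 : ∑ G : Ω, ((fun G : Ω => f G.1) G - (fun G : Ω => f G.1) (σ' G)) ^ 2
      = ∑ G ∈ Ω, (f G - f (σ G)) ^ 2 :=
    Finset.sum_coe_sort Ω (fun y => (f y - f (σ y)) ^ 2)
  have s2 : ∑ G ∈ univ.filter (fun G : Ω => (𝔐.m G).isM = true),
        (avg 𝔐.pb (fun G' => f G'.1) G - avg 𝔐.cb (fun G' => f G'.1) G) ^ 2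
      = ∑ G ∈ Ω.filter M, (avgF Ω rP f G - avgF Ω rb f G) ^ 2 := by
    rw [sum_filter, sum_filter]
    rw [← Finset.sum_coe_sort Ω (fun y => if M y then (avgF Ω rP f y - avgF Ω rb f y) ^ 2 else 0)]
    refine sum_congr rfl fun G _ => ?_
    rw [eP, eb]
    have : ((𝔐.m G).isM = true) ↔ M G.1 := (hM G.1 G.2).symm
    by_cases hG : M G.1
    · rw [if_pos hG, if_pos (this.mpr hG)]
    · rw [if_neg hG, if_neg (fun h => hG (this.mp h))]
  have s3 : ∑ G ∈ univ.filter (fun G : Ω => (𝔐.m G).isM = true),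
        (avg 𝔐.pb' (fun G' => f G'.1) G - avg 𝔐.cb' (fun G' => f G'.1) G) ^ 2
      = ∑ G ∈ Ω.filter M', (avgF Ω rP' f G - avgF Ω rb' f G) ^ 2 := by
    rw [sum_filter, sum_filter]
    rw [← Finset.sum_coe_sort Ω
      (fun y => if M' y then (avgF Ω rP' f y - avgF Ω rb' f y) ^ 2 else 0)]
    refine sum_congr rfl fun G _ => ?_
    rw [eP', eb']
    have : ((𝔐.m G).isM = true) ↔ M' G.1 := (hM' G.1 G.2).symm
    by_cases hG : M' G.1
    · rw [if_pos hG, if_pos (this.mpr hG)]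
    · rw [if_neg hG, if_neg (fun h => hG (this.mp h))]
  have s4 : ∑ G : Ω, ((fun G : Ω => f G.1) G - avg 𝔐.cb (fun G' => f G'.1) G) *
        ((fun G : Ω => f G.1) G - avg 𝔐.cb' (fun G' => f G'.1) G)
      = ∑ G ∈ Ω, (f G - avgF Ω rb f G) * (f G - avgF Ω rb' f G) := by
    rw [← Finset.sum_coe_sort Ω (fun y => (f y - avgF Ω rb f y) * (f y - avgF Ω rb' f y))]
    refine sum_congr rfl fun G _ => ?_
    rw [eb, eb']
  rw [s1, s2, s3, s4] at key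
  exact key

end bridge

end Crest.Agent.S0453C
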