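import Mathlib

/-!
Row 299 / S0453 — abstract operator form of "Lemma S" (one couple) (helper77).

Setting: a finite state space `ι` with the counting inner product, four symmetric idempotent
operators `E, E', P, P'` on `ι → ℝ` (class averages: `E = E_b`, `E' = E_b'`, `P = P_b`,
`P' = P_b'` in the notation of board post 956), an involution `σ` of `ι` (the switch of the couple,
identity where the switch is not available) and a set `M` of states (where it is available).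

Hypotheses:
* `P` refines `E` (`E (P f) = E f`) and `P'` refines `E'`;
* the three commutations `P E' = E' P`, `P P' = P' P`, `E P' = P' E`   (Lemma C);
* `σ`-odd functions are killed by `P` and by `E'`;
* `(P f - E f) * (P' f - E' f)` vanishes off `M`.

Conclusion (`lemma_S`):
`2 ⟨f - E f, f - E' f⟩ ≥ (1/2) ∑ i, (f i - f (σ i))² - ∑_{i ∈ M} (P f i - E f i)²
   - ∑_{i ∈ M} (P' f i - E' f i)²`.

Only Mathlib is imported.
-/

set_option autoImplicit false
open Finset

namespace Crest.Agent.S0453.CoupleOp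

variable {ι : Type*} [Fintype ι]

/-- the counting inner product on `ι → ℝ` -/
def ip (f g : ι → ℝ) : ℝ := ∑ i, f i * g i

lemma ip_comm (f g : ι → ℝ) : ip f g = ip g f := by
  unfold ip; exact sum_congr rfl fun i _ => mul_comm _ _

lemma ip_add_left (f g h : ι → ℝ) : ip (f + g) h = ip f h + ip g h := by
  unfold ip; rw [← sum_add_distrib]; exact sum_congr rfl fun i _ => by simp [add_mul]

lemma ip_sub_left (f g h : ι → ℝ) : ip (f - g) h = ip f h - ip g h := by
  unfold ip; rw [← sum_sub_distrib]; exact sum_congr rfl fun i _ => by simp [sub_mul]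

lemma ip_add_right (f g h : ι → ℝ) : ip f (g + h) = ip f g + ip f h := by
  rw [ip_comm, ip_add_left, ip_comm g, ip_comm h]

lemma ip_sub_right (f g h : ι → ℝ) : ip f (g - h) = ip f g - ip f h := by
  rw [ip_comm, ip_sub_left, ip_comm g, ip_comm h]

lemma ip_self_nonneg (f : ι → ℝ) : 0 ≤ ip f f :=
  sum_nonneg fun i _ => mul_self_nonneg (f i)

/-- Cauchy–Schwarz in the form `⟨f,g⟩² ≤ ⟨f,f⟩⟨g,g⟩` -/
lemma ip_sq_le (f g : ι → ℝ) : ip f g ^ 2 ≤ ip f f * ip g g := by
  unfold ip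
  have := Finset.sum_mul_sq_le_sq_mul_sq (univ : Finset ι) f g
  simpa [sq] using this

/-- a symmetric idempotent has a nonnegative quadratic form `⟨f, T f⟩ = ⟨T f, T f⟩` -/
lemma ip_proj {T : (ι → ℝ) →ₗ[ℝ] (ι → ℝ)} (hsym : ∀ f g, ip (T f) g = ip f (T g))
    (hidem : ∀ f, T (T f) = T f) (f : ι → ℝ) : ip f (T f) = ip (T f) (T f) := by
  rw [hsym, hidem]

lemma ip_zero_left (g : ι → ℝ) : ip (0 : ι → ℝ) g = 0 := by
  unfold ip; simp

lemma ip_zero_right (g : ι → ℝ) : ip g (0 : ι → ℝ) = 0 := by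
  unfold ip; simp

/-- piece 1: for commuting symmetric idempotents `P`, `E'` and a vector `o` killed by both with
`⟨o, f⟩ = ⟨o, o⟩`:  `⟨o, o⟩ ≤ ⟨f - P f, f - E' f⟩`. -/
lemma piece1 {E' P : (ι → ℝ) →ₗ[ℝ] (ι → ℝ)}
    (hE' : ∀ f g, ip (E' f) g = ip f (E' g)) (hP : ∀ f g, ip (P f) g = ip f (P g))
    (hE'i : ∀ f, E' (E' f) = E' f) (hPi : ∀ f, P (P f) = P f)
    (hc1 : ∀ f, P (E' f) = E' (P f))
    (f o : ι → ℝ) (hPo : P o = 0) (hE'o : E' o = 0) (hof : ip o f = ip o o) :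
    ip o o ≤ ip (f - P f) (f - E' f) := by
  have hPq : P (f - E' f - P (f - E' f)) = 0 := by
    rw [map_sub P (f - E' f), hPi, sub_self]
  have hE'w : E' (f - E' f) = 0 := by
    rw [map_sub, hE'i, sub_self]
  have hE'q : E' (f - E' f - P (f - E' f)) = 0 := by
    rw [map_sub E' (f - E' f), ← hc1, hE'w, map_zero, sub_zero]
  -- ⟨f - P f, w⟩ = ⟨f, q⟩
  have e1 : ip (f - P f) (f - E' f) = ip f (f - E' f - P (f - E' f)) := by
    rw [ip_sub_left, hP, ← ip_sub_right]
  -- ⟨q, q⟩ = ⟨f, q⟩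
  have e2 : ip (f - E' f - P (f - E' f)) (f - E' f - P (f - E' f))
      = ip f (f - E' f - P (f - E' f)) := by
    have e3 : ip (f - E' f - P (f - E' f)) (f - E' f - P (f - E' f))
        = ip (f - E' f) (f - E' f - P (f - E' f)) := by
      rw [ip_sub_left (f - E' f), hP, hPq, ip_zero_right, sub_zero]
    rw [e3, ip_sub_left f, hE', hE'q, ip_zero_right, sub_zero]
  -- ⟨o, q⟩ = ⟨o, o⟩
  have e4 : ip o (f - E' f - P (f - E' f)) = ip o o := by
    rw [ip_sub_right o, ← hP, hPo, ip_zero_left, sub_zero, ip_sub_right o, ← hE', hE'o,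
      ip_zero_left, sub_zero, hof]
  rw [e1, ← e2]
  have hcs := ip_sq_le o (f - E' f - P (f - E' f))
  rw [e4] at hcs
  have hoo0 := ip_self_nonneg o
  have hqq0 := ip_self_nonneg (f - E' f - P (f - E' f))
  by_cases hz : ip o o = 0
  · rw [hz]; exact hqq0
  · have hpos : 0 < ip o o := lt_of_le_of_ne hoo0 (Ne.symm hz)
    have : ip o o * ip o o ≤ ip o o * ip (f - E' f - P (f - E' f)) (f - E' f - P (f - E' f)) := by
      nlinarith
    exact le_of_mul_le_mul_left this hpos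

/-- piece 2: `P - E` (with `E P = P E = E`) and `I - P'` commuting: `0 ≤ ⟨P f - E f, f - P' f⟩`. -/
lemma piece2 {E P P' : (ι → ℝ) →ₗ[ℝ] (ι → ℝ)}
    (hE : ∀ f g, ip (E f) g = ip f (E g)) (hP : ∀ f g, ip (P f) g = ip f (P g))
    (hP' : ∀ f g, ip (P' f) g = ip f (P' g))
    (hEi : ∀ f, E (E f) = E f) (hPi : ∀ f, P (P f) = P f) (hP'i : ∀ f, P' (P' f) = P' f)
    (hEP : ∀ f, E (P f) = E f) (hPE : ∀ f, P (E f) = E f)
    (hc2 : ∀ f, P (P' f) = P' (P f)) (hc3 : ∀ f, E (P' f) = P' (E f))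
    (f : ι → ℝ) : 0 ≤ ip (P f - E f) (f - P' f) := by
  -- r := (P - E)(f - P' f)
  have hP'u : P' (f - P' f) = 0 := by
    rw [map_sub, hP'i, sub_self]
  have hPr : P (P (f - P' f) - E (f - P' f)) = P (f - P' f) - E (f - P' f) := by
    rw [map_sub P, hPi, hPE]
  have hEr : E (P (f - P' f) - E (f - P' f)) = 0 := by
    rw [map_sub E, hEP, hEi, sub_self]
  have hP'r : P' (P (f - P' f) - E (f - P' f)) = 0 := by
    rw [map_sub P', ← hc2, ← hc3, hP'u, map_zero, map_zero, sub_zero]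
  have e1 : ip (P f - E f) (f - P' f) = ip f (P (f - P' f) - E (f - P' f)) := by
    rw [ip_sub_left, hP, hE, ← ip_sub_right]
  have e2 : ip (P (f - P' f) - E (f - P' f)) (P (f - P' f) - E (f - P' f))
      = ip f (P (f - P' f) - E (f - P' f)) := by
    have e3 : ip (P (f - P' f) - E (f - P' f)) (P (f - P' f) - E (f - P' f))
        = ip (f - P' f) (P (f - P' f) - E (f - P' f)) := by
      rw [ip_sub_left (P (f - P' f)), hP, hE, hPr, hEr, ip_zero_right, sub_zero]
    rw [e3, ip_sub_left f, hP', hP'r, ip_zero_right, sub_zero]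
  rw [e1, ← e2]
  exact ip_self_nonneg _

variable (E E' P P' : (ι → ℝ) →ₗ[ℝ] (ι → ℝ)) (σ : ι → ι) (M : ι → Prop) [DecidablePred M]

/-- **Lemma S, abstract operator form.** -/
theorem lemma_S
    (hE : ∀ f g, ip (E f) g = ip f (E g)) (hE' : ∀ f g, ip (E' f) g = ip f (E' g))
    (hP : ∀ f g, ip (P f) g = ip f (P g)) (hP' : ∀ f g, ip (P' f) g = ip f (P' g))
    (hEi : ∀ f, E (E f) = E f) (hE'i : ∀ f, E' (E' f) = E' f)
    (hPi : ∀ f, P (P f) = P f) (hP'i : ∀ f, P' (P' f) = P' f)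
    (hEP : ∀ f, E (P f) = E f) (hPE : ∀ f, P (E f) = E f)
    (hc1 : ∀ f, P (E' f) = E' (P f)) (hc2 : ∀ f, P (P' f) = P' (P f))
    (hc3 : ∀ f, E (P' f) = P' (E f))
    (hσ : ∀ i, σ (σ i) = i)
    (hoddP : ∀ f : ι → ℝ, (∀ i, f (σ i) = - f i) → P f = 0)
    (hoddE' : ∀ f : ι → ℝ, (∀ i, f (σ i) = - f i) → E' f = 0)
    (hsupp : ∀ (f : ι → ℝ) (i : ι), ¬ M i → (P f i - E f i) * (P' f i - E' f i) = 0)
    (f : ι → ℝ) :
    (1 / 2 : ℝ) * ∑ i, (f i - f (σ i)) ^ 2
        - ∑ i ∈ univ.filter M, (P f i - E f i) ^ 2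
        - ∑ i ∈ univ.filter M, (P' f i - E' f i) ^ 2
      ≤ 2 * ∑ i, (f i - E f i) * (f i - E' f i) := by
  classical
  -- the odd part
  obtain ⟨o, ho⟩ : ∃ o : ι → ℝ, ∀ i, o i = (f i - f (σ i)) / 2 := ⟨_, fun _ => rfl⟩
  have hodd : ∀ i, o (σ i) = - o i := by
    intro i; rw [ho, ho, hσ]; ring
  have hPo := hoddP o hodd
  have hE'o := hoddE' o hodd
  have hsum_sigma : ∀ g : ι → ℝ, ∑ i, g (σ i) = ∑ i, g i := by
    intro g
    exact Fintype.sum_bijective σ (Function.Involutive.bijective hσ) _ _ (fun i => rfl)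
  have hof : ip o f = ip o o := by
    unfold ip
    have h1 : ∑ i, f (σ i) * f (σ i) = ∑ i, f i * f i := hsum_sigma (fun i => f i * f i)
    have h2 : ∑ i, o i * f i
        = (1 / 2) * ∑ i, f i * f i - (1 / 2) * ∑ i, f (σ i) * f i := by
      rw [mul_sum, mul_sum, ← sum_sub_distrib]
      exact sum_congr rfl fun i _ => by rw [ho]; ring
    have h3 : ∑ i, o i * o i
        = (1 / 4) * ∑ i, f i * f i + (1 / 4) * ∑ i, f (σ i) * f (σ i)
          - (1 / 2) * ∑ i, f (σ i) * f i := by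
      rw [mul_sum, mul_sum, mul_sum, ← sum_add_distrib, ← sum_sub_distrib]
      exact sum_congr rfl fun i _ => by rw [ho]; ring
    rw [h2, h3, h1]; ring
  have hoo : ip o o = (1 / 4) * ∑ i, (f i - f (σ i)) ^ 2 := by
    unfold ip
    rw [mul_sum]
    exact sum_congr rfl fun i _ => by rw [ho]; ring
  -- (1)
  have h1 := piece1 hE' hP hE'i hPi hc1 f o hPo hE'o hof
  rw [hoo] at h1
  -- (2)
  have h2 := piece2 hE hP hP' hEi hPi hP'i hEP hPE hc2 hc3 f
  -- (3) ⟨π, π'⟩ ≥ -(1/2)(Q + Q')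
  have h3 : -(1 / 2 : ℝ) * ∑ i ∈ univ.filter M, (P f i - E f i) ^ 2
      - (1 / 2) * ∑ i ∈ univ.filter M, (P' f i - E' f i) ^ 2
      ≤ ip (P f - E f) (P' f - E' f) := by
    have e1 : ip (P f - E f) (P' f - E' f)
        = ∑ i ∈ univ.filter M, (P f i - E f i) * (P' f i - E' f i) := by
      unfold ip
      rw [sum_filter]
      refine sum_congr rfl fun i _ => ?_
      by_cases hM : M i
      · rw [if_pos hM]; rfl
      · rw [if_neg hM]
        exact hsupp f i hM
    rw [e1, mul_sum, mul_sum, ← sum_sub_distrib]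
    refine sum_le_sum fun i _ => ?_
    nlinarith [sq_nonneg (P f i - E f i + (P' f i - E' f i))]
  -- assemble
  have htot : ∑ i, (f i - E f i) * (f i - E' f i)
      = ip (f - P f) (f - E' f) + ip (P f - E f) (f - P' f) + ip (P f - E f) (P' f - E' f) := by
    unfold ip
    rw [← sum_add_distrib, ← sum_add_distrib]
    refine sum_congr rfl fun i _ => ?_
    simp only [Pi.sub_apply]
    ring
  rw [htot]
  linarith

end Crest.Agent.S0453.CoupleOp
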