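import Mathlib
import Crest.Agent.S0453.Avg
import Crest.Agent.S0453.CoupleDefs
import Crest.Agent.S0453.CoupleOp

/-!
Row 299 / S0453 (helper77): the abstract half of the couple lemma (S-graph), in the names of the
frozen interface (`Avg.lean`: `avgOn`, `EquivOn`; `CoupleDefs.lean`: `Ms`, `flip`, `sameOffM`,
`P`, `Q`, `swE`, `SGraph`).

* `avgOn_comm_of_inj` : commutation criterion.  If for all `r`-related `x, x'' ∈ Ω` there is a map
  `φ`, injective on the `s`-class of `x`, that sends the `s`-class of `x` into the `s`-class of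
  `x''` and satisfies `r y (φ y)`, then `avgOn Ω r (avgOn Ω s f) = avgOn Ω s (avgOn Ω r f)` on `Ω`.
* `lemma_S_avgOn` : Lemma S of board post 956 (one couple) for four equivalence relations on a
  finset, from `CoupleOp.lemma_S`.
* `sameOffM_equivOn`, `sameOff_flip_left`, `sameOff_flip_right`.
* `sgraph_couple` / `sgraph_of_chain` : `SGraph d` from the graph facts of the statement chain of
  board post 1115: (σ) `flip` maps `Ω` to `Ω`, is an involution and preserves `Ms`; (Supp);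
  (K1) `P_b E_b' = E_b' P_b`; (K2) `P_b P_b' = P_b' P_b`.
-/

set_option autoImplicit false
open Finset

namespace Crest.Agent.S0453R

/-! ### commutation criterion -/

section comm

variable {α : Type*} [DecidableEq α]

/-- evaluation of the counting inner product against a point mass -/
lemma sum_mul_indicator (Ω : Finset α) (u : α → ℝ) {x : α} (hx : x ∈ Ω) :
    ∑ y ∈ Ω, u y * (if y = x then 1 else 0) = u x := by
  rw [sum_eq_single x]
  · simp
  · intro y _ hy; simp [hy]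
  · intro h; exact absurd hx h

/-- if two functions have the same inner product with every test function, they agree on `Ω` -/
lemma eq_on_of_sum_mul_eq (Ω : Finset α) (u v : α → ℝ)
    (h : ∀ g : α → ℝ, ∑ y ∈ Ω, u y * g y = ∑ y ∈ Ω, v y * g y) : ∀ x ∈ Ω, u x = v x := by
  intro x hx
  have := h (fun y => if y = x then 1 else 0)
  rwa [sum_mul_indicator Ω u hx, sum_mul_indicator Ω v hx] at this

/-- **Commutation criterion.**  For every `r`-related pair `x, x''` of `Ω` a map `φ` that sends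
the `s`-class of `x` into the `s`-class of `x''`, is injective there, and moves every point inside
its `r`-class.  Then the two class averages commute on `Ω`.  (Surjectivity is automatic, by
symmetry of `r`.) -/
theorem avgOn_comm_of_inj (Ω : Finset α) (r s : α → α → Prop) [DecidableRel r] [DecidableRel s]
    (hr : EquivOn Ω r) (hs : EquivOn Ω s)
    (hphi : ∀ x ∈ Ω, ∀ x'' ∈ Ω, r x x'' →
      ∃ φ : α → α, (∀ y ∈ Ω, s x y → φ y ∈ Ω ∧ s x'' (φ y) ∧ r y (φ y)) ∧
        (∀ y ∈ Ω, ∀ y' ∈ Ω, s x y → s x y' → φ y = φ y' → y = y'))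
    (f : α → ℝ) : ∀ x ∈ Ω, avgOn Ω r (avgOn Ω s f) x = avgOn Ω s (avgOn Ω r f) x := by
  -- Step 0: `r`-related points have `s`-classes of the same size
  have hcard_le : ∀ x ∈ Ω, ∀ x'' ∈ Ω, r x x'' →
      (Ω.filter (s x)).card ≤ (Ω.filter (s x'')).card := by
    intro x hx x'' hx'' hxx
    obtain ⟨φ, hmap, hinj⟩ := hphi x hx x'' hx'' hxx
    refine card_le_card_of_injOn φ ?_ ?_
    · intro y hy
      have hy' := mem_filter.1 (mem_coe.1 hy)
      have h3 := hmap y hy'.1 hy'.2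
      exact mem_coe.2 (mem_filter.2 ⟨h3.1, h3.2.1⟩)
    · intro y hy y' hy' h
      have hy1 := mem_filter.1 (mem_coe.1 hy)
      have hy2 := mem_filter.1 (mem_coe.1 hy')
      exact hinj y hy1.1 y' hy2.1 hy1.2 hy2.2 h
  -- Step 1: `avgOn s` maps `r`-invariant functions to `r`-invariant functions
  have step1 : ∀ g : α → ℝ, (∀ y ∈ Ω, ∀ z ∈ Ω, r y z → g y = g z) →
      ∀ x ∈ Ω, ∀ x'' ∈ Ω, r x x'' → avgOn Ω s g x = avgOn Ω s g x'' := by
    intro g hg x hx x'' hx'' hxx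
    obtain ⟨φ, hmap, hinj⟩ := hphi x hx x'' hx'' hxx
    have hcard : (Ω.filter (s x)).card = (Ω.filter (s x'')).card :=
      le_antisymm (hcard_le x hx x'' hx'' hxx)
        (hcard_le x'' hx'' x hx (hr.symm x hx x'' hx'' hxx))
    have hmap' : ∀ y (_ : y ∈ Ω.filter (s x)), φ y ∈ Ω.filter (s x'') := by
      intro y hy
      have hy' := mem_filter.1 hy
      have h3 := hmap y hy'.1 hy'.2
      exact mem_filter.2 ⟨h3.1, h3.2.1⟩
    have hinj' : ∀ y y' (_ : y ∈ Ω.filter (s x)) (_ : y' ∈ Ω.filter (s x)),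
        φ y = φ y' → y = y' := by
      intro y y' hy hy' h
      have hy1 := mem_filter.1 hy
      have hy2 := mem_filter.1 hy'
      exact hinj y hy1.1 y' hy2.1 hy1.2 hy2.2 h
    have hsurj := surj_on_of_inj_on_of_card_le (fun y _ => φ y) hmap' hinj' hcard.ge
    have hsum : ∑ y ∈ Ω.filter (s x), g y = ∑ z ∈ Ω.filter (s x''), g z := by
      refine sum_bij (fun y _ => φ y) hmap' (fun y hy y' hy' h => hinj' y y' hy hy' h)
        (fun z hz => let ⟨y, hy, h⟩ := hsurj z hz; ⟨y, hy, h.symm⟩) ?_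
      intro y hy
      have hy' := mem_filter.1 hy
      have h3 := hmap y hy'.1 hy'.2
      exact hg y hy'.1 (φ y) h3.1 h3.2.2
    rw [avgOn_def, avgOn_def, hsum, hcard]
  -- Step 2: `avgOn r (avgOn s (avgOn r h)) = avgOn s (avgOn r h)` on `Ω`
  have step2 : ∀ h : α → ℝ, ∀ x ∈ Ω,
      avgOn Ω r (avgOn Ω s (avgOn Ω r h)) x = avgOn Ω s (avgOn Ω r h) x := by
    intro h x hx
    refine avgOn_eq_of_const_on_class hr hx fun y hy hxy => ?_
    exact (step1 (avgOn Ω r h) (fun y hy z hz hyz => avgOn_eq_of_rel hr h hy hz hyz)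
      x hx y hy hxy).symm
  -- Step 3: take adjoints
  apply eq_on_of_sum_mul_eq
  intro g
  calc ∑ y ∈ Ω, avgOn Ω r (avgOn Ω s f) y * g y
      = ∑ y ∈ Ω, avgOn Ω s f y * avgOn Ω r g y := avgOn_symm hr _ g
    _ = ∑ y ∈ Ω, f y * avgOn Ω s (avgOn Ω r g) y := avgOn_symm hs f _
    _ = ∑ y ∈ Ω, f y * avgOn Ω r (avgOn Ω s (avgOn Ω r g)) y :=
        sum_congr rfl fun y hy => by rw [step2 g y hy]
    _ = ∑ y ∈ Ω, avgOn Ω r f y * avgOn Ω s (avgOn Ω r g) y := (avgOn_symm hr f _).symm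
    _ = ∑ y ∈ Ω, avgOn Ω s (avgOn Ω r f) y * avgOn Ω r g y := (avgOn_symm hs _ _).symm
    _ = ∑ y ∈ Ω, avgOn Ω r (avgOn Ω s (avgOn Ω r f)) y * g y := (avgOn_symm hr _ g).symm
    _ = ∑ y ∈ Ω, avgOn Ω s (avgOn Ω r f) y * g y :=
        sum_congr rfl fun y hy => by rw [step2 f y hy]

end comm

/-! ### class averages as linear maps on functions on the subtype `↥Ω` -/

section lin

variable {α : Type*} [DecidableEq α]

/-- extension by zero of a function on `↥Ω` -/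
noncomputable def ext0 (Ω : Finset α) (f : ↥Ω → ℝ) : α → ℝ :=
  fun x => if h : x ∈ Ω then f ⟨x, h⟩ else 0

lemma ext0_coe (Ω : Finset α) (f : ↥Ω → ℝ) (i : ↥Ω) : ext0 Ω f i.1 = f i := by
  simp [ext0]

lemma ext0_restrict (Ω : Finset α) (g : α → ℝ) {x : α} (hx : x ∈ Ω) :
    ext0 Ω (fun i : ↥Ω => g i.1) x = g x := by
  simp [ext0, hx]

/-- the class average as a linear map on `↥Ω → ℝ` -/
noncomputable def avgOnL (Ω : Finset α) (r : α → α → Prop) [DecidableRel r] :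
    (↥Ω → ℝ) →ₗ[ℝ] (↥Ω → ℝ) where
  toFun f := fun i => avgOn Ω r (ext0 Ω f) i.1
  map_add' f g := by
    funext i
    have : ext0 Ω (f + g) = fun y => ext0 Ω f y + ext0 Ω g y := by
      funext y; unfold ext0; split_ifs <;> simp
    show avgOn Ω r (ext0 Ω (f + g)) i.1 = avgOn Ω r (ext0 Ω f) i.1 + avgOn Ω r (ext0 Ω g) i.1
    rw [this, avgOn_add]
  map_smul' c f := by
    funext i
    have : ext0 Ω (c • f) = fun y => c * ext0 Ω f y := by
      funext y; unfold ext0; split_ifs <;> simp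
    show avgOn Ω r (ext0 Ω (c • f)) i.1 = c • avgOn Ω r (ext0 Ω f) i.1
    rw [this, avgOn_const_mul, smul_eq_mul]

variable (Ω : Finset α) (r : α → α → Prop) [DecidableRel r]

lemma avgOnL_apply (f : ↥Ω → ℝ) (i : ↥Ω) :
    avgOnL Ω r f i = avgOn Ω r (ext0 Ω f) i.1 := rfl

/-- `avgOnL` of a restriction -/
lemma avgOnL_restrict (g : α → ℝ) (i : ↥Ω) :
    avgOnL Ω r (fun j : ↥Ω => g j.1) i = avgOn Ω r g i.1 := by
  rw [avgOnL_apply]
  exact avgOn_congr (fun y hy => ext0_restrict Ω g hy) i.1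

/-- `ext0 (avgOnL f)` agrees with `avgOn (ext0 f)` on `Ω` -/
lemma ext0_avgOnL (f : ↥Ω → ℝ) {x : α} (hx : x ∈ Ω) :
    ext0 Ω (avgOnL Ω r f) x = avgOn Ω r (ext0 Ω f) x := by
  have := ext0_coe Ω (avgOnL Ω r f) ⟨x, hx⟩
  rw [this, avgOnL_apply]

lemma avgOnL_avgOnL (r' : α → α → Prop) [DecidableRel r'] (f : ↥Ω → ℝ) (i : ↥Ω) :
    avgOnL Ω r (avgOnL Ω r' f) i = avgOn Ω r (avgOn Ω r' (ext0 Ω f)) i.1 := by
  rw [avgOnL_apply]
  exact avgOn_congr (fun y hy => ext0_avgOnL Ω r' f hy) i.1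

omit [DecidableEq α] in
lemma sum_subtype_eq (F : α → ℝ) : ∑ i : ↥Ω, F i.1 = ∑ x ∈ Ω, F x :=
  Finset.sum_coe_sort Ω F

variable {Ω r}

lemma avgOnL_symm (hr : EquivOn Ω r) (f g : ↥Ω → ℝ) :
    Crest.Agent.S0453.CoupleOp.ip (avgOnL Ω r f) g
      = Crest.Agent.S0453.CoupleOp.ip f (avgOnL Ω r g) := by
  unfold Crest.Agent.S0453.CoupleOp.ip
  have e1 : ∑ i : ↥Ω, avgOnL Ω r f i * g i
      = ∑ x ∈ Ω, avgOn Ω r (ext0 Ω f) x * ext0 Ω g x := by
    rw [← sum_subtype_eq Ω (fun x => avgOn Ω r (ext0 Ω f) x * ext0 Ω g x)]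
    exact sum_congr rfl fun i _ => by rw [avgOnL_apply, ext0_coe]
  have e2 : ∑ i : ↥Ω, f i * avgOnL Ω r g i
      = ∑ x ∈ Ω, ext0 Ω f x * avgOn Ω r (ext0 Ω g) x := by
    rw [← sum_subtype_eq Ω (fun x => ext0 Ω f x * avgOn Ω r (ext0 Ω g) x)]
    exact sum_congr rfl fun i _ => by rw [avgOnL_apply, ext0_coe]
  rw [e1, e2, avgOn_symm hr]

lemma avgOnL_idem (hr : EquivOn Ω r) (f : ↥Ω → ℝ) :
    avgOnL Ω r (avgOnL Ω r f) = avgOnL Ω r f := by
  funext i
  rw [avgOnL_avgOnL, avgOn_idem hr _ i.2, avgOnL_apply]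

/-- odd functions (w.r.t. an involution `σ` of `Ω` that moves every point inside its class) have
zero class average -/
lemma avgOnL_eq_zero_of_odd (hr : EquivOn Ω r) (σ : α → α) (hσmem : ∀ x ∈ Ω, σ x ∈ Ω)
    (hσσ : ∀ x ∈ Ω, σ (σ x) = x) (hσr : ∀ x ∈ Ω, r x (σ x)) (g : ↥Ω → ℝ)
    (hg : ∀ i : ↥Ω, g ⟨σ i.1, hσmem i.1 i.2⟩ = - g i) : avgOnL Ω r g = 0 := by
  funext i
  rw [avgOnL_apply, avgOn_def]
  have hsum : ∑ y ∈ Ω.filter (r i.1), ext0 Ω g y = - ∑ y ∈ Ω.filter (r i.1), ext0 Ω g y := by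
    rw [← sum_neg_distrib]
    refine sum_bij (fun y _ => σ y) ?_ ?_ ?_ ?_
    · intro y hy
      obtain ⟨hyΩ, hyr⟩ := mem_filter.1 hy
      exact mem_filter.2 ⟨hσmem y hyΩ, hr.trans i.1 i.2 y hyΩ (σ y) (hσmem y hyΩ) hyr (hσr y hyΩ)⟩
    · intro y hy y' hy' h
      have h1 := hσσ y (mem_filter.1 hy).1
      have h2 := hσσ y' (mem_filter.1 hy').1
      rw [← h1, ← h2, h]
    · intro z hz
      obtain ⟨hzΩ, hzr⟩ := mem_filter.1 hz
      exact ⟨σ z, mem_filter.2 ⟨hσmem z hzΩ,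
        hr.trans i.1 i.2 z hzΩ (σ z) (hσmem z hzΩ) hzr (hσr z hzΩ)⟩, hσσ z hzΩ⟩
    · intro y hy
      have hyΩ := (mem_filter.1 hy).1
      have e1 : ext0 Ω g y = g ⟨y, hyΩ⟩ := ext0_coe Ω g ⟨y, hyΩ⟩
      have e2 : ext0 Ω g (σ y) = g ⟨σ y, hσmem y hyΩ⟩ := ext0_coe Ω g ⟨σ y, hσmem y hyΩ⟩
      rw [e1, e2, hg ⟨y, hyΩ⟩, neg_neg]
  have h0 : ∑ y ∈ Ω.filter (r i.1), ext0 Ω g y = 0 := by linarith
  rw [h0, zero_div]
  rfl

end lin

/-! ### Lemma S for class averages -/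

section lemmaS

variable {α : Type*} [DecidableEq α]

/-- **Lemma S (post 956) for class averages.**  `rE, rE'` are the two pair-class relations,
`rP, rP'` the pair-class relations split by `M`, `σ` the switch of the couple. -/
theorem lemma_S_avgOn (Ω : Finset α) (rE rE' rP rP' : α → α → Prop)
    [DecidableRel rE] [DecidableRel rE'] [DecidableRel rP] [DecidableRel rP']
    (hE : EquivOn Ω rE) (hE' : EquivOn Ω rE') (hP : EquivOn Ω rP) (hP' : EquivOn Ω rP')
    (σ : α → α) (M : α → Prop) [DecidablePred M]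
    (hrefP : ∀ x ∈ Ω, ∀ y ∈ Ω, rP x y → rE x y)
    (hc1 : ∀ f : α → ℝ, ∀ x ∈ Ω, avgOn Ω rP (avgOn Ω rE' f) x = avgOn Ω rE' (avgOn Ω rP f) x)
    (hc2 : ∀ f : α → ℝ, ∀ x ∈ Ω, avgOn Ω rP (avgOn Ω rP' f) x = avgOn Ω rP' (avgOn Ω rP f) x)
    (hc3 : ∀ f : α → ℝ, ∀ x ∈ Ω, avgOn Ω rE (avgOn Ω rP' f) x = avgOn Ω rP' (avgOn Ω rE f) x)
    (hσmem : ∀ x ∈ Ω, σ x ∈ Ω) (hσσ : ∀ x ∈ Ω, σ (σ x) = x)
    (hσP : ∀ x ∈ Ω, rP x (σ x)) (hσE' : ∀ x ∈ Ω, rE' x (σ x))
    (hsupp : ∀ x ∈ Ω, ¬ M x →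
      Ω.filter (rP x) = Ω.filter (rE x) ∨ Ω.filter (rP' x) = Ω.filter (rE' x))
    (f : α → ℝ) :
    (1 / 2 : ℝ) * ∑ x ∈ Ω, (f x - f (σ x)) ^ 2
        - ∑ x ∈ Ω.filter M, (avgOn Ω rP f x - avgOn Ω rE f x) ^ 2
        - ∑ x ∈ Ω.filter M, (avgOn Ω rP' f x - avgOn Ω rE' f x) ^ 2
      ≤ 2 * ∑ x ∈ Ω, (f x - avgOn Ω rE f x) * (f x - avgOn Ω rE' f x) := by
  classical
  -- instantiate the abstract lemma on `↥Ω`
  have key := Crest.Agent.S0453.CoupleOp.lemma_S (ι := ↥Ω)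
    (avgOnL Ω rE) (avgOnL Ω rE') (avgOnL Ω rP) (avgOnL Ω rP')
    (fun i => ⟨σ i.1, hσmem i.1 i.2⟩) (fun i => M i.1)
    (avgOnL_symm hE) (avgOnL_symm hE') (avgOnL_symm hP) (avgOnL_symm hP')
    (avgOnL_idem hE) (avgOnL_idem hE') (avgOnL_idem hP) (avgOnL_idem hP')
    (by
      intro g; funext i
      rw [avgOnL_avgOnL, avgOn_avgOn_of_le hP hE hrefP _ i.2, avgOnL_apply])
    (by
      intro g; funext i
      rw [avgOnL_avgOnL, avgOn_avgOn_of_ge hP hE hrefP _ i.2, avgOnL_apply])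
    (by
      intro g; funext i
      rw [avgOnL_avgOnL, avgOnL_avgOnL, hc1 _ i.1 i.2])
    (by
      intro g; funext i
      rw [avgOnL_avgOnL, avgOnL_avgOnL, hc2 _ i.1 i.2])
    (by
      intro g; funext i
      rw [avgOnL_avgOnL, avgOnL_avgOnL, hc3 _ i.1 i.2])
    (by
      intro i
      exact Subtype.ext (hσσ i.1 i.2))
    (avgOnL_eq_zero_of_odd hP σ hσmem hσσ hσP) (avgOnL_eq_zero_of_odd hE' σ hσmem hσσ hσE')
    (by
      intro g i hM
      rcases hsupp i.1 i.2 hM with h | h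
      · have : avgOnL Ω rP g i = avgOnL Ω rE g i := by
          rw [avgOnL_apply, avgOnL_apply, avgOn_def, avgOn_def, h]
        rw [this, sub_self, zero_mul]
      · have : avgOnL Ω rP' g i = avgOnL Ω rE' g i := by
          rw [avgOnL_apply, avgOnL_apply, avgOn_def, avgOn_def, h]
        rw [this, sub_self, mul_zero])
    (fun i : ↥Ω => f i.1)
  -- translate back to sums over `Ω`
  simp only [avgOnL_restrict] at key
  have e1 : ∑ i : ↥Ω, (f i.1 - f (σ i.1)) ^ 2 = ∑ x ∈ Ω, (f x - f (σ x)) ^ 2 :=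
    sum_subtype_eq Ω (fun x => (f x - f (σ x)) ^ 2)
  have e2 : ∀ F : α → ℝ, ∑ i ∈ (univ : Finset ↥Ω).filter (fun i => M i.1), F i.1
      = ∑ x ∈ Ω.filter M, F x := by
    intro F
    rw [sum_filter, sum_filter]
    exact sum_subtype_eq Ω (fun x => if M x then F x else 0)
  have e3 : ∑ i : ↥Ω, (f i.1 - avgOn Ω rE f i.1) * (f i.1 - avgOn Ω rE' f i.1)
      = ∑ x ∈ Ω, (f x - avgOn Ω rE f x) * (f x - avgOn Ω rE' f x) :=
    sum_subtype_eq Ω (fun x => (f x - avgOn Ω rE f x) * (f x - avgOn Ω rE' f x))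
  rw [e1, e2 (fun x => (avgOn Ω rP f x - avgOn Ω rE f x) ^ 2),
    e2 (fun x => (avgOn Ω rP' f x - avgOn Ω rE' f x) ^ 2), e3] at key
  exact key

end lemmaS

/-! ### the couple lemma `SGraph d` from the graph facts -/

section graph

open Crest.SwitchChain

variable {n : ℕ}

lemma sameOffM_equivOn (Ω : Finset (Finset (Edge n))) (b b' : Finset (Fin n)) :
    EquivOn Ω (sameOffM b b') :=
  ⟨fun G _ => ⟨sameOff_refl b G, Iff.rfl⟩,
   fun _ _ _ _ h => ⟨sameOff_symm h.1, h.2.symm⟩,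
   fun _ _ _ _ _ _ h h' => ⟨sameOff_trans h.1 h'.1, h.2.trans h'.2⟩⟩

/-- the switch of the couple does not touch the edges avoiding `b` -/
lemma sameOff_flip_left (b b' : Finset (Fin n)) (G : Finset (Edge n)) :
    sameOff b G (flip b b' G) := by
  intro e he
  unfold flip
  split_ifs with hM
  · have hc : e ∉ cross b b' := fun hc => by
      obtain ⟨⟨x, hx, hxe⟩, _⟩ := mem_cross.1 hc
      exact he x hx hxe
    rw [mem_symmDiff]
    constructor
    · intro h; exact Or.inl ⟨h, hc⟩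
    · rintro (h | h)
      · exact h.1
      · exact absurd h.1 hc
  · exact Iff.rfl

/-- the switch of the couple does not touch the edges avoiding `b'` -/
lemma sameOff_flip_right (b b' : Finset (Fin n)) (G : Finset (Edge n)) :
    sameOff b' G (flip b b' G) := by
  rw [flip_comm]
  exact sameOff_flip_left b' b G

/-- **(S-graph) for one couple**, from the graph facts (σ), (Supp), (K1), (K2), (K3). -/
theorem sgraph_couple (d : Fin n → ℕ) (b b' : Finset (Fin n))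
    (hflip_mem : ∀ G ∈ realizations d, flip b b' G ∈ realizations d)
    (hflip_flip : ∀ G ∈ realizations d, flip b b' (flip b b' G) = G)
    (hMs_flip : ∀ G ∈ realizations d, (Ms b b' (flip b b' G) ↔ Ms b b' G))
    (hsupp : ∀ G ∈ realizations d, ¬ Ms b b' G →
      ¬ ((∃ H ∈ realizations d, sameOff b G H ∧ Ms b b' H) ∧
         (∃ H ∈ realizations d, sameOff b' G H ∧ Ms b b' H)))
    (hK1 : ∀ f : Finset (Edge n) → ℝ, ∀ G ∈ realizations d,
      P d b b' (E d b' f) G = E d b' (P d b b' f) G)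
    (hK2 : ∀ f : Finset (Edge n) → ℝ, ∀ G ∈ realizations d,
      P d b b' (P d b' b f) G = P d b' b (P d b b' f) G)
    (hK3 : ∀ f : Finset (Edge n) → ℝ, ∀ G ∈ realizations d,
      E d b (P d b' b f) G = P d b' b (E d b f) G)
    (f : Finset (Edge n) → ℝ) :
    (1 / 2) * swE d b b' f - Q d b b' f - Q d b' b f
      ≤ 2 * ∑ G ∈ realizations d, (f G - E d b f G) * (f G - E d b' f G) := by
  have key := lemma_S_avgOn (realizations d) (sameOff b) (sameOff b') (sameOffM b b')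
    (sameOffM b' b) (sameOff_equivOn _ b) (sameOff_equivOn _ b') (sameOffM_equivOn _ b b')
    (sameOffM_equivOn _ b' b) (flip b b') (Ms b b')
    (fun _ _ _ _ h => h.1) hK1 hK2 hK3 hflip_mem hflip_flip
    (fun G hG => ⟨sameOff_flip_left b b' G, (hMs_flip G hG).symm⟩)
    (fun G _ => sameOff_flip_right b b' G)
    (by
      intro G hG hM
      have h := hsupp G hG hM
      by_cases h1 : ∃ H ∈ realizations d, sameOff b G H ∧ Ms b b' H
      · have h2 : ¬ ∃ H ∈ realizations d, sameOff b' G H ∧ Ms b b' H := fun h2 => h ⟨h1, h2⟩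
        right
        ext H
        simp only [mem_filter, sameOffM]
        constructor
        · rintro ⟨hH, hs, _⟩; exact ⟨hH, hs⟩
        · rintro ⟨hH, hs⟩
          refine ⟨hH, hs, ?_⟩
          have hMG : ¬ Ms b' b G := fun hm => hM ((Ms_comm b b' G).2 hm)
          have hMH : ¬ Ms b' b H := fun hm => h2 ⟨H, hH, hs, (Ms_comm b b' H).2 hm⟩
          exact ⟨fun hm => absurd hm hMG, fun hm => absurd hm hMH⟩
      · left
        ext H
        simp only [mem_filter, sameOffM]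
        constructor
        · rintro ⟨hH, hs, _⟩; exact ⟨hH, hs⟩
        · rintro ⟨hH, hs⟩
          refine ⟨hH, hs, ?_⟩
          have hMH : ¬ Ms b b' H := fun hm => h1 ⟨H, hH, hs, hm⟩
          exact ⟨fun hm => absurd hm hM, fun hm => absurd hm hMH⟩)
    f
  have hQ' : Q d b' b f
      = ∑ G ∈ (realizations d).filter (Ms b b'),
          (avgOn (realizations d) (sameOffM b' b) f G
            - avgOn (realizations d) (sameOff b') f G) ^ 2 := by
    unfold Q
    have hfil : (realizations d).filter (Ms b' b) = (realizations d).filter (Ms b b') :=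
      filter_congr fun G _ => (Ms_comm b' b G)
    rw [hfil]
    rfl
  rw [hQ']
  exact key

/-- **(S-graph)** from the graph facts of the statement chain (board post 1115). -/
theorem sgraph_of_chain (d : Fin n → ℕ)
    (hflip_mem : ∀ b ∈ pairs n, ∀ b' ∈ pairs n, Disjoint b b' →
      ∀ G ∈ realizations d, flip b b' G ∈ realizations d)
    (hflip_flip : ∀ b ∈ pairs n, ∀ b' ∈ pairs n, Disjoint b b' →
      ∀ G ∈ realizations d, flip b b' (flip b b' G) = G)
    (hMs_flip : ∀ b ∈ pairs n, ∀ b' ∈ pairs n, Disjoint b b' →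
      ∀ G ∈ realizations d, (Ms b b' (flip b b' G) ↔ Ms b b' G))
    (hsupp : ∀ b ∈ pairs n, ∀ b' ∈ pairs n, Disjoint b b' →
      ∀ G ∈ realizations d, ¬ Ms b b' G →
        ¬ ((∃ H ∈ realizations d, sameOff b G H ∧ Ms b b' H) ∧
           (∃ H ∈ realizations d, sameOff b' G H ∧ Ms b b' H)))
    (hK1 : ∀ b ∈ pairs n, ∀ b' ∈ pairs n, Disjoint b b' →
      ∀ f : Finset (Edge n) → ℝ, ∀ G ∈ realizations d,
        P d b b' (E d b' f) G = E d b' (P d b b' f) G)
    (hK2 : ∀ b ∈ pairs n, ∀ b' ∈ pairs n, Disjoint b b' →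
      ∀ f : Finset (Edge n) → ℝ, ∀ G ∈ realizations d,
        P d b b' (P d b' b f) G = P d b' b (P d b b' f) G) :
    SGraph d := by
  intro b hb b' hb' hbb' f
  exact sgraph_couple d b b' (hflip_mem b hb b' hb' hbb') (hflip_flip b hb b' hb' hbb')
    (hMs_flip b hb b' hb' hbb') (hsupp b hb b' hb' hbb') (hK1 b hb b' hb' hbb')
    (hK2 b hb b' hb' hbb')
    (fun g G hG => (hK1 b' hb' b hb hbb'.symm g G hG).symm) f

end graph

end Crest.Agent.S0453R
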