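import Mathlib
import Crest.Prelude.Def_SwitchChain
import Crest.Agent.S0453.CoupleDefs

/-!
Row 299 / S0453 (helper12): basic facts about the definitions of `CoupleDefs.lean`
(`cross`, `Ms`, `flip`, `sameOffM`, `P`) for a couple `(b, b')` of disjoint pairs.

* `mkE_mem_cross`, `card_filter_cross`, `Ms_iff_nb`, `Ms_pair_iff` : explicit forms of the block and
  of the matching condition;
* `nb_symmDiff_cross_left/right/of_not_mem` : neighbourhoods after complementing the block;
* `flip_of_Ms`, `flip_of_not_Ms`, `Ms_flip_card`, `Ms_flip_iff`, `flip_flip_card`, `flip_mem_card`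
  (hypotheses `b.card = 2`; the versions with `b ∈ pairs n` are in `CoupleFlip77.lean`),
  `flip_sameOff_left/right`, `sameOffM_flip`, `sum_flip` : the involution `σ_s`
  (`flip_sameOff_left/right` = `sameOff_flip_left/right` of `CoupleAvg.lean`, renamed here so that
  both files can be imported together);
* `equivOn_sameOffM`, `P_*`, `E_comp_flip_*` : the operator `P_b^s`;
* `flip_mem_pairs`, `flip_flip_pairs`, `Ms_flip_pairs` : the three `flip` hypotheses of
  `sgraph_of_chain` (`CoupleAvg.lean`) verbatim.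
-/

set_option autoImplicit false
open Finset

namespace Crest.Agent.S0453R

open Crest.SwitchChain

variable {n : ℕ}

/-! ### the block `cross b b'` -/

lemma exists_mem_mkE {b : Finset (Fin n)} {x y : Fin n} (h : x ≠ y) :
    (∃ u ∈ b, u ∈ (mkE x y h).1) ↔ x ∈ b ∨ y ∈ b := by
  simp only [mem_mkE]
  constructor
  · rintro ⟨u, hu, rfl | rfl⟩
    · exact Or.inl hu
    · exact Or.inr hu
  · rintro (hx | hy)
    · exact ⟨x, hx, Or.inl rfl⟩
    · exact ⟨y, hy, Or.inr rfl⟩

/-- membership of an explicit edge in the block (no disjointness needed) -/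
lemma mkE_mem_cross' {b b' : Finset (Fin n)} {x y : Fin n} (h : x ≠ y) :
    mkE x y h ∈ cross b b' ↔ (x ∈ b ∨ y ∈ b) ∧ (x ∈ b' ∨ y ∈ b') := by
  rw [mem_cross, exists_mem_mkE, exists_mem_mkE]

/-- membership of an explicit edge in the block of a disjoint couple -/
lemma mkE_mem_cross {b b' : Finset (Fin n)} (hd : Disjoint b b') {x y : Fin n} (h : x ≠ y) :
    mkE x y h ∈ cross b b' ↔ (x ∈ b ∧ y ∈ b') ∨ (x ∈ b' ∧ y ∈ b) := by
  rw [mkE_mem_cross']
  have h1 : ∀ z, z ∈ b → z ∉ b' := fun z hz hz' => Finset.disjoint_left.1 hd hz hz'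
  constructor
  · rintro ⟨hx | hy, hx' | hy'⟩
    · exact absurd hx' (h1 x hx)
    · exact Or.inl ⟨hx, hy'⟩
    · exact Or.inr ⟨hx', hy⟩
    · exact absurd hy' (h1 y hy)
  · rintro (⟨hx, hy⟩ | ⟨hx, hy⟩)
    · exact ⟨Or.inl hx, Or.inr hy⟩
    · exact ⟨Or.inr hy, Or.inl hx⟩

/-- an edge without a vertex in `b` is not in the block -/
lemma not_mem_cross_left {b b' : Finset (Fin n)} {e : Edge n} (h : ∀ u ∈ b, u ∉ e.1) :
    e ∉ cross b b' := by
  rw [mem_cross]
  rintro ⟨⟨x, hx, hxe⟩, -⟩
  exact h x hx hxe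

/-- an edge without a vertex in `b'` is not in the block -/
lemma not_mem_cross_right {b b' : Finset (Fin n)} {e : Edge n} (h : ∀ u ∈ b', u ∉ e.1) :
    e ∉ cross b b' := by
  rw [cross_comm]; exact not_mem_cross_left h

/-- the block edges of `G` at a vertex `x ∈ b` correspond to the neighbours of `x` in `b'` -/
lemma card_filter_cross {b b' : Finset (Fin n)} (hd : Disjoint b b') (G : Finset (Edge n))
    {x : Fin n} (hx : x ∈ b) :
    ((G ∩ cross b b').filter fun e => x ∈ e.1).card = (nb G x ∩ b').card := by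
  symm
  refine card_bij (fun y hy => mkE x y (ne_of_mem_nb (mem_inter.1 hy).1)) ?_ ?_ ?_
  · intro y hy
    obtain ⟨hy1, hy2⟩ := mem_inter.1 hy
    have hxy := ne_of_mem_nb hy1
    rw [mem_filter, mem_inter]
    exact ⟨⟨(mkE_mem_iff hxy).2 hy1, (mkE_mem_cross hd hxy).2 (Or.inl ⟨hx, hy2⟩)⟩, by simp⟩
  · intro y₁ h₁ y₂ h₂ heq
    rw [mkE_eq_iff] at heq
    rcases heq with ⟨-, h⟩ | ⟨h, -⟩
    · exact h
    · exact absurd h (ne_of_mem_nb (mem_inter.1 h₂).1)
  · intro e he
    rw [mem_filter, mem_inter] at he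
    obtain ⟨⟨heG, heC⟩, hxe⟩ := he
    obtain ⟨w, hw⟩ := Sym2.mem_iff_exists.mp hxe
    have hxw : x ≠ w := by
      intro h; apply e.2; rw [hw, h]; simp
    have hee : e = mkE x w hxw := Subtype.ext hw
    rw [hee] at heG heC
    have hwb' : w ∈ b' := by
      rcases (mkE_mem_cross hd hxw).1 heC with ⟨_, h2⟩ | ⟨h1, _⟩
      · exact h2
      · exact absurd h1 (Finset.disjoint_left.1 hd hx)
    exact ⟨w, mem_inter.2 ⟨(mkE_mem_iff hxw).1 heG, hwb'⟩, hee.symm⟩

/-- `Ms` in terms of neighbourhoods: every vertex of `b` has exactly one neighbour in `b'` and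
vice versa -/
lemma Ms_iff_nb {b b' : Finset (Fin n)} (hd : Disjoint b b') (G : Finset (Edge n)) :
    Ms b b' G ↔ (∀ x ∈ b, (nb G x ∩ b').card = 1) ∧ (∀ y ∈ b', (nb G y ∩ b).card = 1) := by
  unfold Ms
  constructor
  · intro h
    refine ⟨fun x hx => ?_, fun y hy => ?_⟩
    · rw [← card_filter_cross hd G hx]; exact h x (mem_union_left _ hx)
    · rw [← card_filter_cross hd.symm G hy, cross_comm]; exact h y (mem_union_right _ hy)
  · rintro ⟨h1, h2⟩ x hx
    rcases mem_union.1 hx with hx | hx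
    · rw [card_filter_cross hd G hx]; exact h1 x hx
    · rw [cross_comm, card_filter_cross hd.symm G hx]; exact h2 x hx

lemma card_inter_pair_eq_one {α : Type*} [DecidableEq α] {s : Finset α} {c c' : α}
    (hcc : c ≠ c') :
    (s ∩ {c, c'}).card = 1 ↔ (c ∈ s ∧ c' ∉ s) ∨ (c ∉ s ∧ c' ∈ s) := by
  by_cases h1 : c ∈ s <;> by_cases h2 : c' ∈ s
  · have e : s ∩ {c, c'} = {c, c'} := by
      rw [inter_eq_right]
      intro z hz
      rcases mem_insert.1 hz with rfl | hz
      · exact h1
      · rw [mem_singleton.1 hz]; exact h2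
    rw [e, card_pair hcc]; simp [h1, h2]
  · have e : s ∩ {c, c'} = {c} := by
      ext z
      simp only [mem_inter, mem_insert, mem_singleton]
      constructor
      · rintro ⟨hz, rfl | rfl⟩
        · rfl
        · exact absurd hz h2
      · rintro rfl; exact ⟨h1, Or.inl rfl⟩
    rw [e, card_singleton]; simp [h1, h2]
  · have e : s ∩ {c, c'} = {c'} := by
      ext z
      simp only [mem_inter, mem_insert, mem_singleton]
      constructor
      · rintro ⟨hz, rfl | rfl⟩
        · exact absurd hz h1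
        · rfl
      · rintro rfl; exact ⟨h2, Or.inr rfl⟩
    rw [e, card_singleton]; simp [h1, h2]
  · have e : s ∩ {c, c'} = ∅ := by
      ext z
      simp only [mem_inter, mem_insert, mem_singleton]
      constructor
      · rintro ⟨hz, rfl | rfl⟩
        · exact absurd hz h1
        · exact absurd hz h2
      · intro hz; simp at hz
    rw [e]; simp [h1, h2]

lemma disjoint_pair_pair {a a' c c' : Fin n} (hac : a ≠ c) (hac' : a ≠ c')
    (ha'c : a' ≠ c) (ha'c' : a' ≠ c') : Disjoint ({a, a'} : Finset (Fin n)) {c, c'} := by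
  rw [Finset.disjoint_left]
  intro z hz hz'
  simp only [mem_insert, mem_singleton] at hz hz'
  rcases hz with rfl | rfl <;> rcases hz' with h | h
  · exact hac h
  · exact hac' h
  · exact ha'c h
  · exact ha'c' h

/-- explicit form of `Ms` for two disjoint pairs `{a,a'}`, `{c,c'}`: the block of `G` is one of
the two perfect matchings `{ac, a'c'}`, `{ac', a'c}` -/
lemma Ms_pair_iff {a a' c c' : Fin n} (haa : a ≠ a') (hcc : c ≠ c') (hac : a ≠ c) (hac' : a ≠ c')
    (ha'c : a' ≠ c) (ha'c' : a' ≠ c') (G : Finset (Edge n)) :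
    Ms {a, a'} {c, c'} G ↔
      (mkE a c hac ∈ G ∧ mkE a' c' ha'c' ∈ G ∧ mkE a c' hac' ∉ G ∧ mkE a' c ha'c ∉ G) ∨
      (mkE a c' hac' ∈ G ∧ mkE a' c ha'c ∈ G ∧ mkE a c hac ∉ G ∧ mkE a' c' ha'c' ∉ G) := by
  rw [Ms_iff_nb (disjoint_pair_pair hac hac' ha'c ha'c')]
  simp only [mem_insert, mem_singleton, forall_eq_or_imp, forall_eq]
  rw [card_inter_pair_eq_one hcc, card_inter_pair_eq_one hcc, card_inter_pair_eq_one haa,
    card_inter_pair_eq_one haa, mkE_mem_iff, mkE_mem_iff, mkE_mem_iff, mkE_mem_iff,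
    mem_nb_comm (v := c) (w := a), mem_nb_comm (v := c) (w := a'),
    mem_nb_comm (v := c') (w := a), mem_nb_comm (v := c') (w := a')]
  tauto

/-! ### neighbourhoods after complementing the block -/

lemma nb_symmDiff_cross_left {b b' : Finset (Fin n)} (hd : Disjoint b b') (G : Finset (Edge n))
    {x : Fin n} (hx : x ∈ b) : nb (symmDiff G (cross b b')) x = symmDiff (nb G x) b' := by
  ext y
  have hx' : x ∉ b' := Finset.disjoint_left.1 hd hx
  rw [Finset.mem_symmDiff]
  by_cases hxy : x = y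
  · subst hxy
    simp [not_mem_nb_self, hx']
  · rw [← mkE_mem_iff hxy, ← mkE_mem_iff hxy, Finset.mem_symmDiff, mkE_mem_cross hd hxy]
    tauto

lemma nb_symmDiff_cross_right {b b' : Finset (Fin n)} (hd : Disjoint b b') (G : Finset (Edge n))
    {y : Fin n} (hy : y ∈ b') : nb (symmDiff G (cross b b')) y = symmDiff (nb G y) b := by
  rw [cross_comm]; exact nb_symmDiff_cross_left hd.symm G hy

lemma nb_symmDiff_cross_of_not_mem {b b' : Finset (Fin n)} (hd : Disjoint b b')
    (G : Finset (Edge n)) {x : Fin n} (hx : x ∉ b) (hx' : x ∉ b') :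
    nb (symmDiff G (cross b b')) x = nb G x := by
  ext y
  by_cases hxy : x = y
  · subst hxy
    simp [not_mem_nb_self]
  · rw [← mkE_mem_iff hxy, ← mkE_mem_iff hxy, Finset.mem_symmDiff, mkE_mem_cross hd hxy]
    tauto

/-! ### cardinalities of symmetric differences -/

lemma card_symmDiff_of_inter {α : Type*} [DecidableEq α] {A B : Finset α}
    (h1 : (A ∩ B).card = 1) (h2 : B.card = 2) : (symmDiff A B).card = A.card := by
  have e : symmDiff A B = (A \ B) ∪ (B \ A) := rfl
  rw [e, card_union_of_disjoint disjoint_sdiff_sdiff]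
  have ha := card_sdiff_add_card_inter A B
  have hb := card_sdiff_add_card_inter B A
  rw [inter_comm] at hb
  omega

lemma card_symmDiff_inter_of_inter {α : Type*} [DecidableEq α] {A B : Finset α}
    (h1 : (A ∩ B).card = 1) (h2 : B.card = 2) : (symmDiff A B ∩ B).card = 1 := by
  have e : symmDiff A B ∩ B = B \ A := by
    ext z
    simp only [mem_inter, Finset.mem_symmDiff, mem_sdiff]
    tauto
  rw [e]
  have hb := card_sdiff_add_card_inter B A
  rw [inter_comm] at hb
  omega

/-! ### the involution `flip` -/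

lemma flip_of_Ms {b b' : Finset (Fin n)} {G : Finset (Edge n)} (h : Ms b b' G) :
    flip b b' G = symmDiff G (cross b b') := if_pos h

lemma flip_of_not_Ms {b b' : Finset (Fin n)} {G : Finset (Edge n)} (h : ¬ Ms b b' G) :
    flip b b' G = G := if_neg h

/-- complementing a matching block gives a matching block -/
lemma Ms_symmDiff_card {b b' : Finset (Fin n)} (hd : Disjoint b b') (hb : b.card = 2)
    (hb' : b'.card = 2) {G : Finset (Edge n)} (h : Ms b b' G) :
    Ms b b' (symmDiff G (cross b b')) := by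
  rw [Ms_iff_nb hd] at h ⊢
  refine ⟨fun x hx => ?_, fun y hy => ?_⟩
  · rw [nb_symmDiff_cross_left hd G hx]
    exact card_symmDiff_inter_of_inter (h.1 x hx) hb'
  · rw [nb_symmDiff_cross_right hd G hy]
    exact card_symmDiff_inter_of_inter (h.2 y hy) hb

lemma Ms_flip_card {b b' : Finset (Fin n)} (hd : Disjoint b b') (hb : b.card = 2)
    (hb' : b'.card = 2) {G : Finset (Edge n)} (h : Ms b b' G) : Ms b b' (flip b b' G) := by
  rw [flip_of_Ms h]; exact Ms_symmDiff_card hd hb hb' h

lemma Ms_flip_iff {b b' : Finset (Fin n)} (hd : Disjoint b b') (hb : b.card = 2)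
    (hb' : b'.card = 2) (G : Finset (Edge n)) : Ms b b' (flip b b' G) ↔ Ms b b' G := by
  by_cases h : Ms b b' G
  · exact ⟨fun _ => h, fun _ => Ms_flip_card hd hb hb' h⟩
  · rw [flip_of_not_Ms h]

/-- `flip` is an involution -/
lemma flip_flip_card {b b' : Finset (Fin n)} (hd : Disjoint b b') (hb : b.card = 2)
    (hb' : b'.card = 2) (G : Finset (Edge n)) : flip b b' (flip b b' G) = G := by
  by_cases h : Ms b b' G
  · rw [flip_of_Ms (Ms_flip_card hd hb hb' h), flip_of_Ms h, symmDiff_symmDiff_cancel_right]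
  · rw [flip_of_not_Ms h, flip_of_not_Ms h]

/-- `flip` preserves all degrees -/
lemma deg_flip {b b' : Finset (Fin n)} (hd : Disjoint b b') (hb : b.card = 2)
    (hb' : b'.card = 2) (G : Finset (Edge n)) (v : Fin n) : deg (flip b b' G) v = deg G v := by
  by_cases h : Ms b b' G
  · rw [flip_of_Ms h, deg_eq_card_nb, deg_eq_card_nb]
    have h' := (Ms_iff_nb hd G).1 h
    by_cases hv : v ∈ b
    · rw [nb_symmDiff_cross_left hd G hv]
      exact card_symmDiff_of_inter (h'.1 v hv) hb'
    · by_cases hv' : v ∈ b'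
      · rw [nb_symmDiff_cross_right hd G hv']
        exact card_symmDiff_of_inter (h'.2 v hv') hb
      · rw [nb_symmDiff_cross_of_not_mem hd G hv hv']
  · rw [flip_of_not_Ms h]

/-- `flip` maps `Ω(d)` to itself -/
lemma flip_mem_card {b b' : Finset (Fin n)} (hd : Disjoint b b') (hb : b.card = 2)
    (hb' : b'.card = 2) {d : Fin n → ℕ} {G : Finset (Edge n)} (hG : G ∈ realizations d) :
    flip b b' G ∈ realizations d := by
  simp only [realizations, mem_filter, mem_univ, true_and] at hG ⊢
  intro v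
  rw [deg_flip hd hb hb', hG v]

/-- `flip` only changes edges meeting `b` -/
lemma flip_sameOff_left (b b' : Finset (Fin n)) (G : Finset (Edge n)) :
    sameOff b G (flip b b' G) := by
  by_cases h : Ms b b' G
  · rw [flip_of_Ms h]
    intro e he
    rw [Finset.mem_symmDiff]
    have := not_mem_cross_left (b' := b') he
    tauto
  · rw [flip_of_not_Ms h]; exact sameOff_refl b G

/-- `flip` only changes edges meeting `b'` -/
lemma flip_sameOff_right (b b' : Finset (Fin n)) (G : Finset (Edge n)) :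
    sameOff b' G (flip b b' G) := by
  rw [flip_comm]; exact flip_sameOff_left b' b G

/-- `flip` stays in the refined class -/
lemma sameOffM_flip {b b' : Finset (Fin n)} (hd : Disjoint b b') (hb : b.card = 2)
    (hb' : b'.card = 2) (G : Finset (Edge n)) : sameOffM b b' G (flip b b' G) :=
  ⟨flip_sameOff_left b b' G, (Ms_flip_iff hd hb hb' G).symm⟩

/-- `flip` moves every graph with a matching block (for nonempty `b`, `b'`) -/
lemma flip_ne_of_Ms {b b' : Finset (Fin n)} (hd : Disjoint b b') (hb : b.card = 2)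
    (hb' : b'.card = 2) {G : Finset (Edge n)} (h : Ms b b' G) : flip b b' G ≠ G := by
  intro heq
  rw [flip_of_Ms h] at heq
  obtain ⟨x, hx⟩ : b.Nonempty := by rw [← card_pos, hb]; norm_num
  obtain ⟨y, hy⟩ : b'.Nonempty := by rw [← card_pos, hb']; norm_num
  have hxy : x ≠ y := fun h => Finset.disjoint_left.1 hd hx (h ▸ hy)
  have hm : mkE x y hxy ∈ cross b b' := (mkE_mem_cross hd hxy).2 (Or.inl ⟨hx, hy⟩)
  have h1 := Finset.ext_iff.1 heq (mkE x y hxy)
  rw [Finset.mem_symmDiff] at h1
  tauto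

/-- reindexing a sum over `Ω(d)` by the involution `flip` -/
lemma sum_flip {b b' : Finset (Fin n)} (hd : Disjoint b b') (hb : b.card = 2)
    (hb' : b'.card = 2) (d : Fin n → ℕ) {M : Type*} [AddCommMonoid M]
    (F : Finset (Edge n) → M) :
    ∑ G ∈ realizations d, F (flip b b' G) = ∑ G ∈ realizations d, F G :=
  sum_nbij' (flip b b') (flip b b') (fun _ hG => flip_mem_card hd hb hb' hG)
    (fun _ hG => flip_mem_card hd hb hb' hG) (fun G _ => flip_flip_card hd hb hb' G)
    (fun G _ => flip_flip_card hd hb hb' G) (fun _ _ => rfl)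

/-- the same over the graphs with a matching block -/
lemma sum_flip_Ms {b b' : Finset (Fin n)} (hd : Disjoint b b') (hb : b.card = 2)
    (hb' : b'.card = 2) (d : Fin n → ℕ) {M : Type*} [AddCommMonoid M]
    (F : Finset (Edge n) → M) :
    ∑ G ∈ (realizations d).filter (Ms b b'), F (flip b b' G)
      = ∑ G ∈ (realizations d).filter (Ms b b'), F G := by
  have hm : ∀ G ∈ (realizations d).filter (Ms b b'),
      flip b b' G ∈ (realizations d).filter (Ms b b') := fun G hG =>
    mem_filter.2 ⟨flip_mem_card hd hb hb' (mem_filter.1 hG).1, Ms_flip_card hd hb hb' (mem_filter.1 hG).2⟩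
  exact sum_nbij' (flip b b') (flip b b') hm hm (fun G _ => flip_flip_card hd hb hb' G)
    (fun G _ => flip_flip_card hd hb hb' G) (fun _ _ => rfl)

/-! ### the refined relation `sameOffM` and the operator `P` -/

lemma sameOffM_equivalence (b b' : Finset (Fin n)) : Equivalence (sameOffM b b') :=
  ⟨fun G => ⟨sameOff_refl b G, Iff.rfl⟩, fun h => ⟨sameOff_symm h.1, h.2.symm⟩,
    fun h h' => ⟨sameOff_trans h.1 h'.1, h.2.trans h'.2⟩⟩

lemma equivOn_sameOffM (Ω : Finset (Finset (Edge n))) (b b' : Finset (Fin n)) :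
    EquivOn Ω (sameOffM b b') := EquivOn.of_equivalence (sameOffM_equivalence b b') Ω

lemma sameOff_of_sameOffM {b b' : Finset (Fin n)} {G G' : Finset (Edge n)}
    (h : sameOffM b b' G G') : sameOff b G G' := h.1

lemma P_def (d : Fin n → ℕ) (b b' : Finset (Fin n)) (f : Finset (Edge n) → ℝ)
    (G : Finset (Edge n)) :
    P d b b' f G = (∑ G' ∈ (realizations d).filter (sameOffM b b' G), f G')
      / (((realizations d).filter (sameOffM b b' G)).card : ℝ) := rfl

/-- `P` is constant on the refined classes -/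
lemma P_eq_of_sameOffM (d : Fin n → ℕ) {b b' : Finset (Fin n)} (f : Finset (Edge n) → ℝ)
    {G G' : Finset (Edge n)} (hG : G ∈ realizations d) (hG' : G' ∈ realizations d)
    (h : sameOffM b b' G G') : P d b b' f G = P d b b' f G' :=
  avgOn_eq_of_rel (equivOn_sameOffM _ b b') f hG hG' h

/-- tower: `E_b P_b^s = E_b` on `Ω` -/
lemma E_P (d : Fin n → ℕ) (b b' : Finset (Fin n)) (f : Finset (Edge n) → ℝ)
    {G : Finset (Edge n)} (hG : G ∈ realizations d) : E d b (P d b b' f) G = E d b f G :=
  avgOn_avgOn_of_le (equivOn_sameOffM _ b b') (sameOff_equivOn _ b)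
    (fun _ _ _ _ h => h.1) f hG

/-- tower: `P_b^s E_b = E_b` on `Ω` -/
lemma P_E (d : Fin n → ℕ) (b b' : Finset (Fin n)) (f : Finset (Edge n) → ℝ)
    {G : Finset (Edge n)} (hG : G ∈ realizations d) : P d b b' (E d b f) G = E d b f G :=
  avgOn_avgOn_of_ge (equivOn_sameOffM _ b b') (sameOff_equivOn _ b)
    (fun _ _ _ _ h => h.1) f hG

/-- `P_b^s` and `E_b` kill the `flip`-odd part: `P (f ∘ flip) = P f` on `Ω` -/
lemma P_comp_flip {b b' : Finset (Fin n)} (hd : Disjoint b b') (hb : b.card = 2)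
    (hb' : b'.card = 2) (d : Fin n → ℕ) (f : Finset (Edge n) → ℝ) (G : Finset (Edge n)) :
    P d b b' (fun H => f (flip b b' H)) G = P d b b' f G := by
  rw [P_def, P_def]
  congr 1
  have hm : ∀ H ∈ (realizations d).filter (sameOffM b b' G),
      flip b b' H ∈ (realizations d).filter (sameOffM b b' G) := fun H hH => by
    rw [mem_filter] at hH ⊢
    exact ⟨flip_mem_card hd hb hb' hH.1,
      (sameOffM_equivalence b b').trans hH.2 (sameOffM_flip hd hb hb' H)⟩
  exact sum_nbij' (flip b b') (flip b b') hm hm (fun H _ => flip_flip_card hd hb hb' H)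
    (fun H _ => flip_flip_card hd hb hb' H) (fun _ _ => rfl)

lemma E_comp_flip_left {b b' : Finset (Fin n)} (hd : Disjoint b b') (hb : b.card = 2)
    (hb' : b'.card = 2) (d : Fin n → ℕ) (f : Finset (Edge n) → ℝ) (G : Finset (Edge n)) :
    E d b (fun H => f (flip b b' H)) G = E d b f G := by
  rw [E_def, E_def]
  congr 1
  have hm : ∀ H ∈ (realizations d).filter (sameOff b G),
      flip b b' H ∈ (realizations d).filter (sameOff b G) := fun H hH => by
    rw [mem_filter] at hH ⊢
    exact ⟨flip_mem_card hd hb hb' hH.1, sameOff_trans hH.2 (flip_sameOff_left b b' H)⟩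
  exact sum_nbij' (flip b b') (flip b b') hm hm (fun H _ => flip_flip_card hd hb hb' H)
    (fun H _ => flip_flip_card hd hb hb' H) (fun _ _ => rfl)

lemma E_comp_flip_right {b b' : Finset (Fin n)} (hd : Disjoint b b') (hb : b.card = 2)
    (hb' : b'.card = 2) (d : Fin n → ℕ) (f : Finset (Edge n) → ℝ) (G : Finset (Edge n)) :
    E d b' (fun H => f (flip b b' H)) G = E d b' f G := by
  have h := E_comp_flip_left hd.symm hb' hb d f G
  simpa only [flip_comm b' b] using h

/-! ### the `flip` hypotheses of `sgraph_of_chain` (`CoupleAvg.lean`), verbatim -/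

lemma card_of_mem_pairs {b : Finset (Fin n)} (hb : b ∈ pairs n) : b.card = 2 :=
  (mem_powersetCard.1 hb).2

theorem flip_mem_pairs (d : Fin n → ℕ) : ∀ b ∈ pairs n, ∀ b' ∈ pairs n, Disjoint b b' →
    ∀ G ∈ realizations d, flip b b' G ∈ realizations d :=
  fun _ hb _ hb' hd _ hG => flip_mem_card hd (card_of_mem_pairs hb) (card_of_mem_pairs hb') hG

theorem flip_flip_pairs (d : Fin n → ℕ) : ∀ b ∈ pairs n, ∀ b' ∈ pairs n, Disjoint b b' →
    ∀ G ∈ realizations d, flip b b' (flip b b' G) = G :=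
  fun _ hb _ hb' hd G _ => flip_flip_card hd (card_of_mem_pairs hb) (card_of_mem_pairs hb') G

theorem Ms_flip_pairs (d : Fin n → ℕ) : ∀ b ∈ pairs n, ∀ b' ∈ pairs n, Disjoint b b' →
    ∀ G ∈ realizations d, (Ms b b' (flip b b' G) ↔ Ms b b' G) :=
  fun _ hb _ hb' hd G _ => Ms_flip_iff hd (card_of_mem_pairs hb) (card_of_mem_pairs hb') G

end Crest.Agent.S0453R
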