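import Mathlib
import Crest.Prelude.Def_SwitchChain
import Crest.Agent.S0453.PM
import Crest.Agent.S0453.Adapters

/-!
Row 299 / S0453 (helper58): basic adjacency API on `Finset (Edge n)` used by the couple
coordinates (`CoupleCoords.lean`): `Adj`, extensionality, degree as a neighbour count,
graphs from relations.
-/

set_option autoImplicit false
open Finset

namespace Crest.Agent.S0453R.CC

open Crest.SwitchChain Crest.Agent.S0453R

variable {n : ℕ}

/-- adjacency in the graph with edge set `G` -/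
def Adj (G : Finset (Edge n)) (x y : Fin n) : Prop := ∃ h : x ≠ y, mkE x y h ∈ G

instance (G : Finset (Edge n)) (x y : Fin n) : Decidable (Adj G x y) := by
  unfold Adj; infer_instance

lemma mkE_comm {x y : Fin n} (h : x ≠ y) : mkE x y h = mkE y x h.symm := by
  rw [mkE_eq_iff]; right; exact ⟨rfl, rfl⟩

lemma Adj.ne {G : Finset (Edge n)} {x y : Fin n} (h : Adj G x y) : x ≠ y := h.1

lemma Adj.symm {G : Finset (Edge n)} {x y : Fin n} (h : Adj G x y) : Adj G y x := by
  obtain ⟨hne, hm⟩ := h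
  exact ⟨hne.symm, by rwa [← mkE_comm hne]⟩

lemma adj_comm {G : Finset (Edge n)} {x y : Fin n} : Adj G x y ↔ Adj G y x :=
  ⟨Adj.symm, Adj.symm⟩

lemma not_adj_self {G : Finset (Edge n)} {x : Fin n} : ¬ Adj G x x := fun h => h.1 rfl

lemma mkE_mem_iff {G : Finset (Edge n)} {x y : Fin n} (h : x ≠ y) : mkE x y h ∈ G ↔ Adj G x y :=
  ⟨fun hm => ⟨h, hm⟩, fun ⟨_, hm⟩ => hm⟩

lemma edge_cases (e : Edge n) : ∃ (x y : Fin n) (h : x ≠ y), e = mkE x y h := by
  obtain ⟨e, he⟩ := e
  induction e using Sym2.ind with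
  | _ x y =>
    have hxy : x ≠ y := by simpa using he
    exact ⟨x, y, hxy, rfl⟩

lemma graph_ext {G G' : Finset (Edge n)} (h : ∀ x y, Adj G x y ↔ Adj G' x y) : G = G' := by
  ext e
  obtain ⟨x, y, hxy, rfl⟩ := edge_cases e
  rw [mkE_mem_iff, mkE_mem_iff]
  exact h x y

/-- the degree is the number of neighbours -/
lemma deg_eq (G : Finset (Edge n)) (v : Fin n) :
    deg G v = (univ.filter fun w => Adj G v w).card := by
  unfold deg
  symm
  refine card_bij (fun w hw => mkE v w (mem_filter.mp hw).2.ne) ?_ ?_ ?_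
  · intro w hw
    have := (mem_filter.mp hw).2
    rw [mem_filter]
    exact ⟨this.2, by simp⟩
  · intro w hw w' hw' heq
    have h1 := (mem_filter.mp hw).2.ne
    rw [mkE_eq_iff] at heq
    rcases heq with ⟨-, h⟩ | ⟨h, h'⟩
    · exact h
    · exact absurd h'.symm h1
  · intro e he
    rw [mem_filter] at he
    obtain ⟨x, y, hxy, rfl⟩ := edge_cases e
    have hv : v = x ∨ v = y := by simpa using he.2
    rcases hv with rfl | rfl
    · exact ⟨y, mem_filter.mpr ⟨mem_univ _, ⟨hxy, he.1⟩⟩, rfl⟩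
    · refine ⟨x, mem_filter.mpr ⟨mem_univ _, ⟨hxy.symm, ?_⟩⟩, ?_⟩
      · rw [← mkE_comm hxy]; exact he.1
      · exact (mkE_comm hxy).symm

lemma mem_realizations_iff {d : Fin n → ℕ} {G : Finset (Edge n)} :
    G ∈ realizations d ↔ ∀ v, (univ.filter fun w => Adj G v w).card = d v := by
  unfold realizations
  rw [mem_filter]
  simp only [mem_univ, true_and, deg_eq]

/-- the graph of a relation (symmetrised, off the diagonal) -/
def ofRel (r : Fin n → Fin n → Prop) [DecidableRel r] : Finset (Edge n) :=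
  univ.filter fun e => ∃ x y, e.1 = s(x, y) ∧ r x y

lemma adj_ofRel (r : Fin n → Fin n → Prop) [DecidableRel r] (x y : Fin n) :
    Adj (ofRel r) x y ↔ x ≠ y ∧ (r x y ∨ r y x) := by
  constructor
  · rintro ⟨hne, hm⟩
    refine ⟨hne, ?_⟩
    unfold ofRel at hm
    rw [mem_filter] at hm
    obtain ⟨-, x', y', he, hr⟩ := hm
    have : s(x, y) = s(x', y') := he
    rw [Sym2.eq_iff] at this
    rcases this with ⟨rfl, rfl⟩ | ⟨rfl, rfl⟩
    · exact Or.inl hr
    · exact Or.inr hr
  · rintro ⟨hne, hr⟩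
    refine ⟨hne, ?_⟩
    unfold ofRel
    rw [mem_filter]
    refine ⟨mem_univ _, ?_⟩
    rcases hr with hr | hr
    · exact ⟨x, y, rfl, hr⟩
    · exact ⟨y, x, Sym2.eq_swap, hr⟩

end Crest.Agent.S0453R.CC
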