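import Mathlib
import Crest.Prelude.Def_SwitchChain
import Crest.Agent.S0453.PM
import Crest.Agent.S0453.Adapters
import Crest.Agent.S0453.CoupleBasics
import Crest.Agent.S0453.CoupleDefs

/-!
Row 299 / S0453 (helper58): coordinates of one couple `s = ({a,a'},{c,c'})`
(graph half of Lemma C + Lemma S of board post 956).

For a graph `G` on `Fin n` and four distinct vertices `a a' c c'`:
* `mb s G`  : the four block bits `(ac, ac', a'c, a'c')`;
* `xs s G`  : the outside vertices adjacent to `a` and not to `a'`;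
* `zs s G`  : the outside vertices adjacent to `c` and not to `c'`;
* `rho s G` : everything else.
-/

set_option autoImplicit false
set_option linter.unusedSimpArgs false
open Finset

namespace Crest.Agent.S0453R.CC

open Crest.SwitchChain Crest.Agent.S0453R

variable {n : ℕ}

/-- four distinct vertices `a a' c c'`: the couple of the pairs `{a,a'}` and `{c,c'}` -/
structure Couple (n : ℕ) where
  a : Fin n
  a' : Fin n
  c : Fin n
  c' : Fin n
  haa' : a ≠ a'
  hac : a ≠ c
  hac' : a ≠ c'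
  ha'c : a' ≠ c
  ha'c' : a' ≠ c'
  hcc' : c ≠ c'

namespace Couple

/-- exchange the roles of the two pairs -/
def swap (s : Couple n) : Couple n :=
  ⟨s.c, s.c', s.a, s.a', s.hcc', s.hac.symm, s.ha'c.symm, s.hac'.symm, s.ha'c'.symm, s.haa'⟩

/-- exchange `a` and `a'` -/
def flip (s : Couple n) : Couple n :=
  ⟨s.a', s.a, s.c, s.c', s.haa'.symm, s.ha'c, s.ha'c', s.hac, s.hac', s.hcc'⟩

/-- `w` is none of the four vertices -/
def Out (s : Couple n) (w : Fin n) : Prop := w ≠ s.a ∧ w ≠ s.a' ∧ w ≠ s.c ∧ w ≠ s.c'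

instance (s : Couple n) (w : Fin n) : Decidable (s.Out w) := by unfold Out; infer_instance

lemma out_swap (s : Couple n) (w : Fin n) : s.swap.Out w ↔ s.Out w := by
  unfold Out swap; tauto

lemma out_flip (s : Couple n) (w : Fin n) : s.flip.Out w ↔ s.Out w := by
  unfold Out flip; tauto

lemma cases (s : Couple n) (p : Fin n) :
    p = s.a ∨ p = s.a' ∨ p = s.c ∨ p = s.c' ∨ s.Out p := by
  unfold Out; tauto

@[simp] lemma swap_swap (s : Couple n) : s.swap.swap = s := rfl
@[simp] lemma swap_a (s : Couple n) : s.swap.a = s.c := rfl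
@[simp] lemma swap_a' (s : Couple n) : s.swap.a' = s.c' := rfl
@[simp] lemma swap_c (s : Couple n) : s.swap.c = s.a := rfl
@[simp] lemma swap_c' (s : Couple n) : s.swap.c' = s.a' := rfl

end Couple

/-! ### coordinates -/

/-- outside vertices adjacent to both `a` and `a'` -/
def U2 (s : Couple n) (G : Finset (Edge n)) : Finset (Fin n) :=
  univ.filter fun w => s.Out w ∧ Adj G s.a w ∧ Adj G s.a' w

/-- outside vertices adjacent to exactly one of `a`, `a'` (the private columns of the pair) -/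
def U1 (s : Couple n) (G : Finset (Edge n)) : Finset (Fin n) :=
  univ.filter fun w => s.Out w ∧ ¬ (Adj G s.a w ↔ Adj G s.a' w)

/-- outside vertices adjacent to `a` and not to `a'` -/
def xs (s : Couple n) (G : Finset (Edge n)) : Finset (Fin n) :=
  univ.filter fun w => s.Out w ∧ Adj G s.a w ∧ ¬ Adj G s.a' w

/-- adjacency among outside vertices -/
def outPairs (s : Couple n) (G : Finset (Edge n)) : Finset (Fin n × Fin n) :=
  univ.filter fun pq => s.Out pq.1 ∧ s.Out pq.2 ∧ Adj G pq.1 pq.2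

/-- the block bits `(ac, ac', a'c, a'c')` -/
def mb (s : Couple n) (G : Finset (Edge n)) : Bool × Bool × Bool × Bool :=
  (decide (Adj G s.a s.c), decide (Adj G s.a s.c'), decide (Adj G s.a' s.c),
    decide (Adj G s.a' s.c'))

abbrev V2 (s : Couple n) (G : Finset (Edge n)) : Finset (Fin n) := U2 s.swap G
abbrev V1 (s : Couple n) (G : Finset (Edge n)) : Finset (Fin n) := U1 s.swap G
abbrev zs (s : Couple n) (G : Finset (Edge n)) : Finset (Fin n) := xs s.swap G

/-- everything except the block, and the splits of the private columns -/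
def rho (s : Couple n) (G : Finset (Edge n)) :
    Finset (Fin n × Fin n) × Bool × Bool × Finset (Fin n) × Finset (Fin n) ×
      Finset (Fin n) × Finset (Fin n) :=
  (outPairs s G, decide (Adj G s.a s.a'), decide (Adj G s.c s.c'), U2 s G, U1 s G,
    V2 s G, V1 s G)

lemma mem_U2 {s : Couple n} {G : Finset (Edge n)} {w : Fin n} :
    w ∈ U2 s G ↔ s.Out w ∧ Adj G s.a w ∧ Adj G s.a' w := by simp [U2]

lemma mem_U1 {s : Couple n} {G : Finset (Edge n)} {w : Fin n} :
    w ∈ U1 s G ↔ s.Out w ∧ ¬ (Adj G s.a w ↔ Adj G s.a' w) := by simp [U1]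

lemma mem_xs {s : Couple n} {G : Finset (Edge n)} {w : Fin n} :
    w ∈ xs s G ↔ s.Out w ∧ Adj G s.a w ∧ ¬ Adj G s.a' w := by simp [xs]

lemma mem_outPairs {s : Couple n} {G : Finset (Edge n)} {p q : Fin n} :
    (p, q) ∈ outPairs s G ↔ s.Out p ∧ s.Out q ∧ Adj G p q := by simp [outPairs]

lemma xs_subset_U1 (s : Couple n) (G : Finset (Edge n)) : xs s G ⊆ U1 s G := by
  intro w hw
  rw [mem_xs] at hw
  rw [mem_U1]
  exact ⟨hw.1, fun h => hw.2.2 (h.mp hw.2.1)⟩

lemma outPairs_swap (s : Couple n) (G : Finset (Edge n)) : outPairs s.swap G = outPairs s G := by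
  ext ⟨p, q⟩
  simp only [mem_outPairs, Couple.out_swap]

/-- decoding: adjacency of `a` to an outside vertex -/
lemma adj_a_iff {s : Couple n} {G : Finset (Edge n)} {w : Fin n} (hw : s.Out w) :
    Adj G s.a w ↔ w ∈ U2 s G ∨ w ∈ xs s G := by
  rw [mem_U2, mem_xs]; tauto

/-- decoding: adjacency of `a'` to an outside vertex -/
lemma adj_a'_iff {s : Couple n} {G : Finset (Edge n)} {w : Fin n} (hw : s.Out w) :
    Adj G s.a' w ↔ w ∈ U2 s G ∨ (w ∈ U1 s G ∧ w ∉ xs s G) := by
  rw [mem_U2, mem_xs, mem_U1]; tauto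

lemma adj_c_iff {s : Couple n} {G : Finset (Edge n)} {w : Fin n} (hw : s.Out w) :
    Adj G s.c w ↔ w ∈ V2 s G ∨ w ∈ zs s G :=
  adj_a_iff (s := s.swap) ((s.out_swap w).mpr hw)

lemma adj_c'_iff {s : Couple n} {G : Finset (Edge n)} {w : Fin n} (hw : s.Out w) :
    Adj G s.c' w ↔ w ∈ V2 s G ∨ (w ∈ V1 s G ∧ w ∉ zs s G) :=
  adj_a'_iff (s := s.swap) ((s.out_swap w).mpr hw)

/-- two graphs agree as soon as they agree on the eleven kinds of slots -/
lemma adj_iff_of_core (s : Couple n) {G G' : Finset (Edge n)}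
    (h1 : ∀ p q, s.Out p → s.Out q → (Adj G p q ↔ Adj G' p q))
    (h2 : Adj G s.a s.a' ↔ Adj G' s.a s.a')
    (h3 : Adj G s.c s.c' ↔ Adj G' s.c s.c')
    (h4 : Adj G s.a s.c ↔ Adj G' s.a s.c)
    (h5 : Adj G s.a s.c' ↔ Adj G' s.a s.c')
    (h6 : Adj G s.a' s.c ↔ Adj G' s.a' s.c)
    (h7 : Adj G s.a' s.c' ↔ Adj G' s.a' s.c')
    (h8 : ∀ w, s.Out w → (Adj G s.a w ↔ Adj G' s.a w))
    (h9 : ∀ w, s.Out w → (Adj G s.a' w ↔ Adj G' s.a' w))
    (h10 : ∀ w, s.Out w → (Adj G s.c w ↔ Adj G' s.c w))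
    (h11 : ∀ w, s.Out w → (Adj G s.c' w ↔ Adj G' s.c' w)) :
    ∀ x y, Adj G x y ↔ Adj G' x y := by
  intro x y
  have hs : ∀ {H : Finset (Edge n)} {u v : Fin n}, Adj H u v ↔ Adj H v u := adj_comm
  rcases s.cases x with rfl | rfl | rfl | rfl | hx <;>
    rcases s.cases y with rfl | rfl | rfl | rfl | hy
  · simp [not_adj_self]
  · exact h2
  · exact h4
  · exact h5
  · exact h8 y hy
  · exact hs.trans (h2.trans hs)
  · simp [not_adj_self]
  · exact h6
  · exact h7
  · exact h9 y hy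
  · exact hs.trans (h4.trans hs)
  · exact hs.trans (h6.trans hs)
  · simp [not_adj_self]
  · exact h3
  · exact h10 y hy
  · exact hs.trans (h5.trans hs)
  · exact hs.trans (h7.trans hs)
  · exact hs.trans (h3.trans hs)
  · simp [not_adj_self]
  · exact h11 y hy
  · exact hs.trans ((h8 x hx).trans hs)
  · exact hs.trans ((h9 x hx).trans hs)
  · exact hs.trans ((h10 x hx).trans hs)
  · exact hs.trans ((h11 x hx).trans hs)
  · exact h1 x y hx hy

/-- **(inj)** the coordinates determine the graph -/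
theorem coords_inj (s : Couple n) {G G' : Finset (Edge n)}
    (hr : rho s G = rho s G') (hm : mb s G = mb s G') (hx : xs s G = xs s G')
    (hz : zs s G = zs s G') : G = G' := by
  apply graph_ext
  simp only [rho, mb, Prod.mk.injEq, decide_eq_decide] at hr hm
  obtain ⟨ho, haa, hcc, hU2, hU1, hV2, hV1⟩ := hr
  obtain ⟨m1, m2, m3, m4⟩ := hm
  refine adj_iff_of_core s ?_ haa hcc m1 m2 m3 m4 ?_ ?_ ?_ ?_
  · intro p q hp hq
    have := mem_outPairs (s := s) (G := G) (p := p) (q := q)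
    have h' := mem_outPairs (s := s) (G := G') (p := p) (q := q)
    rw [ho] at this
    have e := this.symm.trans h'
    exact ⟨fun h => (e.mp ⟨hp, hq, h⟩).2.2, fun h => (e.mpr ⟨hp, hq, h⟩).2.2⟩
  · intro w hw
    rw [adj_a_iff hw, adj_a_iff hw, hU2, hx]
  · intro w hw
    rw [adj_a'_iff hw, adj_a'_iff hw, hU2, hU1, hx]
  · intro w hw
    rw [adj_c_iff hw, adj_c_iff hw, hV2, hz]
  · intro w hw
    rw [adj_c'_iff hw, adj_c'_iff hw, hV2, hV1, hz]


/-! ### degrees in coordinates -/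

/-- indicator of a proposition -/
noncomputable def ind (p : Prop) : ℕ := by classical exact if p then 1 else 0

lemma ind_congr {p q : Prop} (h : p ↔ q) : ind p = ind q := by rw [propext h]

lemma ind_pos {p : Prop} (h : p) : ind p = 1 := by unfold ind; simp [h]

lemma ind_neg {p : Prop} (h : ¬ p) : ind p = 0 := by unfold ind; simp [h]

lemma ind_eq_ite (p : Prop) [Decidable p] : ind p = if p then 1 else 0 := by
  by_cases h : p
  · rw [ind_pos h, if_pos h]
  · rw [ind_neg h, if_neg h]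

/-- number of neighbours -/
def nb (G : Finset (Edge n)) (v : Fin n) : ℕ := (univ.filter fun w => Adj G v w).card

lemma not_out_a (s : Couple n) : ¬ s.Out s.a := fun h => h.1 rfl
lemma not_out_a' (s : Couple n) : ¬ s.Out s.a' := fun h => h.2.1 rfl
lemma not_out_c (s : Couple n) : ¬ s.Out s.c := fun h => h.2.2.1 rfl
lemma not_out_c' (s : Couple n) : ¬ s.Out s.c' := fun h => h.2.2.2 rfl

/-- splitting the neighbour count of `v` over the four vertices and the outside -/
lemma nb_split (s : Couple n) (H : Finset (Edge n)) (v : Fin n) :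
    nb H v = ind (Adj H v s.a) + ind (Adj H v s.a') + ind (Adj H v s.c) + ind (Adj H v s.c')
      + (univ.filter fun w => s.Out w ∧ Adj H v w).card := by
  unfold nb
  rw [ind_eq_ite, ind_eq_ite, ind_eq_ite, ind_eq_ite, card_filter, card_filter]
  set T : Finset (Fin n) := {s.a, s.a', s.c, s.c'} with hT
  rw [← Finset.sum_add_sum_compl T]
  have h1 : ∑ i ∈ T, (if Adj H v i then 1 else 0)
      = (if Adj H v s.a then 1 else 0) + (if Adj H v s.a' then 1 else 0)
        + (if Adj H v s.c then 1 else 0) + (if Adj H v s.c' then 1 else 0) := by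
    rw [hT, sum_insert, sum_insert, sum_insert, sum_singleton]
    · ring
    · simp [s.hcc']
    · simp [s.ha'c, s.ha'c']
    · simp [s.haa', s.hac, s.hac']
  have h2 : ∑ i ∈ Tᶜ, (if Adj H v i then 1 else 0)
      = ∑ i, (if s.Out i ∧ Adj H v i then 1 else 0) := by
    have hTc : Tᶜ = univ.filter fun w => s.Out w := by
      ext w
      simp only [hT, mem_compl, mem_insert, mem_singleton, mem_filter, mem_univ, true_and,
        Couple.Out]
      tauto
    rw [hTc, sum_filter]
    refine sum_congr rfl fun i _ => ?_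
    by_cases ho : s.Out i <;> simp [ho]
  rw [h1, h2]

lemma nb_a (s : Couple n) (H : Finset (Edge n)) :
    nb H s.a = ind (Adj H s.a s.a') + ind (Adj H s.a s.c) + ind (Adj H s.a s.c')
      + (U2 s H).card + (xs s H).card := by
  rw [nb_split s H s.a]
  have h0 : ind (Adj H s.a s.a) = 0 := ind_neg not_adj_self
  have h1 : (univ.filter fun w => s.Out w ∧ Adj H s.a w) = U2 s H ∪ xs s H := by
    ext w
    simp only [mem_filter, mem_univ, true_and, mem_union, mem_U2, mem_xs]
    tauto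
  have h2 : Disjoint (U2 s H) (xs s H) := by
    rw [disjoint_left]
    intro w hw hw'
    rw [mem_U2] at hw
    rw [mem_xs] at hw'
    exact hw'.2.2 hw.2.2
  rw [h0, h1, card_union_of_disjoint h2]
  ring

lemma nb_a' (s : Couple n) (H : Finset (Edge n)) :
    nb H s.a' + (xs s H).card = ind (Adj H s.a s.a') + ind (Adj H s.a' s.c)
      + ind (Adj H s.a' s.c') + (U2 s H).card + (U1 s H).card := by
  rw [nb_split s H s.a']
  have h0 : ind (Adj H s.a' s.a') = 0 := ind_neg not_adj_self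
  have h00 : ind (Adj H s.a' s.a) = ind (Adj H s.a s.a') := ind_congr adj_comm
  have h1 : (univ.filter fun w => s.Out w ∧ Adj H s.a' w) = U2 s H ∪ (U1 s H \ xs s H) := by
    ext w
    simp only [mem_filter, mem_univ, true_and, mem_union, mem_U2, mem_xs, mem_sdiff, mem_U1]
    tauto
  have h2 : Disjoint (U2 s H) (U1 s H \ xs s H) := by
    rw [disjoint_left]
    intro w hw hw'
    rw [mem_U2] at hw
    rw [mem_sdiff, mem_U1] at hw'
    exact hw'.1.2 ⟨fun _ => hw.2.2, fun _ => hw.2.1⟩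
  have h3 := card_sdiff_add_card_eq_card (xs_subset_U1 s H)
  rw [h0, h00, h1, card_union_of_disjoint h2]
  omega

lemma nb_c (s : Couple n) (H : Finset (Edge n)) :
    nb H s.c = ind (Adj H s.c s.c') + ind (Adj H s.a s.c) + ind (Adj H s.a' s.c)
      + (V2 s H).card + (zs s H).card := by
  have h : nb H s.c = ind (Adj H s.c s.c') + ind (Adj H s.c s.a) + ind (Adj H s.c s.a')
      + (V2 s H).card + (zs s H).card := nb_a s.swap H
  rw [h, ind_congr (adj_comm (x := s.c) (y := s.a)), ind_congr (adj_comm (x := s.c) (y := s.a'))]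

lemma nb_c' (s : Couple n) (H : Finset (Edge n)) :
    nb H s.c' + (zs s H).card = ind (Adj H s.c s.c') + ind (Adj H s.a s.c')
      + ind (Adj H s.a' s.c') + (V2 s H).card + (V1 s H).card := by
  have h : nb H s.c' + (zs s H).card = ind (Adj H s.c s.c') + ind (Adj H s.c' s.a)
      + ind (Adj H s.c' s.a') + (V2 s H).card + (V1 s H).card := nb_a' s.swap H
  rw [h, ind_congr (adj_comm (x := s.c') (y := s.a)),
    ind_congr (adj_comm (x := s.c') (y := s.a'))]

/-- the pair sum `[aw] + [a'w]` of an outside vertex -/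
lemma pair_sum_out (s : Couple n) (H : Finset (Edge n)) {w : Fin n} (hw : s.Out w) :
    ind (Adj H w s.a) + ind (Adj H w s.a') = 2 * ind (w ∈ U2 s H) + ind (w ∈ U1 s H) := by
  rw [ind_congr (adj_comm (x := w) (y := s.a)), ind_congr (adj_comm (x := w) (y := s.a'))]
  by_cases h1 : Adj H s.a w <;> by_cases h2 : Adj H s.a' w
  · have e1 : w ∈ U2 s H := mem_U2.mpr ⟨hw, h1, h2⟩
    have e2 : w ∉ U1 s H := fun h => (mem_U1.mp h).2 ⟨fun _ => h2, fun _ => h1⟩
    rw [ind_pos h1, ind_pos h2, ind_pos e1, ind_neg e2]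
  · have e1 : w ∉ U2 s H := fun h => h2 (mem_U2.mp h).2.2
    have e2 : w ∈ U1 s H := mem_U1.mpr ⟨hw, fun h => h2 (h.mp h1)⟩
    rw [ind_pos h1, ind_neg h2, ind_neg e1, ind_pos e2]
  · have e1 : w ∉ U2 s H := fun h => h1 (mem_U2.mp h).2.1
    have e2 : w ∈ U1 s H := mem_U1.mpr ⟨hw, fun h => h1 (h.mpr h2)⟩
    rw [ind_neg h1, ind_pos h2, ind_neg e1, ind_pos e2]
  · have e1 : w ∉ U2 s H := fun h => h1 (mem_U2.mp h).2.1
    have e2 : w ∉ U1 s H := fun h => (mem_U1.mp h).2 ⟨fun h' => absurd h' h1, fun h' => absurd h' h2⟩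
    rw [ind_neg h1, ind_neg h2, ind_neg e1, ind_neg e2]

lemma nb_out (s : Couple n) (H : Finset (Edge n)) {w : Fin n} (hw : s.Out w) :
    nb H w = 2 * ind (w ∈ U2 s H) + ind (w ∈ U1 s H) + 2 * ind (w ∈ V2 s H) + ind (w ∈ V1 s H)
      + (univ.filter fun q => (w, q) ∈ outPairs s H).card := by
  rw [nb_split s H w]
  have h1 := pair_sum_out s H hw
  have h2 : ind (Adj H w s.c) + ind (Adj H w s.c') = 2 * ind (w ∈ V2 s H) + ind (w ∈ V1 s H) :=
    pair_sum_out s.swap H ((s.out_swap w).mpr hw)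
  have h3 : (univ.filter fun q => s.Out q ∧ Adj H w q)
      = (univ.filter fun q => (w, q) ∈ outPairs s H) := by
    ext q
    simp only [mem_filter, mem_univ, true_and, mem_outPairs]
    tauto
  rw [h3]
  omega

/-- the four block bits as numbers -/
def bn (b : Bool) : ℕ := if b then 1 else 0

lemma bn_decide (p : Prop) [Decidable p] : bn (decide p) = ind p := by
  rw [ind_eq_ite]; unfold bn; simp

/-- row sum of the block at `a` -/
def rowA (m : Bool × Bool × Bool × Bool) : ℕ := bn m.1 + bn m.2.1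
/-- row sum of the block at `a'` -/
def rowA' (m : Bool × Bool × Bool × Bool) : ℕ := bn m.2.2.1 + bn m.2.2.2
/-- column sum of the block at `c` -/
def colC (m : Bool × Bool × Bool × Bool) : ℕ := bn m.1 + bn m.2.2.1
/-- column sum of the block at `c'` -/
def colC' (m : Bool × Bool × Bool × Bool) : ℕ := bn m.2.1 + bn m.2.2.2
/-- number of edges of the block -/
def msum (m : Bool × Bool × Bool × Bool) : ℕ := bn m.1 + bn m.2.1 + bn m.2.2.1 + bn m.2.2.2

lemma rowA_add_rowA' (m : Bool × Bool × Bool × Bool) : rowA m + rowA' m = msum m := by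
  unfold rowA rowA' msum; ring

lemma colC_add_colC' (m : Bool × Bool × Bool × Bool) : colC m + colC' m = msum m := by
  unfold colC colC' msum; ring

lemma nb_a_coord (s : Couple n) (H : Finset (Edge n)) :
    nb H s.a = ind (Adj H s.a s.a') + rowA (mb s H) + (U2 s H).card + (xs s H).card := by
  rw [nb_a]; simp only [rowA, mb, bn_decide]; ring

lemma nb_a'_coord (s : Couple n) (H : Finset (Edge n)) :
    nb H s.a' + (xs s H).card
      = ind (Adj H s.a s.a') + rowA' (mb s H) + (U2 s H).card + (U1 s H).card := by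
  rw [nb_a']; simp only [rowA', mb, bn_decide]; ring

lemma nb_c_coord (s : Couple n) (H : Finset (Edge n)) :
    nb H s.c = ind (Adj H s.c s.c') + colC (mb s H) + (V2 s H).card + (zs s H).card := by
  rw [nb_c]; simp only [colC, mb, bn_decide]; ring

lemma nb_c'_coord (s : Couple n) (H : Finset (Edge n)) :
    nb H s.c' + (zs s H).card
      = ind (Adj H s.c s.c') + colC' (mb s H) + (V2 s H).card + (V1 s H).card := by
  rw [nb_c']; simp only [colC', mb, bn_decide]; ring


/-! ### degrees are determined by the coordinates -/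

lemma nb_eq_card (G : Finset (Edge n)) (v : Fin n) :
    nb G v = (univ.filter fun w => Adj G v w).card := rfl

lemma mem_realizations_iff_nb {d : Fin n → ℕ} {G : Finset (Edge n)} :
    G ∈ realizations d ↔ ∀ v, nb G v = d v := mem_realizations_iff

/-- same `rho`, same block count, same `x`- and `z`-constraints: same neighbour counts -/
theorem nb_eq_of_coords (s : Couple n) {G G' : Finset (Edge n)}
    (hr : rho s G = rho s G') (hm : msum (mb s G) = msum (mb s G'))
    (hx : (xs s G).card + rowA (mb s G) = (xs s G').card + rowA (mb s G'))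
    (hz : (zs s G).card + colC (mb s G) = (zs s G').card + colC (mb s G')) :
    ∀ v, nb G v = nb G' v := by
  simp only [rho, Prod.mk.injEq, decide_eq_decide] at hr
  obtain ⟨ho, haa, hcc, hU2, hU1, hV2, hV1⟩ := hr
  have iaa : ind (Adj G s.a s.a') = ind (Adj G' s.a s.a') := ind_congr haa
  have icc : ind (Adj G s.c s.c') = ind (Adj G' s.c s.c') := ind_congr hcc
  have r1 := rowA_add_rowA' (mb s G)
  have r2 := rowA_add_rowA' (mb s G')
  have c1 := colC_add_colC' (mb s G)
  have c2 := colC_add_colC' (mb s G')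
  intro v
  rcases s.cases v with rfl | rfl | rfl | rfl | hv
  · rw [nb_a_coord, nb_a_coord, iaa, hU2]; omega
  · have e1 := nb_a'_coord s G
    have e2 := nb_a'_coord s G'
    rw [iaa, hU2, hU1] at e1
    omega
  · rw [nb_c_coord, nb_c_coord, icc, hV2]; omega
  · have e1 := nb_c'_coord s G
    have e2 := nb_c'_coord s G'
    rw [icc, hV2, hV1] at e1
    omega
  · rw [nb_out s G hv, nb_out s G' hv, hU2, hU1, hV2, hV1, ho]

/-- **(full, ⊆)** inside `Ω`, the block count and the `x`- and `z`-constraints are functions of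
`rho` -/
theorem coords_constraints (s : Couple n) {d : Fin n → ℕ} {G G' : Finset (Edge n)}
    (hG : G ∈ realizations d) (hG' : G' ∈ realizations d) (hr : rho s G = rho s G') :
    msum (mb s G) = msum (mb s G') ∧
      (xs s G).card + rowA (mb s G) = (xs s G').card + rowA (mb s G') ∧
      (zs s G).card + colC (mb s G) = (zs s G').card + colC (mb s G') := by
  rw [mem_realizations_iff_nb] at hG hG'
  simp only [rho, Prod.mk.injEq, decide_eq_decide] at hr
  obtain ⟨ho, haa, hcc, hU2, hU1, hV2, hV1⟩ := hr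
  have iaa : ind (Adj G s.a s.a') = ind (Adj G' s.a s.a') := ind_congr haa
  have icc : ind (Adj G s.c s.c') = ind (Adj G' s.c s.c') := ind_congr hcc
  have r1 := rowA_add_rowA' (mb s G)
  have r2 := rowA_add_rowA' (mb s G')
  have a1 := nb_a_coord s G
  have a2 := nb_a_coord s G'
  have a1' := nb_a'_coord s G
  have a2' := nb_a'_coord s G'
  have k1 := nb_c_coord s G
  have k2 := nb_c_coord s G'
  rw [hG] at a1 a1' k1
  rw [hG'] at a2 a2' k2
  rw [iaa, hU2] at a1
  rw [iaa, hU2, hU1] at a1'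
  rw [icc, hV2] at k1
  refine ⟨?_, ?_, ?_⟩ <;> omega

/-! ### the graph with prescribed coordinates -/

/-- the relation defining the graph with block `m'`, splits `x'`, `z'` and the rest as in `G₀` -/
def newRel (s : Couple n) (G₀ : Finset (Edge n)) (m' : Bool × Bool × Bool × Bool)
    (x' z' : Finset (Fin n)) (p q : Fin n) : Prop :=
  (s.Out p ∧ s.Out q ∧ Adj G₀ p q) ∨
  (p = s.a ∧ q = s.a' ∧ Adj G₀ s.a s.a') ∨
  (p = s.c ∧ q = s.c' ∧ Adj G₀ s.c s.c') ∨
  (p = s.a ∧ q = s.c ∧ m'.1 = true) ∨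
  (p = s.a ∧ q = s.c' ∧ m'.2.1 = true) ∨
  (p = s.a' ∧ q = s.c ∧ m'.2.2.1 = true) ∨
  (p = s.a' ∧ q = s.c' ∧ m'.2.2.2 = true) ∨
  (p = s.a ∧ s.Out q ∧ (q ∈ U2 s G₀ ∨ q ∈ x')) ∨
  (p = s.a' ∧ s.Out q ∧ (q ∈ U2 s G₀ ∨ (q ∈ U1 s G₀ ∧ q ∉ x'))) ∨
  (p = s.c ∧ s.Out q ∧ (q ∈ V2 s G₀ ∨ q ∈ z')) ∨
  (p = s.c' ∧ s.Out q ∧ (q ∈ V2 s G₀ ∨ (q ∈ V1 s G₀ ∧ q ∉ z')))

instance (s : Couple n) (G₀ : Finset (Edge n)) (m' : Bool × Bool × Bool × Bool)
    (x' z' : Finset (Fin n)) : DecidableRel (newRel s G₀ m' x' z') := fun p q => by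
  unfold newRel; infer_instance

/-- the graph with block `m'`, splits `x'`, `z'` and the rest as in `G₀` -/
def build (s : Couple n) (G₀ : Finset (Edge n)) (m' : Bool × Bool × Bool × Bool)
    (x' z' : Finset (Fin n)) : Finset (Edge n) :=
  ofRel (newRel s G₀ m' x' z')

section build

variable (s : Couple n) (G₀ : Finset (Edge n)) (m' : Bool × Bool × Bool × Bool)
  (x' z' : Finset (Fin n))

lemma ne_a'_a : s.a' ≠ s.a := s.haa'.symm
lemma ne_c_a : s.c ≠ s.a := s.hac.symm
lemma ne_c'_a : s.c' ≠ s.a := s.hac'.symm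
lemma ne_c_a' : s.c ≠ s.a' := s.ha'c.symm
lemma ne_c'_a' : s.c' ≠ s.a' := s.ha'c'.symm
lemma ne_c'_c : s.c' ≠ s.c := s.hcc'.symm

lemma adj_build_out {p q : Fin n} (hp : s.Out p) (hq : s.Out q) :
    Adj (build s G₀ m' x' z') p q ↔ Adj G₀ p q := by
  unfold build
  rw [adj_ofRel]
  have hp' := hp
  have hq' := hq
  obtain ⟨p1, p2, p3, p4⟩ := hp'
  obtain ⟨q1, q2, q3, q4⟩ := hq'
  simp only [newRel, hp, hq, p1, p2, p3, p4, q1, q2, q3, q4, true_and, false_and, or_false,
    false_or]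
  constructor
  · rintro ⟨-, h | h⟩
    · exact h
    · exact h.symm
  · intro h
    exact ⟨h.ne, Or.inl h⟩

lemma adj_build_aa' : Adj (build s G₀ m' x' z') s.a s.a' ↔ Adj G₀ s.a s.a' := by
  unfold build
  rw [adj_ofRel]
  simp only [newRel, not_out_a s, not_out_a' s, not_out_c s, not_out_c' s, s.haa', s.hac, s.hac',
    s.ha'c, s.ha'c', s.hcc', ne_a'_a s, ne_c_a s, ne_c'_a s, ne_c_a' s, ne_c'_a' s, ne_c'_c s,
    false_and, and_false, true_and, and_true, or_false, false_or, ne_eq, not_false_eq_true,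
    or_self]

lemma adj_build_cc' : Adj (build s G₀ m' x' z') s.c s.c' ↔ Adj G₀ s.c s.c' := by
  unfold build
  rw [adj_ofRel]
  simp only [newRel, not_out_a s, not_out_a' s, not_out_c s, not_out_c' s, s.haa', s.hac, s.hac',
    s.ha'c, s.ha'c', s.hcc', ne_a'_a s, ne_c_a s, ne_c'_a s, ne_c_a' s, ne_c'_a' s, ne_c'_c s,
    false_and, and_false, true_and, and_true, or_false, false_or, ne_eq, not_false_eq_true,
    or_self]

lemma adj_build_ac : Adj (build s G₀ m' x' z') s.a s.c ↔ m'.1 = true := by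
  unfold build
  rw [adj_ofRel]
  simp only [newRel, not_out_a s, not_out_a' s, not_out_c s, not_out_c' s, s.haa', s.hac, s.hac',
    s.ha'c, s.ha'c', s.hcc', ne_a'_a s, ne_c_a s, ne_c'_a s, ne_c_a' s, ne_c'_a' s, ne_c'_c s,
    false_and, and_false, true_and, and_true, or_false, false_or, ne_eq, not_false_eq_true,
    or_self]

lemma adj_build_ac' : Adj (build s G₀ m' x' z') s.a s.c' ↔ m'.2.1 = true := by
  unfold build
  rw [adj_ofRel]
  simp only [newRel, not_out_a s, not_out_a' s, not_out_c s, not_out_c' s, s.haa', s.hac, s.hac',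
    s.ha'c, s.ha'c', s.hcc', ne_a'_a s, ne_c_a s, ne_c'_a s, ne_c_a' s, ne_c'_a' s, ne_c'_c s,
    false_and, and_false, true_and, and_true, or_false, false_or, ne_eq, not_false_eq_true,
    or_self]

lemma adj_build_a'c : Adj (build s G₀ m' x' z') s.a' s.c ↔ m'.2.2.1 = true := by
  unfold build
  rw [adj_ofRel]
  simp only [newRel, not_out_a s, not_out_a' s, not_out_c s, not_out_c' s, s.haa', s.hac, s.hac',
    s.ha'c, s.ha'c', s.hcc', ne_a'_a s, ne_c_a s, ne_c'_a s, ne_c_a' s, ne_c'_a' s, ne_c'_c s,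
    false_and, and_false, true_and, and_true, or_false, false_or, ne_eq, not_false_eq_true,
    or_self]

lemma adj_build_a'c' : Adj (build s G₀ m' x' z') s.a' s.c' ↔ m'.2.2.2 = true := by
  unfold build
  rw [adj_ofRel]
  simp only [newRel, not_out_a s, not_out_a' s, not_out_c s, not_out_c' s, s.haa', s.hac, s.hac',
    s.ha'c, s.ha'c', s.hcc', ne_a'_a s, ne_c_a s, ne_c'_a s, ne_c_a' s, ne_c'_a' s, ne_c'_c s,
    false_and, and_false, true_and, and_true, or_false, false_or, ne_eq, not_false_eq_true,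
    or_self]

lemma adj_build_a_out {w : Fin n} (hw : s.Out w) :
    Adj (build s G₀ m' x' z') s.a w ↔ w ∈ U2 s G₀ ∨ w ∈ x' := by
  unfold build
  rw [adj_ofRel]
  obtain ⟨w1, w2, w3, w4⟩ := id hw
  simp only [newRel, not_out_a s, not_out_a' s, not_out_c s, not_out_c' s, s.haa', s.hac, s.hac',
    s.ha'c, s.ha'c', s.hcc', ne_a'_a s, ne_c_a s, ne_c'_a s, ne_c_a' s, ne_c'_a' s, ne_c'_c s,
    hw, w1, w2, w3, w4, Ne.symm w1, Ne.symm w2, Ne.symm w3, Ne.symm w4,
    false_and, and_false, true_and, and_true, or_false, false_or, ne_eq, not_false_eq_true,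
    or_self]

lemma adj_build_a'_out {w : Fin n} (hw : s.Out w) :
    Adj (build s G₀ m' x' z') s.a' w ↔ w ∈ U2 s G₀ ∨ (w ∈ U1 s G₀ ∧ w ∉ x') := by
  unfold build
  rw [adj_ofRel]
  obtain ⟨w1, w2, w3, w4⟩ := id hw
  simp only [newRel, not_out_a s, not_out_a' s, not_out_c s, not_out_c' s, s.haa', s.hac, s.hac',
    s.ha'c, s.ha'c', s.hcc', ne_a'_a s, ne_c_a s, ne_c'_a s, ne_c_a' s, ne_c'_a' s, ne_c'_c s,
    hw, w1, w2, w3, w4, Ne.symm w1, Ne.symm w2, Ne.symm w3, Ne.symm w4,
    false_and, and_false, true_and, and_true, or_false, false_or, ne_eq, not_false_eq_true,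
    or_self]

lemma adj_build_c_out {w : Fin n} (hw : s.Out w) :
    Adj (build s G₀ m' x' z') s.c w ↔ w ∈ V2 s G₀ ∨ w ∈ z' := by
  unfold build
  rw [adj_ofRel]
  obtain ⟨w1, w2, w3, w4⟩ := id hw
  simp only [newRel, not_out_a s, not_out_a' s, not_out_c s, not_out_c' s, s.haa', s.hac, s.hac',
    s.ha'c, s.ha'c', s.hcc', ne_a'_a s, ne_c_a s, ne_c'_a s, ne_c_a' s, ne_c'_a' s, ne_c'_c s,
    hw, w1, w2, w3, w4, Ne.symm w1, Ne.symm w2, Ne.symm w3, Ne.symm w4,
    false_and, and_false, true_and, and_true, or_false, false_or, ne_eq, not_false_eq_true,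
    or_self]

lemma adj_build_c'_out {w : Fin n} (hw : s.Out w) :
    Adj (build s G₀ m' x' z') s.c' w ↔ w ∈ V2 s G₀ ∨ (w ∈ V1 s G₀ ∧ w ∉ z') := by
  unfold build
  rw [adj_ofRel]
  obtain ⟨w1, w2, w3, w4⟩ := id hw
  simp only [newRel, not_out_a s, not_out_a' s, not_out_c s, not_out_c' s, s.haa', s.hac, s.hac',
    s.ha'c, s.ha'c', s.hcc', ne_a'_a s, ne_c_a s, ne_c'_a s, ne_c_a' s, ne_c'_a' s, ne_c'_c s,
    hw, w1, w2, w3, w4, Ne.symm w1, Ne.symm w2, Ne.symm w3, Ne.symm w4,
    false_and, and_false, true_and, and_true, or_false, false_or, ne_eq, not_false_eq_true,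
    or_self]

end build


lemma decide_eq_of_iff {p : Prop} [Decidable p] {b : Bool} (h : p ↔ b = true) : decide p = b := by
  cases b
  · simp only [Bool.false_eq_true, iff_false] at h
    simp [h]
  · simp only [iff_true] at h
    simp [h]

lemma U1_disjoint_U2 (s : Couple n) (G : Finset (Edge n)) {w : Fin n} (h1 : w ∈ U1 s G)
    (h2 : w ∈ U2 s G) : False := by
  rw [mem_U1] at h1
  rw [mem_U2] at h2
  exact h1.2 ⟨fun _ => h2.2.2, fun _ => h2.2.1⟩

/-- the `a`-side coordinates of a graph whose rows `a`, `a'` are given by `U2 G₀`, `U1 G₀`, `x'` -/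
lemma side_coords (s : Couple n) (H G₀ : Finset (Edge n)) (x' : Finset (Fin n))
    (hx' : x' ⊆ U1 s G₀)
    (ha : ∀ w, s.Out w → (Adj H s.a w ↔ w ∈ U2 s G₀ ∨ w ∈ x'))
    (ha' : ∀ w, s.Out w → (Adj H s.a' w ↔ w ∈ U2 s G₀ ∨ (w ∈ U1 s G₀ ∧ w ∉ x'))) :
    U2 s H = U2 s G₀ ∧ U1 s H = U1 s G₀ ∧ xs s H = x' := by
  have hout1 : ∀ w, w ∈ U1 s G₀ → s.Out w := fun w hw => (mem_U1.mp hw).1
  have hout2 : ∀ w, w ∈ U2 s G₀ → s.Out w := fun w hw => (mem_U2.mp hw).1
  refine ⟨?_, ?_, ?_⟩
  · ext w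
    constructor
    · intro hw
      rw [mem_U2] at hw
      obtain ⟨ho, h1, h2⟩ := hw
      rw [ha w ho] at h1
      rw [ha' w ho] at h2
      rcases h1 with h1 | h1
      · exact h1
      · rcases h2 with h2 | h2
        · exact h2
        · exact absurd h1 h2.2
    · intro hw
      have ho := hout2 w hw
      rw [mem_U2]
      exact ⟨ho, (ha w ho).mpr (Or.inl hw), (ha' w ho).mpr (Or.inl hw)⟩
  · ext w
    constructor
    · intro hw
      rw [mem_U1] at hw
      obtain ⟨ho, hne⟩ := hw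
      rw [ha w ho, ha' w ho] at hne
      by_contra hcon
      apply hne
      constructor
      · rintro (h | h)
        · exact Or.inl h
        · exact absurd (hx' h) hcon
      · rintro (h | h)
        · exact Or.inl h
        · exact absurd h.1 hcon
    · intro hw
      have ho := hout1 w hw
      rw [mem_U1]
      refine ⟨ho, ?_⟩
      rw [ha w ho, ha' w ho]
      intro hiff
      by_cases hxw : w ∈ x'
      · rcases hiff.mp (Or.inr hxw) with h | h
        · exact U1_disjoint_U2 s G₀ hw h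
        · exact h.2 hxw
      · rcases hiff.mpr (Or.inr ⟨hw, hxw⟩) with h | h
        · exact U1_disjoint_U2 s G₀ hw h
        · exact hxw h
  · ext w
    constructor
    · intro hw
      rw [mem_xs] at hw
      obtain ⟨ho, h1, h2⟩ := hw
      rw [ha w ho] at h1
      rw [ha' w ho] at h2
      rcases h1 with h1 | h1
      · exact absurd (Or.inl h1) h2
      · exact h1
    · intro hw
      have hw1 := hx' hw
      have ho := hout1 w hw1
      rw [mem_xs]
      refine ⟨ho, (ha w ho).mpr (Or.inr hw), ?_⟩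
      rw [ha' w ho]
      rintro (h | h)
      · exact U1_disjoint_U2 s G₀ hw1 h
      · exact h.2 hw

/-- the coordinates of `build` -/
theorem build_coords (s : Couple n) (G₀ : Finset (Edge n)) (m' : Bool × Bool × Bool × Bool)
    (x' z' : Finset (Fin n)) (hx' : x' ⊆ U1 s G₀) (hz' : z' ⊆ V1 s G₀) :
    rho s (build s G₀ m' x' z') = rho s G₀ ∧ mb s (build s G₀ m' x' z') = m' ∧
      xs s (build s G₀ m' x' z') = x' ∧ zs s (build s G₀ m' x' z') = z' := by
  obtain ⟨a1, a2, a3⟩ := side_coords s (build s G₀ m' x' z') G₀ x' hx'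
    (fun w hw => adj_build_a_out s G₀ m' x' z' hw)
    (fun w hw => adj_build_a'_out s G₀ m' x' z' hw)
  obtain ⟨c1, c2, c3⟩ := side_coords s.swap (build s G₀ m' x' z') G₀ z' hz'
    (fun w hw => adj_build_c_out s G₀ m' x' z' ((s.out_swap w).mp hw))
    (fun w hw => adj_build_c'_out s G₀ m' x' z' ((s.out_swap w).mp hw))
  refine ⟨?_, ?_, a3, c3⟩
  · have ho : outPairs s (build s G₀ m' x' z') = outPairs s G₀ := by
      ext ⟨p, q⟩
      rw [mem_outPairs, mem_outPairs]
      constructor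
      · rintro ⟨hp, hq, h⟩
        exact ⟨hp, hq, (adj_build_out s G₀ m' x' z' hp hq).mp h⟩
      · rintro ⟨hp, hq, h⟩
        exact ⟨hp, hq, (adj_build_out s G₀ m' x' z' hp hq).mpr h⟩
    have haa : decide (Adj (build s G₀ m' x' z') s.a s.a') = decide (Adj G₀ s.a s.a') :=
      decide_eq_decide.mpr (adj_build_aa' s G₀ m' x' z')
    have hcc : decide (Adj (build s G₀ m' x' z') s.c s.c') = decide (Adj G₀ s.c s.c') :=
      decide_eq_decide.mpr (adj_build_cc' s G₀ m' x' z')
    unfold rho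
    rw [ho, haa, hcc, a1, a2]
    show (_, _, _, _, _, U2 s.swap _, U1 s.swap _) = _
    rw [c1, c2]
  · unfold mb
    rw [decide_eq_of_iff (adj_build_ac s G₀ m' x' z'), decide_eq_of_iff (adj_build_ac' s G₀ m' x' z'),
      decide_eq_of_iff (adj_build_a'c s G₀ m' x' z'),
      decide_eq_of_iff (adj_build_a'c' s G₀ m' x' z')]

/-- **(full, ⊇)** every admissible coordinate triple is realised in the `rho`-fibre -/
theorem exists_of_coords (s : Couple n) {d : Fin n → ℕ} {G : Finset (Edge n)}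
    (hG : G ∈ realizations d) (m' : Bool × Bool × Bool × Bool) (x' z' : Finset (Fin n))
    (hm : msum m' = msum (mb s G))
    (hx' : x' ⊆ U1 s G) (hxc : x'.card + rowA m' = (xs s G).card + rowA (mb s G))
    (hz' : z' ⊆ V1 s G) (hzc : z'.card + colC m' = (zs s G).card + colC (mb s G)) :
    ∃ G' ∈ realizations d, rho s G' = rho s G ∧ mb s G' = m' ∧ xs s G' = x' ∧ zs s G' = z' := by
  obtain ⟨h1, h2, h3, h4⟩ := build_coords s G m' x' z' hx' hz'
  refine ⟨build s G m' x' z', ?_, h1, h2, h3, h4⟩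
  rw [mem_realizations_iff_nb] at hG ⊢
  intro v
  rw [← hG v]
  apply nb_eq_of_coords s h1
  · rw [h2, hm]
  · rw [h2, h3, hxc]
  · rw [h2, h4, hzc]


/-! ### the pair classes in coordinates -/

/-- `sameOff` in terms of adjacency -/
lemma sameOff_iff_adj (U : Finset (Fin n)) {G G' : Finset (Edge n)} :
    sameOff U G G' ↔ ∀ p q, p ∉ U → q ∉ U → (Adj G p q ↔ Adj G' p q) := by
  constructor
  · intro h p q hp hq
    by_cases hpq : p = q
    · subst hpq
      exact ⟨fun h' => absurd h' not_adj_self, fun h' => absurd h' not_adj_self⟩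
    · have he := h (mkE p q hpq) (by
        intro u hu hmem
        rw [mem_mkE] at hmem
        rcases hmem with rfl | rfl
        · exact hp hu
        · exact hq hu)
      rw [mkE_mem_iff, mkE_mem_iff] at he
      exact he
  · intro h e he
    obtain ⟨x, y, hxy, rfl⟩ := edge_cases e
    rw [mkE_mem_iff, mkE_mem_iff]
    apply h
    · intro hx
      exact he x hx (by rw [mem_mkE]; exact Or.inl rfl)
    · intro hy
      exact he y hy (by rw [mem_mkE]; exact Or.inr rfl)

/-- the pair `{a, a'}` of the couple -/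
def Couple.b (s : Couple n) : Finset (Fin n) := {s.a, s.a'}
/-- the pair `{c, c'}` of the couple -/
def Couple.b' (s : Couple n) : Finset (Fin n) := {s.c, s.c'}

lemma Couple.mem_b (s : Couple n) {p : Fin n} : p ∈ s.b ↔ p = s.a ∨ p = s.a' := by
  simp [Couple.b]

lemma Couple.mem_b' (s : Couple n) {p : Fin n} : p ∈ s.b' ↔ p = s.c ∨ p = s.c' := by
  simp [Couple.b']

lemma Couple.swap_b (s : Couple n) : s.swap.b = s.b' := rfl
lemma Couple.swap_b' (s : Couple n) : s.swap.b' = s.b := rfl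

/-- two graphs with the same outside part, the same slot `cc'` and the same rows `c`, `c'`
outside agree off `{a, a'}` -/
lemma sameOff_b_of (s : Couple n) {G G' : Finset (Edge n)}
    (h1 : ∀ p q, s.Out p → s.Out q → (Adj G p q ↔ Adj G' p q))
    (h3 : Adj G s.c s.c' ↔ Adj G' s.c s.c')
    (h10 : ∀ w, s.Out w → (Adj G s.c w ↔ Adj G' s.c w))
    (h11 : ∀ w, s.Out w → (Adj G s.c' w ↔ Adj G' s.c' w)) :
    sameOff s.b G G' := by
  rw [sameOff_iff_adj]
  intro x y hx hy
  rw [Couple.mem_b, not_or] at hx hy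
  have hs : ∀ {H : Finset (Edge n)} {u v : Fin n}, Adj H u v ↔ Adj H v u := adj_comm
  rcases s.cases x with rfl | rfl | rfl | rfl | hxo
  · exact absurd rfl hx.1
  · exact absurd rfl hx.2
  · rcases s.cases y with rfl | rfl | rfl | rfl | hyo
    · exact absurd rfl hy.1
    · exact absurd rfl hy.2
    · simp [not_adj_self]
    · exact h3
    · exact h10 y hyo
  · rcases s.cases y with rfl | rfl | rfl | rfl | hyo
    · exact absurd rfl hy.1
    · exact absurd rfl hy.2
    · exact hs.trans (h3.trans hs)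
    · simp [not_adj_self]
    · exact h11 y hyo
  · rcases s.cases y with rfl | rfl | rfl | rfl | hyo
    · exact absurd rfl hy.1
    · exact absurd rfl hy.2
    · exact hs.trans ((h10 x hxo).trans hs)
    · exact hs.trans ((h11 x hxo).trans hs)
    · exact h1 x y hxo hyo

lemma out_not_mem_b (s : Couple n) {w : Fin n} (hw : s.Out w) : w ∉ s.b := by
  rw [Couple.mem_b, not_or]; exact ⟨hw.1, hw.2.1⟩

lemma c_not_mem_b (s : Couple n) : s.c ∉ s.b := by
  rw [Couple.mem_b, not_or]; exact ⟨ne_c_a s, ne_c_a' s⟩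

lemma c'_not_mem_b (s : Couple n) : s.c' ∉ s.b := by
  rw [Couple.mem_b, not_or]; exact ⟨ne_c'_a s, ne_c'_a' s⟩

/-- the `c`-side coordinates are constant on `b`-classes (any graphs) -/
lemma cside_of_sameOff_b (s : Couple n) {G G' : Finset (Edge n)} (h : sameOff s.b G G') :
    outPairs s G = outPairs s G' ∧ (Adj G s.c s.c' ↔ Adj G' s.c s.c') ∧
      V2 s G = V2 s G' ∧ V1 s G = V1 s G' ∧ zs s G = zs s G' := by
  rw [sameOff_iff_adj] at h
  have hc : ∀ w, s.Out w → (Adj G s.c w ↔ Adj G' s.c w) := fun w hw =>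
    h _ _ (c_not_mem_b s) (out_not_mem_b s hw)
  have hc' : ∀ w, s.Out w → (Adj G s.c' w ↔ Adj G' s.c' w) := fun w hw =>
    h _ _ (c'_not_mem_b s) (out_not_mem_b s hw)
  refine ⟨?_, h _ _ (c_not_mem_b s) (c'_not_mem_b s), ?_, ?_, ?_⟩
  · ext ⟨p, q⟩
    rw [mem_outPairs, mem_outPairs]
    constructor
    · rintro ⟨hp, hq, hpq⟩
      exact ⟨hp, hq, (h p q (out_not_mem_b s hp) (out_not_mem_b s hq)).mp hpq⟩
    · rintro ⟨hp, hq, hpq⟩
      exact ⟨hp, hq, (h p q (out_not_mem_b s hp) (out_not_mem_b s hq)).mpr hpq⟩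
  · ext w
    show w ∈ U2 s.swap G ↔ w ∈ U2 s.swap G'
    rw [mem_U2, mem_U2]
    constructor
    · rintro ⟨ho, h1, h2⟩
      have ho' := (s.out_swap w).mp ho
      exact ⟨ho, (hc w ho').mp h1, (hc' w ho').mp h2⟩
    · rintro ⟨ho, h1, h2⟩
      have ho' := (s.out_swap w).mp ho
      exact ⟨ho, (hc w ho').mpr h1, (hc' w ho').mpr h2⟩
  · ext w
    show w ∈ U1 s.swap G ↔ w ∈ U1 s.swap G'
    rw [mem_U1, mem_U1]
    constructor
    · rintro ⟨ho, h1⟩
      have ho' := (s.out_swap w).mp ho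
      refine ⟨ho, fun h2 => h1 ?_⟩
      exact (hc w ho').trans (h2.trans (hc' w ho').symm)
    · rintro ⟨ho, h1⟩
      have ho' := (s.out_swap w).mp ho
      refine ⟨ho, fun h2 => h1 ?_⟩
      exact (hc w ho').symm.trans (h2.trans (hc' w ho'))
  · ext w
    show w ∈ xs s.swap G ↔ w ∈ xs s.swap G'
    rw [mem_xs, mem_xs]
    constructor
    · rintro ⟨ho, h1, h2⟩
      have ho' := (s.out_swap w).mp ho
      exact ⟨ho, (hc w ho').mp h1, fun h3 => h2 ((hc' w ho').mpr h3)⟩
    · rintro ⟨ho, h1, h2⟩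
      have ho' := (s.out_swap w).mp ho
      exact ⟨ho, (hc w ho').mpr h1, fun h3 => h2 ((hc' w ho').mp h3)⟩

lemma ind_le_one (p : Prop) : ind p ≤ 1 := by
  by_cases h : p
  · rw [ind_pos h]
  · rw [ind_neg h]; exact Nat.zero_le _

lemma ind_eq_one_iff {p : Prop} : ind p = 1 ↔ p := by
  by_cases h : p
  · rw [ind_pos h]; exact ⟨fun _ => h, fun _ => rfl⟩
  · rw [ind_neg h]; exact ⟨fun h' => absurd h' (by norm_num), fun h' => absurd h' h⟩

lemma ind_eq_iff {p q : Prop} : ind p = ind q ↔ (p ↔ q) := by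
  by_cases hp : p <;> by_cases hq : q
  · rw [ind_pos hp, ind_pos hq]; exact ⟨fun _ => ⟨fun _ => hq, fun _ => hp⟩, fun _ => rfl⟩
  · rw [ind_pos hp, ind_neg hq]
    exact ⟨fun h' => absurd h' (by norm_num), fun h' => absurd (h'.mp hp) hq⟩
  · rw [ind_neg hp, ind_pos hq]
    exact ⟨fun h' => absurd h' (by norm_num), fun h' => absurd (h'.mpr hq) hp⟩
  · rw [ind_neg hp, ind_neg hq]
    exact ⟨fun _ => ⟨fun h' => absurd h' hp, fun h' => absurd h' hq⟩, fun _ => rfl⟩

/-- **(cls, b)** the `b`-class of a realization in coordinates -/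
theorem sameOff_b_iff (s : Couple n) {d : Fin n → ℕ} {G G' : Finset (Edge n)}
    (hG : G ∈ realizations d) (hG' : G' ∈ realizations d) :
    sameOff s.b G G' ↔ rho s G = rho s G' ∧ zs s G = zs s G' ∧
      colC (mb s G) = colC (mb s G') ∧ colC' (mb s G) = colC' (mb s G') := by
  constructor
  · intro h
    obtain ⟨ho, hcc, hV2, hV1, hz⟩ := cside_of_sameOff_b s h
    rw [mem_realizations_iff_nb] at hG hG'
    have icc : ind (Adj G s.c s.c') = ind (Adj G' s.c s.c') := ind_congr hcc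
    -- pair sums of outside vertices
    have hU : ∀ w, s.Out w → (w ∈ U2 s G ↔ w ∈ U2 s G') ∧ (w ∈ U1 s G ↔ w ∈ U1 s G') := by
      intro w hw
      have e1 := nb_out s G hw
      have e2 := nb_out s G' hw
      rw [hG] at e1
      rw [hG', ← hV2, ← hV1, ← ho] at e2
      have key : 2 * ind (w ∈ U2 s G) + ind (w ∈ U1 s G)
          = 2 * ind (w ∈ U2 s G') + ind (w ∈ U1 s G') := by omega
      have b1 := ind_le_one (w ∈ U2 s G)
      have b2 := ind_le_one (w ∈ U1 s G)
      have b3 := ind_le_one (w ∈ U2 s G')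
      have b4 := ind_le_one (w ∈ U1 s G')
      constructor
      · rw [← ind_eq_iff]; omega
      · rw [← ind_eq_iff]; omega
    have hU2 : U2 s G = U2 s G' := by
      ext w
      by_cases hw : s.Out w
      · exact (hU w hw).1
      · constructor
        · intro h'; exact absurd (mem_U2.mp h').1 hw
        · intro h'; exact absurd (mem_U2.mp h').1 hw
    have hU1 : U1 s G = U1 s G' := by
      ext w
      by_cases hw : s.Out w
      · exact (hU w hw).2
      · constructor
        · intro h'; exact absurd (mem_U1.mp h').1 hw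
        · intro h'; exact absurd (mem_U1.mp h').1 hw
    -- column sums
    have k1 := nb_c_coord s G
    have k2 := nb_c_coord s G'
    have k1' := nb_c'_coord s G
    have k2' := nb_c'_coord s G'
    rw [hG] at k1 k1'
    rw [hG', ← icc, ← hV2, ← hz] at k2
    rw [hG', ← icc, ← hV2, ← hV1, ← hz] at k2'
    have hcol : colC (mb s G) = colC (mb s G') := by omega
    have hcol' : colC' (mb s G) = colC' (mb s G') := by omega
    -- the slot aa'
    have a1 := nb_a_coord s G
    have a2 := nb_a_coord s G'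
    have a1' := nb_a'_coord s G
    have a2' := nb_a'_coord s G'
    rw [hG] at a1 a1'
    rw [hG', ← hU2] at a2
    rw [hG', ← hU2, ← hU1] at a2'
    have r1 := rowA_add_rowA' (mb s G)
    have r2 := rowA_add_rowA' (mb s G')
    have c1 := colC_add_colC' (mb s G)
    have c2 := colC_add_colC' (mb s G')
    have iaa : ind (Adj G s.a s.a') = ind (Adj G' s.a s.a') := by omega
    have haa : Adj G s.a s.a' ↔ Adj G' s.a s.a' := ind_eq_iff.mp iaa
    refine ⟨?_, hz, hcol, hcol'⟩
    unfold rho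
    rw [ho, decide_eq_decide.mpr haa, decide_eq_decide.mpr hcc, hU2, hU1, hV2, hV1]
  · rintro ⟨hr, hz, -, -⟩
    simp only [rho, Prod.mk.injEq, decide_eq_decide] at hr
    obtain ⟨ho, haa, hcc, hU2, hU1, hV2, hV1⟩ := hr
    apply sameOff_b_of s _ hcc
    · intro w hw
      rw [adj_c_iff hw, adj_c_iff hw, hV2, hz]
    · intro w hw
      rw [adj_c'_iff hw, adj_c'_iff hw, hV2, hV1, hz]
    · intro p q hp hq
      have e1 := mem_outPairs (s := s) (G := G) (p := p) (q := q)
      have e2 := mem_outPairs (s := s) (G := G') (p := p) (q := q)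
      rw [ho] at e1
      have e := e1.symm.trans e2
      exact ⟨fun h => (e.mp ⟨hp, hq, h⟩).2.2, fun h => (e.mpr ⟨hp, hq, h⟩).2.2⟩


lemma mb_swap (s : Couple n) (G : Finset (Edge n)) :
    mb s.swap G = ((mb s G).1, (mb s G).2.2.1, (mb s G).2.1, (mb s G).2.2.2) := by
  unfold mb
  simp only [Couple.swap_a, Couple.swap_a', Couple.swap_c, Couple.swap_c', Prod.mk.injEq,
    decide_eq_decide]
  exact ⟨adj_comm, adj_comm, adj_comm, adj_comm⟩

lemma colC_mb_swap (s : Couple n) (G : Finset (Edge n)) : colC (mb s.swap G) = rowA (mb s G) := by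
  rw [mb_swap]; rfl

lemma colC'_mb_swap (s : Couple n) (G : Finset (Edge n)) :
    colC' (mb s.swap G) = rowA' (mb s G) := by
  rw [mb_swap]; rfl

lemma rowA_mb_swap (s : Couple n) (G : Finset (Edge n)) : rowA (mb s.swap G) = colC (mb s G) := by
  rw [mb_swap]; rfl

lemma rowA'_mb_swap (s : Couple n) (G : Finset (Edge n)) :
    rowA' (mb s.swap G) = colC' (mb s G) := by
  rw [mb_swap]; rfl

lemma msum_mb_swap (s : Couple n) (G : Finset (Edge n)) : msum (mb s.swap G) = msum (mb s G) := by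
  rw [mb_swap]; unfold msum; ring

lemma rho_swap_eq_iff (s : Couple n) (G G' : Finset (Edge n)) :
    rho s.swap G = rho s.swap G' ↔ rho s G = rho s G' := by
  unfold rho
  simp only [Prod.mk.injEq, outPairs_swap, Couple.swap_a, Couple.swap_a', Couple.swap_c,
    Couple.swap_c', Couple.swap_swap]
  constructor
  · rintro ⟨h1, h2, h3, h4, h5, h6, h7⟩
    exact ⟨h1, h3, h2, h6, h7, h4, h5⟩
  · rintro ⟨h1, h2, h3, h4, h5, h6, h7⟩
    exact ⟨h1, h3, h2, h6, h7, h4, h5⟩

/-- **(cls, b')** the `b'`-class of a realization in coordinates -/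
theorem sameOff_b'_iff (s : Couple n) {d : Fin n → ℕ} {G G' : Finset (Edge n)}
    (hG : G ∈ realizations d) (hG' : G' ∈ realizations d) :
    sameOff s.b' G G' ↔ rho s G = rho s G' ∧ xs s G = xs s G' ∧
      rowA (mb s G) = rowA (mb s G') ∧ rowA' (mb s G) = rowA' (mb s G') := by
  have h := sameOff_b_iff s.swap hG hG'
  rw [rho_swap_eq_iff, colC_mb_swap, colC_mb_swap, colC'_mb_swap, colC'_mb_swap] at h
  exact h

/-! ### the block: `cross`, `Ms`, `flip` in coordinates -/

lemma mkE_mem_cross (b b' : Finset (Fin n)) {x y : Fin n} (h : x ≠ y) :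
    mkE x y h ∈ cross b b' ↔ (x ∈ b ∨ y ∈ b) ∧ (x ∈ b' ∨ y ∈ b') := by
  rw [mem_cross]
  constructor
  · rintro ⟨⟨u, hu, hu'⟩, ⟨v, hv, hv'⟩⟩
    rw [mem_mkE] at hu' hv'
    constructor
    · rcases hu' with rfl | rfl
      · exact Or.inl hu
      · exact Or.inr hu
    · rcases hv' with rfl | rfl
      · exact Or.inl hv
      · exact Or.inr hv
  · rintro ⟨h1, h2⟩
    constructor
    · rcases h1 with h1 | h1
      · exact ⟨x, h1, by rw [mem_mkE]; exact Or.inl rfl⟩
      · exact ⟨y, h1, by rw [mem_mkE]; exact Or.inr rfl⟩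
    · rcases h2 with h2 | h2
      · exact ⟨x, h2, by rw [mem_mkE]; exact Or.inl rfl⟩
      · exact ⟨y, h2, by rw [mem_mkE]; exact Or.inr rfl⟩

/-- block degree of a vertex of `b` = number of its neighbours in `b'` -/
lemma bdeg_eq (b b' : Finset (Fin n)) (hd : Disjoint b b') (G : Finset (Edge n)) {x : Fin n}
    (hx : x ∈ b) :
    ((G ∩ cross b b').filter fun e => x ∈ e.1).card = (b'.filter fun y => Adj G x y).card := by
  have hxb' : x ∉ b' := fun h => (Finset.disjoint_left.mp hd) hx h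
  symm
  refine card_bij (fun y hy => mkE x y (mem_filter.mp hy).2.ne) ?_ ?_ ?_
  · intro y hy
    obtain ⟨hyb, hadj⟩ := mem_filter.mp hy
    rw [mem_filter, mem_inter, mkE_mem_iff, mkE_mem_cross]
    exact ⟨⟨hadj, Or.inl hx, Or.inr hyb⟩, by rw [mem_mkE]; exact Or.inl rfl⟩
  · intro y hy y' hy' heq
    have h1 := (mem_filter.mp hy).2.ne
    rw [mkE_eq_iff] at heq
    rcases heq with ⟨-, h⟩ | ⟨h, h'⟩
    · exact h
    · exact absurd h'.symm h1
  · intro e he
    rw [mem_filter, mem_inter] at he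
    obtain ⟨⟨heG, hcr⟩, hxe⟩ := he
    obtain ⟨u, v, huv, rfl⟩ := edge_cases e
    rw [mkE_mem_cross] at hcr
    rw [mem_mkE] at hxe
    rw [mkE_mem_iff] at heG
    rcases hxe with rfl | rfl
    · have hv : v ∈ b' := by
        rcases hcr.2 with h | h
        · exact absurd h hxb'
        · exact h
      exact ⟨v, mem_filter.mpr ⟨hv, heG⟩, rfl⟩
    · have hu : u ∈ b' := by
        rcases hcr.2 with h | h
        · exact h
        · exact absurd h hxb'
      exact ⟨u, mem_filter.mpr ⟨hu, heG.symm⟩, (mkE_comm huv).symm⟩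

lemma Couple.disjoint_b_b' (s : Couple n) : Disjoint s.b s.b' := by
  rw [Finset.disjoint_left]
  intro p hp hp'
  rw [Couple.mem_b] at hp
  rw [Couple.mem_b'] at hp'
  rcases hp with rfl | rfl <;> rcases hp' with h | h
  · exact s.hac h
  · exact s.hac' h
  · exact s.ha'c h
  · exact s.ha'c' h

lemma card_filter_pair {x y : Fin n} (hxy : x ≠ y) (p : Fin n → Prop) [DecidablePred p] :
    (({x, y} : Finset (Fin n)).filter p).card = ind (p x) + ind (p y) := by
  rw [card_filter, sum_pair hxy, ind_eq_ite, ind_eq_ite]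

lemma bdeg_a (s : Couple n) (G : Finset (Edge n)) :
    ((G ∩ cross s.b s.b').filter fun e => s.a ∈ e.1).card = rowA (mb s G) := by
  rw [bdeg_eq s.b s.b' s.disjoint_b_b' G (s.mem_b.mpr (Or.inl rfl))]
  unfold Couple.b'
  rw [card_filter_pair s.hcc']
  simp only [rowA, mb, bn_decide]

lemma bdeg_a' (s : Couple n) (G : Finset (Edge n)) :
    ((G ∩ cross s.b s.b').filter fun e => s.a' ∈ e.1).card = rowA' (mb s G) := by
  rw [bdeg_eq s.b s.b' s.disjoint_b_b' G (s.mem_b.mpr (Or.inr rfl))]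
  unfold Couple.b'
  rw [card_filter_pair s.hcc']
  simp only [rowA', mb, bn_decide]

lemma bdeg_c (s : Couple n) (G : Finset (Edge n)) :
    ((G ∩ cross s.b s.b').filter fun e => s.c ∈ e.1).card = colC (mb s G) := by
  have h := bdeg_a s.swap G
  rw [rowA_mb_swap] at h
  rw [cross_comm]
  exact h

lemma bdeg_c' (s : Couple n) (G : Finset (Edge n)) :
    ((G ∩ cross s.b s.b').filter fun e => s.c' ∈ e.1).card = colC' (mb s G) := by
  have h := bdeg_a' s.swap G
  rw [rowA'_mb_swap] at h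
  rw [cross_comm]
  exact h

/-- the block is one of the two perfect matchings -/
def IsMatch (m : Bool × Bool × Bool × Bool) : Prop :=
  m = (true, false, false, true) ∨ m = (false, true, true, false)

instance (m : Bool × Bool × Bool × Bool) : Decidable (IsMatch m) := by
  unfold IsMatch; infer_instance

lemma isMatch_iff (m : Bool × Bool × Bool × Bool) :
    IsMatch m ↔ rowA m = 1 ∧ rowA' m = 1 ∧ colC m = 1 ∧ colC' m = 1 := by
  obtain ⟨m1, m2, m3, m4⟩ := m
  cases m1 <;> cases m2 <;> cases m3 <;> cases m4 <;>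
    simp [IsMatch, rowA, rowA', colC, colC', bn]

/-- **(Ms)** the switch of the couple is available iff the block is a perfect matching -/
theorem Ms_iff (s : Couple n) (G : Finset (Edge n)) : Ms s.b s.b' G ↔ IsMatch (mb s G) := by
  rw [isMatch_iff]
  unfold Ms
  constructor
  · intro h
    have ha := h s.a (mem_union_left _ (s.mem_b.mpr (Or.inl rfl)))
    have ha' := h s.a' (mem_union_left _ (s.mem_b.mpr (Or.inr rfl)))
    have hc := h s.c (mem_union_right _ (s.mem_b'.mpr (Or.inl rfl)))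
    have hc' := h s.c' (mem_union_right _ (s.mem_b'.mpr (Or.inr rfl)))
    rw [bdeg_a] at ha
    rw [bdeg_a'] at ha'
    rw [bdeg_c] at hc
    rw [bdeg_c'] at hc'
    exact ⟨ha, ha', hc, hc'⟩
  · rintro ⟨ha, ha', hc, hc'⟩ x hx
    rw [mem_union, Couple.mem_b, Couple.mem_b'] at hx
    rcases hx with (rfl | rfl) | (rfl | rfl)
    · rw [bdeg_a]; exact ha
    · rw [bdeg_a']; exact ha'
    · rw [bdeg_c]; exact hc
    · rw [bdeg_c']; exact hc'


/-- congruence of the `a`-side coordinates -/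
lemma side_congr (s : Couple n) {F G : Finset (Edge n)}
    (ha : ∀ w, s.Out w → (Adj F s.a w ↔ Adj G s.a w))
    (ha' : ∀ w, s.Out w → (Adj F s.a' w ↔ Adj G s.a' w)) :
    U2 s F = U2 s G ∧ U1 s F = U1 s G ∧ xs s F = xs s G := by
  refine ⟨?_, ?_, ?_⟩
  · ext w
    rw [mem_U2, mem_U2]
    exact and_congr_right fun ho => by rw [ha w ho, ha' w ho]
  · ext w
    rw [mem_U1, mem_U1]
    exact and_congr_right fun ho => by rw [ha w ho, ha' w ho]
  · ext w
    rw [mem_xs, mem_xs]
    exact and_congr_right fun ho => by rw [ha w ho, ha' w ho]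

/-- `rho`, `xs`, `zs` only depend on the slots off the block -/
lemma coords_congr (s : Couple n) {F G : Finset (Edge n)}
    (h1 : ∀ p q, s.Out p → s.Out q → (Adj F p q ↔ Adj G p q))
    (h2 : Adj F s.a s.a' ↔ Adj G s.a s.a')
    (h3 : Adj F s.c s.c' ↔ Adj G s.c s.c')
    (h8 : ∀ w, s.Out w → (Adj F s.a w ↔ Adj G s.a w))
    (h9 : ∀ w, s.Out w → (Adj F s.a' w ↔ Adj G s.a' w))
    (h10 : ∀ w, s.Out w → (Adj F s.c w ↔ Adj G s.c w))
    (h11 : ∀ w, s.Out w → (Adj F s.c' w ↔ Adj G s.c' w)) :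
    rho s F = rho s G ∧ xs s F = xs s G ∧ zs s F = zs s G := by
  obtain ⟨a1, a2, a3⟩ := side_congr s h8 h9
  obtain ⟨c1, c2, c3⟩ := side_congr s.swap (F := F) (G := G)
    (fun w hw => h10 w ((s.out_swap w).mp hw)) (fun w hw => h11 w ((s.out_swap w).mp hw))
  refine ⟨?_, a3, c3⟩
  have ho : outPairs s F = outPairs s G := by
    ext ⟨p, q⟩
    rw [mem_outPairs, mem_outPairs]
    exact and_congr_right fun hp => and_congr_right fun hq => h1 p q hp hq
  unfold rho
  rw [ho, decide_eq_decide.mpr h2, decide_eq_decide.mpr h3, a1, a2]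
  show (_, _, _, _, _, U2 s.swap _, U1 s.swap _) = _
  rw [c1, c2]

lemma adj_symmDiff_cross (b b' : Finset (Fin n)) (G : Finset (Edge n)) (p q : Fin n) :
    Adj (symmDiff G (cross b b')) p q ↔
      (Adj G p q ∧ ¬ ((p ∈ b ∨ q ∈ b) ∧ (p ∈ b' ∨ q ∈ b'))) ∨
        (p ≠ q ∧ ((p ∈ b ∨ q ∈ b) ∧ (p ∈ b' ∨ q ∈ b')) ∧ ¬ Adj G p q) := by
  constructor
  · rintro ⟨hpq, hm⟩
    rw [Finset.mem_symmDiff, mkE_mem_cross, mkE_mem_iff] at hm
    rcases hm with ⟨h1, h2⟩ | ⟨h1, h2⟩
    · exact Or.inl ⟨h1, h2⟩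
    · exact Or.inr ⟨hpq, h1, h2⟩
  · rintro (⟨h1, h2⟩ | ⟨hpq, h1, h2⟩)
    · refine ⟨h1.ne, ?_⟩
      rw [Finset.mem_symmDiff, mkE_mem_cross, mkE_mem_iff]
      exact Or.inl ⟨h1, h2⟩
    · refine ⟨hpq, ?_⟩
      rw [Finset.mem_symmDiff, mkE_mem_cross, mkE_mem_iff]
      exact Or.inr ⟨h1, h2⟩

lemma a_not_mem_b' (s : Couple n) : s.a ∉ s.b' := by
  rw [Couple.mem_b', not_or]; exact ⟨s.hac, s.hac'⟩

lemma a'_not_mem_b' (s : Couple n) : s.a' ∉ s.b' := by
  rw [Couple.mem_b', not_or]; exact ⟨s.ha'c, s.ha'c'⟩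

lemma out_not_mem_b' (s : Couple n) {w : Fin n} (hw : s.Out w) : w ∉ s.b' := by
  rw [Couple.mem_b', not_or]; exact ⟨hw.2.2.1, hw.2.2.2⟩

lemma a_mem_b (s : Couple n) : s.a ∈ s.b := s.mem_b.mpr (Or.inl rfl)
lemma a'_mem_b (s : Couple n) : s.a' ∈ s.b := s.mem_b.mpr (Or.inr rfl)
lemma c_mem_b' (s : Couple n) : s.c ∈ s.b' := s.mem_b'.mpr (Or.inl rfl)
lemma c'_mem_b' (s : Couple n) : s.c' ∈ s.b' := s.mem_b'.mpr (Or.inr rfl)

section symm

variable (s : Couple n) (G : Finset (Edge n))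

/-- slots off the block are unchanged by complementing the block -/
lemma adj_sd_of_not_cross {p q : Fin n}
    (h : ¬ ((p ∈ s.b ∨ q ∈ s.b) ∧ (p ∈ s.b' ∨ q ∈ s.b'))) :
    Adj (symmDiff G (cross s.b s.b')) p q ↔ Adj G p q := by
  rw [adj_symmDiff_cross]
  constructor
  · rintro (⟨h1, -⟩ | ⟨-, h1, -⟩)
    · exact h1
    · exact absurd h1 h
  · intro h1
    exact Or.inl ⟨h1, h⟩

/-- block slots are complemented -/
lemma adj_sd_of_cross {p q : Fin n} (hpq : p ≠ q)
    (h : (p ∈ s.b ∨ q ∈ s.b) ∧ (p ∈ s.b' ∨ q ∈ s.b')) :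
    Adj (symmDiff G (cross s.b s.b')) p q ↔ ¬ Adj G p q := by
  rw [adj_symmDiff_cross]
  constructor
  · rintro (⟨-, h1⟩ | ⟨-, -, h1⟩)
    · exact absurd h h1
    · exact h1
  · intro h1
    exact Or.inr ⟨hpq, h, h1⟩

lemma sd_out {p q : Fin n} (hp : s.Out p) (hq : s.Out q) :
    Adj (symmDiff G (cross s.b s.b')) p q ↔ Adj G p q :=
  adj_sd_of_not_cross s G fun h => by
    rcases h.1 with h1 | h1
    · exact out_not_mem_b s hp h1
    · exact out_not_mem_b s hq h1

lemma sd_aa' : Adj (symmDiff G (cross s.b s.b')) s.a s.a' ↔ Adj G s.a s.a' :=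
  adj_sd_of_not_cross s G fun h => by
    rcases h.2 with h1 | h1
    · exact a_not_mem_b' s h1
    · exact a'_not_mem_b' s h1

lemma sd_cc' : Adj (symmDiff G (cross s.b s.b')) s.c s.c' ↔ Adj G s.c s.c' :=
  adj_sd_of_not_cross s G fun h => by
    rcases h.1 with h1 | h1
    · exact c_not_mem_b s h1
    · exact c'_not_mem_b s h1

lemma sd_a_out {w : Fin n} (hw : s.Out w) :
    Adj (symmDiff G (cross s.b s.b')) s.a w ↔ Adj G s.a w :=
  adj_sd_of_not_cross s G fun h => by
    rcases h.2 with h1 | h1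
    · exact a_not_mem_b' s h1
    · exact out_not_mem_b' s hw h1

lemma sd_a'_out {w : Fin n} (hw : s.Out w) :
    Adj (symmDiff G (cross s.b s.b')) s.a' w ↔ Adj G s.a' w :=
  adj_sd_of_not_cross s G fun h => by
    rcases h.2 with h1 | h1
    · exact a'_not_mem_b' s h1
    · exact out_not_mem_b' s hw h1

lemma sd_c_out {w : Fin n} (hw : s.Out w) :
    Adj (symmDiff G (cross s.b s.b')) s.c w ↔ Adj G s.c w :=
  adj_sd_of_not_cross s G fun h => by
    rcases h.1 with h1 | h1
    · exact c_not_mem_b s h1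
    · exact out_not_mem_b s hw h1

lemma sd_c'_out {w : Fin n} (hw : s.Out w) :
    Adj (symmDiff G (cross s.b s.b')) s.c' w ↔ Adj G s.c' w :=
  adj_sd_of_not_cross s G fun h => by
    rcases h.1 with h1 | h1
    · exact c'_not_mem_b s h1
    · exact out_not_mem_b s hw h1

/-- complementing the block fixes `rho`, `xs`, `zs` -/
lemma sd_coords :
    rho s (symmDiff G (cross s.b s.b')) = rho s G ∧ xs s (symmDiff G (cross s.b s.b')) = xs s G ∧
      zs s (symmDiff G (cross s.b s.b')) = zs s G :=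
  coords_congr s (fun _ _ hp hq => sd_out s G hp hq) (sd_aa' s G) (sd_cc' s G)
    (fun _ hw => sd_a_out s G hw) (fun _ hw => sd_a'_out s G hw) (fun _ hw => sd_c_out s G hw)
    (fun _ hw => sd_c'_out s G hw)

/-- complementing the block complements the four block bits -/
lemma sd_mb :
    mb s (symmDiff G (cross s.b s.b'))
      = (!(mb s G).1, !(mb s G).2.1, !(mb s G).2.2.1, !(mb s G).2.2.2) := by
  have h1 := adj_sd_of_cross s G s.hac ⟨Or.inl (a_mem_b s), Or.inr (c_mem_b' s)⟩
  have h2 := adj_sd_of_cross s G s.hac' ⟨Or.inl (a_mem_b s), Or.inr (c'_mem_b' s)⟩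
  have h3 := adj_sd_of_cross s G s.ha'c ⟨Or.inl (a'_mem_b s), Or.inr (c_mem_b' s)⟩
  have h4 := adj_sd_of_cross s G s.ha'c' ⟨Or.inl (a'_mem_b s), Or.inr (c'_mem_b' s)⟩
  unfold mb
  simp only [Prod.mk.injEq]
  refine ⟨?_, ?_, ?_, ?_⟩
  · simp only [h1, decide_not]
  · simp only [h2, decide_not]
  · simp only [h3, decide_not]
  · simp only [h4, decide_not]

end symm

/-- the complement of a block -/
def mneg (m : Bool × Bool × Bool × Bool) : Bool × Bool × Bool × Bool :=
  (!m.1, !m.2.1, !m.2.2.1, !m.2.2.2)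

lemma isMatch_mneg {m : Bool × Bool × Bool × Bool} (h : IsMatch m) :
    IsMatch (mneg m) ∧ msum (mneg m) = msum m ∧ rowA (mneg m) = rowA m ∧
      rowA' (mneg m) = rowA' m ∧ colC (mneg m) = colC m ∧ colC' (mneg m) = colC' m := by
  rcases h with rfl | rfl <;> decide

/-- **(flip)** the switch of the couple in coordinates -/
theorem flip_coords (s : Couple n) {G : Finset (Edge n)} (hM : Ms s.b s.b' G) :
    rho s (flip s.b s.b' G) = rho s G ∧ xs s (flip s.b s.b' G) = xs s G ∧
      zs s (flip s.b s.b' G) = zs s G ∧ mb s (flip s.b s.b' G) = mneg (mb s G) := by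
  unfold flip
  rw [if_pos hM]
  obtain ⟨h1, h2, h3⟩ := sd_coords s G
  exact ⟨h1, h2, h3, sd_mb s G⟩

lemma flip_of_not_Ms (b b' : Finset (Fin n)) {G : Finset (Edge n)} (hM : ¬ Ms b b' G) :
    flip b b' G = G := by
  unfold flip; rw [if_neg hM]

lemma flip_of_Ms (b b' : Finset (Fin n)) {G : Finset (Edge n)} (hM : Ms b b' G) :
    flip b b' G = symmDiff G (cross b b') := by
  unfold flip; rw [if_pos hM]

theorem Ms_flip (s : Couple n) (G : Finset (Edge n)) :
    Ms s.b s.b' (flip s.b s.b' G) ↔ Ms s.b s.b' G := by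
  by_cases hM : Ms s.b s.b' G
  · have h := (flip_coords s hM).2.2.2
    have h' := (Ms_iff s G).mp hM
    simp only [hM, iff_true]
    rw [Ms_iff, h]
    exact (isMatch_mneg h').1
  · rw [flip_of_not_Ms _ _ hM]

theorem flip_mem (s : Couple n) {d : Fin n → ℕ} {G : Finset (Edge n)}
    (hG : G ∈ realizations d) : flip s.b s.b' G ∈ realizations d := by
  by_cases hM : Ms s.b s.b' G
  · obtain ⟨h1, h2, h3, h4⟩ := flip_coords s hM
    obtain ⟨-, k2, k3, -, k5, -⟩ := isMatch_mneg ((Ms_iff s G).mp hM)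
    rw [mem_realizations_iff_nb] at hG ⊢
    intro v
    rw [← hG v]
    apply nb_eq_of_coords s h1
    · rw [h4, k2]
    · rw [h4, h2, k3]
    · rw [h4, h3, k5]
  · rw [flip_of_not_Ms _ _ hM]; exact hG

theorem flip_flip (s : Couple n) (G : Finset (Edge n)) :
    flip s.b s.b' (flip s.b s.b' G) = G := by
  by_cases hM : Ms s.b s.b' G
  · have hM' := (Ms_flip s G).mpr hM
    rw [flip_of_Ms _ _ hM', flip_of_Ms _ _ hM]
    exact symmDiff_symmDiff_cancel_right _ _
  · rw [flip_of_not_Ms _ _ hM, flip_of_not_Ms _ _ hM]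

theorem sameOff_flip_left (s : Couple n) (G : Finset (Edge n)) :
    sameOff s.b G (flip s.b s.b' G) := by
  by_cases hM : Ms s.b s.b' G
  · have e : flip s.b s.b' G = symmDiff G (cross s.b s.b') := by unfold flip; rw [if_pos hM]
    rw [e]
    exact sameOff_b_of s (fun _ _ hp hq => (sd_out s G hp hq).symm) (sd_cc' s G).symm
      (fun _ hw => (sd_c_out s G hw).symm) (fun _ hw => (sd_c'_out s G hw).symm)
  · rw [flip_of_not_Ms _ _ hM]; exact sameOff_refl _ _

theorem sameOff_flip_right (s : Couple n) (G : Finset (Edge n)) :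
    sameOff s.b' G (flip s.b s.b' G) := by
  by_cases hM : Ms s.b s.b' G
  · have e : flip s.b s.b' G = symmDiff G (cross s.b s.b') := by unfold flip; rw [if_pos hM]
    rw [e]
    exact sameOff_b_of s.swap (fun _ _ hp hq =>
        (sd_out s G ((s.out_swap _).mp hp) ((s.out_swap _).mp hq)).symm) (sd_aa' s G).symm
      (fun _ hw => (sd_a_out s G ((s.out_swap _).mp hw)).symm)
      (fun _ hw => (sd_a'_out s G ((s.out_swap _).mp hw)).symm)
  · rw [flip_of_not_Ms _ _ hM]; exact sameOff_refl _ _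

/-- two disjoint pairs form a couple -/
lemma exists_couple {b b' : Finset (Fin n)} (hb : b ∈ pairs n) (hb' : b' ∈ pairs n)
    (hd : Disjoint b b') : ∃ s : Couple n, s.b = b ∧ s.b' = b' := by
  unfold pairs at hb hb'
  rw [mem_powersetCard] at hb hb'
  obtain ⟨a, a', haa', rfl⟩ := card_eq_two.mp hb.2
  obtain ⟨c, c', hcc', rfl⟩ := card_eq_two.mp hb'.2
  rw [Finset.disjoint_left] at hd
  have h1 : a ≠ c := fun h =>
    hd (show a ∈ ({a, a'} : Finset (Fin n)) by simp) (by rw [h]; simp)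
  have h2 : a ≠ c' := fun h =>
    hd (show a ∈ ({a, a'} : Finset (Fin n)) by simp) (by rw [h]; simp)
  have h3 : a' ≠ c := fun h =>
    hd (show a' ∈ ({a, a'} : Finset (Fin n)) by simp) (by rw [h]; simp)
  have h4 : a' ≠ c' := fun h =>
    hd (show a' ∈ ({a, a'} : Finset (Fin n)) by simp) (by rw [h]; simp)
  exact ⟨⟨a, a', c, c', haa', h1, h2, h3, h4, hcc'⟩, rfl, rfl⟩

end Crest.Agent.S0453R.CC
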