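import Mathlib
import Crest.Prelude.Def_SwitchChain
import Crest.Agent.S0453.Avg
import Crest.Agent.S0453.Connect
import Crest.Agent.S0453.CoupleDefs

/-!
Row 299 / S0453 — [CS] graph facts for one couple `(b, b')` (helper45), in helper12's names
(`CoupleDefs.lean`): block margins.

* `bdeg b b' G x`        : block degree of `x` (row sum for `x ∈ b`, column sum for `x ∈ b'`);
                           `Ms b b' G ↔ ∀ x ∈ b ∪ b', bdeg b b' G x = 1` by definition;
* `bdeg_eq_left/right`   : `bdeg = |nb G x ∩ b'|` resp. `|nb G y ∩ b|`;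
* `bdeg_eq_of_sameOff`   : (Marg) the `b'`-margins are constant on `b`-classes (and the mirror);
* `supp_fact`            : (Supp) off `M_s` the `b`-class and the `b'`-class cannot both meet `M_s`;
* `rows_eq_or_swap`      : (F1) inside a `sameOffM b b'`-class the two row sums of the block are
                           equal or swapped (this is where the `M_s`-split of `P_b` is needed).
-/

set_option autoImplicit false
open Finset

namespace Crest.Agent.S0453R

open Crest.SwitchChain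

variable {n : ℕ}

/-- block degree of the vertex `x` (row sum for `x ∈ b`, column sum for `x ∈ b'`) -/
def bdeg (b b' : Finset (Fin n)) (G : Finset (Edge n)) (x : Fin n) : ℕ :=
  ((G ∩ cross b b').filter fun e => x ∈ e.1).card

lemma bdeg_comm (b b' : Finset (Fin n)) (G : Finset (Edge n)) (x : Fin n) :
    bdeg b b' G x = bdeg b' b G x := by
  unfold bdeg; rw [cross_comm]

lemma Ms_iff_bdeg {b b' : Finset (Fin n)} {G : Finset (Edge n)} :
    Ms b b' G ↔ ∀ x ∈ b ∪ b', bdeg b b' G x = 1 := Iff.rfl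

/-- block degree of a vertex of `b` = number of its neighbours in `b'` -/
lemma bdeg_eq_left {b b' : Finset (Fin n)} (hbb' : Disjoint b b') (G : Finset (Edge n))
    {x : Fin n} (hx : x ∈ b) : bdeg b b' G x = (nb G x ∩ b').card := by
  unfold bdeg
  symm
  refine card_bij (fun w hw => mkE x w (ne_of_mem_nb (mem_inter.mp hw).1)) ?_ ?_ ?_
  · intro w hw
    obtain ⟨h1, h2⟩ := mem_inter.mp hw
    obtain ⟨h, hm⟩ := mem_nb.mp h1
    simp only [mem_filter, mem_inter, cross, mem_univ, true_and]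
    exact ⟨⟨hm, ⟨x, hx, by simp⟩, ⟨w, h2, by simp⟩⟩, by simp⟩
  · intro w₁ h₁ w₂ h₂ heq
    rw [mkE_eq_iff] at heq
    rcases heq with ⟨-, h⟩ | ⟨h, -⟩
    · exact h
    · exact absurd h (ne_of_mem_nb (mem_inter.mp h₂).1)
  · intro e he
    simp only [mem_filter, mem_inter, cross, mem_univ, true_and] at he
    obtain ⟨⟨heG, -, y, hy, hye⟩, hxe⟩ := he
    obtain ⟨w, hw⟩ := Sym2.mem_iff_exists.mp hxe
    have hxw : x ≠ w := by
      intro h; apply e.2; rw [hw, h]; simp
    have hee : e = mkE x w hxw := Subtype.ext hw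
    have hyw : y = w := by
      rw [hee, mem_mkE] at hye
      rcases hye with h | h
      · exact absurd hy (h ▸ disjoint_left.mp hbb' hx)
      · exact h
    exact ⟨w, mem_inter.mpr ⟨mem_nb.mpr ⟨hxw, hee ▸ heG⟩, hyw ▸ hy⟩, hee.symm⟩

/-- block degree of a vertex of `b'` = number of its neighbours in `b` -/
lemma bdeg_eq_right {b b' : Finset (Fin n)} (hbb' : Disjoint b b') (G : Finset (Edge n))
    {y : Fin n} (hy : y ∈ b') : bdeg b b' G y = (nb G y ∩ b).card := by
  rw [bdeg_comm, bdeg_eq_left hbb'.symm G hy]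

lemma nb_sdiff_eq_of_sameOff {b : Finset (Fin n)} {G H : Finset (Edge n)} (h : sameOff b G H)
    {y : Fin n} (hy : y ∉ b) : nb G y \ b = nb H y \ b := by
  ext w
  simp only [mem_sdiff, mem_nb]
  constructor
  · rintro ⟨⟨hyw, hm⟩, hw⟩
    refine ⟨⟨hyw, (h _ ?_).mp hm⟩, hw⟩
    intro u hu
    rw [mem_mkE]
    rintro (rfl | rfl)
    · exact hy hu
    · exact hw hu
  · rintro ⟨⟨hyw, hm⟩, hw⟩
    refine ⟨⟨hyw, (h _ ?_).mpr hm⟩, hw⟩
    intro u hu
    rw [mem_mkE]
    rintro (rfl | rfl)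
    · exact hy hu
    · exact hw hu

lemma card_nb_inter_eq_of_sameOff {d : Fin n → ℕ} {b : Finset (Fin n)} {G H : Finset (Edge n)}
    (hG : G ∈ realizations d) (hH : H ∈ realizations d) (h : sameOff b G H)
    {y : Fin n} (hy : y ∉ b) : (nb G y ∩ b).card = (nb H y ∩ b).card := by
  have h1 := card_inter_add_card_sdiff (nb G y) b
  have h2 := card_inter_add_card_sdiff (nb H y) b
  rw [card_nb_of_mem hG] at h1
  rw [card_nb_of_mem hH, ← nb_sdiff_eq_of_sameOff h hy] at h2
  omega

variable {d : Fin n → ℕ} {a a' c c' : Fin n}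

/-- (Marg) the `b'`-margins of the block are constant on `b`-classes. -/
theorem bdeg_eq_of_sameOff {b b' : Finset (Fin n)} (hbb' : Disjoint b b')
    {G H : Finset (Edge n)} (hG : G ∈ realizations d) (hH : H ∈ realizations d)
    (h : sameOff b G H) {y : Fin n} (hy : y ∈ b') : bdeg b b' G y = bdeg b b' H y := by
  rw [bdeg_eq_right hbb' G hy, bdeg_eq_right hbb' H hy]
  exact card_nb_inter_eq_of_sameOff hG hH h (disjoint_right.mp hbb' hy)

/-- (Marg') the `b`-margins of the block are constant on `b'`-classes. -/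
theorem bdeg_eq_of_sameOff' {b b' : Finset (Fin n)} (hbb' : Disjoint b b')
    {G H : Finset (Edge n)} (hG : G ∈ realizations d) (hH : H ∈ realizations d)
    (h : sameOff b' G H) {x : Fin n} (hx : x ∈ b) : bdeg b b' G x = bdeg b b' H x := by
  rw [bdeg_eq_left hbb' G hx, bdeg_eq_left hbb' H hx]
  exact card_nb_inter_eq_of_sameOff hG hH h (disjoint_left.mp hbb' hx)

/-- (Supp) off `M_s`, the `b`-class and the `b'`-class cannot both meet `M_s`. -/
theorem supp_fact {b b' : Finset (Fin n)} (hbb' : Disjoint b b')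
    {G : Finset (Edge n)} (hG : G ∈ realizations d) (hM : ¬ Ms b b' G) :
    ¬ ((∃ H ∈ realizations d, sameOff b G H ∧ Ms b b' H) ∧
       (∃ H ∈ realizations d, sameOff b' G H ∧ Ms b b' H)) := by
  rintro ⟨⟨H₁, hH₁, h₁, hM₁⟩, ⟨H₂, hH₂, h₂, hM₂⟩⟩
  apply hM
  intro x hx
  rcases mem_union.mp hx with hxb | hxb'
  · have := bdeg_eq_of_sameOff' hbb' hG hH₂ h₂ hxb
    unfold bdeg at this
    rw [this]
    exact hM₂ x hx
  · have := bdeg_eq_of_sameOff hbb' hG hH₁ h₁ hxb'
    unfold bdeg at this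
    rw [this]
    exact hM₁ x hx

lemma card_inter_pair' {α : Type*} [DecidableEq α] (S : Finset α) {c c' : α} (h : c ≠ c') :
    (S ∩ {c, c'}).card = (if c ∈ S then 1 else 0) + (if c' ∈ S then 1 else 0) := by
  rw [inter_comm, ← filter_mem_eq_inter, card_filter, sum_pair h]

lemma disjoint_pairs (hac : a ≠ c) (hac' : a ≠ c') (ha'c : a' ≠ c) (ha'c' : a' ≠ c') :
    Disjoint ({a, a'} : Finset (Fin n)) {c, c'} := by
  rw [disjoint_left]
  intro x hx hx'
  simp only [mem_insert, mem_singleton] at hx hx'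
  rcases hx with rfl | rfl <;> rcases hx' with rfl | rfl <;> contradiction

/-- (F1) the 2×2 check: inside a `P_b`-class the row sums of the block are equal or swapped. -/
theorem rows_eq_or_swap (haa' : a ≠ a') (hac : a ≠ c) (hac' : a ≠ c') (ha'c : a' ≠ c)
    (ha'c' : a' ≠ c') (hcc' : c ≠ c') {G G'' : Finset (Edge n)}
    (hG : G ∈ realizations d) (hG'' : G'' ∈ realizations d)
    (h : sameOffM {a, a'} {c, c'} G G'') :
    (bdeg {a, a'} {c, c'} G'' a = bdeg {a, a'} {c, c'} G a ∧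
        bdeg {a, a'} {c, c'} G'' a' = bdeg {a, a'} {c, c'} G a') ∨
      (bdeg {a, a'} {c, c'} G'' a = bdeg {a, a'} {c, c'} G a' ∧
        bdeg {a, a'} {c, c'} G'' a' = bdeg {a, a'} {c, c'} G a) := by
  have hd := disjoint_pairs hac hac' ha'c ha'c'
  have ha : a ∈ ({a, a'} : Finset (Fin n)) := by simp
  have ha' : a' ∈ ({a, a'} : Finset (Fin n)) := by simp
  have hc : c ∈ ({c, c'} : Finset (Fin n)) := by simp
  have hc' : c' ∈ ({c, c'} : Finset (Fin n)) := by simp
  obtain ⟨hs, hM⟩ := h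
  have e1 := bdeg_eq_of_sameOff hd hG hG'' hs hc
  have e2 := bdeg_eq_of_sameOff hd hG hG'' hs hc'
  have key : ∀ K : Finset (Edge n),
      bdeg {a, a'} {c, c'} K a = (if c ∈ nb K a then 1 else 0) + (if c' ∈ nb K a then 1 else 0) ∧
      bdeg {a, a'} {c, c'} K a' = (if c ∈ nb K a' then 1 else 0) + (if c' ∈ nb K a' then 1 else 0) ∧
      bdeg {a, a'} {c, c'} K c = (if c ∈ nb K a then 1 else 0) + (if c ∈ nb K a' then 1 else 0) ∧
      bdeg {a, a'} {c, c'} K c' = (if c' ∈ nb K a then 1 else 0) + (if c' ∈ nb K a' then 1 else 0) := by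
    intro K
    refine ⟨?_, ?_, ?_, ?_⟩
    · rw [bdeg_eq_left hd K ha, card_inter_pair' _ hcc']
    · rw [bdeg_eq_left hd K ha', card_inter_pair' _ hcc']
    · rw [bdeg_eq_right hd K hc, card_inter_pair' _ haa']
      simp only [mem_nb_comm (G := K) (v := c)]
    · rw [bdeg_eq_right hd K hc', card_inter_pair' _ haa']
      simp only [mem_nb_comm (G := K) (v := c')]
  have hMs : ∀ K : Finset (Edge n), Ms {a, a'} {c, c'} K ↔
      (bdeg {a, a'} {c, c'} K a = 1 ∧ bdeg {a, a'} {c, c'} K a' = 1 ∧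
        bdeg {a, a'} {c, c'} K c = 1 ∧ bdeg {a, a'} {c, c'} K c' = 1) := by
    intro K
    rw [Ms_iff_bdeg]
    constructor
    · intro hK
      exact ⟨hK a (by simp), hK a' (by simp), hK c (by simp), hK c' (by simp)⟩
    · rintro ⟨h1, h2, h3, h4⟩ x hx
      simp only [mem_union, mem_insert, mem_singleton] at hx
      rcases hx with (rfl | rfl) | (rfl | rfl) <;> assumption
  rw [hMs G, hMs G''] at hM
  obtain ⟨k1, k2, k3, k4⟩ := key G
  obtain ⟨l1, l2, l3, l4⟩ := key G''
  rw [k3, l3] at e1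
  rw [k4, l4] at e2
  rw [k1, k2, k3, k4, l1, l2, l3, l4] at hM
  rw [k1, k2, l1, l2]
  clear k1 k2 k3 k4 l1 l2 l3 l4 key hMs hs
  have hb : ∀ (p : Prop) [Decidable p], (if p then 1 else 0 : ℕ) ≤ 1 := by
    intro p _; split_ifs <;> omega
  have b1 := hb (c ∈ nb G a)
  have b2 := hb (c' ∈ nb G a)
  have b3 := hb (c ∈ nb G a')
  have b4 := hb (c' ∈ nb G a')
  have b5 := hb (c ∈ nb G'' a)
  have b6 := hb (c' ∈ nb G'' a)
  have b7 := hb (c ∈ nb G'' a')
  have b8 := hb (c' ∈ nb G'' a')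
  omega

end Crest.Agent.S0453R
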