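import Mathlib
import Crest.Prelude.Def_SwitchChain
import Crest.Agent.S0453.Avg
import Crest.Agent.S0453.Connect
import Crest.Agent.S0453.CoupleDefs
import Crest.Agent.S0453.CoupleMargin

/-!
Row 299 / S0453 (helper77): the (σ) facts of the statement chain #1115 for the switch `flip b b'`
of one couple of disjoint pairs (names of `CoupleDefs.lean`):

* `flip_mem`  : `flip b b'` maps `realizations d` to itself;
* `flip_flip` : `flip b b'` is an involution;
* `Ms_flip`   : `flip b b'` preserves `Ms b b'`.

(`sameOff_flip_left/right` are in `CoupleAvg.lean`.)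
-/

set_option autoImplicit false
open Finset

namespace Crest.Agent.S0453R

open Crest.SwitchChain

section finset

variable {α : Type*} [DecidableEq α]

lemma card_filter_symmDiff (G C : Finset α) (p : α → Prop) [DecidablePred p] :
    ((symmDiff G C).filter p).card + 2 * ((G ∩ C).filter p).card
      = (G.filter p).card + (C.filter p).card := by
  have e1 : (symmDiff G C).filter p = (G.filter p \ C.filter p) ∪ (C.filter p \ G.filter p) := by
    ext e
    simp only [mem_filter, mem_symmDiff, mem_union, mem_sdiff]
    tauto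
  have e2 : (G ∩ C).filter p = G.filter p ∩ C.filter p := by
    ext e
    simp only [mem_filter, mem_inter]
    tauto
  have hdis : Disjoint (G.filter p \ C.filter p) (C.filter p \ G.filter p) := by
    rw [disjoint_left]
    intro e h1 h2
    exact (mem_sdiff.1 h2).2 (mem_sdiff.1 h1).1
  rw [e1, e2, card_union_of_disjoint hdis]
  have h1 := card_sdiff_add_card_inter (G.filter p) (C.filter p)
  have h2 := card_sdiff_add_card_inter (C.filter p) (G.filter p)
  rw [inter_comm] at h2
  omega

lemma card_filter_symmDiff_inter (G C : Finset α) (p : α → Prop) [DecidablePred p] :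
    ((symmDiff G C ∩ C).filter p).card + ((G ∩ C).filter p).card = (C.filter p).card := by
  have e1 : (symmDiff G C ∩ C).filter p = C.filter p \ G.filter p := by
    ext e
    simp only [mem_filter, mem_symmDiff, mem_inter, mem_sdiff]
    tauto
  have e2 : (G ∩ C).filter p = C.filter p ∩ G.filter p := by
    ext e
    simp only [mem_filter, mem_inter]
    tauto
  rw [e1, e2]
  exact card_sdiff_add_card_inter (C.filter p) (G.filter p)

end finset

variable {n : ℕ}

/-- an edge of the block has its endpoints in `b ∪ b'` -/
lemma mem_union_of_mem_cross {b b' : Finset (Fin n)} (hbb' : Disjoint b b') {e : Edge n}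
    (he : e ∈ cross b b') {x : Fin n} (hx : x ∈ e.1) : x ∈ b ∪ b' := by
  obtain ⟨⟨y, hy, hye⟩, ⟨y', hy', hy'e⟩⟩ := mem_cross.1 he
  have hne : y ≠ y' := fun h => disjoint_left.1 hbb' hy (h ▸ hy')
  have hee : e.1 = s(y, y') := (Sym2.mem_and_mem_iff hne).1 ⟨hye, hy'e⟩
  rw [hee, Sym2.mem_iff] at hx
  rcases hx with rfl | rfl
  · exact mem_union_left _ hy
  · exact mem_union_right _ hy'

/-- a vertex outside `b ∪ b'` meets no block slot -/
lemma cross_filter_eq_empty {b b' : Finset (Fin n)} (hbb' : Disjoint b b') {x : Fin n}
    (hx : x ∉ b ∪ b') : ((cross b b').filter fun e => x ∈ e.1) = ∅ := by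
  rw [filter_eq_empty_iff]
  intro e he hxe
  exact hx (mem_union_of_mem_cross hbb' he hxe)

/-- a vertex of `b` meets exactly two block slots -/
lemma card_cross_filter_left {b b' : Finset (Fin n)} (hb' : b' ∈ pairs n)
    (hbb' : Disjoint b b') {x : Fin n} (hx : x ∈ b) :
    ((cross b b').filter fun e => x ∈ e.1).card = 2 := by
  have h1 := bdeg_eq_left hbb' (univ : Finset (Edge n)) hx
  unfold bdeg at h1
  rw [univ_inter] at h1
  rw [h1]
  have h2 : nb (univ : Finset (Edge n)) x ∩ b' = b' := by
    rw [inter_eq_right]
    intro w hw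
    have hxw : x ≠ w := fun h => disjoint_left.1 hbb' hx (h ▸ hw)
    exact mem_nb.2 ⟨hxw, mem_univ _⟩
  rw [h2]
  exact (mem_powersetCard.1 hb').2

/-- a vertex of `b ∪ b'` meets exactly two block slots -/
lemma card_cross_filter {b b' : Finset (Fin n)} (hb : b ∈ pairs n) (hb' : b' ∈ pairs n)
    (hbb' : Disjoint b b') {x : Fin n} (hx : x ∈ b ∪ b') :
    ((cross b b').filter fun e => x ∈ e.1).card = 2 := by
  rcases mem_union.1 hx with h | h
  · exact card_cross_filter_left hb' hbb' h
  · rw [cross_comm]
    exact card_cross_filter_left hb hbb'.symm h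

/-- complementing the block of a graph in `M_s` keeps it in `M_s` -/
lemma Ms_symmDiff {b b' : Finset (Fin n)} (hb : b ∈ pairs n) (hb' : b' ∈ pairs n)
    (hbb' : Disjoint b b') {G : Finset (Edge n)} (hM : Ms b b' G) :
    Ms b b' (symmDiff G (cross b b')) := by
  intro x hx
  have h1 := card_filter_symmDiff_inter G (cross b b') (fun e => x ∈ e.1)
  rw [card_cross_filter hb hb' hbb' hx, hM x hx] at h1
  omega

/-- (σ) the switch of the couple preserves `M_s`. -/
theorem Ms_flip {b b' : Finset (Fin n)} (hb : b ∈ pairs n) (hb' : b' ∈ pairs n)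
    (hbb' : Disjoint b b') (G : Finset (Edge n)) : Ms b b' (flip b b' G) ↔ Ms b b' G := by
  unfold flip
  by_cases hM : Ms b b' G
  · rw [if_pos hM]
    exact ⟨fun _ => hM, fun _ => Ms_symmDiff hb hb' hbb' hM⟩
  · rw [if_neg hM]

/-- (σ) the switch of the couple is an involution. -/
theorem flip_flip {b b' : Finset (Fin n)} (hb : b ∈ pairs n) (hb' : b' ∈ pairs n)
    (hbb' : Disjoint b b') (G : Finset (Edge n)) : flip b b' (flip b b' G) = G := by
  by_cases hM : Ms b b' G
  · have h1 : flip b b' G = symmDiff G (cross b b') := if_pos hM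
    have h2 : Ms b b' (symmDiff G (cross b b')) := Ms_symmDiff hb hb' hbb' hM
    rw [h1]
    unfold flip
    rw [if_pos h2]
    exact symmDiff_symmDiff_cancel_right _ _
  · have h1 : flip b b' G = G := if_neg hM
    rw [h1, h1]

/-- (σ) the switch of the couple preserves all degrees. -/
theorem flip_mem {d : Fin n → ℕ} {b b' : Finset (Fin n)} (hb : b ∈ pairs n) (hb' : b' ∈ pairs n)
    (hbb' : Disjoint b b') {G : Finset (Edge n)} (hG : G ∈ realizations d) :
    flip b b' G ∈ realizations d := by
  unfold flip
  by_cases hM : Ms b b' G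
  · rw [if_pos hM]
    simp only [realizations, mem_filter, mem_univ, true_and]
    intro v
    rw [← deg_of_mem hG v]
    unfold deg
    have h1 := card_filter_symmDiff G (cross b b') (fun e => v ∈ e.1)
    by_cases hv : v ∈ b ∪ b'
    · rw [card_cross_filter hb hb' hbb' hv, hM v hv] at h1
      omega
    · have h0 := cross_filter_eq_empty hbb' hv
      have h2 : ((G ∩ cross b b').filter fun e => v ∈ e.1) = ∅ := by
        rw [filter_eq_empty_iff]
        intro e he hve
        have : e ∈ (cross b b').filter fun e => v ∈ e.1 :=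
          mem_filter.2 ⟨(mem_inter.1 he).2, hve⟩
        rw [h0] at this
        exact absurd this (notMem_empty e)
      rw [h0, h2] at h1
      simpa using h1
  · rw [if_neg hM]
    exact hG

end Crest.Agent.S0453R
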