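import Mathlib

/-!
Row 299 / S0453, CS track B (helper57): the abstract half of Lemma C + Lemma S of board post 956.

Everything here is about class averages on a finite set `Ω : Finset α` (no graphs):

* `avgOn Ω r f x`  : the average of `f` over the class `{y ∈ Ω | r x y}` (same definition as the
  canonical `avgOn` of `Avg.lean`; `rfl`-bridge);
* `IsEqvOn Ω r`    : `r` is an equivalence relation on `Ω`;
* `comm_of_bij`    : if for `r`-equivalent `x, x'` there is an injection of the `s`-class of `x` into the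
  `s`-class of `x'` moving every point inside its `r`-class, then the two class averages commute;
* `lemma_S_abs`    : Lemma S for one couple from the three commutation identities.
-/

set_option autoImplicit false
set_option linter.unusedSectionVars false
open Finset

namespace Crest.Agent.S0453R.SAbs

variable {α : Type*}

/-- the average of `f` over the class `{y ∈ Ω | r x y}` -/
noncomputable def avgOn (Ω : Finset α) (r : α → α → Prop) [DecidableRel r] (f : α → ℝ) (x : α) : ℝ :=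
  (∑ y ∈ Ω.filter (r x), f y) / ((Ω.filter (r x)).card : ℝ)

/-- `r` is an equivalence relation on `Ω` -/
structure IsEqvOn (Ω : Finset α) (r : α → α → Prop) : Prop where
  refl : ∀ x ∈ Ω, r x x
  symm : ∀ x ∈ Ω, ∀ y ∈ Ω, r x y → r y x
  trans : ∀ x ∈ Ω, ∀ y ∈ Ω, ∀ z ∈ Ω, r x y → r y z → r x z

section basics

variable {Ω : Finset α} {r : α → α → Prop} [DecidableRel r]

lemma cls_eq (hr : IsEqvOn Ω r) {x x' : α} (hx : x ∈ Ω) (hx' : x' ∈ Ω) (h : r x x') :
    Ω.filter (r x) = Ω.filter (r x') := by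
  ext y
  simp only [mem_filter]
  constructor
  · rintro ⟨hy, hxy⟩
    exact ⟨hy, hr.trans x' hx' x hx y hy (hr.symm x hx x' hx' h) hxy⟩
  · rintro ⟨hy, hxy⟩
    exact ⟨hy, hr.trans x hx x' hx' y hy h hxy⟩

lemma self_mem_cls (hr : IsEqvOn Ω r) {x : α} (hx : x ∈ Ω) : x ∈ Ω.filter (r x) :=
  mem_filter.mpr ⟨hx, hr.refl x hx⟩

lemma card_cls_pos (hr : IsEqvOn Ω r) {x : α} (hx : x ∈ Ω) :
    (0 : ℝ) < ((Ω.filter (r x)).card : ℝ) := by
  exact_mod_cast card_pos.mpr ⟨x, self_mem_cls hr hx⟩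

/-- the average is constant on classes -/
lemma avgOn_eq_of_rel (hr : IsEqvOn Ω r) (f : α → ℝ) {x x' : α} (hx : x ∈ Ω) (hx' : x' ∈ Ω)
    (h : r x x') : avgOn Ω r f x = avgOn Ω r f x' := by
  unfold avgOn
  rw [cls_eq hr hx hx' h]

/-- the average only depends on the values on `Ω` -/
lemma avgOn_congr {f g : α → ℝ} (h : ∀ y ∈ Ω, f y = g y) (x : α) :
    avgOn Ω r f x = avgOn Ω r g x := by
  unfold avgOn
  congr 1
  exact sum_congr rfl fun y hy => h y (mem_filter.mp hy).1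

/-- the average of a function which is constant on the class of `x` -/
lemma avgOn_of_const (hr : IsEqvOn Ω r) {f : α → ℝ} {x : α} (hx : x ∈ Ω)
    (h : ∀ y ∈ Ω, r x y → f y = f x) : avgOn Ω r f x = f x := by
  unfold avgOn
  have : ∑ y ∈ Ω.filter (r x), f y = ((Ω.filter (r x)).card : ℝ) * f x := by
    rw [sum_congr rfl fun y hy => h y (mem_filter.mp hy).1 (mem_filter.mp hy).2]
    simp
  rw [this, mul_comm, mul_div_assoc, div_self (card_cls_pos hr hx).ne', mul_one]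

lemma avgOn_add (f g : α → ℝ) (x : α) :
    avgOn Ω r (f + g) x = avgOn Ω r f x + avgOn Ω r g x := by
  unfold avgOn
  simp only [Pi.add_apply, sum_add_distrib, add_div]

lemma avgOn_smul (c : ℝ) (f : α → ℝ) (x : α) :
    avgOn Ω r (c • f) x = c * avgOn Ω r f x := by
  unfold avgOn
  simp only [Pi.smul_apply, smul_eq_mul, ← mul_sum, mul_div_assoc]

/-- class averages are symmetric for the counting inner product on `Ω` -/
lemma avgOn_symm (hr : IsEqvOn Ω r) (f g : α → ℝ) :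
    ∑ x ∈ Ω, avgOn Ω r f x * g x = ∑ x ∈ Ω, f x * avgOn Ω r g x := by
  have key : ∀ (f g : α → ℝ), ∑ x ∈ Ω, avgOn Ω r f x * g x
      = ∑ x ∈ Ω, ∑ y ∈ Ω, if r x y then f y * g x / ((Ω.filter (r x)).card : ℝ) else 0 := by
    intro f g
    refine sum_congr rfl fun x _ => ?_
    unfold avgOn
    rw [div_mul_eq_mul_div, sum_mul, sum_div, sum_filter]
  rw [key f g]
  have key2 : ∑ x ∈ Ω, f x * avgOn Ω r g x = ∑ x ∈ Ω, avgOn Ω r g x * f x :=
    sum_congr rfl fun x _ => mul_comm _ _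
  rw [key2, key g f, sum_comm]
  refine sum_congr rfl fun y hy => sum_congr rfl fun x hx => ?_
  by_cases h : r x y
  · have h' : r y x := hr.symm x hx y hy h
    rw [if_pos h, if_pos h', cls_eq hr hx hy h, mul_comm]
  · have h' : ¬ r y x := fun h' => h (hr.symm y hy x hx h')
    rw [if_neg h, if_neg h']

/-- class averages are idempotent on `Ω` -/
lemma avgOn_idem (hr : IsEqvOn Ω r) (f : α → ℝ) {x : α} (hx : x ∈ Ω) :
    avgOn Ω r (avgOn Ω r f) x = avgOn Ω r f x :=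
  avgOn_of_const hr hx fun _ hy hxy => (avgOn_eq_of_rel hr f hx hy hxy).symm

end basics

/-! ### Commutation criterion -/

section comm

variable {Ω : Finset α} {r s : α → α → Prop} [DecidableRel r] [DecidableRel s]

/-- For `r`-equivalent `x, x'` there is an injection `φ` of the `s`-class of `x` into the `s`-class
of `x'` which moves every point inside its own `r`-class. -/
def Transport (Ω : Finset α) (r s : α → α → Prop) : Prop :=
  ∀ x ∈ Ω, ∀ x' ∈ Ω, r x x' → ∃ φ : α → α,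
    (∀ y ∈ Ω, s x y → φ y ∈ Ω ∧ s x' (φ y) ∧ r y (φ y)) ∧
    (∀ y ∈ Ω, ∀ y' ∈ Ω, s x y → s x y' → φ y = φ y' → y = y')

/-- Under `Transport`, the `s`-average of an `r`-invariant function is `r`-invariant. -/
lemma avgOn_inv_of_transport (hr : IsEqvOn Ω r) (ht : Transport Ω r s) {g : α → ℝ}
    (hg : ∀ y ∈ Ω, ∀ y' ∈ Ω, r y y' → g y = g y') {x x' : α} (hx : x ∈ Ω) (hx' : x' ∈ Ω)
    (h : r x x') : avgOn Ω s g x = avgOn Ω s g x' := by
  classical
  obtain ⟨φ, hφ, hφi⟩ := ht x hx x' hx' h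
  obtain ⟨ψ, hψ, hψi⟩ := ht x' hx' x hx (hr.symm x hx x' hx' h)
  have hmaps : ∀ y ∈ Ω.filter (s x), φ y ∈ Ω.filter (s x') := fun y hy => by
    obtain ⟨h1, h2, -⟩ := hφ y (mem_filter.mp hy).1 (mem_filter.mp hy).2
    exact mem_filter.mpr ⟨h1, h2⟩
  have hinj : Set.InjOn φ (Ω.filter (s x) : Set α) := fun y hy y' hy' hyy' =>
    hφi y (mem_filter.mp hy).1 y' (mem_filter.mp hy').1 (mem_filter.mp hy).2 (mem_filter.mp hy').2 hyy'
  have hmaps' : ∀ y ∈ Ω.filter (s x'), ψ y ∈ Ω.filter (s x) := fun y hy => by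
    obtain ⟨h1, h2, -⟩ := hψ y (mem_filter.mp hy).1 (mem_filter.mp hy).2
    exact mem_filter.mpr ⟨h1, h2⟩
  have hinj' : Set.InjOn ψ (Ω.filter (s x') : Set α) := fun y hy y' hy' hyy' =>
    hψi y (mem_filter.mp hy).1 y' (mem_filter.mp hy').1 (mem_filter.mp hy).2 (mem_filter.mp hy').2 hyy'
  have hc1 : (Ω.filter (s x)).card ≤ (Ω.filter (s x')).card := card_le_card_of_injOn φ hmaps hinj
  have hc2 : (Ω.filter (s x')).card ≤ (Ω.filter (s x)).card := card_le_card_of_injOn ψ hmaps' hinj'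
  have hcard : (Ω.filter (s x)).card = (Ω.filter (s x')).card := le_antisymm hc1 hc2
  have himg : (Ω.filter (s x)).image φ = Ω.filter (s x') := by
    apply eq_of_subset_of_card_le
    · intro z hz
      obtain ⟨y, hy, rfl⟩ := mem_image.mp hz
      exact hmaps y hy
    · rw [card_image_of_injOn hinj, hcard]
  unfold avgOn
  rw [← hcard, ← himg, sum_image hinj]
  congr 1
  refine sum_congr rfl fun y hy => ?_
  obtain ⟨h1, -, h3⟩ := hφ y (mem_filter.mp hy).1 (mem_filter.mp hy).2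
  exact hg y (mem_filter.mp hy).1 (φ y) h1 h3

/-- **Commutation criterion.**  Under `Transport Ω r s` the two class averages commute on `Ω`. -/
theorem comm_of_transport (hr : IsEqvOn Ω r) (hs : IsEqvOn Ω s) (ht : Transport Ω r s)
    (f : α → ℝ) : ∀ x ∈ Ω, avgOn Ω r (avgOn Ω s f) x = avgOn Ω s (avgOn Ω r f) x := by
  -- `R S R = S R` on `Ω`
  have h1 : ∀ (g : α → ℝ), ∀ x ∈ Ω,
      avgOn Ω r (avgOn Ω s (avgOn Ω r g)) x = avgOn Ω s (avgOn Ω r g) x := fun g x hx =>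
    avgOn_of_const hr hx fun y hy hxy =>
      (avgOn_inv_of_transport hr ht (fun y hy y' hy' h => avgOn_eq_of_rel hr g hy hy' h)
        hx hy hxy).symm
  -- adjoint: `R S R = R S` on `Ω`
  have h2 : ∀ (g : α → ℝ), ∀ x ∈ Ω,
      avgOn Ω r (avgOn Ω s (avgOn Ω r g)) x = avgOn Ω r (avgOn Ω s g) x := by
    intro g
    set u : α → ℝ := fun x => avgOn Ω r (avgOn Ω s (avgOn Ω r g)) x - avgOn Ω r (avgOn Ω s g) x
      with hu
    have e1 : ∑ x ∈ Ω, u x * avgOn Ω r (avgOn Ω s (avgOn Ω r g)) x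
        = ∑ x ∈ Ω, u x * avgOn Ω r (avgOn Ω s g) x := by
      calc ∑ x ∈ Ω, u x * avgOn Ω r (avgOn Ω s (avgOn Ω r g)) x
          = ∑ x ∈ Ω, avgOn Ω r u x * avgOn Ω s (avgOn Ω r g) x := (avgOn_symm hr _ _).symm
        _ = ∑ x ∈ Ω, avgOn Ω s (avgOn Ω r u) x * avgOn Ω r g x := (avgOn_symm hs _ _).symm
        _ = ∑ x ∈ Ω, avgOn Ω r (avgOn Ω s (avgOn Ω r u)) x * g x := (avgOn_symm hr _ _).symm
        _ = ∑ x ∈ Ω, avgOn Ω s (avgOn Ω r u) x * g x :=
            sum_congr rfl fun x hx => by rw [h1 u x hx]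
        _ = ∑ x ∈ Ω, avgOn Ω r u x * avgOn Ω s g x := avgOn_symm hs _ _
        _ = ∑ x ∈ Ω, u x * avgOn Ω r (avgOn Ω s g) x := avgOn_symm hr _ _
    have e2 : ∑ x ∈ Ω, u x * u x = 0 := by
      have : ∀ x ∈ Ω, u x * u x = u x * avgOn Ω r (avgOn Ω s (avgOn Ω r g)) x
          - u x * avgOn Ω r (avgOn Ω s g) x := fun x _ => by rw [hu]; ring
      rw [sum_congr rfl this, sum_sub_distrib, e1, sub_self]
    intro x hx
    have := (sum_eq_zero_iff_of_nonneg (fun x _ => mul_self_nonneg (u x))).mp e2 x hx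
    have hux : u x = 0 := mul_self_eq_zero.mp this
    rw [hu] at hux
    exact sub_eq_zero.mp hux
  intro x hx
  rw [← h2 f x hx, h1 f x hx]

end comm

/-! ### The operator core of Lemma S on a finite type -/

section core

variable {ι : Type*} [Fintype ι]

/-- counting inner product -/
def ip (f g : ι → ℝ) : ℝ := ∑ i, f i * g i

lemma ip_comm (f g : ι → ℝ) : ip f g = ip g f := sum_congr rfl fun _ _ => mul_comm _ _

lemma ip_sub_left (f g h : ι → ℝ) : ip (f - g) h = ip f h - ip g h := by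
  simp only [ip, Pi.sub_apply, sub_mul, sum_sub_distrib]

lemma ip_sub_right (f g h : ι → ℝ) : ip f (g - h) = ip f g - ip f h := by
  simp only [ip, Pi.sub_apply, mul_sub, sum_sub_distrib]

lemma ip_zero_right (f : ι → ℝ) : ip f 0 = 0 := by simp [ip]

lemma ip_self_nonneg (f : ι → ℝ) : 0 ≤ ip f f := sum_nonneg fun _ _ => mul_self_nonneg _

theorem core_S (E E' P P' : (ι → ℝ) →ₗ[ℝ] (ι → ℝ))
    (symE : ∀ f g, ip (E f) g = ip f (E g)) (symE' : ∀ f g, ip (E' f) g = ip f (E' g))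
    (symP : ∀ f g, ip (P f) g = ip f (P g)) (symP' : ∀ f g, ip (P' f) g = ip f (P' g))
    (idemE : ∀ f, E (E f) = E f) (idemE' : ∀ f, E' (E' f) = E' f)
    (idemP : ∀ f, P (P f) = P f) (idemP' : ∀ f, P' (P' f) = P' f)
    (hPE : ∀ f, P (E f) = E f)
    (c1 : ∀ f, P (E' f) = E' (P f)) (c2 : ∀ f, P (P' f) = P' (P f))
    (c3 : ∀ f, P' (E f) = E (P' f))
    (σ : ι → ι) (hσ : Function.Involutive σ)
    (hσP : ∀ f i, P f (σ i) = P f i) (hσE' : ∀ f i, E' f (σ i) = E' f i)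
    (M : ι → Prop) [DecidablePred M]
    (hsupp : ∀ f i, ¬ M i → (P f i - E f i) * (P' f i - E' f i) = 0) (f : ι → ℝ) :
    (1 / 2) * ∑ i, (f i - f (σ i)) ^ 2 - ∑ i ∈ univ.filter M, (P f i - E f i) ^ 2
        - ∑ i ∈ univ.filter M, (P' f i - E' f i) ^ 2
      ≤ 2 * ∑ i, (f i - E f i) * (f i - E' f i) := by
  -- term 1
  obtain ⟨h, hh⟩ : ∃ h, h = f - E' f := ⟨_, rfl⟩
  obtain ⟨w, hw⟩ : ∃ w, w = h - P h := ⟨_, rfl⟩
  have hE'h : E' h = 0 := by rw [hh, map_sub, idemE', sub_self]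
  have t1 : ip (f - P f) h = ip w w := by
    have a1 : ip (E' f) h = 0 := by rw [symE', hE'h, ip_zero_right]
    have a2 : ip (P (E' f)) h = 0 := by rw [c1, symE', hE'h, ip_zero_right]
    have a3 : ip (P h) (P h) = ip (P h) h := by rw [symP, idemP, ip_comm]
    have a4 : ip h h = ip f h := by
      have : ip (f - E' f) h = ip f h - ip (E' f) h := ip_sub_left _ _ _
      rw [← hh] at this
      linarith
    have a5 : ip (P h) h = ip (P f) h := by
      have e : P h = P f - P (E' f) := by rw [hh, map_sub]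
      have : ip (P f - P (E' f)) h = ip (P f) h - ip (P (E' f)) h := ip_sub_left _ _ _
      rw [← e] at this
      linarith
    have x1 : ip w w = ip h h - ip h (P h) - (ip (P h) h - ip (P h) (P h)) := by
      rw [hw, ip_sub_left, ip_sub_right, ip_sub_right]
    have x2 : ip (f - P f) h = ip f h - ip (P f) h := ip_sub_left _ _ _
    have x3 := ip_comm h (P h)
    linarith
  have hfw : ∀ i, f i - f (σ i) = w i - w (σ i) := fun i => by
    have e1 : ∀ j, w j = f j - E' f j - P h j := fun j => by rw [hw, hh]; rfl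
    rw [e1 i, e1 (σ i), hσE' f i, hσP h i]; ring
  have t1' : (1 / 4) * ∑ i, (f i - f (σ i)) ^ 2 ≤ ip w w := by
    have e2 : ∑ i, w (σ i) ^ 2 = ∑ i, w i ^ 2 :=
      Equiv.sum_comp (hσ.toPerm σ) fun i => w i ^ 2
    have e3 : ∑ i, (f i - f (σ i)) ^ 2 ≤ ∑ i, (2 * w i ^ 2 + 2 * w (σ i) ^ 2) :=
      sum_le_sum fun i _ => by rw [hfw i]; nlinarith [sq_nonneg (w i + w (σ i))]
    rw [sum_add_distrib, ← mul_sum, ← mul_sum, e2] at e3
    have e4 : ip w w = ∑ i, w i ^ 2 := sum_congr rfl fun i _ => (sq (w i)).symm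
    rw [e4]; linarith
  -- term 2
  obtain ⟨g, hg⟩ : ∃ g, g = f - P' f := ⟨_, rfl⟩
  have hP'g : P' g = 0 := by rw [hg, map_sub, idemP', sub_self]
  have t2 : ip (P f - E f) g = ip (P g - E g) (P g - E g) := by
    have b1 : P g - E g = (P f - E f) - P' (P f - E f) := by
      rw [hg, map_sub, map_sub, map_sub, c2, ← c3]; abel
    have b2 : ip (P' (P f - E f)) g = 0 := by rw [symP', hP'g, ip_zero_right]
    have b3 : ip (P f - E f) g = ip (P g - E g) g := by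
      have : ip (P g - E g) g = ip (P f - E f) g - ip (P' (P f - E f)) g := by
        rw [b1, ip_sub_left]
      linarith
    have b4 : ip (P g) (P g) = ip (P g) g := by rw [symP, idemP, ip_comm]
    have b5 : ip (P g) (E g) = ip (E g) g := by rw [symP, hPE, ip_comm]
    have b6 : ip (E g) (E g) = ip (E g) g := by rw [symE, idemE, ip_comm]
    have y1 : ip (P g - E g) (P g - E g)
        = ip (P g) (P g) - ip (P g) (E g) - (ip (E g) (P g) - ip (E g) (E g)) := by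
      rw [ip_sub_left, ip_sub_right, ip_sub_right]
    have y2 : ip (P g - E g) g = ip (P g) g - ip (E g) g := ip_sub_left _ _ _
    have y3 := ip_comm (E g) (P g)
    linarith
  have t2' : 0 ≤ ip (P f - E f) g := by rw [t2]; exact ip_self_nonneg _
  -- term 3
  have t3 : -(1 / 2) * ∑ i ∈ univ.filter M, (P f i - E f i) ^ 2
      - (1 / 2) * ∑ i ∈ univ.filter M, (P' f i - E' f i) ^ 2
      ≤ ∑ i, (P f i - E f i) * (P' f i - E' f i) := by
    have e5 : ∑ i, (P f i - E f i) * (P' f i - E' f i)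
        = ∑ i ∈ univ.filter M, (P f i - E f i) * (P' f i - E' f i) := by
      rw [sum_filter]
      refine sum_congr rfl fun i _ => ?_
      split_ifs with hM
      · rfl
      · exact hsupp f i hM
    rw [e5, mul_sum, mul_sum, ← sum_sub_distrib]
    refine sum_le_sum fun i _ => ?_
    nlinarith [sq_nonneg ((P f i - E f i) + (P' f i - E' f i))]
  -- assemble
  have hsum : ∑ i, (f i - E f i) * (f i - E' f i)
      = ip (f - P f) h + ip (P f - E f) g + ∑ i, (P f i - E f i) * (P' f i - E' f i) := by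
    simp only [ip, ← sum_add_distrib]
    refine sum_congr rfl fun i _ => ?_
    rw [hh, hg]
    simp only [Pi.sub_apply]
    ring
  rw [hsum, t1]
  linarith

end core

/-! ### Transfer to class averages on `Ω ⊆ α` -/

section transfer

variable {Ω : Finset α}

open Classical in
/-- extension by zero of a function on `Ω` -/
noncomputable def ext0 (Ω : Finset α) (u : ↥Ω → ℝ) : α → ℝ :=
  fun x => if h : x ∈ Ω then u ⟨x, h⟩ else 0

lemma ext0_mem (u : ↥Ω → ℝ) {x : α} (hx : x ∈ Ω) : ext0 Ω u x = u ⟨x, hx⟩ := by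
  simp [ext0, hx]

lemma ext0_add (u v : ↥Ω → ℝ) : ext0 Ω (u + v) = ext0 Ω u + ext0 Ω v := by
  funext x
  by_cases hx : x ∈ Ω <;> simp [ext0, hx]

lemma ext0_smul (c : ℝ) (u : ↥Ω → ℝ) : ext0 Ω (c • u) = c • ext0 Ω u := by
  funext x
  by_cases hx : x ∈ Ω <;> simp [ext0, hx]

variable (r s : α → α → Prop) [DecidableRel r] [DecidableRel s]

/-- the class average as a linear map on functions on `Ω` -/
noncomputable def op (Ω : Finset α) (r : α → α → Prop) [DecidableRel r] :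
    (↥Ω → ℝ) →ₗ[ℝ] (↥Ω → ℝ) where
  toFun u := fun i => avgOn Ω r (ext0 Ω u) i.1
  map_add' u v := by
    funext i
    simp only [ext0_add, avgOn_add, Pi.add_apply]
  map_smul' c u := by
    funext i
    simp only [ext0_smul, avgOn_smul, Pi.smul_apply, smul_eq_mul, RingHom.id_apply]

lemma op_apply (u : ↥Ω → ℝ) (i : ↥Ω) : op Ω r u i = avgOn Ω r (ext0 Ω u) i.1 := rfl

lemma op_res (f : α → ℝ) (i : ↥Ω) : op Ω r (fun j => f j.1) i = avgOn Ω r f i.1 :=
  avgOn_congr (fun _ hy => ext0_mem _ hy) _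

lemma ext0_op (u : ↥Ω → ℝ) {x : α} (hx : x ∈ Ω) :
    ext0 Ω (op Ω r u) x = avgOn Ω r (ext0 Ω u) x := ext0_mem _ hx

lemma op_op (u : ↥Ω → ℝ) (i : ↥Ω) :
    op Ω r (op Ω s u) i = avgOn Ω r (avgOn Ω s (ext0 Ω u)) i.1 :=
  avgOn_congr (fun _ hy => ext0_op s u hy) _

lemma ip_eq (u v : ↥Ω → ℝ) : ip u v = ∑ x ∈ Ω, ext0 Ω u x * ext0 Ω v x := by
  unfold ip
  rw [← Finset.sum_coe_sort Ω (fun x => ext0 Ω u x * ext0 Ω v x)]
  exact sum_congr rfl fun i _ => by rw [ext0_mem u i.2, ext0_mem v i.2]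

variable {r s}

lemma op_symm (hr : IsEqvOn Ω r) (u v : ↥Ω → ℝ) : ip (op Ω r u) v = ip u (op Ω r v) := by
  rw [ip_eq, ip_eq, sum_congr rfl fun x hx => by rw [ext0_op r u hx],
    avgOn_symm hr]
  exact sum_congr rfl fun x hx => by rw [ext0_op r v hx]

lemma op_idem (hr : IsEqvOn Ω r) (u : ↥Ω → ℝ) : op Ω r (op Ω r u) = op Ω r u := by
  funext i
  rw [op_op, op_apply]
  exact avgOn_idem hr _ i.2

end transfer

/-! ### Lemma S -/

section lemmaS

/-- an equivalence split by a status is an equivalence -/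
lemma isEqvOn_split {Ω : Finset α} {e p : α → α → Prop} {M : α → Prop} (he : IsEqvOn Ω e)
    (hp : ∀ x ∈ Ω, ∀ y ∈ Ω, p x y ↔ e x y ∧ (M x ↔ M y)) : IsEqvOn Ω p := by
  refine ⟨fun x hx => (hp x hx x hx).mpr ⟨he.refl x hx, Iff.rfl⟩, fun x hx y hy h => ?_,
    fun x hx y hy z hz h1 h2 => ?_⟩
  · obtain ⟨h1, h2⟩ := (hp x hx y hy).mp h
    exact (hp y hy x hx).mpr ⟨he.symm x hx y hy h1, h2.symm⟩
  · obtain ⟨a1, a2⟩ := (hp x hx y hy).mp h1
    obtain ⟨b1, b2⟩ := (hp y hy z hz).mp h2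
    exact (hp x hx z hz).mpr ⟨he.trans x hx y hy z hz a1 b1, a2.trans b2⟩

/-- **Lemma S (abstract).**  `e`, `e'` equivalences on `Ω`; `p` (`p'`) = `e` (`e'`) split by the
`M`-status; the three commutations; `σ` an involution of `Ω` inside the `e`- and `e'`-classes
preserving `M`; `(R)`: outside `M`, the `e`-class and the `e'`-class of a point do not both
meet `M`. -/
theorem lemma_S_abs (Ω : Finset α) (e e' p p' : α → α → Prop)
    [DecidableRel e] [DecidableRel e'] [DecidableRel p] [DecidableRel p']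
    (M : α → Prop) [DecidablePred M] (σ : α → α)
    (he : IsEqvOn Ω e) (he' : IsEqvOn Ω e')
    (hp : ∀ x ∈ Ω, ∀ y ∈ Ω, p x y ↔ e x y ∧ (M x ↔ M y))
    (hp' : ∀ x ∈ Ω, ∀ y ∈ Ω, p' x y ↔ e' x y ∧ (M x ↔ M y))
    (hC1 : ∀ f : α → ℝ, ∀ x ∈ Ω, avgOn Ω p (avgOn Ω e' f) x = avgOn Ω e' (avgOn Ω p f) x)
    (hC2 : ∀ f : α → ℝ, ∀ x ∈ Ω, avgOn Ω p (avgOn Ω p' f) x = avgOn Ω p' (avgOn Ω p f) x)
    (hC3 : ∀ f : α → ℝ, ∀ x ∈ Ω, avgOn Ω p' (avgOn Ω e f) x = avgOn Ω e (avgOn Ω p' f) x)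
    (hσΩ : ∀ x ∈ Ω, σ x ∈ Ω) (hσσ : ∀ x ∈ Ω, σ (σ x) = x)
    (hσe : ∀ x ∈ Ω, e x (σ x)) (hσe' : ∀ x ∈ Ω, e' x (σ x)) (hσM : ∀ x ∈ Ω, (M (σ x) ↔ M x))
    (hR : ∀ x ∈ Ω, ¬ M x → (∃ y ∈ Ω, e x y ∧ M y) → (∃ y ∈ Ω, e' x y ∧ M y) → False)
    (f : α → ℝ) :
    (1 / 2) * ∑ x ∈ Ω, (f x - f (σ x)) ^ 2
        - ∑ x ∈ Ω.filter M, (avgOn Ω p f x - avgOn Ω e f x) ^ 2
        - ∑ x ∈ Ω.filter M, (avgOn Ω p' f x - avgOn Ω e' f x) ^ 2
      ≤ 2 * ∑ x ∈ Ω, (f x - avgOn Ω e f x) * (f x - avgOn Ω e' f x) := by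
  -- `p`, `p'` are equivalences
  have hpE : IsEqvOn Ω p := isEqvOn_split he hp
  have hpE' : IsEqvOn Ω p' := isEqvOn_split he' hp'
  -- classes not meeting `M`
  have hcls : ∀ x ∈ Ω, ¬ M x → (¬ ∃ y ∈ Ω, e x y ∧ M y) → Ω.filter (p x) = Ω.filter (e x) := by
    intro x hx hMx hno
    ext y
    simp only [mem_filter]
    constructor
    · rintro ⟨hy, h⟩
      exact ⟨hy, ((hp x hx y hy).mp h).1⟩
    · rintro ⟨hy, h⟩
      refine ⟨hy, (hp x hx y hy).mpr ⟨h, ?_⟩⟩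
      exact ⟨fun h1 => absurd h1 hMx, fun h1 => absurd ⟨y, hy, h, h1⟩ hno⟩
  have hcls' : ∀ x ∈ Ω, ¬ M x → (¬ ∃ y ∈ Ω, e' x y ∧ M y) →
      Ω.filter (p' x) = Ω.filter (e' x) := by
    intro x hx hMx hno
    ext y
    simp only [mem_filter]
    constructor
    · rintro ⟨hy, h⟩
      exact ⟨hy, ((hp' x hx y hy).mp h).1⟩
    · rintro ⟨hy, h⟩
      refine ⟨hy, (hp' x hx y hy).mpr ⟨h, ?_⟩⟩
      exact ⟨fun h1 => absurd h1 hMx, fun h1 => absurd ⟨y, hy, h, h1⟩ hno⟩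
  -- the involution on the subtype
  let σι : ↥Ω → ↥Ω := fun i => ⟨σ i.1, hσΩ i.1 i.2⟩
  have hσι : Function.Involutive σι := fun i => Subtype.ext (hσσ i.1 i.2)
  have key := core_S (op Ω e) (op Ω e') (op Ω p) (op Ω p')
    (op_symm he) (op_symm he') (op_symm hpE) (op_symm hpE')
    (op_idem he) (op_idem he') (op_idem hpE) (op_idem hpE')
    (fun u => by
      funext i
      rw [op_op, op_apply]
      exact avgOn_of_const hpE i.2 fun y hy hxy =>
        (avgOn_eq_of_rel he _ i.2 hy ((hp i.1 i.2 y hy).mp hxy).1).symm)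
    (fun u => by funext i; rw [op_op, op_op]; exact hC1 _ i.1 i.2)
    (fun u => by funext i; rw [op_op, op_op]; exact hC2 _ i.1 i.2)
    (fun u => by funext i; rw [op_op, op_op]; exact hC3 _ i.1 i.2)
    σι hσι
    (fun u i => by
      rw [op_apply, op_apply]
      exact (avgOn_eq_of_rel hpE _ i.2 (hσΩ i.1 i.2)
        ((hp i.1 i.2 _ (hσΩ i.1 i.2)).mpr ⟨hσe i.1 i.2, (hσM i.1 i.2).symm⟩)).symm)
    (fun u i => by
      rw [op_apply, op_apply]
      exact (avgOn_eq_of_rel he' _ i.2 (hσΩ i.1 i.2) (hσe' i.1 i.2)).symm)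
    (fun i => M i.1)
    (fun u i hMi => by
      rw [op_apply, op_apply, op_apply, op_apply]
      by_cases h1 : ∃ y ∈ Ω, e i.1 y ∧ M y
      · have h2 : ¬ ∃ y ∈ Ω, e' i.1 y ∧ M y := fun h2 => hR i.1 i.2 hMi h1 h2
        have : avgOn Ω p' (ext0 Ω u) i.1 = avgOn Ω e' (ext0 Ω u) i.1 := by
          unfold avgOn; rw [hcls' i.1 i.2 hMi h2]
        rw [this, sub_self, mul_zero]
      · have : avgOn Ω p (ext0 Ω u) i.1 = avgOn Ω e (ext0 Ω u) i.1 := by
          unfold avgOn; rw [hcls i.1 i.2 hMi h1]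
        rw [this, sub_self, zero_mul])
    (fun i => f i.1)
  simp only [op_res] at key
  have s1 : ∑ i : ↥Ω, (f i.1 - f (σι i).1) ^ 2 = ∑ x ∈ Ω, (f x - f (σ x)) ^ 2 :=
    Finset.sum_coe_sort Ω (fun x => (f x - f (σ x)) ^ 2)
  have s2 : ∀ F : α → ℝ, ∑ i ∈ (univ : Finset ↥Ω).filter (fun i => M i.1), F i.1
      = ∑ x ∈ Ω.filter M, F x := by
    intro F
    rw [sum_filter, sum_filter]
    exact Finset.sum_coe_sort Ω (fun x => if M x then F x else 0)
  have s3 : ∑ i : ↥Ω, (f i.1 - avgOn Ω e f i.1) * (f i.1 - avgOn Ω e' f i.1)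
      = ∑ x ∈ Ω, (f x - avgOn Ω e f x) * (f x - avgOn Ω e' f x) :=
    Finset.sum_coe_sort Ω (fun x => (f x - avgOn Ω e f x) * (f x - avgOn Ω e' f x))
  rw [s1, s2 (fun x => (avgOn Ω p f x - avgOn Ω e f x) ^ 2),
    s2 (fun x => (avgOn Ω p' f x - avgOn Ω e' f x) ^ 2), s3] at key
  exact key

/-- a `Transport` for `(p, e')` gives one for `(p, p')` (the same maps: they preserve the
`M`-status). -/
lemma transport_split {Ω : Finset α} {e' p p' : α → α → Prop} {M : α → Prop}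
    (hpM : ∀ x ∈ Ω, ∀ y ∈ Ω, p x y → (M x ↔ M y))
    (hp' : ∀ x ∈ Ω, ∀ y ∈ Ω, p' x y ↔ e' x y ∧ (M x ↔ M y))
    (ht : Transport Ω p e') : Transport Ω p p' := by
  intro x hx x' hx' hxx'
  obtain ⟨φ, hφ, hφi⟩ := ht x hx x' hx' hxx'
  refine ⟨φ, fun y hy hxy => ?_, fun y hy y' hy' hxy hxy' h =>
    hφi y hy y' hy' ((hp' x hx y hy).mp hxy).1 ((hp' x hx y' hy').mp hxy').1 h⟩
  obtain ⟨h1, h2⟩ := (hp' x hx y hy).mp hxy
  obtain ⟨a1, a2, a3⟩ := hφ y hy h1
  refine ⟨a1, (hp' x' hx' (φ y) a1).mpr ⟨a2, ?_⟩, a3⟩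
  exact ((hpM x hx x' hx' hxx').symm.trans h2).trans (hpM y hy (φ y) a1 a3)

/-- **Lemma S from two transports.**  As `lemma_S_abs`, with the three commutations replaced by
`Transport Ω p e'` and `Transport Ω p' e`. -/
theorem lemma_S_of_transport (Ω : Finset α) (e e' p p' : α → α → Prop)
    [DecidableRel e] [DecidableRel e'] [DecidableRel p] [DecidableRel p']
    (M : α → Prop) [DecidablePred M] (σ : α → α)
    (he : IsEqvOn Ω e) (he' : IsEqvOn Ω e')
    (hp : ∀ x ∈ Ω, ∀ y ∈ Ω, p x y ↔ e x y ∧ (M x ↔ M y))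
    (hp' : ∀ x ∈ Ω, ∀ y ∈ Ω, p' x y ↔ e' x y ∧ (M x ↔ M y))
    (ht : Transport Ω p e') (ht' : Transport Ω p' e)
    (hσΩ : ∀ x ∈ Ω, σ x ∈ Ω) (hσσ : ∀ x ∈ Ω, σ (σ x) = x)
    (hσe : ∀ x ∈ Ω, e x (σ x)) (hσe' : ∀ x ∈ Ω, e' x (σ x)) (hσM : ∀ x ∈ Ω, (M (σ x) ↔ M x))
    (hR : ∀ x ∈ Ω, ¬ M x → (∃ y ∈ Ω, e x y ∧ M y) → (∃ y ∈ Ω, e' x y ∧ M y) → False)
    (f : α → ℝ) :
    (1 / 2) * ∑ x ∈ Ω, (f x - f (σ x)) ^ 2
        - ∑ x ∈ Ω.filter M, (avgOn Ω p f x - avgOn Ω e f x) ^ 2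
        - ∑ x ∈ Ω.filter M, (avgOn Ω p' f x - avgOn Ω e' f x) ^ 2
      ≤ 2 * ∑ x ∈ Ω, (f x - avgOn Ω e f x) * (f x - avgOn Ω e' f x) := by
  have hpE : IsEqvOn Ω p := isEqvOn_split he hp
  have hpE' : IsEqvOn Ω p' := isEqvOn_split he' hp'
  exact lemma_S_abs Ω e e' p p' M σ he he' hp hp'
    (comm_of_transport hpE he' ht)
    (comm_of_transport hpE hpE'
      (transport_split (fun x hx y hy h => ((hp x hx y hy).mp h).2) hp' ht))
    (comm_of_transport hpE' he ht')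
    hσΩ hσσ hσe hσe' hσM hR f

end lemmaS

end Crest.Agent.S0453R.SAbs

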