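import Mathlib
import Crest.Prelude.Def_SwitchChain
import Crest.Agent.S0453.Avg
import Crest.Agent.S0453.CoupleDefs
import Crest.Agent.S0453.SAbs

/-!
Row 299 / S0453, CS track B (helper57): assembly of `SGraph d` (helper12's interface, `CoupleDefs.lean`)
from the abstract Lemma S (`SAbs.lemma_S_of_transport`) and the graph facts of helper45's statement
chain (board post 1115):

* `hT`     : the class transport `SAbs.Transport (realizations d) (sameOffM b b') (sameOff b')`
             (= (F2) + (F3), the splice bijection);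
* the flip facts (σ): `flip_mem`, `flip_flip`, `Ms_flip`, `sameOff_flip_left/right`;
* `hsupp`  : (Supp).
-/

set_option autoImplicit false
open Finset

namespace Crest.Agent.S0453R

open Crest.SwitchChain

variable {n : ℕ}

lemma isEqvOn_sameOff (Ω : Finset (Finset (Edge n))) (U : Finset (Fin n)) :
    SAbs.IsEqvOn Ω (sameOff U) :=
  ⟨fun x _ => sameOff_refl U x, fun _ _ _ _ h => sameOff_symm h,
    fun _ _ _ _ _ _ h h' => sameOff_trans h h'⟩

/-- **Assembly of (S-graph)** from the class transport, the flip facts and (Supp). -/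
theorem sgraph_of_facts (d : Fin n → ℕ)
    (hT : ∀ b ∈ pairs n, ∀ b' ∈ pairs n, Disjoint b b' →
      SAbs.Transport (realizations d) (sameOffM b b') (sameOff b'))
    (hflip_mem : ∀ b ∈ pairs n, ∀ b' ∈ pairs n, Disjoint b b' →
      ∀ G ∈ realizations d, flip b b' G ∈ realizations d)
    (hflip_flip : ∀ b ∈ pairs n, ∀ b' ∈ pairs n, Disjoint b b' →
      ∀ G ∈ realizations d, flip b b' (flip b b' G) = G)
    (hMs_flip : ∀ b ∈ pairs n, ∀ b' ∈ pairs n, Disjoint b b' →
      ∀ G ∈ realizations d, (Ms b b' (flip b b' G) ↔ Ms b b' G))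
    (hflip_left : ∀ b ∈ pairs n, ∀ b' ∈ pairs n, Disjoint b b' →
      ∀ G ∈ realizations d, sameOff b G (flip b b' G))
    (hflip_right : ∀ b ∈ pairs n, ∀ b' ∈ pairs n, Disjoint b b' →
      ∀ G ∈ realizations d, sameOff b' G (flip b b' G))
    (hsupp : ∀ b ∈ pairs n, ∀ b' ∈ pairs n, Disjoint b b' → ∀ G ∈ realizations d,
      ¬ Ms b b' G → ¬ ((∃ H ∈ realizations d, sameOff b G H ∧ Ms b b' H) ∧
        (∃ H ∈ realizations d, sameOff b' G H ∧ Ms b b' H))) :
    SGraph d := by
  intro b hb b' hb' hdisj f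
  have key := SAbs.lemma_S_of_transport (realizations d) (sameOff b) (sameOff b')
    (sameOffM b b') (sameOffM b' b) (Ms b b') (flip b b')
    (isEqvOn_sameOff _ b) (isEqvOn_sameOff _ b')
    (fun _ _ _ _ => Iff.rfl)
    (fun x _ y _ => by
      unfold sameOffM
      rw [Ms_comm b' b x, Ms_comm b' b y])
    (hT b hb b' hb' hdisj)
    (by
      have h := hT b' hb' b hb hdisj.symm
      exact h)
    (hflip_mem b hb b' hb' hdisj) (hflip_flip b hb b' hb' hdisj)
    (hflip_left b hb b' hb' hdisj) (hflip_right b hb b' hb' hdisj)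
    (hMs_flip b hb b' hb' hdisj)
    (fun G hG hM h1 h2 => hsupp b hb b' hb' hdisj G hG hM ⟨h1, h2⟩)
    f
  have hfilt : (realizations d).filter (Ms b' b) = (realizations d).filter (Ms b b') :=
    filter_congr fun G _ => Ms_comm b' b G
  unfold swE Q P E
  rw [hfilt]
  exact key

end Crest.Agent.S0453R
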