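import Mathlib
import Crest.Prelude.Def_SwitchChain
import Crest.Agent.S0453.Avg
import Crest.Agent.S0453.Connect
import Crest.Agent.S0453.CoupleDefs
import Crest.Agent.S0453.CoupleMargin
import Crest.Agent.S0453.SAbs
import Crest.Agent.S0453.SGraphAsm
import Crest.Agent.S0453.CoupleAvg
import Crest.Agent.S0453.CoupleFlip77

/-!
Row 299 / S0453 — [CS] the splice bijection (helper67's `phi`, board #998) in Lean (helper45).

For a couple `b = {a, a'}`, `b' = {c, c'}` and `G, G''` in one `sameOffM b b'`-class: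
`splice a a' b b' G'' ε H` = block slots of `H` (rows swapped iff `ε`), slots touching `b` but not
`b'` from `G''`, slots avoiding `b` from `H`.

* `splice_spec`   (F2): for `H` in the `b'`-class of `G` the splice lies in `Ω`, in the `b'`-class
                   of `G''` and in the `sameOffM b b'`-class of `H`;
* `splice_splice` (F3): splicing back is the identity on the `b'`-class of `G`;
* `transport_sameOffM` : `SAbs.Transport (realizations d) (sameOffM b b') (sameOff b')`;
* `sgraph`        : **`SGraph d`** (the couple lemma, Lemma S of board post 956), via helper57's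
                   `sgraph_of_facts`, helper77's flip facts and `supp_fact`.
-/

set_option autoImplicit false
open Finset

namespace Crest.Agent.S0453R

open Crest.SwitchChain

variable {n : ℕ}

/-- the edge map induced by the transposition `(a a')` -/
def swapE (a a' : Fin n) (e : Edge n) : Edge n :=
  ⟨Sym2.map (Equiv.swap a a') e.1, fun h =>
    e.2 ((Sym2.isDiag_map (Equiv.swap a a').injective).1 h)⟩

lemma swapE_mkE (a a' : Fin n) {x y : Fin n} (h : x ≠ y) :
    swapE a a' (mkE x y h) = mkE (Equiv.swap a a' x) (Equiv.swap a a' y)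
      (fun h' => h ((Equiv.swap a a').injective h')) := rfl

lemma swapE_swapE (a a' : Fin n) (e : Edge n) : swapE a a' (swapE a a' e) = e := by
  obtain ⟨x, y, h, rfl⟩ := edge_eq_mkE e
  rw [swapE_mkE, swapE_mkE, mkE_eq_iff]
  left
  exact ⟨Equiv.swap_apply_self _ _ _, Equiv.swap_apply_self _ _ _⟩

/-- helper67's splice `phi(H) = OO(H) + RA(G'') + RC(H) + tau^eps BL(H)` -/
def splice (a a' : Fin n) (b b' : Finset (Fin n)) (G'' : Finset (Edge n)) (ε : Bool)
    (H : Finset (Edge n)) : Finset (Edge n) :=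
  univ.filter fun e =>
    if e ∈ cross b b' then (if ε then swapE a a' e ∈ H else e ∈ H)
    else if (∃ x ∈ b, x ∈ e.1) then e ∈ G''
    else e ∈ H

lemma mem_splice {a a' : Fin n} {b b' : Finset (Fin n)} {G'' H : Finset (Edge n)} {ε : Bool}
    {e : Edge n} :
    e ∈ splice a a' b b' G'' ε H ↔
      if e ∈ cross b b' then (if ε then swapE a a' e ∈ H else e ∈ H)
      else if (∃ x ∈ b, x ∈ e.1) then e ∈ G''
      else e ∈ H := by
  simp [splice]

lemma mem_cross_mkE {b b' : Finset (Fin n)} (hd : Disjoint b b') {x y : Fin n} (h : x ≠ y) :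
    mkE x y h ∈ cross b b' ↔ (x ∈ b ∧ y ∈ b') ∨ (x ∈ b' ∧ y ∈ b) := by
  rw [mem_cross]
  simp only [mem_mkE]
  constructor
  · rintro ⟨⟨u, hu, rfl | rfl⟩, ⟨v, hv, rfl | rfl⟩⟩
    · exact absurd hv (disjoint_left.mp hd hu)
    · exact Or.inl ⟨hu, hv⟩
    · exact Or.inr ⟨hv, hu⟩
    · exact absurd hv (disjoint_left.mp hd hu)
  · rintro (⟨hx, hy⟩ | ⟨hx, hy⟩)
    · exact ⟨⟨x, hx, Or.inl rfl⟩, ⟨y, hy, Or.inr rfl⟩⟩
    · exact ⟨⟨y, hy, Or.inr rfl⟩, ⟨x, hx, Or.inl rfl⟩⟩

lemma touches_mkE {b : Finset (Fin n)} {x y : Fin n} (h : x ≠ y) :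
    (∃ u ∈ b, u ∈ (mkE x y h).1) ↔ x ∈ b ∨ y ∈ b := by
  simp only [mem_mkE]
  constructor
  · rintro ⟨u, hu, rfl | rfl⟩
    · exact Or.inl hu
    · exact Or.inr hu
  · rintro (hx | hy)
    · exact ⟨x, hx, Or.inl rfl⟩
    · exact ⟨y, hy, Or.inr rfl⟩

lemma mem_nb_splice {a a' : Fin n} {b b' : Finset (Fin n)} (hd : Disjoint b b')
    {G'' H : Finset (Edge n)} {ε : Bool} {x y : Fin n} :
    y ∈ nb (splice a a' b b' G'' ε H) x ↔
      if (x ∈ b ∧ y ∈ b') ∨ (x ∈ b' ∧ y ∈ b) then
        (if ε then Equiv.swap a a' y ∈ nb H (Equiv.swap a a' x) else y ∈ nb H x)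
      else if x ∈ b ∨ y ∈ b then y ∈ nb G'' x else y ∈ nb H x := by
  by_cases hxy : x = y
  · subst hxy
    have h1 : x ∉ nb (splice a a' b b' G'' ε H) x := not_mem_nb_self _ _
    have h2 : Equiv.swap a a' x ∉ nb H (Equiv.swap a a' x) := not_mem_nb_self _ _
    have h3 : x ∉ nb H x := not_mem_nb_self _ _
    have h4 : x ∉ nb G'' x := not_mem_nb_self _ _
    simp only [h1, h2, h3, h4, false_iff]
    split_ifs <;> simp
  · have hs : Equiv.swap a a' x ≠ Equiv.swap a a' y := fun h' => hxy ((Equiv.swap a a').injective h')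
    rw [← mkE_mem_iff hxy, mem_splice]
    simp only [mem_cross_mkE hd hxy, touches_mkE hxy, swapE_mkE, mkE_mem_iff]


section pieces

variable {a a' : Fin n} {b b' : Finset (Fin n)} {G'' H : Finset (Edge n)} {ε : Bool}

/-- for `v ∉ b`: outside `b` the spliced graph has the neighbours of `H` -/
lemma nb_splice_sdiff_of_notMem (hd : Disjoint b b') {v : Fin n} (hv : v ∉ b) :
    nb (splice a a' b b' G'' ε H) v \ b = nb H v \ b := by
  ext y
  simp only [mem_sdiff, mem_nb_splice hd]
  constructor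
  · rintro ⟨h, hy⟩
    rw [if_neg (by tauto), if_neg (by tauto)] at h
    exact ⟨h, hy⟩
  · rintro ⟨h, hy⟩
    rw [if_neg (by tauto), if_neg (by tauto)]
    exact ⟨h, hy⟩

/-- for `v` outside `b ∪ b'`: inside `b` the spliced graph has the neighbours of `G''` -/
lemma nb_splice_inter_of_outside (hd : Disjoint b b') {v : Fin n} (hv : v ∉ b) (hv' : v ∉ b') :
    nb (splice a a' b b' G'' ε H) v ∩ b = nb G'' v ∩ b := by
  ext y
  simp only [mem_inter, mem_nb_splice hd]
  constructor
  · rintro ⟨h, hy⟩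
    rw [if_neg (by tauto), if_pos (Or.inr hy)] at h
    exact ⟨h, hy⟩
  · rintro ⟨h, hy⟩
    rw [if_neg (by tauto), if_pos (Or.inr hy)]
    exact ⟨h, hy⟩

/-- for `v ∈ b`: outside `b'` the spliced graph has the neighbours of `G''` -/
lemma nb_splice_sdiff_of_mem (hd : Disjoint b b') {v : Fin n} (hv : v ∈ b) :
    nb (splice a a' b b' G'' ε H) v \ b' = nb G'' v \ b' := by
  have hv' : v ∉ b' := disjoint_left.mp hd hv
  ext y
  simp only [mem_sdiff, mem_nb_splice hd]
  constructor
  · rintro ⟨h, hy⟩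
    rw [if_neg (by tauto), if_pos (Or.inl hv)] at h
    exact ⟨h, hy⟩
  · rintro ⟨h, hy⟩
    rw [if_neg (by tauto), if_pos (Or.inl hv)]
    exact ⟨h, hy⟩

end pieces

section pair

variable {a a' : Fin n} {b' : Finset (Fin n)} {G'' H : Finset (Edge n)} {ε : Bool}

lemma swap_mem_pair {y : Fin n} (hy : y ∈ ({a, a'} : Finset (Fin n))) :
    Equiv.swap a a' y ∈ ({a, a'} : Finset (Fin n)) := by
  simp only [mem_insert, mem_singleton] at hy ⊢
  rcases hy with rfl | rfl
  · right; exact Equiv.swap_apply_left _ _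
  · left; exact Equiv.swap_apply_right _ _

lemma swap_of_mem_right (hd : Disjoint ({a, a'} : Finset (Fin n)) b') {y : Fin n} (hy : y ∈ b') :
    Equiv.swap a a' y = y := by
  apply Equiv.swap_apply_of_ne_of_ne
  · rintro rfl; exact disjoint_left.mp hd (by simp) hy
  · rintro rfl; exact disjoint_left.mp hd (by simp) hy

/-- for `v ∈ b'`: the spliced graph has as many neighbours in `b` as `H` -/
lemma card_nb_splice_inter_of_mem_right (hd : Disjoint ({a, a'} : Finset (Fin n)) b')
    {v : Fin n} (hv : v ∈ b') :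
    (nb (splice a a' {a, a'} b' G'' ε H) v ∩ {a, a'}).card = (nb H v ∩ {a, a'}).card := by
  have hσv : Equiv.swap a a' v = v := swap_of_mem_right hd hv
  cases ε with
  | false =>
    congr 1
    ext y
    simp only [mem_inter, mem_nb_splice hd]
    constructor
    · rintro ⟨h, hy⟩
      rw [if_pos (Or.inr ⟨hv, hy⟩)] at h
      exact ⟨by simpa using h, hy⟩
    · rintro ⟨h, hy⟩
      rw [if_pos (Or.inr ⟨hv, hy⟩)]
      exact ⟨by simpa using h, hy⟩
  | true =>
    rw [← card_image_of_injective (nb H v ∩ {a, a'}) (Equiv.swap a a').injective]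
    congr 1
    ext y
    simp only [mem_inter, mem_nb_splice hd, mem_image]
    constructor
    · rintro ⟨h, hy⟩
      rw [if_pos (Or.inr ⟨hv, hy⟩), if_pos trivial, hσv] at h
      exact ⟨Equiv.swap a a' y, ⟨h, swap_mem_pair hy⟩, Equiv.swap_apply_self _ _ _⟩
    · rintro ⟨z, ⟨hz, hzb⟩, rfl⟩
      refine ⟨?_, swap_mem_pair hzb⟩
      rw [if_pos (Or.inr ⟨hv, swap_mem_pair hzb⟩), if_pos trivial, hσv, Equiv.swap_apply_self]
      exact hz

/-- for `v ∈ b`: inside `b'` the spliced graph has the neighbours of `H` at `v` resp. at the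
swapped vertex -/
lemma nb_splice_inter_of_mem_left (hd : Disjoint ({a, a'} : Finset (Fin n)) b')
    {v : Fin n} (hv : v ∈ ({a, a'} : Finset (Fin n))) :
    nb (splice a a' {a, a'} b' G'' ε H) v ∩ b'
      = nb H (if ε then Equiv.swap a a' v else v) ∩ b' := by
  ext y
  simp only [mem_inter, mem_nb_splice hd]
  constructor
  · rintro ⟨h, hy⟩
    rw [if_pos (Or.inl ⟨hv, hy⟩), swap_of_mem_right hd hy] at h
    refine ⟨?_, hy⟩
    cases ε <;> simpa using h
  · rintro ⟨h, hy⟩
    rw [if_pos (Or.inl ⟨hv, hy⟩), swap_of_mem_right hd hy]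
    refine ⟨?_, hy⟩
    cases ε <;> simpa using h

end pair

section main

variable {d : Fin n → ℕ} {a a' c c' : Fin n}

lemma swapE_mem_cross {b' : Finset (Fin n)} (hd : Disjoint ({a, a'} : Finset (Fin n)) b')
    (e : Edge n) : swapE a a' e ∈ cross {a, a'} b' ↔ e ∈ cross {a, a'} b' := by
  obtain ⟨x, y, h, rfl⟩ := edge_eq_mkE e
  have hmem : ∀ z : Fin n, Equiv.swap a a' z ∈ ({a, a'} : Finset (Fin n)) ↔
      z ∈ ({a, a'} : Finset (Fin n)) := by
    intro z
    constructor
    · intro hz
      have := swap_mem_pair hz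
      rwa [Equiv.swap_apply_self] at this
    · exact swap_mem_pair
  have hmem' : ∀ z : Fin n, Equiv.swap a a' z ∈ b' ↔ z ∈ b' := by
    intro z
    constructor
    · intro hz
      have h1 := swap_of_mem_right hd hz
      rw [Equiv.swap_apply_self] at h1
      rw [h1]; exact hz
    · intro hz
      rw [swap_of_mem_right hd hz]; exact hz
  rw [swapE_mkE, mem_cross_mkE hd, mem_cross_mkE hd h, hmem, hmem, hmem', hmem']

/-- (F3) splicing back -/
theorem splice_splice {b' : Finset (Fin n)} (hd : Disjoint ({a, a'} : Finset (Fin n)) b')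
    {G G'' H : Finset (Edge n)} (ε : Bool) (hGH : sameOff b' G H) :
    splice a a' {a, a'} b' G ε (splice a a' {a, a'} b' G'' ε H) = H := by
  ext e
  rw [mem_splice]
  by_cases hc : e ∈ cross {a, a'} b'
  · rw [if_pos hc]
    cases ε with
    | false =>
      simp only [Bool.false_eq_true, if_false]
      rw [mem_splice, if_pos hc]
      simp
    | true =>
      simp only [if_true]
      rw [mem_splice, if_pos ((swapE_mem_cross hd e).mpr hc)]
      simp [swapE_swapE]
  · rw [if_neg hc]
    by_cases ht : ∃ x ∈ ({a, a'} : Finset (Fin n)), x ∈ e.1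
    · rw [if_pos ht]
      apply hGH e
      intro u hu hue
      exact hc (mem_cross.mpr ⟨ht, u, hu, hue⟩)
    · rw [if_neg ht, mem_splice, if_neg hc, if_neg ht]

/-- the row sums of `G''` are those of `G`, swapped iff the flag is set -/
lemma rows_match (haa' : a ≠ a') (hac : a ≠ c) (hac' : a ≠ c') (ha'c : a' ≠ c)
    (ha'c' : a' ≠ c') (hcc' : c ≠ c') {G G'' : Finset (Edge n)}
    (hG : G ∈ realizations d) (hG'' : G'' ∈ realizations d)
    (h : sameOffM {a, a'} {c, c'} G G'') {v : Fin n} (hv : v ∈ ({a, a'} : Finset (Fin n))) :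
    bdeg {a, a'} {c, c'} G'' v = bdeg {a, a'} {c, c'} G
      (if (decide (bdeg {a, a'} {c, c'} G'' a ≠ bdeg {a, a'} {c, c'} G a) : Bool)
        then Equiv.swap a a' v else v) := by
  have h1 := rows_eq_or_swap haa' hac hac' ha'c ha'c' hcc' hG hG'' h
  simp only [mem_insert, mem_singleton] at hv
  by_cases hε : bdeg {a, a'} {c, c'} G'' a ≠ bdeg {a, a'} {c, c'} G a
  · rw [if_pos (by simpa using hε)]
    rcases hv with rfl | rfl
    · rw [Equiv.swap_apply_left]
      rcases h1 with ⟨h2, _⟩ | ⟨h2, _⟩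
      · exact absurd h2 hε
      · exact h2
    · rw [Equiv.swap_apply_right]
      rcases h1 with ⟨h2, _⟩ | ⟨_, h2⟩
      · exact absurd h2 hε
      · exact h2
  · rw [if_neg (by simpa using hε)]
    have hε' := not_not.mp hε
    rcases hv with rfl | rfl
    · exact hε'
    · rcases h1 with ⟨_, h2⟩ | ⟨h2, h3⟩
      · exact h2
      · omega

/-- (F2) the splice lands in `Ω`, in the `b'`-class of `G''`, in the `P_b`-class of `H`. -/
theorem splice_spec (haa' : a ≠ a') (hac : a ≠ c) (hac' : a ≠ c') (ha'c : a' ≠ c)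
    (ha'c' : a' ≠ c') (hcc' : c ≠ c') {G G'' H : Finset (Edge n)}
    (hG : G ∈ realizations d) (hG'' : G'' ∈ realizations d) (hH : H ∈ realizations d)
    (h : sameOffM {a, a'} {c, c'} G G'') (hGH : sameOff {c, c'} G H) :
    splice a a' {a, a'} {c, c'} G''
        (decide (bdeg {a, a'} {c, c'} G'' a ≠ bdeg {a, a'} {c, c'} G a)) H ∈ realizations d ∧
      sameOff {c, c'} G'' (splice a a' {a, a'} {c, c'} G''
        (decide (bdeg {a, a'} {c, c'} G'' a ≠ bdeg {a, a'} {c, c'} G a)) H) ∧
      sameOffM {a, a'} {c, c'} H (splice a a' {a, a'} {c, c'} G''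
        (decide (bdeg {a, a'} {c, c'} G'' a ≠ bdeg {a, a'} {c, c'} G a)) H) := by
  have hd : Disjoint ({a, a'} : Finset (Fin n)) {c, c'} := disjoint_pairs hac hac' ha'c ha'c'
  have hrm := fun v hv => rows_match (v := v) haa' hac hac' ha'c ha'c' hcc' hG hG'' h hv
  generalize (decide (bdeg {a, a'} {c, c'} G'' a ≠ bdeg {a, a'} {c, c'} G a) : Bool) = ε at hrm ⊢
  have hτ : ∀ v ∈ ({a, a'} : Finset (Fin n)),
      (if ε then Equiv.swap a a' v else v) ∈ ({a, a'} : Finset (Fin n)) := by
    intro v hv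
    split_ifs
    · exact swap_mem_pair hv
    · exact hv
  have hKleft : ∀ v ∈ ({a, a'} : Finset (Fin n)),
      bdeg {a, a'} {c, c'} (splice a a' {a, a'} {c, c'} G'' ε H) v
        = bdeg {a, a'} {c, c'} H (if ε then Equiv.swap a a' v else v) := by
    intro v hv
    rw [bdeg_eq_left hd _ hv, nb_splice_inter_of_mem_left hd hv, ← bdeg_eq_left hd H (hτ v hv)]
  have hKright : ∀ v ∈ ({c, c'} : Finset (Fin n)),
      bdeg {a, a'} {c, c'} (splice a a' {a, a'} {c, c'} G'' ε H) v = bdeg {a, a'} {c, c'} H v := by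
    intro v hv
    rw [bdeg_eq_right hd _ hv, card_nb_splice_inter_of_mem_right hd hv, ← bdeg_eq_right hd H hv]
  refine ⟨?_, ?_, ?_, ?_⟩
  · -- degrees
    simp only [realizations, mem_filter, mem_univ, true_and]
    intro v
    rw [deg_eq_card_nb]
    by_cases hvb : v ∈ ({a, a'} : Finset (Fin n))
    · have e1 := card_inter_add_card_sdiff (nb (splice a a' {a, a'} {c, c'} G'' ε H) v) {c, c'}
      have e2 := card_inter_add_card_sdiff (nb G'' v) {c, c'}
      rw [nb_splice_sdiff_of_mem hd hvb] at e1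
      rw [card_nb_of_mem hG''] at e2
      have e3 : (nb (splice a a' {a, a'} {c, c'} G'' ε H) v ∩ {c, c'}).card
          = (nb G'' v ∩ {c, c'}).card := by
        rw [← bdeg_eq_left hd _ hvb, ← bdeg_eq_left hd G'' hvb, hKleft v hvb, hrm v hvb,
          bdeg_eq_of_sameOff' hd hG hH hGH (hτ v hvb)]
      omega
    · by_cases hvb' : v ∈ ({c, c'} : Finset (Fin n))
      · have e1 := card_inter_add_card_sdiff (nb (splice a a' {a, a'} {c, c'} G'' ε H) v) {a, a'}
        have e2 := card_inter_add_card_sdiff (nb H v) {a, a'}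
        rw [nb_splice_sdiff_of_notMem hd hvb, card_nb_splice_inter_of_mem_right hd hvb'] at e1
        rw [card_nb_of_mem hH] at e2
        omega
      · have e1 := card_inter_add_card_sdiff (nb (splice a a' {a, a'} {c, c'} G'' ε H) v) {a, a'}
        have e2 := card_inter_add_card_sdiff (nb H v) {a, a'}
        rw [nb_splice_sdiff_of_notMem hd hvb, nb_splice_inter_of_outside hd hvb hvb'] at e1
        rw [card_nb_of_mem hH] at e2
        have e3 : (nb G'' v ∩ {a, a'}).card = (nb G v ∩ {a, a'}).card :=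
          (card_nb_inter_eq_of_sameOff hG hG'' h.1 hvb).symm
        have e4 : nb G v ∩ {a, a'} = nb H v ∩ {a, a'} := by
          have e5 := nb_sdiff_eq_of_sameOff hGH hvb'
          ext y
          simp only [mem_inter]
          constructor
          · rintro ⟨hy1, hy2⟩
            have : y ∈ nb G v \ {c, c'} := mem_sdiff.mpr ⟨hy1, disjoint_left.mp hd hy2⟩
            rw [e5] at this
            exact ⟨(mem_sdiff.mp this).1, hy2⟩
          · rintro ⟨hy1, hy2⟩
            have : y ∈ nb H v \ {c, c'} := mem_sdiff.mpr ⟨hy1, disjoint_left.mp hd hy2⟩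
            rw [← e5] at this
            exact ⟨(mem_sdiff.mp this).1, hy2⟩
        rw [e4] at e3
        omega
  · -- sameOff b' G'' K
    intro e he
    rw [mem_splice]
    have hnc : e ∉ cross {a, a'} {c, c'} := by
      rw [mem_cross]
      rintro ⟨-, y, hy, hye⟩
      exact he y hy hye
    rw [if_neg hnc]
    by_cases ht : ∃ x ∈ ({a, a'} : Finset (Fin n)), x ∈ e.1
    · rw [if_pos ht]
    · rw [if_neg ht]
      have ht' : ∀ u ∈ ({a, a'} : Finset (Fin n)), u ∉ e.1 := fun u hu hue => ht ⟨u, hu, hue⟩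
      rw [← hGH e he, h.1 e ht']
  · -- sameOff b H K
    intro e he
    rw [mem_splice]
    have hnt : ¬ ∃ x ∈ ({a, a'} : Finset (Fin n)), x ∈ e.1 := by
      rintro ⟨x, hx, hxe⟩
      exact he x hx hxe
    have hnc : e ∉ cross {a, a'} {c, c'} := by
      rw [mem_cross]
      rintro ⟨ht, -⟩
      exact hnt ht
    rw [if_neg hnc, if_neg hnt]
  · -- Ms H ↔ Ms K
    rw [Ms_iff_bdeg, Ms_iff_bdeg]
    constructor
    · intro hM x hx
      rcases mem_union.mp hx with hxb | hxb'
      · rw [hKleft x hxb]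
        exact hM _ (mem_union_left _ (hτ x hxb))
      · rw [hKright x hxb']
        exact hM x hx
    · intro hM x hx
      rcases mem_union.mp hx with hxb | hxb'
      · cases ε with
        | false =>
          have := hM x hx
          rw [hKleft x hxb] at this
          simpa using this
        | true =>
          have := hM _ (mem_union_left _ (swap_mem_pair hxb))
          rw [hKleft _ (swap_mem_pair hxb)] at this
          simpa using this
      · have := hM x hx
        rwa [hKright x hxb'] at this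

/-- **Lemma C, transport form**: for `G, G''` in one `sameOffM b b'`-class the splice is an
injection of the `b'`-class of `G` into the `b'`-class of `G''` moving every point inside its own
`sameOffM b b'`-class. -/
theorem transport_sameOffM (d : Fin n → ℕ) {b b' : Finset (Fin n)} (hb : b ∈ pairs n)
    (hb' : b' ∈ pairs n) (hd : Disjoint b b') :
    SAbs.Transport (realizations d) (sameOffM b b') (sameOff b') := by
  obtain ⟨a, a', haa', rfl⟩ := card_eq_two.mp (mem_powersetCard.mp hb).2
  obtain ⟨c, c', hcc', rfl⟩ := card_eq_two.mp (mem_powersetCard.mp hb').2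
  have hna : a ∉ ({c, c'} : Finset (Fin n)) := disjoint_left.mp hd (by simp)
  have hna' : a' ∉ ({c, c'} : Finset (Fin n)) := disjoint_left.mp hd (by simp)
  simp only [mem_insert, mem_singleton, not_or] at hna hna'
  obtain ⟨hac, hac'⟩ := hna
  obtain ⟨ha'c, ha'c'⟩ := hna'
  intro G hG G'' hG'' hr
  refine ⟨splice a a' {a, a'} {c, c'} G''
    (decide (bdeg {a, a'} {c, c'} G'' a ≠ bdeg {a, a'} {c, c'} G a)), ?_, ?_⟩
  · intro H hH hGH
    exact splice_spec haa' hac hac' ha'c ha'c' hcc' hG hG'' hH hr hGH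
  · intro H _ H' _ hGH hGH' heq
    have := congrArg (splice a a' {a, a'} {c, c'} G
      (decide (bdeg {a, a'} {c, c'} G'' a ≠ bdeg {a, a'} {c, c'} G a))) heq
    rwa [splice_splice hd _ hGH, splice_splice hd _ hGH'] at this

/-- **(S-graph)**: the couple lemma `{A_b, A_b'} ≥ 2 O_s - Q^b_s - Q^b'_s` for every couple of
disjoint pairs. -/
theorem sgraph (d : Fin n → ℕ) : SGraph d :=
  sgraph_of_facts d
    (fun _ hb _ hb' hd => transport_sameOffM d hb hb' hd)
    (fun _ hb _ hb' hd _ hG => flip_mem hb hb' hd hG)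
    (fun _ hb _ hb' hd G _ => flip_flip hb hb' hd G)
    (fun _ hb _ hb' hd G _ => Ms_flip hb hb' hd G)
    (fun b _ b' _ _ G _ => sameOff_flip_left b b' G)
    (fun b _ b' _ _ G _ => sameOff_flip_right b b' G)
    (fun _ _ _ _ hd _ hG hM => supp_fact hd hG hM)

end main

end Crest.Agent.S0453R
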