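import Mathlib
import Crest.Prelude.Def_SwitchChain
import Crest.Agent.S0453.PM
import Crest.Agent.S0453.Kernel
import Crest.Agent.S0453.Reduction
import Crest.Agent.S0453.Adapters

/-!
Row 299 / S0453 (helper24): the loss-free one-vertex induction.

Fix a vertex `v`.  The realizations of `d` split into the fibres `{star v G = T}` (the edges at
`v` are prescribed).  Deleting the edges at `v` maps such a fibre bijectively onto the
realizations of the residual degree vector `resid d T` ON THE SAME VERTEX SET (`v` becomes
isolated), and proposals between two different members of a fibre correspond to proposals of the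
residual class.  Consequently

* `fibre_var_le` : if every residual class satisfies `Gap c`, then
    `E Var(f | star at v) ≤ c · (Dirichlet form of the switches keeping the star at v)`;
* `gap_of_marg`  : with `Marg c d v` (the variance of the fibre means is at most `c` times the
    Dirichlet form of the switches changing the star at `v`) this gives `Gap c d`;
* `core_of_marg_all` : if every class with at least two realizations has a vertex `v` of positive
    degree with `Marg n² d v`, then `Core n d` holds for every `d`
    (strong induction on the degree sum), and `result_of_marg_all` is the frozen statement.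
-/

set_option autoImplicit false
open Finset

namespace Crest.Agent.S0453R

open Crest.SwitchChain

variable {n : ℕ}

/-- `Var f ≤ c · (1/N) ∑_{ordered pairs} proposalCount · (Δf)²`, in cleared form. -/
def Gap (c : ℝ) (d : Fin n → ℕ) : Prop :=
  ∀ f : Finset (Edge n) → ℝ,
    ((realizations d).card : ℝ) * (∑ G ∈ realizations d, f G ^ 2) -
        (∑ G ∈ realizations d, f G) ^ 2 ≤
      c * (realizations d).card *
        ∑ G ∈ realizations d, ∑ G' ∈ realizations d,
          (proposalCount G G' : ℝ) * (f G - f G') ^ 2

lemma coreCount_iff_gap (d : Fin n → ℕ) : CoreCount n d ↔ Gap ((n : ℝ) ^ 2) d := Iff.rfl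

/-- The edges at `v`. -/
def star (v : Fin n) (G : Finset (Edge n)) : Finset (Edge n) := G.filter fun e => v ∈ e.1

/-- The residual degree vector after deleting the edge set `T`. -/
def resid (d : Fin n → ℕ) (T : Finset (Edge n)) : Fin n → ℕ :=
  fun u => d u - (T.filter fun e => u ∈ e.1).card

lemma mem_realizations {d : Fin n → ℕ} {G : Finset (Edge n)} :
    G ∈ realizations d ↔ ∀ u, deg G u = d u := by
  simp [realizations]

lemma star_subset (v : Fin n) (G : Finset (Edge n)) : star v G ⊆ G := filter_subset _ _

lemma deg_sdiff {G T : Finset (Edge n)} (hT : T ⊆ G) (u : Fin n) :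
    deg (G \ T) u = deg G u - (T.filter fun e => u ∈ e.1).card := by
  unfold deg
  have h : (G \ T).filter (fun e => u ∈ e.1) =
      G.filter (fun e => u ∈ e.1) \ T.filter (fun e => u ∈ e.1) := by
    ext e
    simp only [mem_filter, mem_sdiff]
    tauto
  rw [h, card_sdiff_of_subset (filter_subset_filter _ hT)]

lemma deg_union {H T : Finset (Edge n)} (hd : Disjoint H T) (u : Fin n) :
    deg (H ∪ T) u = deg H u + (T.filter fun e => u ∈ e.1).card := by
  unfold deg
  rw [filter_union, card_union_of_disjoint (disjoint_filter_filter hd)]

/-- `T` is the star at `v` of some realization of `d`. -/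
structure IsStar (d : Fin n → ℕ) (v : Fin n) (T : Finset (Edge n)) : Prop where
  mem : ∀ e ∈ T, v ∈ e.1
  card : T.card = d v
  le : ∀ u, (T.filter fun e => u ∈ e.1).card ≤ d u

lemma isStar_star {d : Fin n → ℕ} {G : Finset (Edge n)} (hG : G ∈ realizations d) (v : Fin n) :
    IsStar d v (star v G) where
  mem := fun e he => (mem_filter.mp he).2
  card := mem_realizations.mp hG v
  le := fun u => by
    rw [← mem_realizations.mp hG u]
    exact card_le_card (filter_subset_filter _ (star_subset v G))

lemma resid_self {d : Fin n → ℕ} {v : Fin n} {T : Finset (Edge n)} (hT : IsStar d v T) :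
    resid d T v = 0 := by
  unfold resid
  rw [filter_true_of_mem hT.mem, hT.card, Nat.sub_self]

lemma resid_le (d : Fin n → ℕ) (T : Finset (Edge n)) (u : Fin n) : resid d T u ≤ d u :=
  Nat.sub_le _ _

lemma sdiff_star_mem {d : Fin n → ℕ} {G : Finset (Edge n)} (hG : G ∈ realizations d)
    (v : Fin n) : G \ star v G ∈ realizations (resid d (star v G)) := by
  rw [mem_realizations]
  intro u
  rw [deg_sdiff (star_subset v G), mem_realizations.mp hG u]
  rfl

lemma disjoint_of_isStar {d : Fin n → ℕ} {v : Fin n} {T H : Finset (Edge n)}
    (hT : IsStar d v T) (hH : H ∈ realizations (resid d T)) : Disjoint H T := by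
  have h0 : deg H v = 0 := by rw [mem_realizations.mp hH v, resid_self hT]
  unfold deg at h0
  rw [card_eq_zero, filter_eq_empty_iff] at h0
  rw [disjoint_left]
  intro e he heT
  exact h0 he (hT.mem e heT)

lemma union_mem {d : Fin n → ℕ} {v : Fin n} {T H : Finset (Edge n)}
    (hT : IsStar d v T) (hH : H ∈ realizations (resid d T)) : H ∪ T ∈ realizations d := by
  rw [mem_realizations]
  intro u
  rw [deg_union (disjoint_of_isStar hT hH), mem_realizations.mp hH u]
  unfold resid
  exact Nat.sub_add_cancel (hT.le u)

lemma star_union {d : Fin n → ℕ} {v : Fin n} {T H : Finset (Edge n)}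
    (hT : IsStar d v T) (hH : H ∈ realizations (resid d T)) : star v (H ∪ T) = T := by
  have h0 : deg H v = 0 := by rw [mem_realizations.mp hH v, resid_self hT]
  unfold deg at h0
  rw [card_eq_zero] at h0
  unfold star
  rw [filter_union, h0, empty_union, filter_true_of_mem hT.mem]

/-- Sums over a fibre are sums over the residual class. -/
lemma sum_fib {d : Fin n → ℕ} {v : Fin n} {T : Finset (Edge n)} (hT : IsStar d v T)
    (φ : Finset (Edge n) → ℝ) :
    ∑ G ∈ (realizations d).filter (fun G => star v G = T), φ G =
      ∑ H ∈ realizations (resid d T), φ (H ∪ T) := by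
  refine sum_nbij' (fun G => G \ T) (fun H => H ∪ T) ?_ ?_ ?_ ?_ ?_
  · intro G hG
    obtain ⟨hG1, hG2⟩ := mem_filter.mp hG
    subst hG2
    exact sdiff_star_mem hG1 v
  · intro H hH
    exact mem_filter.mpr ⟨union_mem hT hH, star_union hT hH⟩
  · intro G hG
    obtain ⟨hG1, hG2⟩ := mem_filter.mp hG
    subst hG2
    exact sdiff_union_of_subset (star_subset v G)
  · intro H hH
    exact union_sdiff_cancel_right (disjoint_of_isStar hT hH)
  · intro G hG
    obtain ⟨hG1, hG2⟩ := mem_filter.mp hG
    subst hG2
    rw [sdiff_union_of_subset (star_subset v G)]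

lemma card_fib {d : Fin n → ℕ} {v : Fin n} {T : Finset (Edge n)} (hT : IsStar d v T) :
    (((realizations d).filter (fun G => star v G = T)).card : ℝ) =
      ((realizations (resid d T)).card : ℝ) := by
  have := sum_fib hT (fun _ => (1 : ℝ))
  simpa using this

lemma union_right_cancel {A B T : Finset (Edge n)} (hA : Disjoint A T) (hB : Disjoint B T) :
    A ∪ T = B ∪ T ↔ A = B := by
  constructor
  · intro h
    have : (A ∪ T) \ T = (B ∪ T) \ T := by rw [h]
    rwa [union_sdiff_cancel_right hA, union_sdiff_cancel_right hB] at this
  · rintro rfl
    rfl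

/-- A proposal between two different graphs does not see a common disjoint part. -/
lemma switchResult_union_iff {H H' T F F' : Finset (Edge n)} (hH : Disjoint H T)
    (hH' : Disjoint H' T) (hne : H ≠ H') :
    switchResult (H ∪ T) F F' = H' ∪ T ↔ switchResult H F F' = H' := by
  have hne' : H ∪ T ≠ H' ∪ T := fun h => hne ((union_right_cancel hH hH').mp h)
  by_cases c1 : F ⊆ H ∧ Disjoint F' H
  · rw [switchResult_of_cond c1]
    by_cases c3 : Disjoint F' T
    · have c2 : F ⊆ H ∪ T ∧ Disjoint F' (H ∪ T) :=
        ⟨c1.1.trans subset_union_left, disjoint_union_right.mpr ⟨c1.2, c3⟩⟩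
      rw [switchResult_of_cond c2]
      have e : (H ∪ T) \ F ∪ F' = (H \ F ∪ F') ∪ T := by
        ext x
        simp only [mem_union, mem_sdiff]
        constructor
        · rintro (⟨hx | hx, hxF⟩ | hx)
          · exact Or.inl (Or.inl ⟨hx, hxF⟩)
          · exact Or.inr hx
          · exact Or.inl (Or.inr hx)
        · rintro ((⟨hx, hxF⟩ | hx) | hx)
          · exact Or.inl ⟨Or.inl hx, hxF⟩
          · exact Or.inr hx
          · exact Or.inl ⟨Or.inr hx, fun hxF => (disjoint_left.mp hH (c1.1 hxF)) hx⟩
      rw [e]
      apply union_right_cancel _ hH'
      exact disjoint_union_left.mpr ⟨disjoint_of_subset_left sdiff_subset hH, c3⟩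
    · have c2 : ¬ (F ⊆ H ∪ T ∧ Disjoint F' (H ∪ T)) := fun h =>
        c3 (disjoint_of_subset_right subset_union_right h.2)
      rw [switchResult_of_not c2]
      constructor
      · intro h
        exact absurd h hne'
      · intro h
        exfalso
        apply c3
        rw [← h] at hH'
        exact disjoint_of_subset_left subset_union_right hH'
  · rw [switchResult_of_not c1]
    by_cases c2 : F ⊆ H ∪ T ∧ Disjoint F' (H ∪ T)
    · rw [switchResult_of_cond c2]
      constructor
      · intro h
        exfalso
        apply c1
        refine ⟨?_, disjoint_of_subset_right subset_union_left c2.2⟩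
        intro x hxF
        rcases mem_union.mp (c2.1 hxF) with hx | hx
        · exact hx
        · exfalso
          have hx' : x ∈ (H ∪ T) \ F ∪ F' := by
            rw [h]
            exact mem_union_right _ hx
          rcases mem_union.mp hx' with hx'' | hx''
          · exact (mem_sdiff.mp hx'').2 hxF
          · exact (disjoint_left.mp c2.2 hx'') (mem_union_right _ hx)
      · intro h
        exact absurd h hne
    · rw [switchResult_of_not c2]
      constructor
      · intro h
        exact absurd h hne'
      · intro h
        exact absurd h hne

lemma proposalCount_union {H H' T : Finset (Edge n)} (hH : Disjoint H T)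
    (hH' : Disjoint H' T) (hne : H ≠ H') :
    proposalCount (H ∪ T) (H' ∪ T) = proposalCount H H' := by
  unfold proposalCount
  refine sum_congr rfl fun S _ => sum_congr rfl fun F _ => sum_congr rfl fun F' _ => ?_
  simp only [switchResult_union_iff hH hH' hne]

/-- The inequality of the residual class, read on the fibre. -/
lemma fib_ineq {d : Fin n → ℕ} {v : Fin n} {T : Finset (Edge n)} (hT : IsStar d v T) (c : ℝ)
    (hgap : Gap c (resid d T)) (f : Finset (Edge n) → ℝ) :
    (((realizations d).filter (fun G => star v G = T)).card : ℝ) *
          (∑ G ∈ (realizations d).filter (fun G => star v G = T), f G ^ 2) -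
        (∑ G ∈ (realizations d).filter (fun G => star v G = T), f G) ^ 2 ≤
      c * ((realizations d).filter (fun G => star v G = T)).card *
        ∑ G ∈ (realizations d).filter (fun G => star v G = T),
          ∑ G' ∈ (realizations d).filter (fun G => star v G = T),
            (proposalCount G G' : ℝ) * (f G - f G') ^ 2 := by
  have h := hgap (fun H => f (H ∪ T))
  have e : ∑ G ∈ (realizations d).filter (fun G => star v G = T),
          ∑ G' ∈ (realizations d).filter (fun G => star v G = T),
            (proposalCount G G' : ℝ) * (f G - f G') ^ 2 =
      ∑ H ∈ realizations (resid d T), ∑ H' ∈ realizations (resid d T),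
          (proposalCount H H' : ℝ) * (f (H ∪ T) - f (H' ∪ T)) ^ 2 := by
    rw [sum_fib hT]
    refine sum_congr rfl fun H hH => ?_
    rw [sum_fib hT]
    refine sum_congr rfl fun H' hH' => ?_
    by_cases hne : H = H'
    · subst hne
      simp
    · rw [proposalCount_union (disjoint_of_isStar hT hH) (disjoint_of_isStar hT hH') hne]
  rw [card_fib hT, sum_fib hT, sum_fib hT, e]
  exact h

/-- `E Var(f | star at v) ≤ c ·` (Dirichlet form of the proposals keeping the star at `v`),
provided every residual class satisfies `Gap c`. -/
lemma fibre_var_le {d : Fin n → ℕ} (v : Fin n) (c : ℝ)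
    (hgap : ∀ T ∈ (realizations d).image (star v), Gap c (resid d T))
    (f : Finset (Edge n) → ℝ) :
    ((realizations d).card : ℝ) * (∑ G ∈ realizations d, f G ^ 2) -
        (realizations d).card * (∑ T ∈ (realizations d).image (star v),
          (∑ G ∈ (realizations d).filter (fun G => star v G = T), f G) ^ 2 /
            (((realizations d).filter (fun G => star v G = T)).card : ℝ)) ≤
      c * (realizations d).card * ∑ G ∈ realizations d, ∑ G' ∈ realizations d,
        if star v G = star v G' then (proposalCount G G' : ℝ) * (f G - f G') ^ 2 else 0 := by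
  have hfw : ∀ φ : Finset (Edge n) → ℝ,
      ∑ T ∈ (realizations d).image (star v),
        ∑ G ∈ (realizations d).filter (fun G => star v G = T), φ G =
      ∑ G ∈ realizations d, φ G :=
    fun φ => sum_fiberwise_of_maps_to (fun G hG => mem_image_of_mem _ hG) φ
  have hE : ∀ T ∈ (realizations d).image (star v),
      ∑ G ∈ (realizations d).filter (fun G => star v G = T),
        ∑ G' ∈ (realizations d).filter (fun G => star v G = T),
          (proposalCount G G' : ℝ) * (f G - f G') ^ 2 =
      ∑ G ∈ (realizations d).filter (fun G => star v G = T),
        ∑ G' ∈ realizations d,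
          if star v G = star v G' then (proposalCount G G' : ℝ) * (f G - f G') ^ 2 else 0 := by
    intro T _
    refine sum_congr rfl fun G hG => ?_
    rw [sum_filter]
    refine sum_congr rfl fun G' _ => ?_
    have hGT : star v G = T := (mem_filter.mp hG).2
    by_cases h : star v G' = T
    · rw [if_pos h, if_pos (hGT.trans h.symm)]
    · rw [if_neg h, if_neg (fun h' => h (h'.symm.trans hGT))]
  have hT : ∀ T ∈ (realizations d).image (star v),
      (∑ G ∈ (realizations d).filter (fun G => star v G = T), f G ^ 2) -
        (∑ G ∈ (realizations d).filter (fun G => star v G = T), f G) ^ 2 /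
          (((realizations d).filter (fun G => star v G = T)).card : ℝ) ≤
      c * ∑ G ∈ (realizations d).filter (fun G => star v G = T),
        ∑ G' ∈ realizations d,
          if star v G = star v G' then (proposalCount G G' : ℝ) * (f G - f G') ^ 2 else 0 := by
    intro T hTmem
    obtain ⟨G₀, hG₀, rfl⟩ := mem_image.mp hTmem
    have hst := isStar_star hG₀ v
    have hpos : (0 : ℝ) <
        (((realizations d).filter (fun G => star v G = star v G₀)).card : ℝ) := by
      have : 0 < ((realizations d).filter (fun G => star v G = star v G₀)).card :=
        card_pos.mpr ⟨G₀, mem_filter.mpr ⟨hG₀, rfl⟩⟩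
      exact_mod_cast this
    have h := fib_ineq hst c (hgap _ hTmem) f
    rw [hE _ hTmem] at h
    have key : (∑ G ∈ (realizations d).filter (fun G => star v G = star v G₀), f G ^ 2) -
        (∑ G ∈ (realizations d).filter (fun G => star v G = star v G₀), f G) ^ 2 /
          (((realizations d).filter (fun G => star v G = star v G₀)).card : ℝ) =
        ((((realizations d).filter (fun G => star v G = star v G₀)).card : ℝ) *
            (∑ G ∈ (realizations d).filter (fun G => star v G = star v G₀), f G ^ 2) -
          (∑ G ∈ (realizations d).filter (fun G => star v G = star v G₀), f G) ^ 2) /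
          (((realizations d).filter (fun G => star v G = star v G₀)).card : ℝ) := by
      field_simp
    rw [key, div_le_iff₀ hpos]
    linarith
  calc ((realizations d).card : ℝ) * (∑ G ∈ realizations d, f G ^ 2) -
        (realizations d).card * (∑ T ∈ (realizations d).image (star v),
          (∑ G ∈ (realizations d).filter (fun G => star v G = T), f G) ^ 2 /
            (((realizations d).filter (fun G => star v G = T)).card : ℝ))
      = (realizations d).card * ∑ T ∈ (realizations d).image (star v),
          ((∑ G ∈ (realizations d).filter (fun G => star v G = T), f G ^ 2) -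
            (∑ G ∈ (realizations d).filter (fun G => star v G = T), f G) ^ 2 /
              (((realizations d).filter (fun G => star v G = T)).card : ℝ)) := by
        rw [sum_sub_distrib, hfw (fun G => f G ^ 2), mul_sub]
    _ ≤ (realizations d).card * ∑ T ∈ (realizations d).image (star v),
          c * ∑ G ∈ (realizations d).filter (fun G => star v G = T),
            ∑ G' ∈ realizations d,
              if star v G = star v G' then (proposalCount G G' : ℝ) * (f G - f G') ^ 2
              else 0 :=
        mul_le_mul_of_nonneg_left (sum_le_sum hT) (Nat.cast_nonneg _)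
    _ = c * (realizations d).card * ∑ G ∈ realizations d, ∑ G' ∈ realizations d,
          if star v G = star v G' then (proposalCount G G' : ℝ) * (f G - f G') ^ 2 else 0 := by
        rw [← mul_sum, hfw (fun G => ∑ G' ∈ realizations d,
          if star v G = star v G' then (proposalCount G G' : ℝ) * (f G - f G') ^ 2 else 0)]
        ring

/-- The one-vertex marginal inequality at `v` (helper40's `MARG`): the variance of the fibre means
of `f` over the stars at `v` is at most `c` times the Dirichlet form of the proposals that change
the star at `v` (ordered pairs, cleared denominators: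
`N² Var(E[f | star v]) ≤ c N ∑_{(G,G') : star v G ≠ star v G'} proposalCount G G' (f G − f G')²`). -/
def Marg (c : ℝ) (d : Fin n → ℕ) (v : Fin n) : Prop :=
  ∀ f : Finset (Edge n) → ℝ,
    ((realizations d).card : ℝ) * (∑ T ∈ (realizations d).image (star v),
          (∑ G ∈ (realizations d).filter (fun G => star v G = T), f G) ^ 2 /
            (((realizations d).filter (fun G => star v G = T)).card : ℝ)) -
        (∑ G ∈ realizations d, f G) ^ 2 ≤
      c * (realizations d).card * ∑ G ∈ realizations d, ∑ G' ∈ realizations d,
        if star v G = star v G' then 0 else (proposalCount G G' : ℝ) * (f G - f G') ^ 2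

/-- **Loss-free one-vertex step**: residual classes + the marginal inequality at `v` give the
class itself, with the same constant. -/
theorem gap_of_marg {d : Fin n → ℕ} (v : Fin n) (c : ℝ)
    (hgap : ∀ T ∈ (realizations d).image (star v), Gap c (resid d T))
    (hmarg : Marg c d v) : Gap c d := by
  intro f
  have h1 := fibre_var_le v c hgap f
  have h2 := hmarg f
  have e : ∑ G ∈ realizations d, ∑ G' ∈ realizations d,
        (proposalCount G G' : ℝ) * (f G - f G') ^ 2 =
      (∑ G ∈ realizations d, ∑ G' ∈ realizations d,
        if star v G = star v G' then (proposalCount G G' : ℝ) * (f G - f G') ^ 2 else 0) +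
      ∑ G ∈ realizations d, ∑ G' ∈ realizations d,
        if star v G = star v G' then 0 else (proposalCount G G' : ℝ) * (f G - f G') ^ 2 := by
    rw [← sum_add_distrib]
    refine sum_congr rfl fun G _ => ?_
    rw [← sum_add_distrib]
    refine sum_congr rfl fun G' _ => ?_
    split_ifs <;> ring
  rw [e, mul_add]
  linarith

/-- **The induction**: if every class with at least two realizations has a vertex of positive
degree satisfying the marginal inequality with constant `c`, then every class satisfies
`Gap c`. -/
theorem gap_of_marg_all (c : ℝ)
    (h : ∀ d : Fin n → ℕ, 2 ≤ (realizations d).card → ∃ v, 0 < d v ∧ Marg c d v) :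
    ∀ d : Fin n → ℕ, Gap c d := by
  suffices H : ∀ m : ℕ, ∀ d : Fin n → ℕ, ∑ u, d u = m → Gap c d from fun d => H _ d rfl
  intro m
  induction m using Nat.strong_induction_on with
  | _ m ih =>
    intro d hd
    by_cases hcard : 2 ≤ (realizations d).card
    · obtain ⟨v, hv, hmarg⟩ := h d hcard
      refine gap_of_marg v c ?_ hmarg
      intro T hT
      obtain ⟨G, hG, rfl⟩ := mem_image.mp hT
      have hst := isStar_star hG v
      refine ih (∑ u, resid d (star v G) u) ?_ _ rfl
      rw [← hd]
      exact sum_lt_sum (fun u _ => resid_le d _ u)
        ⟨v, mem_univ v, by rw [resid_self hst]; exact hv⟩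
    · intro f
      rcases Nat.eq_zero_or_pos (realizations d).card with h0 | hpos
      · have : realizations d = ∅ := card_eq_zero.mp h0
        rw [this]
        simp
      · have h1 : (realizations d).card = 1 := by omega
        obtain ⟨G0, hG0⟩ := card_eq_one.mp h1
        rw [hG0]
        simp

/-- If every class with at least two realizations has a vertex `v` of positive degree with
`Marg n² d v`, then `Core n d` holds for every degree vector. -/
theorem core_of_marg_all
    (h : ∀ d : Fin n → ℕ, 2 ≤ (realizations d).card → ∃ v, 0 < d v ∧ Marg ((n : ℝ) ^ 2) d v)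
    (d : Fin n → ℕ) : Core n d :=
  (core_iff_coreCount d).mpr (gap_of_marg_all _ h d)

/-- The frozen statement S0453 from the one-vertex marginal inequalities. -/
theorem result_of_marg_all (n : ℕ) (hn : 4 ≤ n)
    (h : ∀ d : Fin n → ℕ, 2 ≤ (realizations d).card → ∃ v, 0 < d v ∧ Marg ((n : ℝ) ^ 2) d v)
    (d : Fin n → ℕ) (hd : (Crest.SwitchChain.realizations d).Nonempty) :
    (∃ t : ℕ, t ≤ 2 * n ^ 8 ∧ ∀ G ∈ Crest.SwitchChain.realizations d,
        Crest.SwitchChain.tvDist (fun G' => (Crest.SwitchChain.kernel n ^ t) G G')
          (Crest.SwitchChain.unifOn (Crest.SwitchChain.realizations d)) ≤ 1 / 4) ∧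
      ∀ f : Finset (Crest.SwitchChain.Edge n) → ℝ,
        ((Crest.SwitchChain.realizations d).card : ℝ) *
              (∑ G ∈ Crest.SwitchChain.realizations d, f G ^ 2) -
            (∑ G ∈ Crest.SwitchChain.realizations d, f G) ^ 2 ≤
          24 * (n : ℝ) ^ 2 * (n.choose 4 : ℝ) * (Crest.SwitchChain.realizations d).card *
            ∑ G ∈ Crest.SwitchChain.realizations d,
              f G * (f G - ∑ G' ∈ Crest.SwitchChain.realizations d,
                Crest.SwitchChain.kernel n G G' * f G') :=
  result_of_core n hn d hd (core_of_marg_all h d)

end Crest.Agent.S0453R
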