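import Mathlib
import Crest.Prelude.Def_SwitchChain
import Crest.Agent.S0453.PM
import Crest.Agent.S0453.Kernel
import Crest.Agent.S0453.Reduction
import Crest.Agent.S0453.Adapters
import Crest.Agent.S0453.Connect

/-!
Row 299 / S0453 (helper44), module [T-GRAPH]: the class of a triple of vertices is a 3-box system.

For an injective `τ : Fin 3 → Fin n` (the three active vertices), `T = image τ`, and a realization
`G0` of `d`, the triple class `cls d T G0` (all realizations agreeing with `G0` on the edges that do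
not touch `T`) is in explicit bijection with the states of a 3-box system: balls = the outside
vertices with exactly one (`+`) or exactly two (`-`) neighbours in `T`, plus one pseudo-ball for
the triangle when it carries one or two edges; position = the odd row of the ball's column.
Under this bijection the class of the pair `{τ (i+1), τ (i+2)}` becomes "the content of box `i`
is fixed".  Consequently every inequality between `f` and its three pair-class averages on a
triple class is the corresponding inequality of the abstract 3-box system.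
-/

set_option autoImplicit false
set_option linter.unnecessarySeqFocus false
open Finset

namespace Crest.Agent.S0453R.TG

open Crest.SwitchChain

variable {n : ℕ}

/-! ### The abstract 3-box system (same definitions as helper48's `S0453T/Defs.lean`) -/

section ThreeBox

variable {K : Type} [Fintype K] [DecidableEq K]

/-- states of the 3-box system: positions of the balls with prescribed net charge in each box -/
def states (ε : K → ℤ) (ρ : Fin 3 → ℤ) : Finset (K → Fin 3) :=
  univ.filter fun pos => ∀ i, ∑ k, (if pos k = i then ε k else 0) = ρ i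

/-- the content of box `i` -/
def box (pos : K → Fin 3) (i : Fin 3) : Finset K := univ.filter fun k => pos k = i

omit [DecidableEq K] in
lemma mem_box {pos : K → Fin 3} {i : Fin 3} {k : K} : k ∈ box pos i ↔ pos k = i := by
  simp [box]

/-- the states with the same content of box `i` as `pos` -/
def cls3 (ε : K → ℤ) (ρ : Fin 3 → ℤ) (i : Fin 3) (pos : K → Fin 3) : Finset (K → Fin 3) :=
  (states ε ρ).filter fun pos' => box pos' i = box pos i

/-- conditional expectation given the content of box `i` (uniform measure on the states) -/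
noncomputable def condE (ε : K → ℤ) (ρ : Fin 3 → ℤ) (i : Fin 3) (f : (K → Fin 3) → ℝ)
    (pos : K → Fin 3) : ℝ :=
  (∑ pos' ∈ cls3 ε ρ i pos, f pos') / ((cls3 ε ρ i pos).card : ℝ)

end ThreeBox

/-! ### Classes of graphs -/

/-- the edges of `G` that do not touch `U` -/
def outer (U : Finset (Fin n)) (G : Finset (Edge n)) : Finset (Edge n) :=
  G.filter fun e => ∀ v ∈ U, v ∉ e.1

/-- the `U`-class of `G` among the realizations of `d` -/
def cls (d : Fin n → ℕ) (U : Finset (Fin n)) (G : Finset (Edge n)) :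
    Finset (Finset (Edge n)) :=
  (realizations d).filter fun G' => outer U G' = outer U G

/-- the average of `f` over the `U`-class of `G` -/
noncomputable def avg (d : Fin n → ℕ) (U : Finset (Fin n)) (f : Finset (Edge n) → ℝ)
    (G : Finset (Edge n)) : ℝ :=
  (∑ G' ∈ cls d U G, f G') / ((cls d U G).card : ℝ)

lemma mem_cls {d : Fin n → ℕ} {U : Finset (Fin n)} {G G' : Finset (Edge n)} :
    G' ∈ cls d U G ↔ G' ∈ realizations d ∧ outer U G' = outer U G := by
  simp [cls]

lemma mkE_mem_outer {U : Finset (Fin n)} {G : Finset (Edge n)} {v w : Fin n} (h : v ≠ w) :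
    mkE v w h ∈ outer U G ↔ w ∈ nb G v ∧ v ∉ U ∧ w ∉ U := by
  unfold outer
  rw [mem_filter, mkE_mem_iff]
  constructor
  · rintro ⟨h1, h2⟩
    exact ⟨h1, fun hv => h2 v hv (by simp), fun hw => h2 w hw (by simp)⟩
  · rintro ⟨h1, h2, h3⟩
    refine ⟨h1, fun u hu hmem => ?_⟩
    rw [mem_mkE] at hmem
    rcases hmem with rfl | rfl
    · exact h2 hu
    · exact h3 hu

lemma outer_eq_iff {U : Finset (Fin n)} {G G' : Finset (Edge n)} :
    outer U G = outer U G' ↔ ∀ v, v ∉ U → nb G v \ U = nb G' v \ U := by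
  constructor
  · intro h v hv
    ext w
    simp only [mem_sdiff]
    by_cases hvw : v = w
    · subst hvw; simp [not_mem_nb_self]
    · have h1 := mkE_mem_outer (U := U) (G := G) hvw
      have h2 := mkE_mem_outer (U := U) (G := G') hvw
      rw [h] at h1
      constructor
      · rintro ⟨ha, hb⟩; exact ⟨(h2.mp (h1.mpr ⟨ha, hv, hb⟩)).1, hb⟩
      · rintro ⟨ha, hb⟩; exact ⟨(h1.mp (h2.mpr ⟨ha, hv, hb⟩)).1, hb⟩
  · intro h
    ext e
    obtain ⟨v, w, hvw, rfl⟩ := edge_eq_mkE e
    rw [mkE_mem_outer, mkE_mem_outer]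
    constructor
    · rintro ⟨h1, h2, h3⟩
      have hm : w ∈ nb G v \ U := mem_sdiff.mpr ⟨h1, h3⟩
      rw [h v h2] at hm
      exact ⟨(mem_sdiff.mp hm).1, h2, h3⟩
    · rintro ⟨h1, h2, h3⟩
      have hm : w ∈ nb G' v \ U := mem_sdiff.mpr ⟨h1, h3⟩
      rw [← h v h2] at hm
      exact ⟨(mem_sdiff.mp hm).1, h2, h3⟩

lemma eq_of_nb_eq {G G' : Finset (Edge n)} (h : ∀ v, nb G v = nb G' v) : G = G' := by
  ext e
  obtain ⟨v, w, hvw, rfl⟩ := edge_eq_mkE e
  rw [mkE_mem_iff, mkE_mem_iff, h v]

/-- a coarser class is determined by a finer one -/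
lemma outer_mono {U U' : Finset (Fin n)} (hU : U ⊆ U') {G G' : Finset (Edge n)}
    (h : outer U G = outer U G') : outer U' G = outer U' G' := by
  have key : ∀ H : Finset (Edge n),
      outer U' H = (outer U H).filter fun e => ∀ v ∈ U', v ∉ e.1 := by
    intro H
    ext e
    simp only [outer, mem_filter]
    constructor
    · rintro ⟨h1, h2⟩; exact ⟨⟨h1, fun v hv => h2 v (hU hv)⟩, h2⟩
    · rintro ⟨⟨h1, -⟩, h2⟩; exact ⟨h1, h2⟩
  rw [key G, key G', h]

/-! ### Fin 3 bookkeeping -/

lemma fin3_cases (i j : Fin 3) : j = i ∨ j = i + 1 ∨ j = i + 2 := by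
  revert i j; decide

lemma fin3_ne_add_one (i : Fin 3) : i ≠ i + 1 := by revert i; decide

lemma fin3_ne_add_two (i : Fin 3) : i ≠ i + 2 := by revert i; decide

lemma fin3_add_one_ne_add_two (i : Fin 3) : i + 1 ≠ i + 2 := by revert i; decide

lemma fin3_swap_false (i j : Fin 3) (h1 : i + 1 = j + 2) : i + 2 ≠ j + 1 := by
  revert i j; decide

lemma sum_fin3_shift {M : Type*} [AddCommMonoid M] (i : Fin 3) (F : Fin 3 → M) :
    ∑ j, F j = F i + F (i + 1) + F (i + 2) := by
  rw [Fin.sum_univ_three]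
  fin_cases i
  · rfl
  · show F 0 + F 1 + F 2 = F 1 + F 2 + F 0
    abel
  · show F 0 + F 1 + F 2 = F 2 + F 0 + F 1
    abel

/-- number of `true` entries of a column -/
def cnt (v : Fin 3 → Bool) : ℕ := (univ.filter fun i => v i = true).card

lemma cnt_eq (v : Fin 3 → Bool) :
    cnt v = (if v 0 = true then 1 else 0) + (if v 1 = true then 1 else 0)
      + (if v 2 = true then 1 else 0) := by
  unfold cnt
  rw [card_filter, Fin.sum_univ_three]

lemma cnt_le (v : Fin 3 → Bool) : cnt v ≤ 3 := by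
  rw [cnt_eq]; split_ifs <;> omega

/-- the odd row of a column -/
def oddRow (v : Fin 3 → Bool) : Fin 3 :=
  if v 0 = v 1 then 2 else if v 0 = v 2 then 1 else 0

lemma oddRow_iff_of_one {v : Fin 3 → Bool} (h : cnt v = 1) (i : Fin 3) :
    oddRow v = i ↔ v i = true := by
  rw [cnt_eq] at h
  unfold oddRow
  rcases h0 : v 0 with _ | _ <;> rcases h1 : v 1 with _ | _ <;> rcases h2 : v 2 with _ | _ <;>
    simp [h0, h1, h2] at h ⊢ <;> fin_cases i <;> simp [h0, h1, h2]

lemma oddRow_iff_of_two {v : Fin 3 → Bool} (h : cnt v = 2) (i : Fin 3) :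
    oddRow v = i ↔ v i = false := by
  rw [cnt_eq] at h
  unfold oddRow
  rcases h0 : v 0 with _ | _ <;> rcases h1 : v 1 with _ | _ <;> rcases h2 : v 2 with _ | _ <;>
    simp [h0, h1, h2] at h ⊢ <;> fin_cases i <;> simp [h0, h1, h2]

lemma all_true_of_cnt {v : Fin 3 → Bool} (h : cnt v = 3) (i : Fin 3) : v i = true := by
  rw [cnt_eq] at h
  rcases h0 : v 0 with _ | _ <;> rcases h1 : v 1 with _ | _ <;> rcases h2 : v 2 with _ | _ <;>
    simp [h0, h1, h2] at h ⊢ <;> fin_cases i <;> simp [h0, h1, h2]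

lemma all_false_of_cnt {v : Fin 3 → Bool} (h : cnt v = 0) (i : Fin 3) : v i = false := by
  rw [cnt_eq] at h
  rcases h0 : v 0 with _ | _ <;> rcases h1 : v 1 with _ | _ <;> rcases h2 : v 2 with _ | _ <;>
    simp [h0, h1, h2] at h ⊢ <;> fin_cases i <;> simp [h0, h1, h2]

/-! ### The triple, its columns and entries -/

/-- the vertex set of the triple -/
def T (τ : Fin 3 → Fin n) : Finset (Fin n) := univ.image τ

lemma mem_T {τ : Fin 3 → Fin n} {v : Fin n} : v ∈ T τ ↔ ∃ i, τ i = v := by simp [T]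

lemma tau_mem_T (τ : Fin 3 → Fin n) (i : Fin 3) : τ i ∈ T τ := mem_T.mpr ⟨i, rfl⟩

/-- the pair opposite to `i` -/
def pairU (τ : Fin 3 → Fin n) (i : Fin 3) : Finset (Fin n) := {τ (i + 1), τ (i + 2)}

lemma mem_T_iff (τ : Fin 3 → Fin n) (i : Fin 3) {v : Fin n} :
    v ∈ T τ ↔ v = τ i ∨ v ∈ pairU τ i := by
  rw [mem_T, pairU, mem_insert, mem_singleton]
  constructor
  · rintro ⟨j, rfl⟩
    rcases fin3_cases i j with rfl | rfl | rfl <;> simp
  · rintro (rfl | rfl | rfl) <;> exact ⟨_, rfl⟩

lemma pairU_subset (τ : Fin 3 → Fin n) (i : Fin 3) : pairU τ i ⊆ T τ := fun _ hv =>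
  (mem_T_iff τ i).mpr (Or.inr hv)

lemma tau_not_mem_pairU {τ : Fin 3 → Fin n} (hτ : Function.Injective τ) (i : Fin 3) :
    τ i ∉ pairU τ i := by
  rw [pairU, mem_insert, mem_singleton]
  rintro (h | h)
  · exact fin3_ne_add_one i (hτ h)
  · exact fin3_ne_add_two i (hτ h)

/-- matrix entry of the column `k` (an outside vertex `some x`, or `none` for the triangle) in
row `i`: adjacency of `x` and `τ i`, resp. ABSENCE of the triangle edge opposite to `i`. -/
def ent (τ : Fin 3 → Fin n) (G : Finset (Edge n)) : Option (Fin n) → Fin 3 → Bool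
  | some x, i => decide (x ∈ nb G (τ i))
  | none, i => decide (τ (i + 2) ∉ nb G (τ (i + 1)))

/-- the legitimate columns: outside vertices and the triangle column -/
def legit (τ : Fin 3 → Fin n) : Option (Fin n) → Prop
  | some x => x ∉ T τ
  | none => True

instance (τ : Fin 3 → Fin n) : DecidablePred (legit τ) := fun k => by
  cases k <;> unfold legit <;> infer_instance

lemma ent_none_add_one (τ : Fin 3 → Fin n) (G : Finset (Edge n)) (i : Fin 3) :
    ent τ G none (i + 1) = decide (τ (i + 2) ∉ nb G (τ i)) := by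
  have h1 : i + 1 + 2 = i := by revert i; decide
  have h2 : i + 1 + 1 = i + 2 := by revert i; decide
  simp only [ent, h1, h2]
  rw [decide_eq_decide, not_iff_not]
  exact mem_nb_comm

lemma ent_none_add_two (τ : Fin 3 → Fin n) (G : Finset (Edge n)) (i : Fin 3) :
    ent τ G none (i + 2) = decide (τ (i + 1) ∉ nb G (τ i)) := by
  have h1 : i + 2 + 2 = i + 1 := by revert i; decide
  have h2 : i + 2 + 1 = i := by revert i; decide
  simp only [ent, h1, h2]

/-- row sum of an entry function over the legitimate columns -/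
def rowSum (τ : Fin 3 → Fin n) (E : Option (Fin n) → Fin 3 → Bool) (i : Fin 3) : ℕ :=
  ∑ k : Option (Fin n), if legit τ k ∧ E k i = true then 1 else 0

lemma rowSum_eq (τ : Fin 3 → Fin n) (E : Option (Fin n) → Fin 3 → Bool) (i : Fin 3) :
    rowSum τ E i = (if E none i = true then 1 else 0)
      + ∑ x : Fin n, if x ∉ T τ ∧ E (some x) i = true then 1 else 0 := by
  unfold rowSum
  rw [Fintype.sum_option]
  congr 1
  simp only [legit, true_and]

/-- degree of an outside vertex -/
lemma card_nb_outside {τ : Fin 3 → Fin n} (hτ : Function.Injective τ) (G : Finset (Edge n))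
    (x : Fin n) :
    (nb G x).card = (nb G x \ T τ).card + cnt (ent τ G (some x)) := by
  rw [← card_sdiff_add_card_inter (nb G x) (T τ)]
  congr 1
  unfold cnt
  have : nb G x ∩ T τ = (univ.filter fun i => ent τ G (some x) i = true).image τ := by
    ext v
    simp only [mem_inter, mem_T, mem_image, mem_filter, mem_univ, true_and, ent,
      decide_eq_true_eq]
    constructor
    · rintro ⟨h1, i, rfl⟩; exact ⟨i, mem_nb_comm.mp h1, rfl⟩
    · rintro ⟨i, h1, rfl⟩; exact ⟨mem_nb_comm.mp h1, i, rfl⟩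
  rw [this, card_image_of_injective _ hτ]

/-- degree of a vertex of the triple -/
lemma card_nb_tau {τ : Fin 3 → Fin n} (hτ : Function.Injective τ) (G : Finset (Edge n))
    (i : Fin 3) :
    (nb G (τ i)).card + cnt (ent τ G none) = rowSum τ (ent τ G) i + 2 := by
  rw [← card_sdiff_add_card_inter (nb G (τ i)) (T τ), rowSum_eq]
  have h1 : (nb G (τ i) \ T τ).card
      = ∑ x : Fin n, if x ∉ T τ ∧ ent τ G (some x) i = true then 1 else 0 := by
    rw [← card_filter]
    congr 1
    ext x
    simp [ent, and_comm]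
  have h2 : nb G (τ i) ∩ T τ = (univ.filter fun j => τ j ∈ nb G (τ i)).image τ := by
    ext v
    simp only [mem_inter, mem_T, mem_image, mem_filter, mem_univ, true_and]
    constructor
    · rintro ⟨h1, j, rfl⟩; exact ⟨j, h1, rfl⟩
    · rintro ⟨j, h1, rfl⟩; exact ⟨h1, j, rfl⟩
  have h3 : (nb G (τ i) ∩ T τ).card = (if τ (i + 1) ∈ nb G (τ i) then 1 else 0)
      + (if τ (i + 2) ∈ nb G (τ i) then 1 else 0) := by
    rw [h2, card_image_of_injective _ hτ, card_filter, sum_fin3_shift i]
    simp [not_mem_nb_self]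
  have h4 : cnt (ent τ G none) = (if ent τ G none i = true then 1 else 0)
      + (if τ (i + 2) ∉ nb G (τ i) then 1 else 0)
      + (if τ (i + 1) ∉ nb G (τ i) then 1 else 0) := by
    unfold cnt
    rw [card_filter, sum_fin3_shift i, ent_none_add_one, ent_none_add_two]
    simp
  rw [h1, h3, h4]
  by_cases ha : τ (i + 1) ∈ nb G (τ i) <;> by_cases hb : τ (i + 2) ∈ nb G (τ i) <;>
    simp [ha, hb] <;> omega

lemma sum_rowSum (τ : Fin 3 → Fin n) (E : Option (Fin n) → Fin 3 → Bool) :
    ∑ i, rowSum τ E i = cnt (E none) + ∑ x : Fin n, if x ∉ T τ then cnt (E (some x)) else 0 := by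
  unfold rowSum
  rw [sum_comm, Fintype.sum_option]
  congr 1
  · unfold cnt
    rw [card_filter]
    simp only [legit, true_and]
  · refine sum_congr rfl fun x _ => ?_
    unfold cnt
    rw [card_filter]
    by_cases hx : x ∉ T τ
    · simp only [legit, hx, not_false_eq_true, true_and, if_true]
    · simp only [legit, hx, false_and, if_false, sum_const_zero]

/-! ### Invariants of the triple class -/

section Invariants

variable {τ : Fin 3 → Fin n} {d : Fin n → ℕ} {G0 G : Finset (Edge n)}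

lemma cnt_some_eq (hτ : Function.Injective τ) (hG0 : G0 ∈ realizations d)
    (hG : G ∈ cls d (T τ) G0) {x : Fin n} (hx : x ∉ T τ) :
    cnt (ent τ G (some x)) = cnt (ent τ G0 (some x)) := by
  obtain ⟨hGr, hout⟩ := mem_cls.mp hG
  have h1 := card_nb_outside hτ G x
  have h2 := card_nb_outside hτ G0 x
  rw [card_nb_of_mem hGr] at h1
  rw [card_nb_of_mem hG0] at h2
  rw [(outer_eq_iff.mp hout) x hx] at h1
  omega

lemma cnt_none_eq (hτ : Function.Injective τ) (hG0 : G0 ∈ realizations d)
    (hG : G ∈ cls d (T τ) G0) : cnt (ent τ G none) = cnt (ent τ G0 none) := by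
  obtain ⟨hGr, hout⟩ := mem_cls.mp hG
  have key : ∀ H : Finset (Edge n), H ∈ realizations d →
      (∑ i, d (τ i)) + 3 * cnt (ent τ H none)
        = cnt (ent τ H none) + (∑ x : Fin n, if x ∉ T τ then cnt (ent τ H (some x)) else 0) + 6 := by
    intro H hH
    have h := sum_rowSum τ (ent τ H)
    have h2 : ∑ i, ((nb H (τ i)).card + cnt (ent τ H none)) = ∑ i, (rowSum τ (ent τ H) i + 2) :=
      sum_congr rfl fun i _ => card_nb_tau hτ H i
    rw [sum_add_distrib, sum_add_distrib, h] at h2
    simp only [sum_const, card_univ, Fintype.card_fin, smul_eq_mul] at h2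
    rw [sum_congr rfl fun i _ => card_nb_of_mem hH (τ i)] at h2
    omega
  have k1 := key G hGr
  have k2 := key G0 hG0
  have hsum : (∑ x : Fin n, if x ∉ T τ then cnt (ent τ G (some x)) else 0)
      = ∑ x : Fin n, if x ∉ T τ then cnt (ent τ G0 (some x)) else 0 := by
    refine sum_congr rfl fun x _ => ?_
    by_cases hx : x ∉ T τ
    · rw [if_pos hx, if_pos hx, cnt_some_eq hτ hG0 hG hx]
    · rw [if_neg hx, if_neg hx]
  rw [hsum] at k1
  omega

lemma cnt_eq_of_mem_cls (hτ : Function.Injective τ) (hG0 : G0 ∈ realizations d)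
    (hG : G ∈ cls d (T τ) G0) {k : Option (Fin n)} (hk : legit τ k) :
    cnt (ent τ G k) = cnt (ent τ G0 k) := by
  cases k with
  | none => exact cnt_none_eq hτ hG0 hG
  | some x => exact cnt_some_eq hτ hG0 hG hk

lemma rowSum_eq_of_mem_cls (hτ : Function.Injective τ) (hG0 : G0 ∈ realizations d)
    (hG : G ∈ cls d (T τ) G0) (i : Fin 3) :
    rowSum τ (ent τ G) i = rowSum τ (ent τ G0) i := by
  obtain ⟨hGr, -⟩ := mem_cls.mp hG
  have h1 := card_nb_tau hτ G i
  have h2 := card_nb_tau hτ G0 i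
  rw [card_nb_of_mem hGr, cnt_none_eq hτ hG0 hG] at h1
  rw [card_nb_of_mem hG0] at h2
  omega

end Invariants

/-! ### The 3-box system of a triple class -/

/-- active columns: legitimate, with column sum 1 or 2 in `G0` -/
def act (τ : Fin 3 → Fin n) (G0 : Finset (Edge n)) (k : Option (Fin n)) : Prop :=
  legit τ k ∧ (cnt (ent τ G0 k) = 1 ∨ cnt (ent τ G0 k) = 2)

instance (τ : Fin 3 → Fin n) (G0 : Finset (Edge n)) : DecidablePred (act τ G0) := fun k => by
  unfold act; infer_instance

/-- the balls: active columns -/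
abbrev K (τ : Fin 3 → Fin n) (G0 : Finset (Edge n)) : Type := {k : Option (Fin n) // act τ G0 k}

/-- charges: `+1` for column sum 1, `-1` for column sum 2 -/
def eps (τ : Fin 3 → Fin n) (G0 : Finset (Edge n)) : K τ G0 → ℤ :=
  fun k => if cnt (ent τ G0 k.1) = 1 then 1 else -1

lemma eps_pm (τ : Fin 3 → Fin n) (G0 : Finset (Edge n)) (k : K τ G0) :
    eps τ G0 k = 1 ∨ eps τ G0 k = -1 := by
  unfold eps; split_ifs <;> simp

/-- the state of a graph: the odd row of every active column -/
def toState (τ : Fin 3 → Fin n) (G0 G : Finset (Edge n)) : K τ G0 → Fin 3 :=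
  fun k => oddRow (ent τ G k.1)

/-- the charge vector of the class -/
def rho (τ : Fin 3 → Fin n) (G0 : Finset (Edge n)) : Fin 3 → ℤ :=
  fun i => ∑ k : K τ G0, if toState τ G0 G0 k = i then eps τ G0 k else 0

/-- the number of legitimate columns with column sum 2 or 3 in `G0` -/
def c23 (τ : Fin 3 → Fin n) (G0 : Finset (Edge n)) : ℤ :=
  ∑ k : Option (Fin n),
    if legit τ k ∧ (cnt (ent τ G0 k) = 2 ∨ cnt (ent τ G0 k) = 3) then 1 else 0

lemma sum_K (τ : Fin 3 → Fin n) (G0 : Finset (Edge n)) (F : Option (Fin n) → ℤ) :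
    ∑ k : K τ G0, F k.1 = ∑ k : Option (Fin n), if act τ G0 k then F k else 0 := by
  rw [← sum_filter]
  exact (sum_subtype (univ.filter (act τ G0)) (by simp) F).symm

/-- **charge lemma**: for an entry function with the column sums of `G0`, the charge of box `i`
is the row sum minus a constant. -/
lemma charge_eq (τ : Fin 3 → Fin n) (G0 : Finset (Edge n)) (E : Option (Fin n) → Fin 3 → Bool)
    (hE : ∀ k, legit τ k → cnt (E k) = cnt (ent τ G0 k)) (i : Fin 3) :
    (∑ k : K τ G0, if oddRow (E k.1) = i then eps τ G0 k else 0)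
      = (rowSum τ E i : ℤ) - c23 τ G0 := by
  have h1 : (∑ k : K τ G0, if oddRow (E k.1) = i then eps τ G0 k else 0)
      = ∑ k : K τ G0, (fun k : Option (Fin n) =>
          if oddRow (E k) = i then (if cnt (ent τ G0 k) = 1 then (1 : ℤ) else -1) else 0) k.1 :=
    rfl
  rw [h1]
  refine (sum_K τ G0 (fun k : Option (Fin n) =>
    if oddRow (E k) = i then (if cnt (ent τ G0 k) = 1 then (1 : ℤ) else -1) else 0)).trans ?_
  unfold rowSum c23
  push_cast
  rw [← sum_sub_distrib]
  refine sum_congr rfl fun k _ => ?_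
  by_cases hk : legit τ k
  · have hc := hE k hk
    have hle := cnt_le (ent τ G0 k)
    have h4 : cnt (ent τ G0 k) = 0 ∨ cnt (ent τ G0 k) = 1 ∨ cnt (ent τ G0 k) = 2
        ∨ cnt (ent τ G0 k) = 3 := by omega
    rcases h4 with h0 | h0 | h0 | h0
    · rw [h0] at hc
      have hf := all_false_of_cnt hc i
      simp [act, hk, h0, hf]
    · rw [h0] at hc
      have hiff := oddRow_iff_of_one hc i
      by_cases he : E k i = true
      · simp [act, hk, h0, he, hiff.mpr he]
      · have hne : ¬ oddRow (E k) = i := fun h => he (hiff.mp h)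
        simp [act, hk, h0, he, hne]
    · rw [h0] at hc
      have hiff := oddRow_iff_of_two hc i
      by_cases he : E k i = true
      · have hne : ¬ oddRow (E k) = i := fun h => by
          have := hiff.mp h; rw [he] at this; exact absurd this (by simp)
        simp [act, hk, h0, he, hne]
      · have hf : E k i = false := by simpa using he
        simp [act, hk, h0, hf, hiff.mpr hf]
    · rw [h0] at hc
      have ht := all_true_of_cnt hc i
      simp [act, hk, h0, ht]
  · simp [act, hk]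

lemma rho_eq (τ : Fin 3 → Fin n) (G0 : Finset (Edge n)) (i : Fin 3) :
    rho τ G0 i = (rowSum τ (ent τ G0) i : ℤ) - c23 τ G0 :=
  charge_eq τ G0 (ent τ G0) (fun _ _ => rfl) i

/-- forward map: graphs of the class give states -/
lemma toState_mem {τ : Fin 3 → Fin n} (hτ : Function.Injective τ) {d : Fin n → ℕ}
    {G0 G : Finset (Edge n)} (hG0 : G0 ∈ realizations d) (hG : G ∈ cls d (T τ) G0) :
    toState τ G0 G ∈ states (eps τ G0) (rho τ G0) := by
  unfold states
  rw [mem_filter]
  refine ⟨mem_univ _, fun i => ?_⟩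
  have h := charge_eq τ G0 (ent τ G) (fun k hk => cnt_eq_of_mem_cls hτ hG0 hG hk) i
  rw [rho_eq, ← rowSum_eq_of_mem_cls hτ hG0 hG i]
  exact h

/-! ### From entry functions back to graphs -/

lemma mem_nb_tau_some {τ : Fin 3 → Fin n} {G : Finset (Edge n)} {x : Fin n} {i : Fin 3} :
    x ∈ nb G (τ i) ↔ ent τ G (some x) i = true := by
  simp [ent]

lemma mem_nb_tri1 {τ : Fin 3 → Fin n} {G : Finset (Edge n)} {i : Fin 3} :
    τ (i + 1) ∈ nb G (τ i) ↔ ent τ G none (i + 2) = false := by
  rw [ent_none_add_two]; simp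

lemma mem_nb_tri2 {τ : Fin 3 → Fin n} {G : Finset (Edge n)} {i : Fin 3} :
    τ (i + 2) ∈ nb G (τ i) ↔ ent τ G none (i + 1) = false := by
  rw [ent_none_add_one]; simp

/-- a graph is determined by its edges off `T` and its entries on the legitimate columns -/
lemma eq_of_outer_of_ent {τ : Fin 3 → Fin n} {G G' : Finset (Edge n)}
    (hout : outer (T τ) G = outer (T τ) G')
    (hent : ∀ k, legit τ k → ∀ i, ent τ G k i = ent τ G' k i) : G = G' := by
  apply eq_of_nb_eq
  intro v
  ext w
  by_cases hv : v ∈ T τ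
  · obtain ⟨i, rfl⟩ := mem_T.mp hv
    by_cases hw : w ∈ T τ
    · obtain ⟨j, rfl⟩ := mem_T.mp hw
      rcases fin3_cases i j with rfl | rfl | rfl
      · simp [not_mem_nb_self]
      · rw [mem_nb_tri1, mem_nb_tri1, hent none trivial]
      · rw [mem_nb_tri2, mem_nb_tri2, hent none trivial]
    · rw [mem_nb_tau_some, mem_nb_tau_some, hent (some w) hw]
  · by_cases hw : w ∈ T τ
    · obtain ⟨j, rfl⟩ := mem_T.mp hw
      rw [mem_nb_comm, mem_nb_comm (G := G'), mem_nb_tau_some, mem_nb_tau_some,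
        hent (some v) hv]
    · have h := (outer_eq_iff.mp hout) v hv
      have h1 : w ∈ nb G v \ T τ ↔ w ∈ nb G' v \ T τ := by rw [h]
      simp only [mem_sdiff, hw, not_false_eq_true, and_true] at h1
      exact h1

/-- the graph with the edges of `G0` off `T` and the entries `E` -/
def build (τ : Fin 3 → Fin n) (G0 : Finset (Edge n)) (E : Option (Fin n) → Fin 3 → Bool) :
    Finset (Edge n) :=
  univ.filter fun e =>
    e ∈ outer (T τ) G0 ∨ (∃ x i, x ∉ T τ ∧ E (some x) i = true ∧ e.1 = s(x, τ i)) ∨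
      (∃ i, E none i = false ∧ e.1 = s(τ (i + 1), τ (i + 2)))

lemma mem_nb_build {τ : Fin 3 → Fin n} {G0 : Finset (Edge n)}
    {E : Option (Fin n) → Fin 3 → Bool} {v w : Fin n} (hvw : v ≠ w) :
    w ∈ nb (build τ G0 E) v ↔ (w ∈ nb G0 v ∧ v ∉ T τ ∧ w ∉ T τ) ∨
      (∃ x i, x ∉ T τ ∧ E (some x) i = true ∧ s(v, w) = s(x, τ i)) ∨
      (∃ i, E none i = false ∧ s(v, w) = s(τ (i + 1), τ (i + 2))) := by
  rw [← mkE_mem_iff hvw]
  unfold build
  rw [mem_filter, mkE_mem_outer]
  simp only [mem_univ, true_and]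
  rfl

lemma outer_build {τ : Fin 3 → Fin n} (G0 : Finset (Edge n))
    (E : Option (Fin n) → Fin 3 → Bool) : outer (T τ) (build τ G0 E) = outer (T τ) G0 := by
  ext e
  obtain ⟨v, w, hvw, rfl⟩ := edge_eq_mkE e
  rw [mkE_mem_outer, mkE_mem_outer, mem_nb_build hvw]
  constructor
  · rintro ⟨h | ⟨x, i, hx, -, h⟩ | ⟨i, -, h⟩, hv, hw⟩
    · exact ⟨h.1, hv, hw⟩
    · rw [Sym2.eq_iff] at h
      rcases h with ⟨-, rfl⟩ | ⟨rfl, -⟩
      · exact absurd (tau_mem_T τ i) hw
      · exact absurd (tau_mem_T τ i) hv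
    · rw [Sym2.eq_iff] at h
      rcases h with ⟨rfl, -⟩ | ⟨rfl, -⟩
      · exact absurd (tau_mem_T τ _) hv
      · exact absurd (tau_mem_T τ _) hv
  · rintro ⟨h, hv, hw⟩
    exact ⟨Or.inl ⟨h, hv, hw⟩, hv, hw⟩

lemma ent_build {τ : Fin 3 → Fin n} (hτ : Function.Injective τ) (G0 : Finset (Edge n))
    (E : Option (Fin n) → Fin 3 → Bool) {k : Option (Fin n)} (hk : legit τ k) (i : Fin 3) :
    ent τ (build τ G0 E) k i = E k i := by
  cases k with
  | some x =>
    have hx : x ∉ T τ := hk
    have hne : τ i ≠ x := fun h => hx (h ▸ tau_mem_T τ i)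
    have key : x ∈ nb (build τ G0 E) (τ i) ↔ E (some x) i = true := by
      rw [mem_nb_build hne]
      constructor
      · rintro (⟨-, h, -⟩ | ⟨x', i', hx', hE, h⟩ | ⟨j, -, h⟩)
        · exact absurd (tau_mem_T τ i) h
        · rw [Sym2.eq_iff] at h
          rcases h with ⟨h1, -⟩ | ⟨h1, h2⟩
          · exact absurd (h1 ▸ tau_mem_T τ i) hx'
          · rw [hτ h1, h2]; exact hE
        · rw [Sym2.eq_iff] at h
          rcases h with ⟨-, h1⟩ | ⟨-, h1⟩
          · exact absurd (h1 ▸ tau_mem_T τ _) hx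
          · exact absurd (h1 ▸ tau_mem_T τ _) hx
      · intro hE
        exact Or.inr (Or.inl ⟨x, i, hx, hE, Sym2.eq_swap⟩)
    show decide (x ∈ nb (build τ G0 E) (τ i)) = E (some x) i
    rw [Bool.eq_iff_iff, decide_eq_true_eq]
    exact key
  | none =>
    have hne : τ (i + 1) ≠ τ (i + 2) := fun h => fin3_add_one_ne_add_two i (hτ h)
    have key : τ (i + 2) ∈ nb (build τ G0 E) (τ (i + 1)) ↔ E none i = false := by
      rw [mem_nb_build hne]
      constructor
      · rintro (⟨-, h, -⟩ | ⟨x', i', hx', -, h⟩ | ⟨j, hE, h⟩)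
        · exact absurd (tau_mem_T τ _) h
        · rw [Sym2.eq_iff] at h
          rcases h with ⟨h1, -⟩ | ⟨-, h1⟩
          · exact absurd (h1 ▸ tau_mem_T τ _) hx'
          · exact absurd (h1 ▸ tau_mem_T τ _) hx'
        · rw [Sym2.eq_iff] at h
          rcases h with ⟨h1, -⟩ | ⟨h1, h2⟩
          · have hij : i = j := add_right_cancel (hτ h1)
            rw [hij]; exact hE
          · exact absurd (hτ h2) (fin3_swap_false i j (hτ h1))
      · intro hE
        exact Or.inr (Or.inr ⟨i, hE, rfl⟩)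
    show decide (τ (i + 2) ∉ nb (build τ G0 E) (τ (i + 1))) = E none i
    rw [Bool.eq_iff_iff, decide_eq_true_eq, key]
    simp

/-! ### From states back to graphs -/

/-- extension of a state to all columns -/
def extP (τ : Fin 3 → Fin n) (G0 : Finset (Edge n)) (p : K τ G0 → Fin 3)
    (k : Option (Fin n)) : Fin 3 :=
  if h : act τ G0 k then p ⟨k, h⟩ else 0

/-- the entries of a state -/
def entP (τ : Fin 3 → Fin n) (G0 : Finset (Edge n)) (p : K τ G0 → Fin 3)
    (k : Option (Fin n)) (i : Fin 3) : Bool :=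
  if cnt (ent τ G0 k) = 1 then decide (extP τ G0 p k = i)
  else if cnt (ent τ G0 k) = 2 then decide (extP τ G0 p k ≠ i)
  else decide (cnt (ent τ G0 k) = 3)

lemma cnt_decide_eq (j : Fin 3) : cnt (fun i => decide (j = i)) = 1 := by
  rw [cnt_eq]; fin_cases j <;> simp

lemma cnt_decide_ne (j : Fin 3) : cnt (fun i => decide (j ≠ i)) = 2 := by
  rw [cnt_eq]; fin_cases j <;> simp

lemma cnt_entP (τ : Fin 3 → Fin n) (G0 : Finset (Edge n)) (p : K τ G0 → Fin 3)
    (k : Option (Fin n)) : cnt (entP τ G0 p k) = cnt (ent τ G0 k) := by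
  have hle := cnt_le (ent τ G0 k)
  have h4 : cnt (ent τ G0 k) = 0 ∨ cnt (ent τ G0 k) = 1 ∨ cnt (ent τ G0 k) = 2
      ∨ cnt (ent τ G0 k) = 3 := by omega
  rcases h4 with h0 | h0 | h0 | h0
  · have : entP τ G0 p k = fun _ => false := by
      funext i; simp [entP, h0]
    rw [this, h0, cnt_eq]; simp
  · have : entP τ G0 p k = fun i => decide (extP τ G0 p k = i) := by
      funext i; simp [entP, h0]
    rw [this, h0, cnt_decide_eq]
  · have : entP τ G0 p k = fun i => decide (extP τ G0 p k ≠ i) := by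
      funext i; simp [entP, h0]
    rw [this, h0, cnt_decide_ne]
  · have : entP τ G0 p k = fun _ => true := by
      funext i; simp [entP, h0]
    rw [this, h0, cnt_eq]; simp

lemma oddRow_entP (τ : Fin 3 → Fin n) (G0 : Finset (Edge n)) (p : K τ G0 → Fin 3)
    (k : K τ G0) : oddRow (entP τ G0 p k.1) = p k := by
  have hext : extP τ G0 p k.1 = p k := by
    unfold extP; rw [dif_pos k.2]
  have hc := cnt_entP τ G0 p k.1
  rcases k.2.2 with h0 | h0
  · rw [h0] at hc
    rw [oddRow_iff_of_one hc]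
    simp [entP, h0, hext]
  · rw [h0] at hc
    rw [oddRow_iff_of_two hc]
    simp [entP, h0, hext]

/-- the graph of a state -/
def ofState (τ : Fin 3 → Fin n) (G0 : Finset (Edge n)) (p : K τ G0 → Fin 3) : Finset (Edge n) :=
  build τ G0 (entP τ G0 p)

lemma outer_ofState (τ : Fin 3 → Fin n) (G0 : Finset (Edge n)) (p : K τ G0 → Fin 3) :
    outer (T τ) (ofState τ G0 p) = outer (T τ) G0 :=
  outer_build G0 _

lemma ent_ofState {τ : Fin 3 → Fin n} (hτ : Function.Injective τ) (G0 : Finset (Edge n))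
    (p : K τ G0 → Fin 3) {k : Option (Fin n)} (hk : legit τ k) :
    ent τ (ofState τ G0 p) k = entP τ G0 p k :=
  funext fun i => ent_build hτ G0 _ hk i

lemma toState_ofState {τ : Fin 3 → Fin n} (hτ : Function.Injective τ) (G0 : Finset (Edge n))
    (p : K τ G0 → Fin 3) : toState τ G0 (ofState τ G0 p) = p := by
  funext k
  unfold toState
  rw [ent_ofState hτ G0 p k.2.1, oddRow_entP]

lemma rowSum_congr {τ : Fin 3 → Fin n} {E E' : Option (Fin n) → Fin 3 → Bool}
    (h : ∀ k, legit τ k → E k = E' k) (i : Fin 3) : rowSum τ E i = rowSum τ E' i := by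
  unfold rowSum
  refine sum_congr rfl fun k _ => ?_
  by_cases hk : legit τ k
  · rw [h k hk]
  · simp [hk]

/-- backward map: states give graphs of the class -/
lemma ofState_mem {τ : Fin 3 → Fin n} (hτ : Function.Injective τ) {d : Fin n → ℕ}
    {G0 : Finset (Edge n)} (hG0 : G0 ∈ realizations d) {p : K τ G0 → Fin 3}
    (hp : p ∈ states (eps τ G0) (rho τ G0)) : ofState τ G0 p ∈ cls d (T τ) G0 := by
  rw [mem_cls]
  refine ⟨?_, outer_ofState τ G0 p⟩
  -- row sums of the state
  have hrow : ∀ i, rowSum τ (entP τ G0 p) i = rowSum τ (ent τ G0) i := by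
    intro i
    have h1 := charge_eq τ G0 (entP τ G0 p) (fun k _ => cnt_entP τ G0 p k) i
    have h2 : (∑ k : K τ G0, if oddRow (entP τ G0 p k.1) = i then eps τ G0 k else 0)
        = rho τ G0 i := by
      unfold states at hp
      rw [mem_filter] at hp
      rw [← hp.2 i]
      refine sum_congr rfl fun k _ => ?_
      rw [oddRow_entP]
    rw [h2, rho_eq] at h1
    have h3 : (rowSum τ (ent τ G0) i : ℤ) = (rowSum τ (entP τ G0 p) i : ℤ) := by linarith
    exact_mod_cast h3.symm
  simp only [realizations, mem_filter, mem_univ, true_and]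
  intro v
  rw [deg_eq_card_nb]
  by_cases hv : v ∈ T τ
  · obtain ⟨i, rfl⟩ := mem_T.mp hv
    have h1 := card_nb_tau hτ (ofState τ G0 p) i
    have h2 := card_nb_tau hτ G0 i
    rw [ent_ofState hτ G0 p (k := none) trivial, cnt_entP,
      rowSum_congr (fun k hk => ent_ofState hτ G0 p hk) i, hrow i] at h1
    rw [card_nb_of_mem hG0] at h2
    omega
  · have h1 := card_nb_outside hτ (ofState τ G0 p) v
    have h2 := card_nb_outside hτ G0 v
    rw [ent_ofState hτ G0 p (k := some v) hv, cnt_entP,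
      (outer_eq_iff.mp (outer_ofState τ G0 p)) v hv] at h1
    rw [card_nb_of_mem hG0] at h2
    omega

/-- left inverse on the class -/
lemma ofState_toState {τ : Fin 3 → Fin n} (hτ : Function.Injective τ) {d : Fin n → ℕ}
    {G0 G : Finset (Edge n)} (hG0 : G0 ∈ realizations d) (hG : G ∈ cls d (T τ) G0) :
    ofState τ G0 (toState τ G0 G) = G := by
  apply eq_of_outer_of_ent (τ := τ)
  · rw [outer_ofState, (mem_cls.mp hG).2]
  · intro k hk i
    rw [ent_ofState hτ G0 _ hk]
    have hc := cnt_eq_of_mem_cls hτ hG0 hG hk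
    have hle := cnt_le (ent τ G0 k)
    have h4 : cnt (ent τ G0 k) = 0 ∨ cnt (ent τ G0 k) = 1 ∨ cnt (ent τ G0 k) = 2
        ∨ cnt (ent τ G0 k) = 3 := by omega
    rcases h4 with h0 | h0 | h0 | h0
    · rw [h0] at hc
      simp [entP, h0, all_false_of_cnt hc i]
    · rw [h0] at hc
      have hact : act τ G0 k := ⟨hk, Or.inl h0⟩
      have hext : extP τ G0 (toState τ G0 G) k = oddRow (ent τ G k) := by
        unfold extP; rw [dif_pos hact]; rfl
      have hiff := oddRow_iff_of_one hc i
      have e : entP τ G0 (toState τ G0 G) k i = decide (oddRow (ent τ G k) = i) := by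
        simp [entP, h0, hext]
      rw [e, Bool.eq_iff_iff, decide_eq_true_eq]
      exact hiff
    · rw [h0] at hc
      have hact : act τ G0 k := ⟨hk, Or.inr h0⟩
      have hext : extP τ G0 (toState τ G0 G) k = oddRow (ent τ G k) := by
        unfold extP; rw [dif_pos hact]; rfl
      have hiff := oddRow_iff_of_two hc i
      have e : entP τ G0 (toState τ G0 G) k i = decide (oddRow (ent τ G k) ≠ i) := by
        simp [entP, h0, hext]
      rw [e, Bool.eq_iff_iff, decide_eq_true_eq, Ne, hiff]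
      simp
    · rw [h0] at hc
      simp [entP, h0, all_true_of_cnt hc i]

/-! ### Pair classes are boxes -/

section Classes

variable {τ : Fin 3 → Fin n} {d : Fin n → ℕ} {G0 G G' : Finset (Edge n)}

/-- equal content of box `i` ↔ equal row `i` -/
lemma box_eq_iff (hτ : Function.Injective τ) (hG0 : G0 ∈ realizations d)
    (hG : G ∈ cls d (T τ) G0) (hG' : G' ∈ cls d (T τ) G0) (i : Fin 3) :
    box (toState τ G0 G') i = box (toState τ G0 G) i
      ↔ ∀ k, legit τ k → ent τ G' k i = ent τ G k i := by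
  constructor
  · intro hbox k hk
    have hc := cnt_eq_of_mem_cls hτ hG0 hG hk
    have hc' := cnt_eq_of_mem_cls hτ hG0 hG' hk
    have hle := cnt_le (ent τ G0 k)
    have h4 : cnt (ent τ G0 k) = 0 ∨ cnt (ent τ G0 k) = 1 ∨ cnt (ent τ G0 k) = 2
        ∨ cnt (ent τ G0 k) = 3 := by omega
    rcases h4 with h0 | h0 | h0 | h0
    · rw [h0] at hc hc'
      rw [all_false_of_cnt hc i, all_false_of_cnt hc' i]
    · rw [h0] at hc hc'
      have hact : act τ G0 k := ⟨hk, Or.inl h0⟩
      have hm : (⟨k, hact⟩ : K τ G0) ∈ box (toState τ G0 G') i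
          ↔ (⟨k, hact⟩ : K τ G0) ∈ box (toState τ G0 G) i := by rw [hbox]
      rw [mem_box, mem_box] at hm
      change oddRow (ent τ G' k) = i ↔ oddRow (ent τ G k) = i at hm
      rw [oddRow_iff_of_one hc' i, oddRow_iff_of_one hc i] at hm
      rw [Bool.eq_iff_iff]; exact hm
    · rw [h0] at hc hc'
      have hact : act τ G0 k := ⟨hk, Or.inr h0⟩
      have hm : (⟨k, hact⟩ : K τ G0) ∈ box (toState τ G0 G') i
          ↔ (⟨k, hact⟩ : K τ G0) ∈ box (toState τ G0 G) i := by rw [hbox]
      rw [mem_box, mem_box] at hm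
      change oddRow (ent τ G' k) = i ↔ oddRow (ent τ G k) = i at hm
      rw [oddRow_iff_of_two hc' i, oddRow_iff_of_two hc i] at hm
      cases h1 : ent τ G' k i <;> cases h2 : ent τ G k i <;> simp [h1, h2] at hm ⊢
    · rw [h0] at hc hc'
      rw [all_true_of_cnt hc i, all_true_of_cnt hc' i]
  · intro hent
    ext k
    rw [mem_box, mem_box]
    change oddRow (ent τ G' k.1) = i ↔ oddRow (ent τ G k.1) = i
    have hk := k.2.1
    have hc := cnt_eq_of_mem_cls hτ hG0 hG hk
    have hc' := cnt_eq_of_mem_cls hτ hG0 hG' hk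
    rcases k.2.2 with h0 | h0
    · rw [h0] at hc hc'
      rw [oddRow_iff_of_one hc' i, oddRow_iff_of_one hc i, hent k.1 hk]
    · rw [h0] at hc hc'
      rw [oddRow_iff_of_two hc' i, oddRow_iff_of_two hc i, hent k.1 hk]

/-- equal row `i` ↔ same class of the opposite pair -/
lemma outer_pair_eq_iff (hτ : Function.Injective τ) (hG0 : G0 ∈ realizations d)
    (hG : G ∈ cls d (T τ) G0) (hG' : G' ∈ cls d (T τ) G0) (i : Fin 3) :
    outer (pairU τ i) G' = outer (pairU τ i) G
      ↔ ∀ k, legit τ k → ent τ G' k i = ent τ G k i := by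
  have hTT : outer (T τ) G' = outer (T τ) G := by
    rw [(mem_cls.mp hG').2, (mem_cls.mp hG).2]
  constructor
  · intro hout
    have hsome : ∀ x, x ∉ T τ → ent τ G' (some x) i = ent τ G (some x) i := by
      intro x hx
      have hxp : x ∉ pairU τ i := fun h => hx (pairU_subset τ i h)
      have h := (outer_eq_iff.mp hout) (τ i) (tau_not_mem_pairU hτ i)
      have h1 : x ∈ nb G' (τ i) \ pairU τ i ↔ x ∈ nb G (τ i) \ pairU τ i := by rw [h]
      simp only [mem_sdiff, hxp, not_false_eq_true, and_true] at h1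
      rw [Bool.eq_iff_iff, ← mem_nb_tau_some, ← mem_nb_tau_some]
      exact h1
    intro k hk
    cases k with
    | some x => exact hsome x hk
    | none =>
      have hr := rowSum_eq_of_mem_cls hτ hG0 hG i
      have hr' := rowSum_eq_of_mem_cls hτ hG0 hG' i
      rw [rowSum_eq, rowSum_eq] at hr hr'
      have hsum : (∑ x : Fin n, if x ∉ T τ ∧ ent τ G' (some x) i = true then 1 else 0)
          = ∑ x : Fin n, if x ∉ T τ ∧ ent τ G (some x) i = true then 1 else 0 := by
        refine sum_congr rfl fun x _ => ?_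
        by_cases hx : x ∉ T τ
        · rw [hsome x hx]
        · simp [hx]
      have hind : (if ent τ G' none i = true then 1 else 0)
          = (if ent τ G none i = true then 1 else 0) := by
        rw [hsum] at hr'
        omega
      cases h1 : ent τ G' none i <;> cases h2 : ent τ G none i <;> simp [h1, h2] at hind ⊢
  · intro hent
    rw [outer_eq_iff]
    intro v hv
    ext w
    simp only [mem_sdiff]
    refine and_congr_left fun hw => ?_
    by_cases hvT : v ∈ T τ
    · have hvi : v = τ i := ((mem_T_iff τ i).mp hvT).resolve_right hv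
      subst hvi
      by_cases hwT : w ∈ T τ
      · have hwi : w = τ i := ((mem_T_iff τ i).mp hwT).resolve_right hw
        subst hwi
        simp [not_mem_nb_self]
      · rw [mem_nb_tau_some, mem_nb_tau_some, hent (some w) hwT]
    · by_cases hwT : w ∈ T τ
      · have hwi : w = τ i := ((mem_T_iff τ i).mp hwT).resolve_right hw
        subst hwi
        rw [mem_nb_comm, mem_nb_comm (G := G), mem_nb_tau_some, mem_nb_tau_some,
          hent (some v) hvT]
      · have h := (outer_eq_iff.mp hTT) v hvT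
        have h1 : w ∈ nb G' v \ T τ ↔ w ∈ nb G v \ T τ := by rw [h]
        simp only [mem_sdiff, hwT, not_false_eq_true, and_true] at h1
        exact h1

/-- the pair class of `{τ (i+1), τ (i+2)}` = "the content of box `i` is fixed" -/
lemma mem_pair_cls_iff (hτ : Function.Injective τ) (hG0 : G0 ∈ realizations d)
    (hG : G ∈ cls d (T τ) G0) (hG' : G' ∈ cls d (T τ) G0) (i : Fin 3) :
    G' ∈ cls d (pairU τ i) G ↔ box (toState τ G0 G') i = box (toState τ G0 G) i := by
  rw [mem_cls, box_eq_iff hτ hG0 hG hG', ← outer_pair_eq_iff hτ hG0 hG hG']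
  exact and_iff_right (mem_cls.mp hG').1

lemma pair_cls_subset (hG : G ∈ cls d (T τ) G0) (i : Fin 3) :
    cls d (pairU τ i) G ⊆ cls d (T τ) G0 := by
  intro G' hG'
  rw [mem_cls] at hG' ⊢
  exact ⟨hG'.1, (outer_mono (pairU_subset τ i) hG'.2).trans (mem_cls.mp hG).2⟩

/-- pair-class averages are the conditional expectations of the 3-box system -/
lemma avg_eq_condE (hτ : Function.Injective τ) (hG0 : G0 ∈ realizations d)
    (hG : G ∈ cls d (T τ) G0) (f : Finset (Edge n) → ℝ) (i : Fin 3) :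
    avg d (pairU τ i) f G
      = condE (eps τ G0) (rho τ G0) i (fun p => f (ofState τ G0 p)) (toState τ G0 G) := by
  unfold avg condE
  have hmap : ∀ G' ∈ cls d (pairU τ i) G,
      toState τ G0 G' ∈ cls3 (eps τ G0) (rho τ G0) i (toState τ G0 G) := by
    intro G' hG'
    have hG'C := pair_cls_subset hG i hG'
    unfold cls3
    rw [mem_filter]
    exact ⟨toState_mem hτ hG0 hG'C, (mem_pair_cls_iff hτ hG0 hG hG'C i).mp hG'⟩
  have hinv : ∀ q ∈ cls3 (eps τ G0) (rho τ G0) i (toState τ G0 G),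
      ofState τ G0 q ∈ cls d (pairU τ i) G := by
    intro q hq
    unfold cls3 at hq
    rw [mem_filter] at hq
    have hqC := ofState_mem hτ hG0 hq.1
    rw [mem_pair_cls_iff hτ hG0 hG hqC i, toState_ofState hτ]
    exact hq.2
  have hl : ∀ G' ∈ cls d (pairU τ i) G, ofState τ G0 (toState τ G0 G') = G' :=
    fun G' hG' => ofState_toState hτ hG0 (pair_cls_subset hG i hG')
  have hr : ∀ q ∈ cls3 (eps τ G0) (rho τ G0) i (toState τ G0 G),
      toState τ G0 (ofState τ G0 q) = q := fun q _ => toState_ofState hτ G0 q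
  have hsum : ∑ G' ∈ cls d (pairU τ i) G, f G'
      = ∑ q ∈ cls3 (eps τ G0) (rho τ G0) i (toState τ G0 G), f (ofState τ G0 q) := by
    refine sum_nbij' (toState τ G0) (ofState τ G0) hmap hinv hl hr ?_
    intro G' hG'
    rw [hl G' hG']
  have hcard : (cls d (pairU τ i) G).card
      = (cls3 (eps τ G0) (rho τ G0) i (toState τ G0 G)).card :=
    card_nbij' (toState τ G0) (ofState τ G0) hmap hinv hl hr
  rw [hsum, hcard]

/-- sums over the triple class are sums over the states -/
lemma sum_cls_eq (hτ : Function.Injective τ) (hG0 : G0 ∈ realizations d)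
    (Ψ : Finset (Edge n) → ℝ) :
    ∑ G ∈ cls d (T τ) G0, Ψ G
      = ∑ p ∈ states (eps τ G0) (rho τ G0), Ψ (ofState τ G0 p) := by
  refine sum_nbij' (toState τ G0) (ofState τ G0) (fun G hG => toState_mem hτ hG0 hG)
    (fun p hp => ofState_mem hτ hG0 hp) (fun G hG => ofState_toState hτ hG0 hG)
    (fun p _ => toState_ofState hτ G0 p) ?_
  intro G hG
  rw [ofState_toState hτ hG0 hG]

lemma card_cls_eq (hτ : Function.Injective τ) (hG0 : G0 ∈ realizations d) :
    (cls d (T τ) G0).card = (states (eps τ G0) (rho τ G0)).card :=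
  card_nbij' (toState τ G0) (ofState τ G0) (fun _ hG => toState_mem hτ hG0 hG)
    (fun _ hp => ofState_mem hτ hG0 hp) (fun _ hG => ofState_toState hτ hG0 hG)
    (fun p _ => toState_ofState hτ G0 p)

/-- **Generic transport**: any expression in `f` and its three pair-class averages, summed over a
triple class, equals the same expression of the 3-box system. -/
theorem transport (hτ : Function.Injective τ) (hG0 : G0 ∈ realizations d)
    (f : Finset (Edge n) → ℝ) (Φ : ℝ → (Fin 3 → ℝ) → ℝ) :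
    ∑ G ∈ cls d (T τ) G0, Φ (f G) (fun i => avg d (pairU τ i) f G)
      = ∑ p ∈ states (eps τ G0) (rho τ G0), Φ (f (ofState τ G0 p))
          (fun i => condE (eps τ G0) (rho τ G0) i (fun q => f (ofState τ G0 q)) p) := by
  rw [sum_cls_eq hτ hG0]
  refine sum_congr rfl fun p hp => ?_
  congr 1
  funext i
  rw [avg_eq_condE hτ hG0 (ofState_mem hτ hG0 hp), toState_ofState hτ]

end Classes

/-! ### The graph forms of lemma (T) -/

/-- The abstract 3-box inequality, "square" form (helper48's `three_box`):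
`⟨f, A f⟩ ≤ ‖A f‖²` for `A = ∑ i, (I - condE i)`. -/
def ThreeBoxSq : Prop :=
  ∀ (K : Type) [Fintype K] [DecidableEq K] (ε : K → ℤ), (∀ k, ε k = 1 ∨ ε k = -1) →
    ∀ (ρ : Fin 3 → ℤ) (g : (K → Fin 3) → ℝ),
      ∑ p ∈ states ε ρ, g p * ∑ i, (g p - condE ε ρ i g p)
        ≤ ∑ p ∈ states ε ρ, (∑ i, (g p - condE ε ρ i g p)) ^ 2

/-- The abstract 3-box inequality, "variance" form (helper8's `(T-abs)`):
`Var g ≤ ∑ i, E Var(g | box i)`. -/
def ThreeBoxVar : Prop :=
  ∀ (K : Type) [Fintype K] [DecidableEq K] (ε : K → ℤ), (∀ k, ε k = 1 ∨ ε k = -1) →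
    ∀ (ρ : Fin 3 → ℤ) (g : (K → Fin 3) → ℝ),
      ((states ε ρ).card : ℝ) * ∑ p ∈ states ε ρ, g p ^ 2 - (∑ p ∈ states ε ρ, g p) ^ 2
        ≤ ((states ε ρ).card : ℝ) * ∑ i, ∑ p ∈ states ε ρ, (g p - condE ε ρ i g p) ^ 2

section Main

variable {τ : Fin 3 → Fin n} {d : Fin n → ℕ} {G0 : Finset (Edge n)}

/-- **(T) on one triple class, square form**: `⟨f, A_T f⟩ ≤ ‖A_T f‖²` with
`A_T = ∑_{pairs b ⊂ T} (I - E_b)`. -/
theorem triple_class_sq (H : ThreeBoxSq) (hτ : Function.Injective τ)
    (hG0 : G0 ∈ realizations d) (f : Finset (Edge n) → ℝ) :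
    ∑ G ∈ cls d (T τ) G0, f G * ∑ i, (f G - avg d (pairU τ i) f G)
      ≤ ∑ G ∈ cls d (T τ) G0, (∑ i, (f G - avg d (pairU τ i) f G)) ^ 2 := by
  have h1 := transport hτ hG0 f (fun a v => a * ∑ i, (a - v i))
  have h2 := transport hτ hG0 f (fun a v => (∑ i, (a - v i)) ^ 2)
  rw [h1, h2]
  exact H (K τ G0) (eps τ G0) (eps_pm τ G0) (rho τ G0) _

/-- **(T) on one triple class, variance form**. -/
theorem triple_class_var (H : ThreeBoxVar) (hτ : Function.Injective τ)
    (hG0 : G0 ∈ realizations d) (f : Finset (Edge n) → ℝ) :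
    ((cls d (T τ) G0).card : ℝ) * ∑ G ∈ cls d (T τ) G0, f G ^ 2
        - (∑ G ∈ cls d (T τ) G0, f G) ^ 2
      ≤ ((cls d (T τ) G0).card : ℝ)
          * ∑ i, ∑ G ∈ cls d (T τ) G0, (f G - avg d (pairU τ i) f G) ^ 2 := by
  have h1 := transport hτ hG0 f (fun a _ => a ^ 2)
  have h2 := transport hτ hG0 f (fun a _ => a)
  have h3 : ∀ i : Fin 3, ∑ G ∈ cls d (T τ) G0, (f G - avg d (pairU τ i) f G) ^ 2
      = ∑ p ∈ states (eps τ G0) (rho τ G0), (f (ofState τ G0 p)
          - condE (eps τ G0) (rho τ G0) i (fun q => f (ofState τ G0 q)) p) ^ 2 :=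
    fun i => transport hτ hG0 f (fun a v => (a - v i) ^ 2)
  rw [h1, h2, sum_congr rfl fun i _ => h3 i, card_cls_eq hτ hG0]
  exact H (K τ G0) (eps τ G0) (eps_pm τ G0) (rho τ G0) _

end Main

/-! ### From classes to all realizations -/

/-- an inequality that holds on every `U`-class holds on the whole set of realizations -/
lemma sum_le_sum_of_cls (d : Fin n → ℕ) (U : Finset (Fin n)) (F F' : Finset (Edge n) → ℝ)
    (h : ∀ G0 ∈ realizations d, ∑ G ∈ cls d U G0, F G ≤ ∑ G ∈ cls d U G0, F' G) :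
    ∑ G ∈ realizations d, F G ≤ ∑ G ∈ realizations d, F' G := by
  have hmaps : ∀ G ∈ realizations d, outer U G ∈ (realizations d).image (outer U) :=
    fun G hG => mem_image_of_mem _ hG
  rw [← sum_fiberwise_of_maps_to hmaps F, ← sum_fiberwise_of_maps_to hmaps F']
  refine sum_le_sum fun o ho => ?_
  obtain ⟨G0, hG0, rfl⟩ := mem_image.mp ho
  exact h G0 hG0

/-- **(T), square form, on all realizations**: for three distinct vertices,
`∑_G f · (A_T f) ≤ ∑_G (A_T f)²`, `A_T f = ∑_{i} (f - avg over the class of the pair opposite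
to `τ i`)`. -/
theorem triple_sq (H : ThreeBoxSq) {τ : Fin 3 → Fin n} (hτ : Function.Injective τ)
    (d : Fin n → ℕ) (f : Finset (Edge n) → ℝ) :
    ∑ G ∈ realizations d, f G * ∑ i, (f G - avg d (pairU τ i) f G)
      ≤ ∑ G ∈ realizations d, (∑ i, (f G - avg d (pairU τ i) f G)) ^ 2 :=
  sum_le_sum_of_cls d (T τ) _ _ fun _ hG0 => triple_class_sq H hτ hG0 f

/-! ### Variance form with the triple-class average, and explicit vertices -/

lemma cls_eq_of_mem {d : Fin n → ℕ} {U : Finset (Fin n)} {G0 G : Finset (Edge n)}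
    (hG : G ∈ cls d U G0) : cls d U G = cls d U G0 := by
  unfold cls; rw [(mem_cls.mp hG).2]

lemma self_mem_cls {d : Fin n → ℕ} {U : Finset (Fin n)} {G0 : Finset (Edge n)}
    (hG0 : G0 ∈ realizations d) : G0 ∈ cls d U G0 := mem_cls.mpr ⟨hG0, rfl⟩

lemma avg_eq_of_mem {d : Fin n → ℕ} {U : Finset (Fin n)} {G0 G : Finset (Edge n)}
    (hG : G ∈ cls d U G0) (f : Finset (Edge n) → ℝ) : avg d U f G = avg d U f G0 := by
  unfold avg; rw [cls_eq_of_mem hG]

/-- `|C| ∑ (f - mean)² = |C| ∑ f² - (∑ f)²` -/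
lemma card_mul_sum_sub_mean_sq {α : Type*} (C : Finset α) (hC : C.Nonempty) (f : α → ℝ) :
    (C.card : ℝ) * ∑ x ∈ C, (f x - (∑ y ∈ C, f y) / (C.card : ℝ)) ^ 2
      = (C.card : ℝ) * ∑ x ∈ C, f x ^ 2 - (∑ x ∈ C, f x) ^ 2 := by
  have hc : (C.card : ℝ) ≠ 0 := by
    exact_mod_cast (card_pos.mpr hC).ne'
  set S := ∑ y ∈ C, f y with hS
  have h1 : ∑ x ∈ C, (f x - S / (C.card : ℝ)) ^ 2
      = ∑ x ∈ C, f x ^ 2 - 2 * (S / (C.card : ℝ)) * S + (C.card : ℝ) * (S / (C.card : ℝ)) ^ 2 := by
    have : ∀ x ∈ C, (f x - S / (C.card : ℝ)) ^ 2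
        = f x ^ 2 - 2 * (S / (C.card : ℝ)) * f x + (S / (C.card : ℝ)) ^ 2 := fun x _ => by ring
    rw [sum_congr rfl this, sum_add_distrib, sum_sub_distrib, ← mul_sum, sum_const, nsmul_eq_mul]
  rw [h1]
  field_simp
  ring

section MainVar

variable {τ : Fin 3 → Fin n} {d : Fin n → ℕ} {G0 : Finset (Edge n)}

/-- **(T) on one triple class, variance form with the class average**:
`‖f - E_T f‖² ≤ ∑_{pairs b ⊂ T} ‖f - E_b f‖²` on the class. -/
theorem triple_class_var' (H : ThreeBoxVar) (hτ : Function.Injective τ)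
    (hG0 : G0 ∈ realizations d) (f : Finset (Edge n) → ℝ) :
    ∑ G ∈ cls d (T τ) G0, (f G - avg d (T τ) f G) ^ 2
      ≤ ∑ i, ∑ G ∈ cls d (T τ) G0, (f G - avg d (pairU τ i) f G) ^ 2 := by
  have hne : (cls d (T τ) G0).Nonempty := ⟨G0, self_mem_cls hG0⟩
  have hpos : (0 : ℝ) < ((cls d (T τ) G0).card : ℝ) := by exact_mod_cast card_pos.mpr hne
  have h1 : ∑ G ∈ cls d (T τ) G0, (f G - avg d (T τ) f G) ^ 2
      = ∑ G ∈ cls d (T τ) G0,
          (f G - (∑ G' ∈ cls d (T τ) G0, f G') / ((cls d (T τ) G0).card : ℝ)) ^ 2 := by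
    refine sum_congr rfl fun G hG => ?_
    rw [avg_eq_of_mem hG]; rfl
  have h2 := card_mul_sum_sub_mean_sq (cls d (T τ) G0) hne f
  have h3 := triple_class_var H hτ hG0 f
  rw [← h2, ← h1] at h3
  exact le_of_mul_le_mul_left h3 hpos

/-- **(T), variance form, on all realizations**: `‖f - E_T f‖² ≤ ∑_{pairs b ⊂ T} ‖f - E_b f‖²`. -/
theorem triple_var (H : ThreeBoxVar) (hτ : Function.Injective τ) (d : Fin n → ℕ)
    (f : Finset (Edge n) → ℝ) :
    ∑ G ∈ realizations d, (f G - avg d (T τ) f G) ^ 2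
      ≤ ∑ i, ∑ G ∈ realizations d, (f G - avg d (pairU τ i) f G) ^ 2 := by
  rw [sum_comm]
  refine sum_le_sum_of_cls d (T τ) _ _ fun G0 hG0 => ?_
  rw [sum_comm]
  exact triple_class_var' H hτ hG0 f

end MainVar

/-! #### explicit vertices `a, b, c` -/

/-- the injective enumeration of three distinct vertices -/
def tau3 (a b c : Fin n) : Fin 3 → Fin n := ![a, b, c]

lemma tau3_injective {a b c : Fin n} (hab : a ≠ b) (hac : a ≠ c) (hbc : b ≠ c) :
    Function.Injective (tau3 a b c) := by
  intro i j h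
  fin_cases i <;> fin_cases j <;> simp [tau3] at h ⊢ <;> tauto

lemma T_tau3 (a b c : Fin n) : T (tau3 a b c) = {a, b, c} := by
  ext v
  rw [mem_T]
  simp only [mem_insert, mem_singleton]
  constructor
  · rintro ⟨i, rfl⟩
    fin_cases i <;> simp [tau3]
  · rintro (rfl | rfl | rfl)
    · exact ⟨0, rfl⟩
    · exact ⟨1, rfl⟩
    · exact ⟨2, rfl⟩

lemma pairU_tau3_zero (a b c : Fin n) : pairU (tau3 a b c) 0 = {b, c} := rfl

lemma pairU_tau3_one (a b c : Fin n) : pairU (tau3 a b c) 1 = {a, c} := by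
  show ({c, a} : Finset (Fin n)) = {a, c}
  exact pair_comm c a

lemma pairU_tau3_two (a b c : Fin n) : pairU (tau3 a b c) 2 = {a, b} := rfl

/-- **(T), square form, explicit vertices**: with `A f := (f - E_{ab} f) + (f - E_{ac} f) +
(f - E_{bc} f)`, `∑_G f · A f ≤ ∑_G (A f)²`. -/
theorem triple_sq_abc (H : ThreeBoxSq) (d : Fin n → ℕ) {a b c : Fin n} (hab : a ≠ b)
    (hac : a ≠ c) (hbc : b ≠ c) (f : Finset (Edge n) → ℝ) :
    ∑ G ∈ realizations d, f G * ((f G - avg d {a, b} f G) + (f G - avg d {a, c} f G)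
        + (f G - avg d {b, c} f G))
      ≤ ∑ G ∈ realizations d, ((f G - avg d {a, b} f G) + (f G - avg d {a, c} f G)
        + (f G - avg d {b, c} f G)) ^ 2 := by
  have h := triple_sq H (tau3_injective hab hac hbc) d f
  simp only [Fin.sum_univ_three, pairU_tau3_zero, pairU_tau3_one, pairU_tau3_two] at h
  have e : ∀ G, (f G - avg d {b, c} f G) + (f G - avg d {a, c} f G) + (f G - avg d {a, b} f G)
      = (f G - avg d {a, b} f G) + (f G - avg d {a, c} f G) + (f G - avg d {b, c} f G) :=
    fun G => by ring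
  simpa only [e] using h

/-- **(T), variance form, explicit vertices**:
`‖f - E_{abc} f‖² ≤ ‖f - E_{ab} f‖² + ‖f - E_{ac} f‖² + ‖f - E_{bc} f‖²`. -/
theorem triple_var_abc (H : ThreeBoxVar) (d : Fin n → ℕ) {a b c : Fin n} (hab : a ≠ b)
    (hac : a ≠ c) (hbc : b ≠ c) (f : Finset (Edge n) → ℝ) :
    ∑ G ∈ realizations d, (f G - avg d {a, b, c} f G) ^ 2
      ≤ ∑ G ∈ realizations d, (f G - avg d {a, b} f G) ^ 2
        + ∑ G ∈ realizations d, (f G - avg d {a, c} f G) ^ 2
        + ∑ G ∈ realizations d, (f G - avg d {b, c} f G) ^ 2 := by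
  have h := triple_var H (tau3_injective hab hac hbc) d f
  simp only [Fin.sum_univ_three, pairU_tau3_zero, pairU_tau3_one, pairU_tau3_two, T_tau3] at h
  linarith

end Crest.Agent.S0453R.TG
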