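import Mathlib
import Crest.Prelude.Def_SwitchChain
import Crest.Agent.S0453.Avg
import Crest.Agent.S0453.Final
import Crest.Agent.S0453.TripleGraph

/-!
Row 299 / S0453 (helper44), module [T-GRAPH], part W: the target `(G1)` of the assembly
(`Final.lean`) from the abstract 3-box inequality `ThreeBoxSq` (helper48's `three_box`),
through the graph transport of `TripleGraph.lean`.

`G1_of_threeBoxSq : ThreeBoxSq → G1 d`.
-/

set_option autoImplicit false
open Finset

namespace Crest.Agent.S0453R.TG

open Crest.SwitchChain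

variable {n : ℕ}

/-! ### The two vocabularies agree -/

lemma sameOff_iff_outer {U : Finset (Fin n)} {G G' : Finset (Edge n)} :
    sameOff U G G' ↔ outer U G' = outer U G := by
  unfold sameOff outer
  constructor
  · intro h
    ext e
    simp only [mem_filter]
    constructor
    · rintro ⟨h1, h2⟩; exact ⟨(h e h2).mpr h1, h2⟩
    · rintro ⟨h1, h2⟩; exact ⟨(h e h2).mp h1, h2⟩
  · intro h e he
    have h1 : e ∈ G'.filter (fun e => ∀ v ∈ U, v ∉ e.1)
        ↔ e ∈ G.filter (fun e => ∀ v ∈ U, v ∉ e.1) := by rw [h]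
    simp only [mem_filter] at h1
    constructor
    · intro hG; exact (h1.mpr ⟨hG, he⟩).1
    · intro hG'; exact (h1.mp ⟨hG', he⟩).1

lemma filter_sameOff_eq_cls (d : Fin n → ℕ) (U : Finset (Fin n)) (G : Finset (Edge n)) :
    (realizations d).filter (sameOff U G) = cls d U G := by
  unfold cls
  exact filter_congr fun G' _ => sameOff_iff_outer

/-- the class average of `Avg.lean` is the class average of `TripleGraph.lean` -/
lemma E_eq_avg (d : Fin n → ℕ) (U : Finset (Fin n)) (f : Finset (Edge n) → ℝ)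
    (G : Finset (Edge n)) : E d U f G = avg d U f G := by
  rw [E_def, filter_sameOff_eq_cls]
  rfl

/-! ### The pairs inside a triple -/

lemma tau_mem_pairU_of_ne (τ : Fin 3 → Fin n) {i j : Fin 3} (h : i ≠ j) : τ i ∈ pairU τ j := by
  rcases fin3_cases j i with rfl | rfl | rfl
  · exact absurd rfl h
  · simp [pairU]
  · simp [pairU]

lemma pairU_injective {τ : Fin 3 → Fin n} (hτ : Function.Injective τ) :
    Function.Injective (pairU τ) := by
  intro i j h
  by_contra hne
  have h1 := tau_mem_pairU_of_ne τ hne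
  rw [← h] at h1
  exact tau_not_mem_pairU hτ i h1

lemma card_T {τ : Fin 3 → Fin n} (hτ : Function.Injective τ) : (T τ).card = 3 := by
  rw [T, card_image_of_injective _ hτ]; simp

lemma card_pairU {τ : Fin 3 → Fin n} (hτ : Function.Injective τ) (i : Fin 3) :
    (pairU τ i).card = 2 :=
  card_pair fun h => fin3_add_one_ne_add_two i (hτ h)

lemma powersetCard_two_T {τ : Fin 3 → Fin n} (hτ : Function.Injective τ) :
    (T τ).powersetCard 2 = univ.image (pairU τ) := by
  ext b
  rw [mem_powersetCard, mem_image]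
  constructor
  · rintro ⟨hb, hc⟩
    have h1 : (T τ \ b).card = 1 := by
      rw [card_sdiff_of_subset hb, card_T hτ, hc]
    obtain ⟨v, hv⟩ := card_eq_one.mp h1
    have hvm : v ∈ T τ \ b := by rw [hv]; exact mem_singleton_self v
    obtain ⟨hvT, hvb⟩ := mem_sdiff.mp hvm
    obtain ⟨i, rfl⟩ := mem_T.mp hvT
    refine ⟨i, mem_univ _, ?_⟩
    ext w
    constructor
    · intro hw
      by_contra hwb
      have : w ∈ T τ \ b := mem_sdiff.mpr ⟨pairU_subset τ i hw, hwb⟩
      rw [hv, mem_singleton] at this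
      rw [this] at hw
      exact tau_not_mem_pairU hτ i hw
    · intro hw
      rcases (mem_T_iff τ i).mp (hb hw) with rfl | h
      · exact absurd hw hvb
      · exact h
  · rintro ⟨i, -, rfl⟩
    exact ⟨pairU_subset τ i, card_pairU hτ i⟩

lemma sum_powersetCard_two_T {τ : Fin 3 → Fin n} (hτ : Function.Injective τ)
    (F : Finset (Fin n) → ℝ) : ∑ b ∈ (T τ).powersetCard 2, F b = ∑ i, F (pairU τ i) := by
  rw [powersetCard_two_T hτ, sum_image fun i _ j _ h => pairU_injective hτ h]

lemma exists_tau_of_card_three {S : Finset (Fin n)} (hS : S.card = 3) :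
    ∃ τ : Fin 3 → Fin n, Function.Injective τ ∧ S = T τ := by
  obtain ⟨a, b, c, hab, hac, hbc, rfl⟩ := card_eq_three.mp hS
  exact ⟨tau3 a b c, tau3_injective hab hac hbc, (T_tau3 a b c).symm⟩

/-! ### (G1) -/

/-- **(G1) from the abstract 3-box inequality.** -/
theorem G1_of_threeBoxSq (H : ThreeBoxSq) (d : Fin n → ℕ) : G1 d := by
  intro S hS f
  obtain ⟨τ, hτ, rfl⟩ := exists_tau_of_card_three (mem_powersetCard.mp hS).2
  set P := (T τ).powersetCard 2 with hP
  -- the (T) inequality in the `E` vocabulary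
  have hT : ∑ G ∈ realizations d, f G * ∑ b ∈ P, (f G - E d b f G)
      ≤ ∑ G ∈ realizations d, (∑ b ∈ P, (f G - E d b f G)) ^ 2 := by
    have h := triple_sq H hτ d f
    have e : ∀ G, ∑ b ∈ P, (f G - E d b f G) = ∑ i, (f G - avg d (pairU τ i) f G) := by
      intro G
      rw [hP, sum_powersetCard_two_T hτ]
      exact sum_congr rfl fun i _ => by rw [E_eq_avg]
    simpa only [e] using h
  -- Pythagoras for each pair
  have hpy' : ∑ b ∈ P, ∑ G ∈ realizations d, f G * (f G - E d b f G)
      = ∑ b ∈ P, ∑ G ∈ realizations d, (f G - E d b f G) ^ 2 :=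
    sum_congr rfl fun b _ => (sum_sq_sub_E d b f).symm
  -- expansion of the square
  have hsq : ∑ G ∈ realizations d, (∑ b ∈ P, (f G - E d b f G)) ^ 2
      = ∑ b ∈ P, ∑ G ∈ realizations d, (f G - E d b f G) ^ 2
        + ∑ b ∈ P, ∑ b' ∈ P.erase b, ∑ G ∈ realizations d,
            (f G - E d b f G) * (f G - E d b' f G) := by
    have e : ∀ G ∈ realizations d, (∑ b ∈ P, (f G - E d b f G)) ^ 2
        = ∑ b ∈ P, ∑ b' ∈ P, (f G - E d b f G) * (f G - E d b' f G) := by
      intro G _
      rw [sq, sum_mul_sum]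
    rw [sum_congr rfl e, sum_comm, ← sum_add_distrib]
    refine sum_congr rfl fun b hb => ?_
    rw [sum_comm, ← add_sum_erase P _ hb]
    congr 1
    exact sum_congr rfl fun G _ => (sq _).symm
  have hfa : ∑ G ∈ realizations d, f G * ∑ b ∈ P, (f G - E d b f G)
      = ∑ b ∈ P, ∑ G ∈ realizations d, f G * (f G - E d b f G) := by
    rw [sum_comm]
    exact sum_congr rfl fun G _ => mul_sum _ _ _
  rw [hfa, hpy', hsq] at hT
  linarith

end Crest.Agent.S0453R.TG
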