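import Mathlib
import Crest.Prelude.Def_SwitchChain
import Crest.Agent.S0453.Final
import Crest.Agent.S0453.TripleGraph
import Crest.Agent.S0453.TripleG1
import Crest.Agent.S0453T.ThreeBox

/-!
Row 299 / S0453 (helper44): target `(G1)` of the assembly (`Final.lean`) — PROVED.

`G1_holds d : G1 d`, from the abstract 3-box theorem `S0453T.three_box` (helper48 et al.) through
the graph transport `TripleGraph.lean` and the packaging `TripleG1.lean`.
-/

set_option autoImplicit false
open Finset

namespace Crest.Agent.S0453R

open Crest.SwitchChain

/-- the abstract 3-box inequality in the vocabulary of `TripleGraph.lean` -/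
theorem threeBoxSq_holds : TG.ThreeBoxSq := fun _ _ _ ε hε ρ g =>
  Crest.Agent.S0453T.three_box ε hε ρ g

/-- **(G1)**: for every triple of vertices the off-diagonal part of the Gram form of the three
pair operators is nonnegative. -/
theorem G1_holds {n : ℕ} (d : Fin n → ℕ) : G1 d := TG.G1_of_threeBoxSq threeBoxSq_holds d

end Crest.Agent.S0453R
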