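/-
Row 299 (S0453), module (T-abs) / stage 2, numeric half (helper25).

Hypergeometric-type stochastic monotonicity and the resulting Lipschitz contraction
for the "count chain" of the abstract 3-box lemma (helper69's proof, board post 929).

Setting: box `a` is fixed with `u_a = u` resp. `u_a = u+1`.  At level `u` there are `P+1` free
plus columns and `M+1` free minus columns, at level `u+1` there are `P` and `M`.  With `r = ρ_b`,
the number of states in the `X_a`-fibre with `u_b = t` is `w P M r t = C(P,t) * C(M,t-r)`, and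
`u_c = (number of free plus columns) - t`.

Main results:
* `tail_le_of_mlr`  : monotone likelihood ratio (cross-multiplied) ⇒ tail domination;
* `coupling_bound`  : two interlacing tail families ⇒ Lipschitz bound for the difference of means;
* `mlr1`, `mlr2`    : the two likelihood-ratio monotonicities of the weights `w`;
* `tail_mono`, `tail_mono'` : `T_{u+1}(s) ≤ T_u(s) ≤ T_{u+1}(s-1)` (cross-multiplied);
* `stage2`          : `|E_{u+1}[ψ_b(u_b)+ψ_c(u_c)] - E_u[ψ_b(u_b)+ψ_c(u_c)]| ≤ N` for `N`-Lipschitz `ψ_b, ψ_c`.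

Mathlib only.
-/
import Mathlib

namespace Crest.Agent.S0453R.HyperMono

open Finset

/-! ### Abstract lemmas -/

/-- **Monotone likelihood ratio ⇒ tail domination** (everything cross-multiplied, no division):
if `a t' * b t ≤ b t' * a t` whenever `t' ≤ t`, then the tail of `b` (normalised) is dominated by
the tail of `a` (normalised). -/
theorem tail_le_of_mlr (a b : ℕ → ℝ)
    (h : ∀ t' t, t' ≤ t → a t' * b t ≤ b t' * a t) (s K : ℕ) :
    (∑ t ∈ range K, a t) * (∑ t ∈ Ico s K, b t)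
      ≤ (∑ t ∈ range K, b t) * (∑ t ∈ Ico s K, a t) := by
  rcases le_or_gt s K with hs | hs
  · have e1 : ∑ t ∈ range K, a t = ∑ t ∈ Ico 0 s, a t + ∑ t ∈ Ico s K, a t := by
      rw [range_eq_Ico, Finset.sum_Ico_consecutive _ (Nat.zero_le s) hs]
    have e2 : ∑ t ∈ range K, b t = ∑ t ∈ Ico 0 s, b t + ∑ t ∈ Ico s K, b t := by
      rw [range_eq_Ico, Finset.sum_Ico_consecutive _ (Nat.zero_le s) hs]
    have key : (∑ t ∈ Ico 0 s, a t) * (∑ t ∈ Ico s K, b t)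
        ≤ (∑ t ∈ Ico 0 s, b t) * (∑ t ∈ Ico s K, a t) := by
      rw [Finset.sum_mul_sum, Finset.sum_mul_sum]
      apply Finset.sum_le_sum; intro i hi
      apply Finset.sum_le_sum; intro j hj
      apply h
      have h1 := (Finset.mem_Ico.mp hi).2
      have h2 := (Finset.mem_Ico.mp hj).1
      omega
    rw [e1, e2]; nlinarith [key]
  · rw [Finset.Ico_eq_empty (by omega)]; simp

/-- **Coupling / Abel summation bound.**  `Sa`, `Sb` are the (unnormalised) tail functions of two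
weight sequences `a t = Sa t - Sa (t+1)`, `b t = Sb t - Sb (t+1)` on `range K`; if the normalised
tails interlace, `T_b(t+1) ≤ T_a(t+1) ≤ T_b(t)`, then `a`-mean of `F₁` and `b`-mean of `F₀` differ by
at most `N` as soon as `|F₁ t - F₀ t| ≤ N` and `|F₁ (t+1) - F₀ t| ≤ N`. -/
theorem coupling_bound (Sa Sb F₁ F₀ : ℕ → ℝ) (K : ℕ) (N : ℝ)
    (hSaK : Sa K = 0) (hSbK : Sb K = 0)
    (hc : ∀ t < K, Sa 0 * Sb (t + 1) ≤ Sb 0 * Sa (t + 1))
    (hd : ∀ t < K, Sb 0 * Sa (t + 1) ≤ Sa 0 * Sb t)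
    (hF1 : ∀ t < K, |F₁ t - F₀ t| ≤ N) (hF2 : ∀ t < K, |F₁ (t + 1) - F₀ t| ≤ N) :
    |Sb 0 * ∑ t ∈ range K, (Sa t - Sa (t + 1)) * F₁ t
        - Sa 0 * ∑ t ∈ range K, (Sb t - Sb (t + 1)) * F₀ t| ≤ N * (Sa 0 * Sb 0) := by
  -- the coupling masses
  set c : ℕ → ℝ := fun t => Sb 0 * Sa (t + 1) - Sa 0 * Sb (t + 1) with hcdef
  set d : ℕ → ℝ := fun t => Sa 0 * Sb t - Sb 0 * Sa (t + 1) with hddef
  have hident : Sb 0 * ∑ t ∈ range K, (Sa t - Sa (t + 1)) * F₁ t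
        - Sa 0 * ∑ t ∈ range K, (Sb t - Sb (t + 1)) * F₀ t
      = ∑ t ∈ range K, (d t * (F₁ t - F₀ t) + c t * (F₁ (t + 1) - F₀ t)) := by
    have htel := Finset.sum_range_sub (fun t => Sa 0 * Sb t * F₁ t - Sb 0 * Sa t * F₁ t) K
    simp only [hSaK, hSbK] at htel
    rw [Finset.mul_sum, Finset.mul_sum, ← Finset.sum_sub_distrib]
    have : ∑ t ∈ range K, (d t * (F₁ t - F₀ t) + c t * (F₁ (t + 1) - F₀ t))
        = ∑ t ∈ range K, (Sb 0 * ((Sa t - Sa (t + 1)) * F₁ t)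
            - Sa 0 * ((Sb t - Sb (t + 1)) * F₀ t))
          - ∑ t ∈ range K, ((Sa 0 * Sb (t + 1) * F₁ (t + 1) - Sb 0 * Sa (t + 1) * F₁ (t + 1))
            - (Sa 0 * Sb t * F₁ t - Sb 0 * Sa t * F₁ t)) := by
      rw [← Finset.sum_sub_distrib]
      apply Finset.sum_congr rfl
      intro t _
      simp only [hcdef, hddef]
      ring
    rw [this, htel]
    ring
  rw [hident]
  have hsum : ∑ t ∈ range K, (d t + c t) = Sa 0 * Sb 0 := by
    have htel := Finset.sum_range_sub (fun t => Sa 0 * Sb t) K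
    simp only [hSbK] at htel
    have : ∑ t ∈ range K, (d t + c t) = - ∑ t ∈ range K, (Sa 0 * Sb (t + 1) - Sa 0 * Sb t) := by
      rw [← Finset.sum_neg_distrib]
      apply Finset.sum_congr rfl
      intro t _
      simp only [hcdef, hddef]
      ring
    rw [this, htel]; ring
  calc |∑ t ∈ range K, (d t * (F₁ t - F₀ t) + c t * (F₁ (t + 1) - F₀ t))|
      ≤ ∑ t ∈ range K, |d t * (F₁ t - F₀ t) + c t * (F₁ (t + 1) - F₀ t)| :=
        Finset.abs_sum_le_sum_abs _ _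
    _ ≤ ∑ t ∈ range K, N * (d t + c t) := by
        apply Finset.sum_le_sum
        intro t ht
        have htK : t < K := Finset.mem_range.mp ht
        have hc0 : 0 ≤ c t := by have := hc t htK; simp only [hcdef]; linarith
        have hd0 : 0 ≤ d t := by have := hd t htK; simp only [hddef]; linarith
        have h1 := hF1 t htK
        have h2 := hF2 t htK
        calc |d t * (F₁ t - F₀ t) + c t * (F₁ (t + 1) - F₀ t)|
            ≤ |d t * (F₁ t - F₀ t)| + |c t * (F₁ (t + 1) - F₀ t)| := abs_add_le _ _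
          _ = d t * |F₁ t - F₀ t| + c t * |F₁ (t + 1) - F₀ t| := by
              rw [abs_mul, abs_mul, abs_of_nonneg hc0, abs_of_nonneg hd0]
          _ ≤ d t * N + c t * N := by
              have := mul_le_mul_of_nonneg_left h1 hd0
              have := mul_le_mul_of_nonneg_left h2 hc0
              linarith
          _ = N * (d t + c t) := by ring
    _ = N * (Sa 0 * Sb 0) := by rw [← Finset.mul_sum, hsum]

/-! ### The hypergeometric-type weights -/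

/-- `w P M r t = C(P,t) * C(M,t-r)` (and `0` if `t < r`): the number of ways to choose `t` of `P`
plus columns and `t - r` of `M` minus columns. -/
noncomputable def w (P M : ℕ) (r : ℤ) (t : ℕ) : ℝ :=
  if r ≤ (t : ℤ) then (P.choose t : ℝ) * (M.choose ((t : ℤ) - r).toNat : ℝ) else 0

theorem w_nonneg (P M : ℕ) (r : ℤ) (t : ℕ) : 0 ≤ w P M r t := by
  unfold w; split_ifs <;> positivity

theorem w_eq_zero_of_lt {P : ℕ} (M : ℕ) (r : ℤ) {t : ℕ} (h : P < t) : w P M r t = 0 := by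
  unfold w; split_ifs
  · rw [Nat.choose_eq_zero_of_lt h]; simp
  · rfl

/-- ratio identity 1: `(P+1)(M+1) w_{P,M}(t) = w_{P+1,M+1}(t) * (P+1-t) * (M+1-(t-r))`. -/
theorem w_ratio1 (P M : ℕ) (r : ℤ) (t : ℕ) :
    ((P + 1 : ℕ) : ℝ) * ((M + 1 : ℕ) : ℝ) * w P M r t
      = w (P + 1) (M + 1) r t
        * ((((P + 1 - t : ℕ) : ℝ)) * ((M + 1 - ((t : ℤ) - r).toNat : ℕ) : ℝ)) := by
  unfold w
  split_ifs with h
  · have h1 := Nat.choose_mul_succ_eq P t
    have h2 := Nat.choose_mul_succ_eq M ((t : ℤ) - r).toNat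
    have h1' : (P.choose t : ℝ) * ((P + 1 : ℕ) : ℝ)
        = ((P + 1).choose t : ℝ) * ((P + 1 - t : ℕ) : ℝ) := by exact_mod_cast h1
    have h2' : (M.choose ((t : ℤ) - r).toNat : ℝ) * ((M + 1 : ℕ) : ℝ)
        = ((M + 1).choose ((t : ℤ) - r).toNat : ℝ) * ((M + 1 - ((t : ℤ) - r).toNat : ℕ) : ℝ) := by
      exact_mod_cast h2
    calc ((P + 1 : ℕ) : ℝ) * ((M + 1 : ℕ) : ℝ) * ((P.choose t : ℝ) * (M.choose ((t : ℤ) - r).toNat : ℝ))
        = ((P.choose t : ℝ) * ((P + 1 : ℕ) : ℝ))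
            * ((M.choose ((t : ℤ) - r).toNat : ℝ) * ((M + 1 : ℕ) : ℝ)) := by ring
      _ = _ := by rw [h1', h2']; ring
  · simp

/-- ratio identity 2: `(P+1)(M+1) w_{P,M}(k) = w_{P+1,M+1}(k+1) * (k+1) * (k+1-r)`. -/
theorem w_ratio2 (P M : ℕ) (r : ℤ) (k : ℕ) :
    ((P + 1 : ℕ) : ℝ) * ((M + 1 : ℕ) : ℝ) * w P M r k
      = w (P + 1) (M + 1) r (k + 1)
        * ((((k + 1 : ℕ) : ℝ)) * (((((k + 1 : ℕ) : ℤ) - r).toNat : ℕ) : ℝ)) := by
  unfold w
  by_cases h : r ≤ (k : ℤ)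
  · have h' : r ≤ ((k + 1 : ℕ) : ℤ) := by push_cast; omega
    rw [if_pos h, if_pos h']
    obtain ⟨j, hj⟩ : ∃ j : ℕ, ((k : ℤ) - r).toNat = j := ⟨_, rfl⟩
    have hj' : ((((k + 1 : ℕ) : ℤ)) - r).toNat = j + 1 := by push_cast; omega
    rw [hj, hj']
    have h1 := Nat.add_one_mul_choose_eq P k
    have h2 := Nat.add_one_mul_choose_eq M j
    have h1' : ((P + 1 : ℕ) : ℝ) * (P.choose k : ℝ)
        = ((P + 1).choose (k + 1) : ℝ) * ((k + 1 : ℕ) : ℝ) := by exact_mod_cast h1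
    have h2' : ((M + 1 : ℕ) : ℝ) * (M.choose j : ℝ)
        = ((M + 1).choose (j + 1) : ℝ) * ((j + 1 : ℕ) : ℝ) := by exact_mod_cast h2
    calc ((P + 1 : ℕ) : ℝ) * ((M + 1 : ℕ) : ℝ) * ((P.choose k : ℝ) * (M.choose j : ℝ))
        = (((P + 1 : ℕ) : ℝ) * (P.choose k : ℝ)) * (((M + 1 : ℕ) : ℝ) * (M.choose j : ℝ)) := by ring
      _ = _ := by rw [h1', h2']; ring
  · rw [if_neg h]
    by_cases h' : r ≤ ((k + 1 : ℕ) : ℤ)
    · have : ((((k + 1 : ℕ) : ℤ)) - r).toNat = 0 := by push_cast at h' ⊢; omega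
      rw [this]; simp
    · rw [if_neg h']; simp

/-- **MLR 1**: the likelihood ratio `w_{P,M}(t) / w_{P+1,M+1}(t)` is decreasing in `t`. -/
theorem mlr1 (P M : ℕ) (r : ℤ) (t' t : ℕ) (h : t' ≤ t) :
    w (P + 1) (M + 1) r t' * w P M r t ≤ w P M r t' * w (P + 1) (M + 1) r t := by
  have hc : (0 : ℝ) < ((P + 1 : ℕ) : ℝ) * ((M + 1 : ℕ) : ℝ) := by positivity
  have e1 := w_ratio1 P M r t
  have e2 := w_ratio1 P M r t'
  have hmono : (((P + 1 - t : ℕ) : ℝ)) * ((M + 1 - ((t : ℤ) - r).toNat : ℕ) : ℝ)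
      ≤ (((P + 1 - t' : ℕ) : ℝ)) * ((M + 1 - ((t' : ℤ) - r).toNat : ℕ) : ℝ) := by
    have h1 : P + 1 - t ≤ P + 1 - t' := by omega
    have h2 : M + 1 - ((t : ℤ) - r).toNat ≤ M + 1 - ((t' : ℤ) - r).toNat := by omega
    have h1' : ((P + 1 - t : ℕ) : ℝ) ≤ ((P + 1 - t' : ℕ) : ℝ) := by exact_mod_cast h1
    have h2' : ((M + 1 - ((t : ℤ) - r).toNat : ℕ) : ℝ) ≤ ((M + 1 - ((t' : ℤ) - r).toNat : ℕ) : ℝ) := by
      exact_mod_cast h2
    exact mul_le_mul h1' h2' (by positivity) (by positivity)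
  have hw1 := w_nonneg (P + 1) (M + 1) r t'
  have hw2 := w_nonneg (P + 1) (M + 1) r t
  refine le_of_mul_le_mul_left ?_ hc
  calc ((P + 1 : ℕ) : ℝ) * ((M + 1 : ℕ) : ℝ) * (w (P + 1) (M + 1) r t' * w P M r t)
      = w (P + 1) (M + 1) r t' * (((P + 1 : ℕ) : ℝ) * ((M + 1 : ℕ) : ℝ) * w P M r t) := by ring
    _ = (w (P + 1) (M + 1) r t' * w (P + 1) (M + 1) r t)
          * ((((P + 1 - t : ℕ) : ℝ)) * ((M + 1 - ((t : ℤ) - r).toNat : ℕ) : ℝ)) := by
        rw [e1]; ring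
    _ ≤ (w (P + 1) (M + 1) r t' * w (P + 1) (M + 1) r t)
          * ((((P + 1 - t' : ℕ) : ℝ)) * ((M + 1 - ((t' : ℤ) - r).toNat : ℕ) : ℝ)) :=
        mul_le_mul_of_nonneg_left hmono (mul_nonneg hw1 hw2)
    _ = (((P + 1 : ℕ) : ℝ) * ((M + 1 : ℕ) : ℝ) * w P M r t') * w (P + 1) (M + 1) r t := by
        rw [e2]; ring
    _ = ((P + 1 : ℕ) : ℝ) * ((M + 1 : ℕ) : ℝ) * (w P M r t' * w (P + 1) (M + 1) r t) := by ring

/-- **MLR 2**: the likelihood ratio `w_{P+1,M+1}(k+1) / w_{P,M}(k)` is decreasing in `k`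
(i.e. `w_{P,M}(k) / w_{P+1,M+1}(k+1)` is increasing). -/
theorem mlr2 (P M : ℕ) (r : ℤ) (k' k : ℕ) (h : k' ≤ k) :
    w P M r k' * w (P + 1) (M + 1) r (k + 1) ≤ w (P + 1) (M + 1) r (k' + 1) * w P M r k := by
  have hc : (0 : ℝ) < ((P + 1 : ℕ) : ℝ) * ((M + 1 : ℕ) : ℝ) := by positivity
  have e1 := w_ratio2 P M r k
  have e2 := w_ratio2 P M r k'
  have hmono : (((k' + 1 : ℕ) : ℝ)) * (((((k' + 1 : ℕ) : ℤ) - r).toNat : ℕ) : ℝ)
      ≤ (((k + 1 : ℕ) : ℝ)) * (((((k + 1 : ℕ) : ℤ) - r).toNat : ℕ) : ℝ) := by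
    have h1 : k' + 1 ≤ k + 1 := by omega
    have h2 : ((((k' + 1 : ℕ) : ℤ)) - r).toNat ≤ ((((k + 1 : ℕ) : ℤ)) - r).toNat := by
      push_cast; omega
    have h1' : ((k' + 1 : ℕ) : ℝ) ≤ ((k + 1 : ℕ) : ℝ) := by exact_mod_cast h1
    have h2' : (((((k' + 1 : ℕ) : ℤ) - r).toNat : ℕ) : ℝ) ≤ (((((k + 1 : ℕ) : ℤ) - r).toNat : ℕ) : ℝ) := by
      exact_mod_cast h2
    exact mul_le_mul h1' h2' (by positivity) (by positivity)
  have hw1 := w_nonneg (P + 1) (M + 1) r (k' + 1)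
  have hw2 := w_nonneg (P + 1) (M + 1) r (k + 1)
  refine le_of_mul_le_mul_left ?_ hc
  calc ((P + 1 : ℕ) : ℝ) * ((M + 1 : ℕ) : ℝ) * (w P M r k' * w (P + 1) (M + 1) r (k + 1))
      = (((P + 1 : ℕ) : ℝ) * ((M + 1 : ℕ) : ℝ) * w P M r k') * w (P + 1) (M + 1) r (k + 1) := by ring
    _ = (w (P + 1) (M + 1) r (k' + 1) * w (P + 1) (M + 1) r (k + 1))
          * ((((k' + 1 : ℕ) : ℝ)) * (((((k' + 1 : ℕ) : ℤ) - r).toNat : ℕ) : ℝ)) := by
        rw [e2]; ring
    _ ≤ (w (P + 1) (M + 1) r (k' + 1) * w (P + 1) (M + 1) r (k + 1))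
          * ((((k + 1 : ℕ) : ℝ)) * (((((k + 1 : ℕ) : ℤ) - r).toNat : ℕ) : ℝ)) :=
        mul_le_mul_of_nonneg_left hmono (mul_nonneg hw1 hw2)
    _ = w (P + 1) (M + 1) r (k' + 1) * (((P + 1 : ℕ) : ℝ) * ((M + 1 : ℕ) : ℝ) * w P M r k) := by
        rw [e1]; ring
    _ = ((P + 1 : ℕ) : ℝ) * ((M + 1 : ℕ) : ℝ) * (w (P + 1) (M + 1) r (k' + 1) * w P M r k) := by ring

/-! ### Tail interlacing `T_{u+1}(s) ≤ T_u(s) ≤ T_{u+1}(s-1)` -/

/-- `T_{u+1}(s) ≤ T_u(s)`, cross-multiplied; level `u` has weights `w (P+1) (M+1) r`,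
level `u+1` has weights `w P M r`.  Valid for every cut-off `K`. -/
theorem tail_mono (P M : ℕ) (r : ℤ) (s K : ℕ) :
    (∑ t ∈ range K, w (P + 1) (M + 1) r t) * (∑ t ∈ Ico s K, w P M r t)
      ≤ (∑ t ∈ range K, w P M r t) * (∑ t ∈ Ico s K, w (P + 1) (M + 1) r t) :=
  tail_le_of_mlr (fun t => w (P + 1) (M + 1) r t) (fun t => w P M r t)
    (fun t' t h => mlr1 P M r t' t h) s K

/-- `T_u(s+1) ≤ T_{u+1}(s)`, cross-multiplied, with cut-off `P+2` (all weights vanish beyond). -/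
theorem tail_mono' (P M : ℕ) (r : ℤ) (s : ℕ) :
    (∑ t ∈ range (P + 2), w P M r t) * (∑ t ∈ Ico (s + 1) (P + 2), w (P + 1) (M + 1) r t)
      ≤ (∑ t ∈ range (P + 2), w (P + 1) (M + 1) r t) * (∑ t ∈ Ico s (P + 2), w P M r t) := by
  have key := tail_le_of_mlr (fun k => w P M r k) (fun k => w (P + 1) (M + 1) r (k + 1))
    (fun k' k h => mlr2 P M r k' k h) s (P + 1)
  have hz : w P M r (P + 1) = 0 := w_eq_zero_of_lt M r (Nat.lt_succ_self P)
  have e1 : ∑ t ∈ range (P + 2), w P M r t = ∑ t ∈ range (P + 1), w P M r t := by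
    rw [Finset.sum_range_succ, hz, add_zero]
  have e2 : ∑ k ∈ Ico s (P + 1), w (P + 1) (M + 1) r (k + 1)
      = ∑ t ∈ Ico (s + 1) (P + 2), w (P + 1) (M + 1) r t :=
    Finset.sum_Ico_add' (fun t => w (P + 1) (M + 1) r t) s (P + 1) 1
  have e3 : ∑ k ∈ range (P + 1), w (P + 1) (M + 1) r (k + 1)
      ≤ ∑ t ∈ range (P + 2), w (P + 1) (M + 1) r t := by
    rw [Finset.sum_range_succ' (fun t => w (P + 1) (M + 1) r t) (P + 1)]
    have := w_nonneg (P + 1) (M + 1) r 0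
    linarith
  have e4 : ∑ t ∈ Ico s (P + 2), w P M r t = ∑ t ∈ Ico s (P + 1), w P M r t := by
    rcases le_or_gt s (P + 1) with hs | hs
    · rw [Finset.sum_Ico_succ_top hs, hz, add_zero]
    · rw [Finset.Ico_eq_empty (by omega), Finset.Ico_eq_empty (by omega)]
  have hnn : 0 ≤ ∑ t ∈ Ico s (P + 1), w P M r t :=
    Finset.sum_nonneg (fun t _ => w_nonneg P M r t)
  rw [e1, e4, ← e2]
  calc (∑ t ∈ range (P + 1), w P M r t) * (∑ k ∈ Ico s (P + 1), w (P + 1) (M + 1) r (k + 1))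
      ≤ (∑ k ∈ range (P + 1), w (P + 1) (M + 1) r (k + 1)) * (∑ t ∈ Ico s (P + 1), w P M r t) := key
    _ ≤ (∑ t ∈ range (P + 2), w (P + 1) (M + 1) r t) * (∑ t ∈ Ico s (P + 1), w P M r t) :=
        mul_le_mul_of_nonneg_right e3 hnn

/-! ### Stage 2 contraction -/

/-- cross-multiplied form of `stage2` (no positivity hypotheses needed). -/
theorem stage2_cross (P M : ℕ) (r : ℤ) (ψb ψc : ℕ → ℝ) (N : ℝ)
    (hb : ∀ s, |ψb (s + 1) - ψb s| ≤ N) (hc : ∀ s, |ψc (s + 1) - ψc s| ≤ N) :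
    |(∑ t ∈ range (P + 1), w P M r t)
          * (∑ t ∈ range (P + 2), w (P + 1) (M + 1) r t * (ψb t + ψc (P + 1 - t)))
        - (∑ t ∈ range (P + 2), w (P + 1) (M + 1) r t)
          * (∑ t ∈ range (P + 1), w P M r t * (ψb t + ψc (P - t)))|
      ≤ N * ((∑ t ∈ range (P + 2), w (P + 1) (M + 1) r t) * (∑ t ∈ range (P + 1), w P M r t)) := by
  have hN : 0 ≤ N := le_trans (abs_nonneg _) (hb 0)
  have hz : w P M r (P + 1) = 0 := w_eq_zero_of_lt M r (Nat.lt_succ_self P)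
  set Sa : ℕ → ℝ := fun s => ∑ t ∈ Ico s (P + 2), w (P + 1) (M + 1) r t with hSa
  set Sb : ℕ → ℝ := fun s => ∑ t ∈ Ico s (P + 2), w P M r t with hSb
  have hSa0 : Sa 0 = ∑ t ∈ range (P + 2), w (P + 1) (M + 1) r t := by
    simp only [hSa, range_eq_Ico]
  have hSb0' : Sb 0 = ∑ t ∈ range (P + 2), w P M r t := by
    simp only [hSb, range_eq_Ico]
  have hSb0 : Sb 0 = ∑ t ∈ range (P + 1), w P M r t := by
    rw [hSb0', Finset.sum_range_succ, hz, add_zero]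
  have hdiffa : ∀ t < P + 2, Sa t - Sa (t + 1) = w (P + 1) (M + 1) r t := by
    intro t ht
    simp only [hSa]
    rw [Finset.sum_eq_sum_Ico_succ_bot ht]; ring
  have hdiffb : ∀ t < P + 2, Sb t - Sb (t + 1) = w P M r t := by
    intro t ht
    simp only [hSb]
    rw [Finset.sum_eq_sum_Ico_succ_bot ht]; ring
  have main := coupling_bound Sa Sb (fun t => ψb t + ψc (P + 1 - t)) (fun t => ψb t + ψc (P - t))
    (P + 2) N (by simp [hSa]) (by simp [hSb])
    (by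
      intro t _
      have := tail_mono P M r (t + 1) (P + 2)
      rw [hSa0, hSb0']
      exact this)
    (by
      intro t _
      have := tail_mono' P M r t
      rw [hSa0, hSb0']
      exact this)
    (by
      intro t _
      rcases le_or_gt t P with h | h
      · have e : P + 1 - t = (P - t) + 1 := by omega
        have := hc (P - t)
        simp only [e]
        have e2 : ψb t + ψc (P - t + 1) - (ψb t + ψc (P - t)) = ψc (P - t + 1) - ψc (P - t) := by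
          ring
        rw [e2]; exact this
      · have e : P + 1 - t = 0 := by omega
        have e' : P - t = 0 := by omega
        simp only [e, e']
        simpa using hN)
    (by
      intro t _
      have e : P + 1 - (t + 1) = P - t := by omega
      simp only [e]
      have e2 : ψb (t + 1) + ψc (P - t) - (ψb t + ψc (P - t)) = ψb (t + 1) - ψb t := by ring
      rw [e2]; exact hb t)
  have eA : ∑ t ∈ range (P + 2), (Sa t - Sa (t + 1)) * (ψb t + ψc (P + 1 - t))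
      = ∑ t ∈ range (P + 2), w (P + 1) (M + 1) r t * (ψb t + ψc (P + 1 - t)) := by
    apply Finset.sum_congr rfl
    intro t ht
    rw [hdiffa t (Finset.mem_range.mp ht)]
  have eB : ∑ t ∈ range (P + 2), (Sb t - Sb (t + 1)) * (ψb t + ψc (P - t))
      = ∑ t ∈ range (P + 1), w P M r t * (ψb t + ψc (P - t)) := by
    have : ∑ t ∈ range (P + 2), (Sb t - Sb (t + 1)) * (ψb t + ψc (P - t))
        = ∑ t ∈ range (P + 2), w P M r t * (ψb t + ψc (P - t)) := by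
      apply Finset.sum_congr rfl
      intro t ht
      rw [hdiffb t (Finset.mem_range.mp ht)]
    rw [this, Finset.sum_range_succ, hz, zero_mul, add_zero]
  rw [eA, eB, hSa0, hSb0] at main
  exact main

/-- **Stage 2 contraction** (helper69, post 929): if `ψ_b, ψ_c` are `N`-Lipschitz on `ℕ`, the
conditional mean of `ψ_b(u_b) + ψ_c(u_c)` given `u_a` changes by at most `N` when `u_a` goes from
`u` (weights `w (P+1) (M+1) r`, `u_c = P+1-u_b`) to `u+1` (weights `w P M r`, `u_c = P-u_b`). -/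
theorem stage2 (P M : ℕ) (r : ℤ) (ψb ψc : ℕ → ℝ) (N : ℝ)
    (hb : ∀ s, |ψb (s + 1) - ψb s| ≤ N) (hc : ∀ s, |ψc (s + 1) - ψc s| ≤ N)
    (hW : 0 < ∑ t ∈ range (P + 2), w (P + 1) (M + 1) r t)
    (hW' : 0 < ∑ t ∈ range (P + 1), w P M r t) :
    |(∑ t ∈ range (P + 1), w P M r t * (ψb t + ψc (P - t))) / (∑ t ∈ range (P + 1), w P M r t)
        - (∑ t ∈ range (P + 2), w (P + 1) (M + 1) r t * (ψb t + ψc (P + 1 - t)))
            / (∑ t ∈ range (P + 2), w (P + 1) (M + 1) r t)| ≤ N := by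
  have h := stage2_cross P M r ψb ψc N hb hc
  set Z₁ := ∑ t ∈ range (P + 2), w (P + 1) (M + 1) r t with hZ₁
  set Z₀ := ∑ t ∈ range (P + 1), w P M r t with hZ₀
  set A₁ := ∑ t ∈ range (P + 2), w (P + 1) (M + 1) r t * (ψb t + ψc (P + 1 - t)) with hA₁
  set A₀ := ∑ t ∈ range (P + 1), w P M r t * (ψb t + ψc (P - t)) with hA₀
  have hpos : 0 < Z₁ * Z₀ := mul_pos hW hW'
  have e : A₀ / Z₀ - A₁ / Z₁ = -(Z₀ * A₁ - Z₁ * A₀) / (Z₁ * Z₀) := by
    field_simp
    ring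
  rw [e, abs_div, abs_neg, abs_of_pos hpos, div_le_iff₀ hpos]
  exact h

end Crest.Agent.S0453R.HyperMono
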