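import Mathlib
import Crest.Prelude.Def_SwitchChain
import Crest.Agent.S0453.PairClass
import Crest.Agent.S0453.CoupleDefs

/-!
Row 299 / S0453 (helper26): dictionary between helper12's couple definitions (`cross`, `Ms`,
`flip`, `CoupleDefs.lean`) and the pair-class parametrisation of `PairClass.lean`, for the
module [J-GRAPH] (helper47, board post 1141).

* `H26.adj_symmDiff_cross` : adjacency after toggling the block of a couple;
* `H26.bdeg_eq`            : block degree of `x ∈ b` = number of neighbours of `x` in `b'`;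
* `H26.Ms_priv`            : on `Ms {a,a'} b' G` every vertex of `b'` is private;
* `Ms_iff_slice` (N1)      : `Ms {a,a'} b' G ↔ b' ⊆ priv ∧ |b' ∩ sideA G| = 1`;
* `flip_eq_resplit` (N2)   : `flip {a,a'} b' G = resplit a a' G0 (sideA G ∆ b')`.
-/

set_option autoImplicit false
open Finset

namespace Crest.Agent.S0453R.JDict

open Crest.SwitchChain Crest.Agent.S0453R

variable {n : ℕ}

namespace H26

lemma exists_mem_pair {b : Finset (Fin n)} {x y : Fin n} :
    (∃ u ∈ b, u = x ∨ u = y) ↔ x ∈ b ∨ y ∈ b := by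
  constructor
  · rintro ⟨u, hu, rfl | rfl⟩
    · exact Or.inl hu
    · exact Or.inr hu
  · rintro (h | h)
    · exact ⟨x, h, Or.inl rfl⟩
    · exact ⟨y, h, Or.inr rfl⟩

/-- membership of the slot `xy` in the block of the couple `(b, b')` -/
lemma mkE_mem_cross {b b' : Finset (Fin n)} {x y : Fin n} (h : x ≠ y) :
    mkE x y h ∈ cross b b' ↔ (x ∈ b ∨ y ∈ b) ∧ (x ∈ b' ∨ y ∈ b') := by
  rw [mem_cross]
  simp only [mem_mkE]
  rw [exists_mem_pair, exists_mem_pair]

/-- adjacency after toggling the block -/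
lemma adj_symmDiff_cross (G : Finset (Edge n)) (b b' : Finset (Fin n)) (x y : Fin n) :
    PC.adj (symmDiff G (cross b b')) x y ↔
      (PC.adj G x y ↔ ¬ (x ≠ y ∧ (x ∈ b ∨ y ∈ b) ∧ (x ∈ b' ∨ y ∈ b'))) := by
  by_cases hxy : x = y
  · subst hxy
    simp [PC.adj_irrefl]
  · rw [PC.adj_iff_mkE hxy, PC.adj_iff_mkE hxy, mem_symmDiff, mkE_mem_cross]
    simp only [ne_eq, hxy, not_false_eq_true, true_and]
    tauto

/-- block degree of a vertex of `b` = number of its neighbours in `b'` -/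
lemma bdeg_eq {b b' : Finset (Fin n)} (hd : Disjoint b b') (G : Finset (Edge n)) {x : Fin n}
    (hx : x ∈ b) :
    ((G ∩ cross b b').filter fun e => x ∈ e.1).card
      = (b'.filter fun y => PC.adj G x y).card := by
  symm
  refine card_bij (fun y hy => mkE x y (PC.adj_ne (mem_filter.mp hy).2)) ?_ ?_ ?_
  · intro y hy
    have hy' := mem_filter.mp hy
    rw [mem_filter, mem_inter, ← PC.adj_iff_mkE, mkE_mem_cross]
    exact ⟨⟨hy'.2, Or.inl hx, Or.inr hy'.1⟩, by simp⟩
  · intro y hy y' hy' h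
    rw [mkE_eq_iff] at h
    rcases h with ⟨-, h⟩ | ⟨-, h2⟩
    · exact h
    · exact absurd h2.symm (PC.adj_ne (mem_filter.mp hy).2)
  · intro e he
    rw [mem_filter, mem_inter, mem_cross] at he
    obtain ⟨⟨heG, -, ⟨v, hv, hve⟩⟩, hxe⟩ := he
    obtain ⟨z, hz⟩ := Sym2.mem_iff_exists.mp hxe
    have hvz : v = z := by
      rw [hz, Sym2.mem_iff] at hve
      rcases hve with rfl | rfl
      · exact absurd hv (disjoint_left.mp hd hx)
      · rfl
    refine ⟨z, mem_filter.mpr ⟨hvz ▸ hv, ⟨e, heG, hz⟩⟩, ?_⟩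
    exact Subtype.ext hz.symm

lemma card_filter_pair {a a' : Fin n} (h : a ≠ a') (p : Fin n → Prop) [DecidablePred p] :
    (({a, a'} : Finset (Fin n)).filter p).card
      = (if p a then 1 else 0) + (if p a' then 1 else 0) := by
  rw [filter_insert, filter_singleton]
  split_ifs <;> simp [h]

/-- block degree of `y ∈ b'` in the couple `({a,a'}, b')` -/
lemma bdeg_right {a a' : Fin n} (haa : a ≠ a') {b' : Finset (Fin n)}
    (hd : Disjoint ({a, a'} : Finset (Fin n)) b') (G : Finset (Edge n)) {y : Fin n}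
    (hy : y ∈ b') :
    ((G ∩ cross {a, a'} b').filter fun e => y ∈ e.1).card
      = (if PC.adj G a y then 1 else 0) + (if PC.adj G a' y then 1 else 0) := by
  rw [cross_comm, bdeg_eq hd.symm G hy, card_filter_pair haa]
  rw [if_congr (PC.adj_comm (G := G) (x := y) (y := a)) rfl rfl,
    if_congr (PC.adj_comm (G := G) (x := y) (y := a')) rfl rfl]

/-- on `Ms` every vertex of `b'` is a private neighbour of the pair `{a, a'}` -/
lemma Ms_priv {a a' : Fin n} (haa : a ≠ a') {b' : Finset (Fin n)}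
    (hd : Disjoint ({a, a'} : Finset (Fin n)) b') {G : Finset (Edge n)}
    (hMs : Ms {a, a'} b' G) {y : Fin n} (hy : y ∈ b') : y ∈ PC.priv a a' G := by
  have h1 := hMs y (mem_union_right _ hy)
  rw [bdeg_right haa hd G hy] at h1
  have hya : y ≠ a := fun h => disjoint_left.mp hd (by simp) (h ▸ hy)
  have hya' : y ≠ a' := fun h => disjoint_left.mp hd (by simp) (h ▸ hy)
  rw [PC.mem_priv]
  refine ⟨hya, hya', ?_⟩
  by_cases h2 : PC.adj G a y <;> by_cases h3 : PC.adj G a' y <;> simp [h2, h3] at h1 ⊢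

end H26

/-- **(N2)** on `Ms`, the switch of the couple `({a,a'}, b')` is the Johnson move `A ↦ A ∆ b'`
of the pair class. -/
theorem flip_eq_resplit {d : Fin n → ℕ} {a a' : Fin n} (haa : a ≠ a')
    {G0 G : Finset (Edge n)} (hG0 : G0 ∈ realizations d) (hG : G ∈ PC.cls d a a' G0)
    {b' : Finset (Fin n)} (hd : Disjoint ({a, a'} : Finset (Fin n)) b')
    (hMs : Ms {a, a'} b' G) :
    flip {a, a'} b' G = PC.resplit a a' G0 (symmDiff (PC.sideA a a' G) b') := by
  have hp := PC.cls_priv_eq haa hG0 hG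
  have hbD : ∀ y ∈ b', y ∈ PC.priv a a' G0 := fun y hy => hp ▸ H26.Ms_priv haa hd hMs hy
  have ha_b' : a ∉ b' := disjoint_left.mp hd (by simp)
  have ha'_b' : a' ∉ b' := disjoint_left.mp hd (by simp)
  have hGr : ∀ x y, PC.adj G x y ↔ PC.adj (PC.resplit a a' G0 (PC.sideA a a' G)) x y :=
    fun x y => by rw [PC.resplit_sideA haa hG0 hG]
  have hsym : ∀ u v : Fin n,
      (u ≠ v ∧ (u ∈ ({a, a'} : Finset (Fin n)) ∨ v ∈ ({a, a'} : Finset (Fin n))) ∧
        (u ∈ b' ∨ v ∈ b')) ↔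
      (v ≠ u ∧ (v ∈ ({a, a'} : Finset (Fin n)) ∨ u ∈ ({a, a'} : Finset (Fin n))) ∧
        (v ∈ b' ∨ u ∈ b')) := fun u v => by
    constructor <;> rintro ⟨h1, h2, h3⟩ <;> exact ⟨h1.symm, h2.symm, h3.symm⟩
  -- neighbours of `a`
  have key_a : ∀ y, (PC.adj (PC.resplit a a' G0 (PC.sideA a a' G)) a y ↔
        ¬ (a ≠ y ∧ (a ∈ ({a, a'} : Finset (Fin n)) ∨ y ∈ ({a, a'} : Finset (Fin n))) ∧
          (a ∈ b' ∨ y ∈ b'))) ↔
      PC.adj (PC.resplit a a' G0 (symmDiff (PC.sideA a a' G) b')) a y := by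
    intro y
    rw [PC.adj_resplit_a haa, PC.adj_resplit_a haa]
    by_cases hy : y ∈ PC.priv a a' G0
    · rw [if_pos hy, if_pos hy, mem_symmDiff]
      have hya : a ≠ y := fun h => (PC.mem_priv.mp hy).1 h.symm
      have hc : (a ≠ y ∧ (a ∈ ({a, a'} : Finset (Fin n)) ∨ y ∈ ({a, a'} : Finset (Fin n))) ∧
          (a ∈ b' ∨ y ∈ b')) ↔ y ∈ b' := by
        constructor
        · rintro ⟨-, -, h | h⟩
          · exact absurd h ha_b'
          · exact h
        · intro h
          exact ⟨hya, Or.inl (by simp), Or.inr h⟩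
      rw [hc]
      tauto
    · rw [if_neg hy, if_neg hy]
      have hc : ¬ (a ≠ y ∧ (a ∈ ({a, a'} : Finset (Fin n)) ∨ y ∈ ({a, a'} : Finset (Fin n))) ∧
          (a ∈ b' ∨ y ∈ b')) := by
        rintro ⟨-, -, h | h⟩
        · exact ha_b' h
        · exact hy (hbD y h)
      simp only [hc, not_false_eq_true, iff_true]
  -- neighbours of `a'`
  have key_a' : ∀ y, (PC.adj (PC.resplit a a' G0 (PC.sideA a a' G)) a' y ↔
        ¬ (a' ≠ y ∧ (a' ∈ ({a, a'} : Finset (Fin n)) ∨ y ∈ ({a, a'} : Finset (Fin n))) ∧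
          (a' ∈ b' ∨ y ∈ b'))) ↔
      PC.adj (PC.resplit a a' G0 (symmDiff (PC.sideA a a' G) b')) a' y := by
    intro y
    rw [PC.adj_resplit_b haa, PC.adj_resplit_b haa]
    by_cases hy : y ∈ PC.priv a a' G0
    · rw [if_pos hy, if_pos hy, mem_symmDiff]
      have hya : a' ≠ y := fun h => (PC.mem_priv.mp hy).2.1 h.symm
      have hc : (a' ≠ y ∧ (a' ∈ ({a, a'} : Finset (Fin n)) ∨ y ∈ ({a, a'} : Finset (Fin n))) ∧
          (a' ∈ b' ∨ y ∈ b')) ↔ y ∈ b' := by
        constructor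
        · rintro ⟨-, -, h | h⟩
          · exact absurd h ha'_b'
          · exact h
        · intro h
          exact ⟨hya, Or.inl (by simp), Or.inr h⟩
      rw [hc]
      tauto
    · rw [if_neg hy, if_neg hy]
      have hc : ¬ (a' ≠ y ∧ (a' ∈ ({a, a'} : Finset (Fin n)) ∨ y ∈ ({a, a'} : Finset (Fin n))) ∧
          (a' ∈ b' ∨ y ∈ b')) := by
        rintro ⟨-, -, h | h⟩
        · exact ha'_b' h
        · exact hy (hbD y h)
      simp only [hc, not_false_eq_true, iff_true]
  rw [flip, if_pos hMs]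
  apply PC.ext_adj
  intro x y
  rw [H26.adj_symmDiff_cross, hGr x y]
  by_cases hxa : x = a
  · rw [hxa]; exact key_a y
  by_cases hxa' : x = a'
  · rw [hxa']; exact key_a' y
  by_cases hya : y = a
  · rw [hya, hsym x a, PC.adj_comm (G := PC.resplit a a' G0 (PC.sideA a a' G)),
      PC.adj_comm (G := PC.resplit a a' G0 (symmDiff (PC.sideA a a' G) b'))]
    exact key_a x
  by_cases hya' : y = a'
  · rw [hya', hsym x a', PC.adj_comm (G := PC.resplit a a' G0 (PC.sideA a a' G)),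
      PC.adj_comm (G := PC.resplit a a' G0 (symmDiff (PC.sideA a a' G) b'))]
    exact key_a' x
  rw [PC.adj_resplit_off haa G0 _ hxa hxa' hya hya', PC.adj_resplit_off haa G0 _ hxa hxa' hya hya']
  have hc : ¬ (x ≠ y ∧ (x ∈ ({a, a'} : Finset (Fin n)) ∨ y ∈ ({a, a'} : Finset (Fin n))) ∧
      (x ∈ b' ∨ y ∈ b')) := by
    rintro ⟨-, h | h, -⟩
    · rw [mem_insert, mem_singleton] at h
      exact h.elim hxa hxa'
    · rw [mem_insert, mem_singleton] at h
      exact h.elim hya hya'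
  simp only [hc, not_false_eq_true, iff_true]

end Crest.Agent.S0453R.JDict
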