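import Mathlib
import Crest.Prelude.Def_SwitchChain
import Crest.Agent.S0453.PM
import Crest.Agent.S0453.Adapters
import Crest.Agent.S0453.Avg
import Crest.Agent.S0453.CoupleDefs
import Crest.Agent.S0453.PairClass

/-!
Row 299 / S0453 (helper56): the `Ms` dictionary `(N1)` of [J-GRAPH] (board #1141).

For a pair `{a, a'}`, a graph `G` in the pair class of `G0` and a 2-set `b'` disjoint from
`{a, a'}`: the block of the couple `({a,a'}, b')` is a perfect matching in `G` iff both vertices
of `b'` are private neighbours of the pair and exactly one of them is on the side of `a`.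
-/

set_option autoImplicit false
open Finset

namespace Crest.Agent.S0453R.JDict

open Crest.SwitchChain Crest.Agent.S0453R

variable {n : ℕ}

/-- block degree of a vertex `x ∈ b`: the number of its neighbours in `b'` -/
lemma N1_bdeg_left {b b' : Finset (Fin n)} (hd : Disjoint b b') (G : Finset (Edge n))
    {x : Fin n} (hx : x ∈ b) :
    ((G ∩ cross b b').filter fun e => x ∈ e.1).card = (b'.filter fun y => PC.adj G x y).card := by
  symm
  refine card_bij (fun y hy => (⟨s(x, y), by
      have := PC.adj_ne (mem_filter.mp hy).2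
      simpa using this⟩ : Edge n)) ?_ ?_ ?_
  · intro y hy
    rw [mem_filter] at hy
    rw [mem_filter, mem_inter, mem_cross]
    refine ⟨⟨(PC.mem_iff_adj _ rfl).mpr hy.2, ⟨x, hx, by simp⟩, ⟨y, hy.1, by simp⟩⟩, by simp⟩
  · intro y₁ _ y₂ _ h
    have h' : s(x, y₁) = s(x, y₂) := congrArg Subtype.val h
    exact Sym2.congr_right.mp h'
  · intro e he
    rw [mem_filter, mem_inter, mem_cross] at he
    obtain ⟨⟨heG, -, ⟨y', hy', hy'e⟩⟩, hxe⟩ := he
    obtain ⟨y, hy⟩ := Sym2.mem_iff_exists.mp hxe
    have hxb' : x ∉ b' := fun h => (disjoint_left.mp hd) hx h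
    have hyb' : y ∈ b' := by
      rw [hy, Sym2.mem_iff] at hy'e
      rcases hy'e with rfl | rfl
      · exact absurd hy' hxb'
      · exact hy'
    refine ⟨y, ?_, Subtype.ext hy.symm⟩
    rw [mem_filter]
    exact ⟨hyb', (PC.mem_iff_adj e hy).mp heG⟩

/-- block degree of a vertex `y ∈ b'`: the number of its neighbours in `b` -/
lemma N1_bdeg_right {b b' : Finset (Fin n)} (hd : Disjoint b b') (G : Finset (Edge n))
    {y : Fin n} (hy : y ∈ b') :
    ((G ∩ cross b b').filter fun e => y ∈ e.1).card = (b.filter fun x => PC.adj G y x).card := by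
  rw [cross_comm]
  exact N1_bdeg_left hd.symm G hy

/-- a 2-set contains exactly one element with a property iff exactly one of its two elements
has it -/
lemma N1_card_filter_pair {u v : Fin n} (huv : u ≠ v) (p : Fin n → Prop) [DecidablePred p] :
    (({u, v} : Finset (Fin n)).filter p).card = 1 ↔ (p u ↔ ¬ p v) := by
  by_cases h1 : p u <;> by_cases h2 : p v <;>
    simp [filter_insert, filter_singleton, h1, h2, huv]

/-- the explicit form of `Ms` for four distinct vertices, as a condition on the four block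
adjacencies -/
lemma N1_Ms_iff {a a' c c' : Fin n} (haa : a ≠ a') (hcc : c ≠ c')
    (hd : Disjoint ({a, a'} : Finset (Fin n)) {c, c'}) (G : Finset (Edge n)) :
    Ms {a, a'} {c, c'} G ↔
      ((PC.adj G a c ↔ ¬ PC.adj G a c') ∧ (PC.adj G a' c ↔ ¬ PC.adj G a' c') ∧
        (PC.adj G a c ↔ ¬ PC.adj G a' c) ∧ (PC.adj G a c' ↔ ¬ PC.adj G a' c')) := by
  have ha : a ∈ ({a, a'} : Finset (Fin n)) := by simp
  have ha' : a' ∈ ({a, a'} : Finset (Fin n)) := by simp
  have hc : c ∈ ({c, c'} : Finset (Fin n)) := by simp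
  have hc' : c' ∈ ({c, c'} : Finset (Fin n)) := by simp
  have e1 := N1_bdeg_left hd G ha
  have e2 := N1_bdeg_left hd G ha'
  have e3 := N1_bdeg_right hd G hc
  have e4 := N1_bdeg_right hd G hc'
  have k1 := N1_card_filter_pair hcc (fun y => PC.adj G a y)
  have k2 := N1_card_filter_pair hcc (fun y => PC.adj G a' y)
  have k3 := N1_card_filter_pair haa (fun x => PC.adj G c x)
  have k4 := N1_card_filter_pair haa (fun x => PC.adj G c' x)
  rw [← e1] at k1
  rw [← e2] at k2
  rw [← e3, PC.adj_comm (x := c) (y := a), PC.adj_comm (x := c) (y := a')] at k3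
  rw [← e4, PC.adj_comm (x := c') (y := a), PC.adj_comm (x := c') (y := a')] at k4
  unfold Ms
  constructor
  · intro h
    exact ⟨k1.mp (h a (mem_union_left _ ha)), k2.mp (h a' (mem_union_left _ ha')),
      k3.mp (h c (mem_union_right _ hc)), k4.mp (h c' (mem_union_right _ hc'))⟩
  · rintro ⟨h1, h2, h3, h4⟩ x hx
    rw [mem_union, mem_insert, mem_singleton, mem_insert, mem_singleton] at hx
    rcases hx with (rfl | rfl) | (rfl | rfl)
    · exact k1.mpr h1
    · exact k2.mpr h2
    · exact k3.mpr h3
    · exact k4.mpr h4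

/-- **(N1)** the `Ms` dictionary: for `G` in the pair class of `G0` and `b'` disjoint from the
pair, the block is a perfect matching iff `b'` consists of private neighbours, exactly one of
them on the side of `a`. -/
theorem Ms_iff_slice (d : Fin n → ℕ) {a a' : Fin n} (haa : a ≠ a') {G0 G : Finset (Edge n)}
    (hG0 : G0 ∈ realizations d) (hG : G ∈ PC.cls d a a' G0) {b' : Finset (Fin n)}
    (hb' : b' ∈ pairs n) (hd : Disjoint ({a, a'} : Finset (Fin n)) b') :
    Ms {a, a'} b' G ↔ b' ⊆ PC.priv a a' G0 ∧ (b' ∩ PC.sideA a a' G).card = 1 := by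
  rw [pairs, mem_powersetCard] at hb'
  obtain ⟨c, c', hcc, rfl⟩ := card_eq_two.1 hb'.2
  have hca : c ≠ a := fun h => (disjoint_left.mp hd) (by simp) (by simp [h] : a ∈ ({c, c'} : Finset (Fin n)))
  have hca' : c ≠ a' := fun h =>
    (disjoint_left.mp hd) (by simp) (by simp [h] : a' ∈ ({c, c'} : Finset (Fin n)))
  have hc'a : c' ≠ a := fun h =>
    (disjoint_left.mp hd) (by simp) (by simp [h] : a ∈ ({c, c'} : Finset (Fin n)))
  have hc'a' : c' ≠ a' := fun h =>
    (disjoint_left.mp hd) (by simp) (by simp [h] : a' ∈ ({c, c'} : Finset (Fin n)))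
  rw [N1_Ms_iff haa hcc hd G, ← PC.cls_priv_eq haa hG0 hG, insert_subset_iff,
    singleton_subset_iff, ← filter_mem_eq_inter,
    N1_card_filter_pair hcc (fun y => y ∈ PC.sideA a a' G), PC.mem_sideA, PC.mem_sideA,
    PC.mem_priv, PC.mem_priv]
  by_cases p : PC.adj G a c <;> by_cases q : PC.adj G a c' <;> by_cases r : PC.adj G a' c <;>
    by_cases s : PC.adj G a' c' <;> simp [p, q, r, s, hca, hca', hc'a, hc'a']

end Crest.Agent.S0453R.JDict
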