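import Mathlib

/-!
Row 299 / S0453, module JOHNSON (helper92): the sharp Poincaré inequality for the Johnson graph
`J(N,k)` (k-subsets of an N-set, two subsets adjacent when they differ by one exchange):

  `N * ∑_{A,B} (F A - F B)² ≤ M * ∑_{A ~ B} (F A - F B)²`   (ordered pairs, `M = C(N,k)`),

i.e. `∑_A (F A - mean)² ≤ (1/N) * (unordered edge energy)`.

Proof: induction on `N`, conditioning on one element `c`.
-/

set_option autoImplicit false
open Finset

namespace Crest.Agent.S0453R.Johnson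

variable {α : Type*} [DecidableEq α]

/-- Ordered-pair variance of `F` on the `k`-subsets of `s`. -/
def V (s : Finset α) (k : ℕ) (F : Finset α → ℝ) : ℝ :=
  ∑ A ∈ s.powersetCard k, ∑ B ∈ s.powersetCard k, (F A - F B) ^ 2

/-- Ordered-pair Johnson energy of `F` on the `k`-subsets of `s`. -/
def En (s : Finset α) (k : ℕ) (F : Finset α → ℝ) : ℝ :=
  ∑ A ∈ s.powersetCard k,
    ∑ B ∈ (s.powersetCard k).filter (fun B => (A \ B).card = 1), (F A - F B) ^ 2

lemma En_nonneg (s : Finset α) (k : ℕ) (F : Finset α → ℝ) : 0 ≤ En s k F :=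
  Finset.sum_nonneg fun _ _ => Finset.sum_nonneg fun _ _ => sq_nonneg _

/-- The usual expansion of the ordered-pair variance. -/
lemma sum_sq_diff {ι : Type*} (T : Finset ι) (g : ι → ℝ) :
    ∑ a ∈ T, ∑ b ∈ T, (g a - g b) ^ 2 =
      2 * ((T.card : ℝ) * ∑ a ∈ T, g a ^ 2 - (∑ a ∈ T, g a) ^ 2) := by
  have h : ∀ a ∈ T, ∑ b ∈ T, (g a - g b) ^ 2 =
      (T.card : ℝ) * g a ^ 2 - 2 * g a * (∑ b ∈ T, g b) + ∑ b ∈ T, g b ^ 2 := by
    intro a _
    have : ∀ b ∈ T, (g a - g b) ^ 2 = g a ^ 2 - 2 * g a * g b + g b ^ 2 := fun b _ => by ring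
    rw [Finset.sum_congr rfl this, Finset.sum_add_distrib, Finset.sum_sub_distrib,
      Finset.sum_const, nsmul_eq_mul, Finset.mul_sum]
  rw [Finset.sum_congr rfl h, Finset.sum_add_distrib, Finset.sum_sub_distrib,
    ← Finset.mul_sum, Finset.sum_const, nsmul_eq_mul, ← Finset.sum_mul, ← Finset.mul_sum]
  ring

lemma filter_not_mem (s : Finset α) (k : ℕ) (c : α) :
    (s.powersetCard k).filter (fun A => c ∉ A) = (s.erase c).powersetCard k := by
  ext A
  simp only [mem_filter, mem_powersetCard]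
  constructor
  · rintro ⟨⟨hs, hk⟩, hc⟩
    exact ⟨fun x hx => mem_erase.mpr ⟨fun h => hc (h ▸ hx), hs hx⟩, hk⟩
  · rintro ⟨hs, hk⟩
    exact ⟨⟨fun x hx => mem_of_mem_erase (hs hx), hk⟩, fun h => (mem_erase.mp (hs h)).1 rfl⟩

lemma filter_mem (s : Finset α) (k : ℕ) (c : α) (hc : c ∈ s) :
    (s.powersetCard (k + 1)).filter (fun A => c ∈ A) =
      ((s.erase c).powersetCard k).image (insert c) := by
  ext A
  simp only [mem_filter, mem_powersetCard, mem_image]
  constructor
  · rintro ⟨⟨hs, hk⟩, hcA⟩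
    refine ⟨A.erase c, ⟨erase_subset_erase c hs, ?_⟩, insert_erase hcA⟩
    rw [card_erase_of_mem hcA, hk]; rfl
  · rintro ⟨B, ⟨hs, hk⟩, rfl⟩
    have hcB : c ∉ B := fun h => (mem_erase.mp (hs h)).1 rfl
    refine ⟨⟨insert_subset hc (hs.trans (erase_subset c s)), ?_⟩, mem_insert_self c B⟩
    rw [card_insert_of_notMem hcB, hk]

lemma insert_injOn (s : Finset α) (k : ℕ) (c : α) :
    Set.InjOn (insert c) (((s.erase c).powersetCard k : Finset (Finset α)) : Set (Finset α)) := by
  intro A hA B hB h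
  have hcA : c ∉ A := fun h' => (mem_erase.mp ((mem_powersetCard.mp hA).1 h')).1 rfl
  have hcB : c ∉ B := fun h' => (mem_erase.mp ((mem_powersetCard.mp hB).1 h')).1 rfl
  have := congrArg (fun X => X.erase c) h
  simpa [erase_insert hcA, erase_insert hcB] using this


/-! ### Energies and variances on arbitrary families -/

/-- Ordered-pair Johnson energy on an arbitrary family `T`. -/
def EnT (T : Finset (Finset α)) (F : Finset α → ℝ) : ℝ :=
  ∑ A ∈ T, ∑ B ∈ T.filter (fun B => (A \ B).card = 1), (F A - F B) ^ 2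

/-- Ordered-pair variance on an arbitrary family `T`. -/
def VT (T : Finset (Finset α)) (F : Finset α → ℝ) : ℝ :=
  ∑ A ∈ T, ∑ B ∈ T, (F A - F B) ^ 2

lemma EnT_nonneg (T : Finset (Finset α)) (F : Finset α → ℝ) : 0 ≤ EnT T F :=
  Finset.sum_nonneg fun _ _ => Finset.sum_nonneg fun _ _ => sq_nonneg _

omit [DecidableEq α] in
lemma V_eq_VT (s : Finset α) (k : ℕ) (F : Finset α → ℝ) : V s k F = VT (s.powersetCard k) F := rfl

lemma En_eq_EnT (s : Finset α) (k : ℕ) (F : Finset α → ℝ) :
    En s k F = EnT (s.powersetCard k) F := rfl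

lemma EnT_filter (T : Finset (Finset α)) (p : Finset α → Prop) [DecidablePred p]
    (F : Finset α → ℝ) :
    EnT (T.filter p) F = ∑ A ∈ T, ∑ B ∈ T.filter (fun B => (A \ B).card = 1),
      if p A ∧ p B then (F A - F B) ^ 2 else 0 := by
  unfold EnT
  rw [Finset.sum_filter]
  refine Finset.sum_congr rfl fun A _ => ?_
  by_cases hp : p A
  · simp only [hp, if_true, true_and]
    rw [← Finset.sum_filter, Finset.filter_filter, Finset.filter_filter]
    refine Finset.sum_congr ?_ fun _ _ => rfl
    ext B; simp [and_comm]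
  · simp [hp]

lemma insert_injOn' (T₀ : Finset (Finset α)) (c : α) (h : ∀ A ∈ T₀, c ∉ A) :
    Set.InjOn (insert c) (T₀ : Set (Finset α)) := by
  intro A hA B hB hAB
  have := congrArg (fun X => X.erase c) hAB
  simpa [erase_insert (h A hA), erase_insert (h B hB)] using this

lemma EnT_image_insert (T₀ : Finset (Finset α)) (c : α) (h : ∀ A ∈ T₀, c ∉ A)
    (F : Finset α → ℝ) :
    EnT (T₀.image (insert c)) F = EnT T₀ (fun A => F (insert c A)) := by
  unfold EnT
  rw [Finset.sum_image (insert_injOn' T₀ c h)]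
  refine Finset.sum_congr rfl fun A hA => ?_
  rw [Finset.filter_image, Finset.sum_image
    ((insert_injOn' T₀ c h).mono (Finset.coe_subset.mpr (Finset.filter_subset _ _)))]
  refine Finset.sum_congr ?_ fun _ _ => rfl
  refine Finset.filter_congr fun B _ => ?_
  rw [Finset.insert_sdiff_insert, Finset.sdiff_insert_of_notMem (h A hA)]

lemma VT_image_insert (T₀ : Finset (Finset α)) (c : α) (h : ∀ A ∈ T₀, c ∉ A)
    (F : Finset α → ℝ) :
    VT (T₀.image (insert c)) F = VT T₀ (fun A => F (insert c A)) := by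
  unfold VT
  rw [Finset.sum_image (insert_injOn' T₀ c h)]
  refine Finset.sum_congr rfl fun A _ => ?_
  rw [Finset.sum_image (insert_injOn' T₀ c h)]

lemma not_mem_of_mem_powersetCard_erase {s : Finset α} {k : ℕ} {c : α} {A : Finset α}
    (hA : A ∈ (s.erase c).powersetCard k) : c ∉ A :=
  fun h' => (mem_erase.mp ((mem_powersetCard.mp hA).1 h')).1 rfl

/-- Every Johnson edge is "inside" for exactly `N - 2` choices of the conditioning element. -/
lemma sum_EnT_filter (s : Finset α) (k : ℕ) (F : Finset α → ℝ) :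
    ∑ c ∈ s, (EnT ((s.powersetCard k).filter (fun A => c ∈ A)) F +
        EnT ((s.powersetCard k).filter (fun A => c ∉ A)) F) =
      ((s.card : ℝ) - 2) * EnT (s.powersetCard k) F := by
  simp_rw [EnT_filter, ← Finset.sum_add_distrib]
  rw [Finset.sum_comm]
  unfold EnT
  rw [Finset.mul_sum]
  refine Finset.sum_congr rfl fun A hA => ?_
  rw [Finset.sum_comm, Finset.mul_sum]
  refine Finset.sum_congr rfl fun B hB => ?_
  obtain ⟨hBK, hAB⟩ := mem_filter.mp hB
  obtain ⟨hAs, hAk⟩ := mem_powersetCard.mp hA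
  obtain ⟨hBs, hBk⟩ := mem_powersetCard.mp hBK
  have h1 : ∀ c ∈ s, ((if c ∈ A ∧ c ∈ B then (F A - F B) ^ 2 else 0) +
      (if c ∉ A ∧ c ∉ B then (F A - F B) ^ 2 else 0)) =
      (if c ∈ A ∩ B then (F A - F B) ^ 2 else 0) +
        (if c ∈ s \ (A ∪ B) then (F A - F B) ^ 2 else 0) := by
    intro c hc
    simp only [mem_inter, mem_sdiff, mem_union, hc, true_and, not_or]
  rw [Finset.sum_congr rfl h1, Finset.sum_add_distrib]
  rw [Finset.sum_ite_mem, Finset.sum_ite_mem, Finset.sum_const, Finset.sum_const,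
    nsmul_eq_mul, nsmul_eq_mul]
  have e1 : s ∩ (A ∩ B) = A ∩ B :=
    Finset.inter_eq_right.mpr (Finset.inter_subset_left.trans hAs)
  have e2 : s ∩ (s \ (A ∪ B)) = s \ (A ∪ B) := Finset.inter_eq_right.mpr Finset.sdiff_subset
  rw [e1, e2]
  have c1 := Finset.card_inter_add_card_sdiff A B
  have c2 := Finset.card_sdiff_add_card_eq_card (Finset.union_subset hAs hBs)
  have c3 := Finset.card_union_add_card_inter A B
  rw [hAB, hAk] at c1
  rw [hAk, hBk] at c3
  have c1' : ((A ∩ B).card : ℝ) + 1 = k := by exact_mod_cast c1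
  have c2' : ((s \ (A ∪ B)).card : ℝ) + ((A ∪ B).card : ℝ) = s.card := by exact_mod_cast c2
  have c3' : ((A ∪ B).card : ℝ) + ((A ∩ B).card : ℝ) = k + k := by exact_mod_cast c3
  have : ((A ∩ B).card : ℝ) + ((s \ (A ∪ B)).card : ℝ) = (s.card : ℝ) - 2 := by linarith
  rw [← add_mul, this]


/-! ### The between-part: the statistics `∑_{A ∋ c} F A` -/

/-- `∑_c ∑_{A ∋ c} F A = k ∑_A F A`. -/
lemma sum_Sp (s : Finset α) (k : ℕ) (F : Finset α → ℝ) :
    ∑ c ∈ s, ∑ A ∈ (s.powersetCard k).filter (fun A => c ∈ A), F A =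
      (k : ℝ) * ∑ A ∈ s.powersetCard k, F A := by
  simp_rw [Finset.sum_filter]
  rw [Finset.sum_comm, Finset.mul_sum]
  refine Finset.sum_congr rfl fun A hA => ?_
  obtain ⟨hAs, hAk⟩ := mem_powersetCard.mp hA
  rw [Finset.sum_ite_mem, Finset.sum_const, nsmul_eq_mul, Finset.inter_eq_right.mpr hAs, hAk]

/-- The exchange map `A ↦ A - c + e`. -/
def exch (c e : α) (A : Finset α) : Finset α := insert e (A.erase c)

lemma exch_mem {s : Finset α} {k : ℕ} {c e : α} (hce : c ≠ e) (he : e ∈ s) {A : Finset α}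
    (hA : A ∈ (s.powersetCard k).filter (fun A => c ∈ A ∧ e ∉ A)) :
    exch c e A ∈ (s.powersetCard k).filter (fun A => e ∈ A ∧ c ∉ A) := by
  obtain ⟨hAK, hcA, heA⟩ := mem_filter.mp hA
  obtain ⟨hAs, hAk⟩ := mem_powersetCard.mp hAK
  refine mem_filter.mpr ⟨mem_powersetCard.mpr ⟨?_, ?_⟩, mem_insert_self _ _, ?_⟩
  · exact insert_subset he ((erase_subset _ _).trans hAs)
  · unfold exch
    rw [card_insert_of_notMem (fun h => heA (mem_of_mem_erase h)), card_erase_of_mem hcA, hAk]
    have : 0 < k := by rw [← hAk]; exact card_pos.mpr ⟨c, hcA⟩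
    omega
  · unfold exch
    intro h
    rcases mem_insert.mp h with h | h
    · exact hce h
    · exact (mem_erase.mp h).1 rfl

lemma exch_exch {c e : α} {A : Finset α} (hcA : c ∈ A) (heA : e ∉ A) :
    exch e c (exch c e A) = A := by
  unfold exch
  rw [erase_insert (fun h => heA (mem_of_mem_erase h)), insert_erase hcA]

/-- `∑_{A ∋ c} F - ∑_{A ∋ e} F` as a sum of Johnson edge differences of type `{c,e}`. -/
lemma Sp_sub (s : Finset α) (k : ℕ) (F : Finset α → ℝ) {c e : α} (hc : c ∈ s) (he : e ∈ s)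
    (hce : c ≠ e) :
    (∑ A ∈ (s.powersetCard k).filter (fun A => c ∈ A), F A) -
        ∑ A ∈ (s.powersetCard k).filter (fun A => e ∈ A), F A =
      ∑ A ∈ (s.powersetCard k).filter (fun A => c ∈ A ∧ e ∉ A), (F A - F (exch c e A)) := by
  have h1 : ∑ A ∈ (s.powersetCard k).filter (fun A => c ∈ A), F A =
      ∑ A ∈ (s.powersetCard k).filter (fun A => c ∈ A ∧ e ∈ A), F A +
        ∑ A ∈ (s.powersetCard k).filter (fun A => c ∈ A ∧ e ∉ A), F A := by
    rw [← Finset.sum_filter_add_sum_filter_not ((s.powersetCard k).filter (fun A => c ∈ A))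
      (fun A => e ∈ A), Finset.filter_filter, Finset.filter_filter]
  have h2 : ∑ A ∈ (s.powersetCard k).filter (fun A => e ∈ A), F A =
      ∑ A ∈ (s.powersetCard k).filter (fun A => c ∈ A ∧ e ∈ A), F A +
        ∑ A ∈ (s.powersetCard k).filter (fun A => e ∈ A ∧ c ∉ A), F A := by
    rw [← Finset.sum_filter_add_sum_filter_not ((s.powersetCard k).filter (fun A => e ∈ A))
      (fun A => c ∈ A), Finset.filter_filter, Finset.filter_filter]
    congr 1
    refine Finset.sum_congr ?_ fun _ _ => rfl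
    ext A; simp [and_comm]
  have h3 : ∑ A ∈ (s.powersetCard k).filter (fun A => e ∈ A ∧ c ∉ A), F A =
      ∑ A ∈ (s.powersetCard k).filter (fun A => c ∈ A ∧ e ∉ A), F (exch c e A) := by
    symm
    refine Finset.sum_nbij' (exch c e) (exch e c) ?_ ?_ ?_ ?_ ?_
    · intro A hA; exact exch_mem hce he hA
    · intro A hA; exact exch_mem (Ne.symm hce) hc hA
    · intro A hA
      obtain ⟨_, hcA, heA⟩ := mem_filter.mp hA
      exact exch_exch hcA heA
    · intro A hA
      obtain ⟨_, heA, hcA⟩ := mem_filter.mp hA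
      exact exch_exch heA hcA
    · intro A _; rfl
  rw [h1, h2, h3, Finset.sum_sub_distrib]
  ring

lemma card_filter_mem (s : Finset α) (k : ℕ) {c : α} (hc : c ∈ s) :
    ((s.powersetCard (k + 1)).filter (fun A => c ∈ A)).card = (s.card - 1).choose k := by
  rw [filter_mem s k c hc, Finset.card_image_of_injOn (insert_injOn s k c), card_powersetCard,
    card_erase_of_mem hc]

lemma card_filter_not_mem (s : Finset α) (k : ℕ) {c : α} (hc : c ∈ s) :
    ((s.powersetCard k).filter (fun A => c ∉ A)).card = (s.card - 1).choose k := by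
  rw [filter_not_mem, card_powersetCard, card_erase_of_mem hc]

lemma card_filter_mem_not_mem (s : Finset α) (k : ℕ) {c e : α} (hc : c ∈ s) (he : e ∈ s)
    (hce : c ≠ e) :
    ((s.powersetCard (k + 1)).filter (fun A => c ∈ A ∧ e ∉ A)).card = (s.card - 2).choose k := by
  have : (s.powersetCard (k + 1)).filter (fun A => c ∈ A ∧ e ∉ A) =
      ((s.erase e).powersetCard (k + 1)).filter (fun A => c ∈ A) := by
    rw [← filter_not_mem, Finset.filter_filter]
    refine Finset.filter_congr fun A _ => ?_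
    exact and_comm
  rw [this, card_filter_mem (s.erase e) k (mem_erase.mpr ⟨hce, hc⟩), card_erase_of_mem he]
  rfl


/-! ### Johnson edges as exchanges -/

lemma sdiff_exch {c e : α} {A : Finset α} (hcA : c ∈ A) (heA : e ∉ A) :
    A \ exch c e A = {c} := by
  ext x
  simp only [exch, mem_sdiff, mem_insert, mem_erase, mem_singleton, not_or, not_and]
  constructor
  · rintro ⟨hxA, _, h⟩
    by_contra hxc
    exact h hxc hxA
  · rintro rfl
    exact ⟨hcA, fun h => heA (h ▸ hcA), fun h => (h rfl).elim⟩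

lemma exch_sdiff {c e : α} {A : Finset α} (heA : e ∉ A) :
    exch c e A \ A = {e} := by
  ext x
  simp only [exch, mem_sdiff, mem_insert, mem_erase, mem_singleton]
  constructor
  · rintro ⟨h | h, hxA⟩
    · exact h
    · exact (hxA h.2).elim
  · rintro rfl
    exact ⟨Or.inl rfl, heA⟩

/-- The Johnson neighbours of `A` are exactly the exchanges `A - c + e`. -/
lemma adj_eq_image (s : Finset α) (k : ℕ) {A : Finset α} (hA : A ∈ s.powersetCard k) :
    (s.powersetCard k).filter (fun B => (A \ B).card = 1) =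
      (A ×ˢ (s \ A)).image (fun p => exch p.1 p.2 A) := by
  obtain ⟨hAs, hAk⟩ := mem_powersetCard.mp hA
  ext B
  simp only [mem_filter, mem_powersetCard, mem_image, mem_product, mem_sdiff, Prod.exists]
  constructor
  · rintro ⟨⟨hBs, hBk⟩, hAB⟩
    obtain ⟨c, hc⟩ := Finset.card_eq_one.mp hAB
    have c1 := Finset.card_inter_add_card_sdiff A B
    have c2 := Finset.card_inter_add_card_sdiff B A
    rw [Finset.inter_comm B A] at c2
    have hBA : (B \ A).card = 1 := by omega
    obtain ⟨e, he⟩ := Finset.card_eq_one.mp hBA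
    have hcA : c ∈ A ∧ c ∉ B := by
      have : c ∈ A \ B := by rw [hc]; exact mem_singleton_self c
      exact mem_sdiff.mp this
    have heB : e ∈ B ∧ e ∉ A := by
      have : e ∈ B \ A := by rw [he]; exact mem_singleton_self e
      exact mem_sdiff.mp this
    refine ⟨c, e, ⟨hcA.1, hBs heB.1, heB.2⟩, ?_⟩
    ext x
    have h1 := Finset.ext_iff.mp hc x
    have h2 := Finset.ext_iff.mp he x
    simp only [mem_sdiff, mem_singleton] at h1 h2
    simp only [exch, mem_insert, mem_erase]
    constructor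
    · rintro (h | ⟨hxc, hxA⟩)
      · exact (h2.mpr h).1
      · by_contra hxB
        exact hxc (h1.mp ⟨hxA, hxB⟩)
    · intro hxB
      by_cases hxA : x ∈ A
      · exact Or.inr ⟨fun h => hcA.2 (h ▸ hxB), hxA⟩
      · exact Or.inl (h2.mp ⟨hxB, hxA⟩)
  · rintro ⟨c, e, ⟨hcA, hes, heA⟩, rfl⟩
    refine ⟨⟨?_, ?_⟩, ?_⟩
    · exact insert_subset hes ((erase_subset _ _).trans hAs)
    · unfold exch
      rw [card_insert_of_notMem (fun h => heA (mem_of_mem_erase h)), card_erase_of_mem hcA, hAk]
      have : 0 < k := by rw [← hAk]; exact card_pos.mpr ⟨c, hcA⟩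
      omega
    · rw [sdiff_exch hcA heA, card_singleton]

lemma exch_injOn (s : Finset α) (A : Finset α) :
    Set.InjOn (fun p : α × α => exch p.1 p.2 A) ((A ×ˢ (s \ A) : Finset (α × α)) : Set (α × α)) := by
  rintro ⟨c, e⟩ h ⟨c', e'⟩ h' hEq
  simp only [coe_product, Set.mem_prod, mem_coe, mem_sdiff] at h h'
  simp only at hEq
  have h1 : ({c} : Finset α) = {c'} := by
    rw [← sdiff_exch h.1 h.2.2, ← sdiff_exch h'.1 h'.2.2, hEq]
  have h2 : ({e} : Finset α) = {e'} := by
    rw [← exch_sdiff (c := c) h.2.2, ← exch_sdiff (c := c') h'.2.2, hEq]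
  rw [Finset.singleton_inj.mp h1, Finset.singleton_inj.mp h2]

/-- Reindexing the Johnson energy by exchanges. -/
lemma sum_exch_eq_En (s : Finset α) (k : ℕ) (F : Finset α → ℝ) :
    ∑ c ∈ s, ∑ e ∈ s, ∑ A ∈ (s.powersetCard k).filter (fun A => c ∈ A ∧ e ∉ A),
        (F A - F (exch c e A)) ^ 2 = EnT (s.powersetCard k) F := by
  simp_rw [Finset.sum_filter]
  have h1 : ∀ c ∈ s, ∑ e ∈ s, ∑ A ∈ s.powersetCard k,
      (if c ∈ A ∧ e ∉ A then (F A - F (exch c e A)) ^ 2 else 0) =
      ∑ A ∈ s.powersetCard k, ∑ e ∈ s,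
        (if c ∈ A ∧ e ∉ A then (F A - F (exch c e A)) ^ 2 else 0) := fun c _ => Finset.sum_comm
  rw [Finset.sum_congr rfl h1, Finset.sum_comm]
  unfold EnT
  refine Finset.sum_congr rfl fun A hA => ?_
  obtain ⟨hAs, hAk⟩ := mem_powersetCard.mp hA
  rw [adj_eq_image s k hA, Finset.sum_image (exch_injOn s A),
    ← Finset.sum_product' (s := s) (t := s)
      (f := fun c e => if c ∈ A ∧ e ∉ A then (F A - F (exch c e A)) ^ 2 else 0),
    ← Finset.sum_filter]
  refine Finset.sum_congr ?_ fun _ _ => rfl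
  ext ⟨c, e⟩
  simp only [mem_filter, mem_product, mem_sdiff]
  constructor
  · rintro ⟨⟨_, he⟩, hcA, heA⟩; exact ⟨hcA, he, heA⟩
  · rintro ⟨hcA, he, heA⟩; exact ⟨⟨hAs hcA, he⟩, hcA, heA⟩

/-- The between-part bound `2N ∑_c b_c² ≤ M² C(N-2,k) En`, where
`b_c = M ∑_{A ∋ c} F A - C(N-1,k) ∑_A F A` on the `(k+1)`-subsets. -/
lemma between_bound (s : Finset α) (k : ℕ) (F : Finset α → ℝ) (hN : 1 ≤ s.card) :
    2 * (s.card : ℝ) * ∑ c ∈ s,
        (((s.powersetCard (k + 1)).card : ℝ) *
            (∑ A ∈ (s.powersetCard (k + 1)).filter (fun A => c ∈ A), F A) -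
          ((s.card - 1).choose k : ℝ) * ∑ A ∈ s.powersetCard (k + 1), F A) ^ 2 ≤
      ((s.powersetCard (k + 1)).card : ℝ) ^ 2 * ((s.card - 2).choose k : ℝ) *
        EnT (s.powersetCard (k + 1)) F := by
  have hbin : (s.card : ℝ) * ((s.card - 1).choose k : ℝ) =
      ((s.powersetCard (k + 1)).card : ℝ) * ((k : ℝ) + 1) := by
    rw [card_powersetCard]
    obtain ⟨n, hn⟩ : ∃ n, s.card = n + 1 := ⟨s.card - 1, by omega⟩
    rw [hn]
    have := Nat.add_one_mul_choose_eq n k
    simp only [Nat.add_sub_cancel]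
    exact_mod_cast this
  generalize hM : ((s.powersetCard (k + 1)).card : ℝ) = M at hbin ⊢
  generalize hmp : ((s.card - 1).choose k : ℝ) = mp at hbin ⊢
  generalize hS : ∑ A ∈ s.powersetCard (k + 1), F A = S
  have hsumSp := sum_Sp s (k + 1) F
  rw [hS] at hsumSp
  -- the sum of the `b_c` vanishes
  have hsumb : ∑ c ∈ s, (M * (∑ A ∈ (s.powersetCard (k + 1)).filter (fun A => c ∈ A), F A) -
      mp * S) = 0 := by
    rw [Finset.sum_sub_distrib, ← Finset.mul_sum, hsumSp, Finset.sum_const, nsmul_eq_mul]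
    push_cast
    linear_combination (-S) * hbin
  have hvar := sum_sq_diff s (fun c =>
    M * (∑ A ∈ (s.powersetCard (k + 1)).filter (fun A => c ∈ A), F A) - mp * S)
  rw [hsumb] at hvar
  -- termwise Cauchy–Schwarz
  have hterm : ∀ c ∈ s, ∀ e ∈ s,
      ((M * (∑ A ∈ (s.powersetCard (k + 1)).filter (fun A => c ∈ A), F A) - mp * S) -
        (M * (∑ A ∈ (s.powersetCard (k + 1)).filter (fun A => e ∈ A), F A) - mp * S)) ^ 2 ≤
      M ^ 2 * ((s.card - 2).choose k : ℝ) *
        ∑ A ∈ (s.powersetCard (k + 1)).filter (fun A => c ∈ A ∧ e ∉ A),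
          (F A - F (exch c e A)) ^ 2 := by
    intro c hc e he
    by_cases hce : c = e
    · subst hce
      have h0 : 0 ≤ M ^ 2 * ((s.card - 2).choose k : ℝ) *
          ∑ A ∈ (s.powersetCard (k + 1)).filter (fun A => c ∈ A ∧ c ∉ A),
            (F A - F (exch c c A)) ^ 2 :=
        mul_nonneg (mul_nonneg (sq_nonneg _) (Nat.cast_nonneg _))
          (Finset.sum_nonneg fun _ _ => sq_nonneg _)
      simp
    · have hd := Sp_sub s (k + 1) F hc he hce
      have hcs := _root_.sq_sum_le_card_mul_sum_sq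
        (s := (s.powersetCard (k + 1)).filter (fun A => c ∈ A ∧ e ∉ A))
        (f := fun A => F A - F (exch c e A))
      rw [card_filter_mem_not_mem s k hc he hce] at hcs
      have : ((M * (∑ A ∈ (s.powersetCard (k + 1)).filter (fun A => c ∈ A), F A) - mp * S) -
          (M * (∑ A ∈ (s.powersetCard (k + 1)).filter (fun A => e ∈ A), F A) - mp * S)) ^ 2 =
          M ^ 2 * (∑ A ∈ (s.powersetCard (k + 1)).filter (fun A => c ∈ A ∧ e ∉ A),
            (F A - F (exch c e A))) ^ 2 := by
        rw [← hd]; ring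
      rw [this, mul_assoc]
      exact mul_le_mul_of_nonneg_left hcs (sq_nonneg M)
  have hsum : ∑ c ∈ s, ∑ e ∈ s,
      ((M * (∑ A ∈ (s.powersetCard (k + 1)).filter (fun A => c ∈ A), F A) - mp * S) -
        (M * (∑ A ∈ (s.powersetCard (k + 1)).filter (fun A => e ∈ A), F A) - mp * S)) ^ 2 ≤
      ∑ c ∈ s, ∑ e ∈ s, M ^ 2 * ((s.card - 2).choose k : ℝ) *
        ∑ A ∈ (s.powersetCard (k + 1)).filter (fun A => c ∈ A ∧ e ∉ A),
          (F A - F (exch c e A)) ^ 2 :=
    Finset.sum_le_sum fun c hc => Finset.sum_le_sum fun e he => hterm c hc e he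
  simp_rw [← Finset.mul_sum] at hsum
  rw [sum_exch_eq_En s (k + 1) F, hvar] at hsum
  linarith


/-! ### The induction -/

lemma choose_identity (m k : ℕ) :
    ((m + 1 : ℕ) : ℝ) * (m.choose k : ℝ) * ((m + 2).choose (k + 1) : ℝ) =
      ((m + 2 : ℕ) : ℝ) * ((m + 1).choose k : ℝ) * ((m + 1).choose (k + 1) : ℝ) := by
  have h1 := Nat.add_one_mul_choose_eq (m + 1) k
  have h2 := Nat.add_one_mul_choose_eq m k
  have h1' : ((m + 2 : ℕ) : ℝ) * ((m + 1).choose k : ℝ) =
      ((m + 2).choose (k + 1) : ℝ) * ((k : ℝ) + 1) := by exact_mod_cast h1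
  have h2' : ((m + 1 : ℕ) : ℝ) * (m.choose k : ℝ) =
      ((m + 1).choose (k + 1) : ℝ) * ((k : ℝ) + 1) := by exact_mod_cast h2
  rw [h1', h2']; ring

theorem johnson_poincare_aux : ∀ (N : ℕ) (s : Finset α) (k : ℕ) (F : Finset α → ℝ),
    s.card = N →
    (N : ℝ) * VT (s.powersetCard k) F ≤
      ((s.powersetCard k).card : ℝ) * EnT (s.powersetCard k) F := by
  intro N
  induction N with
  | zero =>
    intro s k F _
    simp only [Nat.cast_zero, zero_mul]
    exact mul_nonneg (Nat.cast_nonneg _) (EnT_nonneg _ _)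
  | succ n ih =>
    intro s k F hs
    by_cases hdeg : (s.powersetCard k).card ≤ 1
    · have : VT (s.powersetCard k) F = 0 := by
        unfold VT
        refine Finset.sum_eq_zero fun A hA => Finset.sum_eq_zero fun B hB => ?_
        rw [Finset.card_le_one.mp hdeg A hA B hB]; ring
      rw [this, mul_zero]
      exact mul_nonneg (Nat.cast_nonneg _) (EnT_nonneg _ _)
    · rw [not_le] at hdeg
      rw [card_powersetCard, hs] at hdeg
      obtain ⟨k', rfl⟩ : ∃ k', k = k' + 1 := by
        cases k with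
        | zero => simp at hdeg
        | succ k' => exact ⟨k', rfl⟩
      have hk : k' + 1 < n + 1 := by
        by_contra h
        rw [not_lt] at h
        rcases Nat.lt_or_eq_of_le h with h | h
        · rw [Nat.choose_eq_zero_of_lt h] at hdeg; omega
        · rw [← h, Nat.choose_self] at hdeg; omega
      obtain ⟨m, rfl⟩ : ∃ m, n = m + 1 := ⟨n - 1, by omega⟩
      -- notation
      have hcard1 : s.card - 1 = m + 1 := by omega
      have hcard2 : s.card - 2 = m := by omega
      have hMnat : (s.powersetCard (k' + 1)).card = (m + 2).choose (k' + 1) := by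
        rw [card_powersetCard, hs]
      have hmp_pos : (0 : ℝ) < ((m + 1).choose k' : ℝ) := by
        exact_mod_cast Nat.choose_pos (by omega)
      have hmm_pos : (0 : ℝ) < ((m + 1).choose (k' + 1) : ℝ) := by
        exact_mod_cast Nat.choose_pos (by omega)
      have hMsum : ((s.powersetCard (k' + 1)).card : ℝ) =
          ((m + 1).choose k' : ℝ) + ((m + 1).choose (k' + 1) : ℝ) := by
        rw [hMnat, Nat.choose_succ_succ]; push_cast; ring
      have hbetween := between_bound s k' F (by omega)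
      rw [hcard1, hcard2, hs] at hbetween
      have hsumE := sum_EnT_filter s (k' + 1) F
      rw [hs] at hsumE
      have hV := sum_sq_diff (s.powersetCard (k' + 1)) F
      have hchoose := choose_identity m k'
      rw [← hMnat] at hchoose
      -- per-element inequality
      have hper : ∀ c ∈ s,
          2 * ((m + 1 : ℕ) : ℝ) * (((m + 1).choose k' : ℝ) * ((m + 1).choose (k' + 1) : ℝ) *
            (((s.powersetCard (k' + 1)).card : ℝ) * ∑ A ∈ s.powersetCard (k' + 1), F A ^ 2 -
              (∑ A ∈ s.powersetCard (k' + 1), F A) ^ 2)) ≤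
          ((s.powersetCard (k' + 1)).card : ℝ) * ((m + 1).choose k' : ℝ) *
              ((m + 1).choose (k' + 1) : ℝ) *
              (EnT ((s.powersetCard (k' + 1)).filter (fun A => c ∈ A)) F +
                EnT ((s.powersetCard (k' + 1)).filter (fun A => c ∉ A)) F) +
            2 * ((m + 1 : ℕ) : ℝ) *
              (((s.powersetCard (k' + 1)).card : ℝ) *
                  (∑ A ∈ (s.powersetCard (k' + 1)).filter (fun A => c ∈ A), F A) -
                ((m + 1).choose k' : ℝ) * ∑ A ∈ s.powersetCard (k' + 1), F A) ^ 2 := by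
        intro c hc
        have hce : (s.erase c).card = m + 1 := by rw [card_erase_of_mem hc]; omega
        -- cardinalities
        have hcp : (((s.powersetCard (k' + 1)).filter (fun A => c ∈ A)).card : ℝ) =
            ((m + 1).choose k' : ℝ) := by
          rw [card_filter_mem s k' hc, hcard1]
        have hcm : (((s.powersetCard (k' + 1)).filter (fun A => c ∉ A)).card : ℝ) =
            ((m + 1).choose (k' + 1) : ℝ) := by
          rw [card_filter_not_mem s (k' + 1) hc, hcard1]
        -- induction hypotheses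
        have ihm := ih (s.erase c) (k' + 1) F hce
        rw [← filter_not_mem] at ihm
        have ihp := ih (s.erase c) k' (fun A => F (insert c A)) hce
        rw [← VT_image_insert _ c (fun A hA => not_mem_of_mem_powersetCard_erase hA),
          ← EnT_image_insert _ c (fun A hA => not_mem_of_mem_powersetCard_erase hA),
          ← Finset.card_image_of_injOn (insert_injOn s k' c), ← filter_mem s k' c hc] at ihp
        rw [hcp] at ihp
        rw [hcm] at ihm
        -- variances of the two parts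
        have hVp := sum_sq_diff ((s.powersetCard (k' + 1)).filter (fun A => c ∈ A)) F
        have hVm := sum_sq_diff ((s.powersetCard (k' + 1)).filter (fun A => c ∉ A)) F
        rw [hcp] at hVp
        rw [hcm] at hVm
        have hS := Finset.sum_filter_add_sum_filter_not (s.powersetCard (k' + 1))
          (fun A => c ∈ A) F
        have hQ := Finset.sum_filter_add_sum_filter_not (s.powersetCard (k' + 1))
          (fun A => c ∈ A) (fun A => F A ^ 2)
        unfold VT at ihp ihm
        rw [hVp] at ihp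
        rw [hVm] at ihm
        rw [← hS, ← hQ, hMsum]
        generalize (∑ A ∈ (s.powersetCard (k' + 1)).filter (fun A => c ∈ A), F A) = Sp at *
        generalize (∑ A ∈ (s.powersetCard (k' + 1)).filter (fun A => c ∉ A), F A) = Sm at *
        generalize (∑ A ∈ (s.powersetCard (k' + 1)).filter (fun A => c ∈ A), F A ^ 2) = Qp at *
        generalize (∑ A ∈ (s.powersetCard (k' + 1)).filter (fun A => c ∉ A), F A ^ 2) = Qm at *
        generalize EnT ((s.powersetCard (k' + 1)).filter (fun A => c ∈ A)) F = Ep at *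
        generalize EnT ((s.powersetCard (k' + 1)).filter (fun A => c ∉ A)) F = Em at *
        generalize ((m + 1).choose k' : ℝ) = mp at *
        generalize ((m + 1).choose (k' + 1) : ℝ) = mm at *
        have hM0 : 0 ≤ (mp + mm) := by linarith
        have i1 := mul_le_mul_of_nonneg_left ihp (mul_nonneg hM0 hmm_pos.le)
        have i2 := mul_le_mul_of_nonneg_left ihm (mul_nonneg hM0 hmp_pos.le)
        push_cast at i1 i2 ⊢
        nlinarith [i1, i2]
      have hsum := Finset.sum_le_sum hper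
      rw [Finset.sum_const, hs, nsmul_eq_mul, Finset.sum_add_distrib, ← Finset.mul_sum,
        ← Finset.mul_sum, hsumE] at hsum
      unfold VT
      rw [hV]
      have pos : (0 : ℝ) < ((m + 1 + 1 : ℕ) : ℝ) * ((m + 1 : ℕ) : ℝ) *
          ((m + 1).choose k' : ℝ) * ((m + 1).choose (k' + 1) : ℝ) := by positivity
      refine le_of_mul_le_mul_left ?_ pos
      have h1 := mul_le_mul_of_nonneg_left hsum
        (show (0 : ℝ) ≤ ((m + 1 + 1 : ℕ) : ℝ) by positivity)
      have h2 := mul_le_mul_of_nonneg_left hbetween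
        (show (0 : ℝ) ≤ ((m + 1 : ℕ) : ℝ) by positivity)
      have h3 := congrArg (fun t : ℝ => ((s.powersetCard (k' + 1)).card : ℝ) *
        EnT (s.powersetCard (k' + 1)) F * t) hchoose
      generalize (∑ c ∈ s, (((s.powersetCard (k' + 1)).card : ℝ) *
          (∑ A ∈ (s.powersetCard (k' + 1)).filter (fun A => c ∈ A), F A) -
        ((m + 1).choose k' : ℝ) * ∑ A ∈ s.powersetCard (k' + 1), F A) ^ 2) = B at *
      generalize EnT (s.powersetCard (k' + 1)) F = E at *
      generalize (((s.powersetCard (k' + 1)).card : ℝ) * ∑ A ∈ s.powersetCard (k' + 1), F A ^ 2 -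
        (∑ A ∈ s.powersetCard (k' + 1), F A) ^ 2) = X at *
      generalize ((s.powersetCard (k' + 1)).card : ℝ) = M at *
      generalize ((m + 1).choose k' : ℝ) = mp at *
      generalize ((m + 1).choose (k' + 1) : ℝ) = mm at *
      generalize (m.choose k' : ℝ) = C2 at *
      push_cast at h1 h2 h3 ⊢
      linarith

/-- **Sharp Poincaré inequality for the Johnson graph** `J(N,k)`, ordered-pair form:
`N * ∑_{A,B} (F A - F B)² ≤ C(N,k) * ∑_{A ~ B} (F A - F B)²`, where `A ~ B` means `|A \ B| = 1`. -/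
theorem johnson_poincare (s : Finset α) (k : ℕ) (F : Finset α → ℝ) :
    (s.card : ℝ) * ∑ A ∈ s.powersetCard k, ∑ B ∈ s.powersetCard k, (F A - F B) ^ 2 ≤
      ((s.powersetCard k).card : ℝ) *
        ∑ A ∈ s.powersetCard k,
          ∑ B ∈ (s.powersetCard k).filter (fun B => (A \ B).card = 1), (F A - F B) ^ 2 :=
  johnson_poincare_aux s.card s k F rfl


/-- Constant-`1/2` form (all that `A_b ≤ (1/2) L^b` needs), valid for every `s` and `k`:
`2 * ∑_{A,B} (F A - F B)² ≤ C(N,k) * ∑_{A ~ B} (F A - F B)²` (ordered pairs on both sides),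
i.e. `∑_A (F A - mean)² ≤ (1/2) * (unordered Johnson edge energy)`. -/
theorem johnson_poincare_two (s : Finset α) (k : ℕ) (F : Finset α → ℝ) :
    2 * ∑ A ∈ s.powersetCard k, ∑ B ∈ s.powersetCard k, (F A - F B) ^ 2 ≤
      ((s.powersetCard k).card : ℝ) *
        ∑ A ∈ s.powersetCard k,
          ∑ B ∈ (s.powersetCard k).filter (fun B => (A \ B).card = 1), (F A - F B) ^ 2 := by
  have hV : 0 ≤ ∑ A ∈ s.powersetCard k, ∑ B ∈ s.powersetCard k, (F A - F B) ^ 2 :=
    Finset.sum_nonneg fun _ _ => Finset.sum_nonneg fun _ _ => sq_nonneg _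
  by_cases h : 2 ≤ s.card
  · have hN : (2 : ℝ) ≤ (s.card : ℝ) := by exact_mod_cast h
    have := johnson_poincare s k F
    nlinarith
  · have hle : (s.powersetCard k).card ≤ 1 := by
      rw [card_powersetCard]
      rw [not_le] at h
      interval_cases hc : s.card
      · cases k with
        | zero => simp
        | succ k => simp
      · rcases k with _ | _ | k
        · simp
        · simp
        · rw [Nat.choose_eq_zero_of_lt (by omega)]; omega
    have h0 : ∑ A ∈ s.powersetCard k, ∑ B ∈ s.powersetCard k, (F A - F B) ^ 2 = 0 := by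
      refine Finset.sum_eq_zero fun A hA => Finset.sum_eq_zero fun B hB => ?_
      rw [Finset.card_le_one.mp hle A hA B hB]; ring
    rw [h0, mul_zero]
    exact mul_nonneg (Nat.cast_nonneg _) (EnT_nonneg _ _)

end Crest.Agent.S0453R.Johnson
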