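import Mathlib

/-!
Row 299 / S0453, module [T-GRAPH] (helper4): three-row zero-one matrices with prescribed margins.
Common definitions for the two halves of the transport
`graph triple class  ↔  matClass r σ  ↔  states of the 3-box system`.
-/

set_option autoImplicit false
open Finset

namespace Crest.Agent.S0453R

/-! ### three-row zero-one matrices -/

section Mat

variable {K : Type*} [Fintype K]

/-- row sum of a three-row zero-one matrix -/
def rowSum (x : Fin 3 → K → Bool) (i : Fin 3) : ℕ := (univ.filter fun k => x i k = true).card

/-- column sum of a three-row zero-one matrix -/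
def colSum (x : Fin 3 → K → Bool) (k : K) : ℕ := (univ.filter fun i => x i k = true).card

lemma rowSum_eq_sum (x : Fin 3 → K → Bool) (i : Fin 3) :
    rowSum x i = ∑ k, if x i k = true then 1 else 0 := by
  rw [rowSum, card_filter]

omit [Fintype K] in
lemma colSum_eq_sum (x : Fin 3 → K → Bool) (k : K) :
    colSum x k = ∑ i, if x i k = true then 1 else 0 := by
  rw [colSum, card_filter]

lemma sum_rowSum (x : Fin 3 → K → Bool) : ∑ i, rowSum x i = ∑ k, colSum x k := by
  simp only [rowSum_eq_sum, colSum_eq_sum]
  exact sum_comm

variable [DecidableEq K]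

/-- the three-row zero-one matrices with row sums `r` and column sums `σ` -/
def matClass (r : Fin 3 → ℕ) (σ : K → ℕ) : Finset (Fin 3 → K → Bool) :=
  univ.filter fun x => (∀ i, rowSum x i = r i) ∧ ∀ k, colSum x k = σ k

/-- the matrices of `S` with the same row `i` as `x` -/
def rowClass (S : Finset (Fin 3 → K → Bool)) (i : Fin 3) (x : Fin 3 → K → Bool) :
    Finset (Fin 3 → K → Bool) :=
  S.filter fun x' => x' i = x i

end Mat


section Avg

variable {K : Type*} [Fintype K] [DecidableEq K]

/-- average of `f` over the matrices of `S` with the same row `i` as `x` -/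
noncomputable def rowAvg (S : Finset (Fin 3 → K → Bool)) (i : Fin 3)
    (f : (Fin 3 → K → Bool) → ℝ) (x : Fin 3 → K → Bool) : ℝ :=
  (∑ x' ∈ rowClass S i x, f x') / ((rowClass S i x).card : ℝ)

end Avg

end Crest.Agent.S0453R
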