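import Mathlib
import Crest.Prelude.Def_SwitchChain
import Crest.Agent.S0453.PairClass
import Crest.Agent.S0453.Avg
import Crest.Agent.S0453.JohnsonPoincare

/-!
Row 299 / S0453 (helper26): PAIRCLASS, part 2 — bridge to the frozen interface (`Avg.lean`)
and the per-pair Johnson–Poincaré inequality on the graph, (G4a):

`∑_{G ∈ Ω} (f G − E_b f G)² ≤ (1/4) ∑_{G, G' ∈ Ω} [sameOff b G G' ∧ SwitchAdj G G'] (f G − f G')²`.
-/

set_option autoImplicit false
open Finset

namespace Crest.Agent.S0453R.PC

open Crest.SwitchChain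

variable {n : ℕ}

/-! ### Bridge: `offPair a b` is `sameOff {a, b}` -/

lemma offPair_iff_sameOff (a b : Fin n) (G G' : Finset (Edge n)) :
    offPair a b G G' ↔ sameOff {a, b} G G' := by
  constructor
  · intro h e he
    obtain ⟨x, y, hxy⟩ : ∃ x y, e.1 = s(x, y) := by
      induction' he' : e.1 using Sym2.ind with x y
      exact ⟨x, y, rfl⟩
    have ha : a ∉ e.1 := he a (by simp)
    have hb : b ∉ e.1 := he b (by simp)
    rw [hxy, Sym2.mem_iff, not_or] at ha hb
    rw [mem_iff_adj e hxy, mem_iff_adj e hxy]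
    exact h x y (Ne.symm ha.1) (Ne.symm hb.1) (Ne.symm ha.2) (Ne.symm hb.2)
  · intro h x y hxa hxb hya hyb
    by_cases hxy : x = y
    · subst hxy
      exact iff_of_false (adj_irrefl G x) (adj_irrefl G' x)
    · rw [adj_iff_mkE hxy, adj_iff_mkE hxy]
      apply h
      intro u hu
      rw [mem_insert, mem_singleton] at hu
      simp only [mkE, Sym2.mem_iff]
      rw [not_or]
      rcases hu with rfl | rfl
      · exact ⟨fun h => hxa h.symm, fun h => hya h.symm⟩
      · exact ⟨fun h => hxb h.symm, fun h => hyb h.symm⟩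

lemma cls_eq_filter_sameOff (d : Fin n → ℕ) (a b : Fin n) (G : Finset (Edge n)) :
    cls d a b G = (realizations d).filter (sameOff {a, b} G) := by
  unfold cls
  exact filter_congr fun G' _ => offPair_iff_sameOff a b G G'

lemma sameOff_resplit {a b : Fin n} (hab : a ≠ b) (G : Finset (Edge n)) (A : Finset (Fin n)) :
    sameOff {a, b} G (resplit a b G A) :=
  (offPair_iff_sameOff a b G _).mp (offPair_resplit hab G A)

/-! ### Johnson moves inside a class -/

lemma insert_erase_inj {A : Finset (Fin n)} {x x' y y' : Fin n} (hx : x ∈ A)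
    (hy : y ∉ A) (h : insert y (A.erase x) = insert y' (A.erase x')) :
    x = x' ∧ y = y' := by
  have hyy : y = y' := by
    have h0 : y ∈ insert y' (A.erase x') := h ▸ mem_insert_self y _
    rcases mem_insert.mp h0 with h1 | h1
    · exact h1
    · exact absurd (mem_of_mem_erase h1) hy
  have hxx : x = x' := by
    by_contra hne
    have h0 : x ∈ insert y' (A.erase x') := mem_insert_of_mem (mem_erase.mpr ⟨hne, hx⟩)
    rw [← h] at h0
    rcases mem_insert.mp h0 with h1 | h1
    · exact hy (h1 ▸ hx)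
    · exact (mem_erase.mp h1).1 rfl
  exact ⟨hxx, hyy⟩

/-- the Johnson energy at `A` is at most the switch energy of `resplit A` inside the class -/
lemma johnson_le_switch {d : Fin n → ℕ} [DecidableRel (SwitchAdj (n := n))] {a b : Fin n}
    (hab : a ≠ b) {G : Finset (Edge n)} (hG : G ∈ realizations d) (f : Finset (Edge n) → ℝ)
    {A : Finset (Fin n)} (hA : A ∈ (priv a b G).powersetCard (sideA a b G).card) :
    ∑ x ∈ A, ∑ y ∈ priv a b G \ A,
        (f (resplit a b G A) - f (resplit a b G (insert y (A.erase x)))) ^ 2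
      ≤ ∑ G' ∈ realizations d,
          if sameOff {a, b} (resplit a b G A) G' ∧ SwitchAdj (resplit a b G A) G'
          then (f (resplit a b G A) - f G') ^ 2 else 0 := by
  rw [mem_powersetCard] at hA
  obtain ⟨hAD, hAk⟩ := hA
  rw [← sum_product', ← sum_filter]
  have hsub : ∀ p ∈ A ×ˢ (priv a b G \ A), insert p.2 (A.erase p.1) ⊆ priv a b G := by
    intro p hp
    rw [mem_product, mem_sdiff] at hp
    intro z hz
    rcases mem_insert.mp hz with rfl | hz
    · exact hp.2.1
    · exact hAD (mem_of_mem_erase hz)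
  have hcard : ∀ p ∈ A ×ˢ (priv a b G \ A),
      (insert p.2 (A.erase p.1)).card = (sideA a b G).card := by
    intro p hp
    rw [mem_product, mem_sdiff] at hp
    rw [card_insert_of_notMem (fun h => hp.2.2 (mem_of_mem_erase h)), card_erase_of_mem hp.1,
      hAk]
    have : 0 < A.card := card_pos.mpr ⟨_, hp.1⟩
    omega
  have hinj : Set.InjOn (fun p : Fin n × Fin n => resplit a b G (insert p.2 (A.erase p.1)))
      (A ×ˢ (priv a b G \ A) : Finset (Fin n × Fin n)) := by
    intro p hp q hq hpq
    have hp' := hp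
    have hq' := hq
    rw [mem_coe, mem_product, mem_sdiff] at hp' hq'
    have h1 := sideA_resplit hab G (hsub p hp)
    have h2 := sideA_resplit hab G (hsub q hq)
    simp only at hpq
    rw [hpq, h2] at h1
    obtain ⟨e1, e2⟩ := insert_erase_inj hq'.1 hq'.2.2 h1
    exact Prod.ext e1.symm e2.symm
  calc ∑ p ∈ A ×ˢ (priv a b G \ A),
        (f (resplit a b G A) - f (resplit a b G (insert p.2 (A.erase p.1)))) ^ 2
      = ∑ G' ∈ (A ×ˢ (priv a b G \ A)).image
            (fun p : Fin n × Fin n => resplit a b G (insert p.2 (A.erase p.1))),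
          (f (resplit a b G A) - f G') ^ 2 :=
        (sum_image (f := fun G' => (f (resplit a b G A) - f G') ^ 2) hinj).symm
    _ ≤ _ := by
        refine sum_le_sum_of_subset_of_nonneg ?_ (fun _ _ _ => sq_nonneg _)
        intro G' hG'
        rw [mem_image] at hG'
        obtain ⟨p, hp, rfl⟩ := hG'
        have hp' := hp
        rw [mem_product, mem_sdiff] at hp'
        rw [mem_filter]
        refine ⟨resplit_mem_realizations hab hG (hsub p hp) (hcard p hp), ?_, ?_⟩
        · exact sameOff_trans (sameOff_symm (sameOff_resplit hab G A)) (sameOff_resplit hab G _)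
        · exact switchAdj_resplit hab G hAD hp'.1 hp'.2.1 hp'.2.2

/-- the pair-class form of Johnson–Poincaré on the graph -/
theorem class_pairs_le {d : Fin n → ℕ} [DecidableRel (SwitchAdj (n := n))] {a b : Fin n}
    (hab : a ≠ b) {G : Finset (Edge n)} (hG : G ∈ realizations d) (f : Finset (Edge n) → ℝ) :
    ∑ G₁ ∈ cls d a b G, ∑ G₂ ∈ cls d a b G, (f G₁ - f G₂) ^ 2
      ≤ 2 * ((cls d a b G).card : ℝ) * ∑ G₁ ∈ cls d a b G,
          (1 / 4) * ∑ G' ∈ realizations d,
            if sameOff {a, b} G₁ G' ∧ SwitchAdj G₁ G' then (f G₁ - f G') ^ 2 else 0 := by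
  have e1 : ∑ G₁ ∈ cls d a b G, ∑ G₂ ∈ cls d a b G, (f G₁ - f G₂) ^ 2
      = ∑ A ∈ (priv a b G).powersetCard (sideA a b G).card,
          ∑ B ∈ (priv a b G).powersetCard (sideA a b G).card,
            (f (resplit a b G A) - f (resplit a b G B)) ^ 2 := by
    rw [sum_cls_eq hab hG (fun G₁ => ∑ G₂ ∈ cls d a b G, (f G₁ - f G₂) ^ 2)]
    refine sum_congr rfl fun A _ => ?_
    rw [sum_cls_eq hab hG (fun G₂ => (f (resplit a b G A) - f G₂) ^ 2)]
  have e2 : ((cls d a b G).card : ℝ)
      = (((priv a b G).powersetCard (sideA a b G).card).card : ℝ) := by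
    have h := sum_cls_eq hab hG (fun _ => (1 : ℝ))
    simpa using h
  have e3 := sum_cls_eq hab hG (fun G₁ => (1 / 4 : ℝ) * ∑ G' ∈ realizations d,
    if sameOff {a, b} G₁ G' ∧ SwitchAdj G₁ G' then (f G₁ - f G') ^ 2 else 0)
  rw [e1, e2, e3]
  have hJP := JP.johnson_poincare (priv a b G) (sideA a b G).card
    (fun A => f (resplit a b G A))
  have hle : ∑ A ∈ (priv a b G).powersetCard (sideA a b G).card, ∑ x ∈ A,
        ∑ y ∈ priv a b G \ A,
          (f (resplit a b G A) - f (resplit a b G (insert y (A.erase x)))) ^ 2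
      ≤ ∑ A ∈ (priv a b G).powersetCard (sideA a b G).card, ∑ G' ∈ realizations d,
          if sameOff {a, b} (resplit a b G A) G' ∧ SwitchAdj (resplit a b G A) G'
          then (f (resplit a b G A) - f G') ^ 2 else 0 :=
    sum_le_sum fun A hA => johnson_le_switch hab hG f hA
  have hK : (0 : ℝ) ≤ (((priv a b G).powersetCard (sideA a b G).card).card : ℝ) :=
    Nat.cast_nonneg _
  rw [← mul_sum]
  nlinarith [mul_le_mul_of_nonneg_left hle hK]

/-- **(G4a)**: Johnson–Poincaré for one pair `b`, on the graph: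
`‖f − E_b f‖² ≤ (1/4) ∑_{G, G'} [sameOff b G G' ∧ SwitchAdj G G'] (f G − f G')²`. -/
theorem G4a (d : Fin n → ℕ) [DecidableRel (SwitchAdj (n := n))] (b : Finset (Fin n))
    (hb : b ∈ pairs n) (f : Finset (Edge n) → ℝ) :
    ∑ G ∈ realizations d, (f G - E d b f G) ^ 2
      ≤ (1 / 4) * ∑ G ∈ realizations d, ∑ G' ∈ realizations d,
          if sameOff b G G' ∧ SwitchAdj G G' then (f G - f G') ^ 2 else 0 := by
  obtain ⟨a, a', haa', rfl⟩ : ∃ a a', a ≠ a' ∧ b = {a, a'} := by
    have h2 : b.card = 2 := by simpa [pairs, mem_powersetCard] using hb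
    exact card_eq_two.mp h2
  rw [mul_sum]
  refine sum_sq_sub_E_le_of_pairs d {a, a'} f _ fun G hG => ?_
  rw [← cls_eq_filter_sameOff]
  exact class_pairs_le haa' hG f

end Crest.Agent.S0453R.PC
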