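import Mathlib
import Crest.Prelude.Def_SwitchChain
import Crest.Agent.S0453.PM
import Crest.Agent.S0453.Connect
import Crest.Agent.S0453.Avg
import Crest.Agent.S0453.CoupleDefs
import Crest.Agent.S0453.SAbs

/-!
Row 299 / S0453 — [CS track B], the graph half of Lemma C (helper21, hedge for (F2)+(F3) of board
post #1115): for a couple of disjoint pairs `b`, `b'`

  `transport_couple : SAbs.Transport (realizations d) (sameOffM b b') (sameOff b')`.

Everything is done with neighbour sets `nb G v` (from `Connect.lean`).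

Construction (the "splice"): for `G''` in the `sameOffM b b'`-class of `G` pick a permutation `τ`
of the vertices which fixes every vertex outside `b` (the identity or the transposition of `b`) such
that the block row sums satisfy `r_G (τ x) = r_{G''} x` for `x ∈ b`; then for `H` in the `b'`-class
of `G` let `K` have the slots touching `b'` from `H`, transported by `τ`, and all slots avoiding
`b'` from `G''`.
-/

set_option autoImplicit false
open Finset

namespace Crest.Agent.S0453R.Sp21

open Crest.SwitchChain Crest.Agent.S0453R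

variable {n : ℕ}

/-! ### graphs through neighbour sets -/

/-- the graph of a relation on the vertices -/
noncomputable def ofRel (R : Fin n → Fin n → Prop) : Finset (Edge n) := by
  classical
  exact univ.filter fun e => ∃ x y, e.1 = s(x, y) ∧ R x y

lemma mkE_mem_ofRel {R : Fin n → Fin n → Prop} (hR : ∀ x y, R x y → R y x) {v w : Fin n} (h : v ≠ w) :
    mkE v w h ∈ ofRel R ↔ R v w := by
  classical
  unfold ofRel
  simp only [mem_filter, mem_univ, true_and]
  constructor
  · rintro ⟨x, y, hxy, hr⟩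
    have hxy' : s(v, w) = s(x, y) := hxy
    rcases Sym2.eq_iff.mp hxy' with ⟨rfl, rfl⟩ | ⟨rfl, rfl⟩
    · exact hr
    · exact hR _ _ hr
  · intro hr
    exact ⟨v, w, rfl, hr⟩

lemma mem_nb_ofRel {R : Fin n → Fin n → Prop} (hR : ∀ x y, R x y → R y x) {v w : Fin n} :
    w ∈ nb (ofRel R) v ↔ v ≠ w ∧ R v w := by
  rw [mem_nb]
  constructor
  · rintro ⟨h, hm⟩
    exact ⟨h, (mkE_mem_ofRel hR h).1 hm⟩
  · rintro ⟨h, hr⟩
    exact ⟨h, (mkE_mem_ofRel hR h).2 hr⟩

lemma sameOff_iff_nb {U : Finset (Fin n)} {G H : Finset (Edge n)} :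
    sameOff U G H ↔ ∀ x y, x ∉ U → y ∉ U → (y ∈ nb G x ↔ y ∈ nb H x) := by
  constructor
  · intro h x y hx hy
    by_cases hxy : x = y
    · subst hxy
      simp [not_mem_nb_self]
    · rw [← mkE_mem_iff hxy, ← mkE_mem_iff hxy]
      apply h
      intro u hu hmem
      have hmem' : u ∈ s(x, y) := hmem
      rcases Sym2.mem_iff.mp hmem' with rfl | rfl
      · exact hx hu
      · exact hy hu
  · intro h e he
    obtain ⟨x, y, hxy, rfl⟩ := edge_eq_mkE e
    rw [mkE_mem_iff, mkE_mem_iff]
    apply h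
    · intro hxU
      exact he x hxU (Sym2.mem_mk_left x y)
    · intro hyU
      exact he y hyU (Sym2.mem_mk_right x y)

lemma ext_nb {G H : Finset (Edge n)} (h : ∀ x y, y ∈ nb G x ↔ y ∈ nb H x) : G = H := by
  ext e
  obtain ⟨x, y, hxy, rfl⟩ := edge_eq_mkE e
  rw [mkE_mem_iff, mkE_mem_iff]
  exact h x y

lemma nb_sdiff_eq {U : Finset (Fin n)} {G H : Finset (Edge n)} (h : sameOff U G H) {v : Fin n}
    (hv : v ∉ U) : nb G v \ U = nb H v \ U := by
  ext w
  simp only [mem_sdiff]
  constructor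
  · rintro ⟨h1, h2⟩
    exact ⟨(sameOff_iff_nb.1 h v w hv h2).1 h1, h2⟩
  · rintro ⟨h1, h2⟩
    exact ⟨(sameOff_iff_nb.1 h v w hv h2).2 h1, h2⟩

/-- (Marg) in neighbour form: the number of neighbours inside `U` of a vertex outside `U` is
constant on `sameOff U`-classes. -/
lemma card_nb_inter_eq {d : Fin n → ℕ} {U : Finset (Fin n)} {G H : Finset (Edge n)}
    (hG : G ∈ realizations d) (hH : H ∈ realizations d) (h : sameOff U G H) {v : Fin n}
    (hv : v ∉ U) : (nb G v ∩ U).card = (nb H v ∩ U).card := by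
  have h1 := card_inter_add_card_sdiff (nb G v) U
  have h2 := card_inter_add_card_sdiff (nb H v) U
  rw [card_nb_of_mem hG] at h1
  rw [card_nb_of_mem hH, ← nb_sdiff_eq h hv] at h2
  omega

/-! ### the block margins and `Ms` -/

lemma nb_inter_cross {b b' : Finset (Fin n)} (hd : Disjoint b b') (G : Finset (Edge n))
    {x : Fin n} (hx : x ∈ b) : nb (G ∩ cross b b') x = nb G x ∩ b' := by
  ext w
  rw [mem_nb, mem_inter, mem_nb]
  constructor
  · rintro ⟨h, hm⟩
    rw [mem_inter, mem_cross] at hm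
    obtain ⟨hG, -, ⟨y, hy, hye⟩⟩ := hm
    refine ⟨⟨h, hG⟩, ?_⟩
    have hye' : y ∈ s(x, w) := hye
    rcases Sym2.mem_iff.mp hye' with rfl | rfl
    · exact absurd hy (disjoint_left.1 hd hx)
    · exact hy
  · rintro ⟨⟨h, hG⟩, hw⟩
    exact ⟨h, mem_inter.2 ⟨hG, mem_cross.2
      ⟨⟨x, hx, Sym2.mem_mk_left x w⟩, ⟨w, hw, Sym2.mem_mk_right x w⟩⟩⟩⟩

lemma Ms_iff_nb {b b' : Finset (Fin n)} (hd : Disjoint b b') (G : Finset (Edge n)) :
    Ms b b' G ↔ (∀ x ∈ b, (nb G x ∩ b').card = 1) ∧ (∀ y ∈ b', (nb G y ∩ b).card = 1) := by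
  have key : ∀ x, ((G ∩ cross b b').filter fun e => x ∈ e.1).card
      = (nb (G ∩ cross b b') x).card := fun x => deg_eq_card_nb (G ∩ cross b b') x
  unfold Ms
  constructor
  · intro h
    refine ⟨fun x hx => ?_, fun y hy => ?_⟩
    · have := h x (mem_union_left _ hx)
      rwa [key, nb_inter_cross hd G hx] at this
    · have := h y (mem_union_right _ hy)
      rwa [key, cross_comm, nb_inter_cross hd.symm G hy] at this
  · rintro ⟨h1, h2⟩ x hx
    rcases mem_union.1 hx with hx | hx
    · rw [key, nb_inter_cross hd G hx]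
      exact h1 x hx
    · rw [key, cross_comm, nb_inter_cross hd.symm G hx]
      exact h2 x hx

/-- double counting of the block edges -/
lemma sum_rows_eq_sum_cols (b b' : Finset (Fin n)) (G : Finset (Edge n)) :
    ∑ x ∈ b, (nb G x ∩ b').card = ∑ y ∈ b', (nb G y ∩ b).card := by
  have h1 : ∀ x, (nb G x ∩ b').card = ∑ y ∈ b', if y ∈ nb G x then 1 else 0 := by
    intro x
    rw [inter_comm, ← filter_mem_eq_inter, card_filter]
  have h2 : ∀ y, (nb G y ∩ b).card = ∑ x ∈ b, if x ∈ nb G y then 1 else 0 := by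
    intro y
    rw [inter_comm, ← filter_mem_eq_inter, card_filter]
  simp only [h1, h2]
  rw [sum_comm]
  refine sum_congr rfl fun y _ => sum_congr rfl fun x _ => ?_
  simp only [mem_nb_comm (v := x) (w := y)]

/-! ### permutations fixing the complement of `b` -/

section perm

variable {b b' : Finset (Fin n)} {τ : Equiv.Perm (Fin n)}

lemma tau_mem_iff (hτ : ∀ x, x ∉ b → τ x = x) (x : Fin n) : τ x ∈ b ↔ x ∈ b := by
  constructor
  · intro h
    by_contra hx
    rw [hτ x hx] at h
    exact hx h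
  · intro hx
    by_contra h
    have h1 : τ (τ x) = τ x := hτ _ h
    have h2 : τ x = x := τ.injective h1
    rw [h2] at h
    exact h hx

lemma tau_symm_fix (hτ : ∀ x, x ∉ b → τ x = x) : ∀ x, x ∉ b → τ.symm x = x := by
  intro x hx
  rw [Equiv.symm_apply_eq]
  exact (hτ x hx).symm

lemma tau_fix' (hd : Disjoint b b') (hτ : ∀ x, x ∉ b → τ x = x) {x : Fin n} (hx : x ∈ b') :
    τ x = x := hτ x (disjoint_right.1 hd hx)

lemma tau_mem_iff' (hd : Disjoint b b') (hτ : ∀ x, x ∉ b → τ x = x) (x : Fin n) :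
    τ x ∈ b' ↔ x ∈ b' := by
  constructor
  · intro h
    have h1 : τ x ∉ b := disjoint_right.1 hd h
    have h2 : x ∉ b := fun hx => h1 ((tau_mem_iff hτ x).2 hx)
    rwa [hτ x h2] at h
  · intro hx
    rwa [tau_fix' hd hτ hx]

end perm

/-! ### the splice -/

/-- the spliced graph: slots touching `b'` from `H`, transported by `τ`; slots avoiding `b'`
from `G''`. -/
noncomputable def splice (b' : Finset (Fin n)) (τ : Equiv.Perm (Fin n))
    (G'' H : Finset (Edge n)) : Finset (Edge n) :=
  ofRel fun x y => if x ∈ b' ∨ y ∈ b' then τ y ∈ nb H (τ x) else y ∈ nb G'' x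

lemma mem_nb_splice {b' : Finset (Fin n)} {τ : Equiv.Perm (Fin n)} {G'' H : Finset (Edge n)}
    {x y : Fin n} :
    y ∈ nb (splice b' τ G'' H) x ↔ if x ∈ b' ∨ y ∈ b' then τ y ∈ nb H (τ x) else y ∈ nb G'' x := by
  unfold splice
  rw [mem_nb_ofRel]
  · constructor
    · exact fun h => h.2
    · intro h
      refine ⟨?_, h⟩
      split_ifs at h with hc
      · intro hxy
        subst hxy
        exact not_mem_nb_self _ _ h
      · exact ne_of_mem_nb h
  · intro u v huv
    by_cases hc : u ∈ b' ∨ v ∈ b'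
    · rw [if_pos hc] at huv
      rw [if_pos (Or.symm hc)]
      exact mem_nb_comm.1 huv
    · rw [if_neg hc] at huv
      rw [if_neg (fun h => hc (Or.symm h))]
      exact mem_nb_comm.1 huv

section spec

variable {d : Fin n → ℕ} {b b' : Finset (Fin n)} {τ : Equiv.Perm (Fin n)}
  {G G'' H : Finset (Edge n)}

lemma sameOff_splice_right : sameOff b' G'' (splice b' τ G'' H) := by
  rw [sameOff_iff_nb]
  intro x y hx hy
  rw [mem_nb_splice, if_neg (not_or.2 ⟨hx, hy⟩)]

lemma sameOff_splice_left (hτ : ∀ x, x ∉ b → τ x = x) (hGG : sameOff b G G'')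
    (hGH : sameOff b' G H) : sameOff b H (splice b' τ G'' H) := by
  rw [sameOff_iff_nb]
  intro x y hx hy
  rw [mem_nb_splice]
  by_cases hc : x ∈ b' ∨ y ∈ b'
  · rw [if_pos hc, hτ x hx, hτ y hy]
  · rw [if_neg hc]
    rw [not_or] at hc
    rw [← sameOff_iff_nb.1 hGG x y hx hy, sameOff_iff_nb.1 hGH x y hc.1 hc.2]

/-- neighbours in the splice of a vertex of `b'` -/
lemma nb_splice_of_mem (hd : Disjoint b b') (hτ : ∀ x, x ∉ b → τ x = x) {v : Fin n}
    (hv : v ∈ b') : nb (splice b' τ G'' H) v = (nb H v).map τ.symm.toEmbedding := by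
  ext w
  rw [mem_nb_splice, if_pos (Or.inl hv), tau_fix' hd hτ hv, mem_map_equiv, Equiv.symm_symm]

/-- neighbours in the splice of a vertex outside `b'` -/
lemma nb_splice_of_not_mem (hd : Disjoint b b') (hτ : ∀ x, x ∉ b → τ x = x) {v : Fin n}
    (hv : v ∉ b') :
    nb (splice b' τ G'' H) v = (nb H (τ v) ∩ b') ∪ (nb G'' v \ b') := by
  ext w
  rw [mem_nb_splice, mem_union, mem_inter, mem_sdiff]
  by_cases hw : w ∈ b'
  · rw [if_pos (Or.inr hw), tau_fix' hd hτ hw]
    tauto
  · rw [if_neg (not_or.2 ⟨hv, hw⟩)]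
    tauto

lemma splice_mem (hd : Disjoint b b') (hτ : ∀ x, x ∉ b → τ x = x)
    (hG : G ∈ realizations d) (hG'' : G'' ∈ realizations d) (hH : H ∈ realizations d)
    (hGG : sameOff b G G'') (hGH : sameOff b' G H)
    (hrow : ∀ v ∈ b, (nb G (τ v) ∩ b').card = (nb G'' v ∩ b').card) :
    splice b' τ G'' H ∈ realizations d := by
  simp only [realizations, mem_filter, mem_univ, true_and]
  intro v
  rw [deg_eq_card_nb]
  by_cases hv : v ∈ b'
  · rw [nb_splice_of_mem hd hτ hv, card_map, card_nb_of_mem hH]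
  · rw [nb_splice_of_not_mem hd hτ hv, card_union_of_disjoint]
    · have hτv : τ v ∉ b' := fun h => hv ((tau_mem_iff' hd hτ v).1 h)
      have e1 : (nb H (τ v) ∩ b').card = (nb G (τ v) ∩ b').card :=
        (card_nb_inter_eq hG hH hGH hτv).symm
      have e2 : (nb G (τ v) ∩ b').card = (nb G'' v ∩ b').card := by
        by_cases hvb : v ∈ b
        · exact hrow v hvb
        · rw [hτ v hvb]
          congr 1
          ext w
          simp only [mem_inter]
          constructor
          · rintro ⟨h1, h2⟩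
            exact ⟨(sameOff_iff_nb.1 hGG v w hvb (disjoint_right.1 hd h2)).1 h1, h2⟩
          · rintro ⟨h1, h2⟩
            exact ⟨(sameOff_iff_nb.1 hGG v w hvb (disjoint_right.1 hd h2)).2 h1, h2⟩
      have e3 := card_inter_add_card_sdiff (nb G'' v) b'
      rw [card_nb_of_mem hG''] at e3
      omega
    · rw [disjoint_left]
      intro w hw1 hw2
      exact (mem_sdiff.1 hw2).2 (mem_inter.1 hw1).2

lemma Ms_splice (hd : Disjoint b b') (hτ : ∀ x, x ∉ b → τ x = x) :
    Ms b b' (splice b' τ G'' H) ↔ Ms b b' H := by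
  rw [Ms_iff_nb hd, Ms_iff_nb hd]
  have hrow : ∀ x ∈ b, (nb (splice b' τ G'' H) x ∩ b').card = (nb H (τ x) ∩ b').card := by
    intro x hx
    have hx' : x ∉ b' := disjoint_left.1 hd hx
    rw [nb_splice_of_not_mem hd hτ hx']
    congr 1
    ext w
    simp only [mem_inter, mem_union, mem_sdiff]
    tauto
  have hcol : ∀ y ∈ b', (nb (splice b' τ G'' H) y ∩ b).card = (nb H y ∩ b).card := by
    intro y hy
    rw [nb_splice_of_mem hd hτ hy]
    have : (nb H y).map τ.symm.toEmbedding ∩ b = (nb H y ∩ b).map τ.symm.toEmbedding := by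
      ext w
      simp only [mem_inter, mem_map_equiv, Equiv.symm_symm]
      rw [tau_mem_iff hτ]
    rw [this, card_map]
  constructor
  · rintro ⟨h1, h2⟩
    refine ⟨fun x hx => ?_, fun y hy => ?_⟩
    · have hx' : τ.symm x ∈ b := (tau_mem_iff (tau_symm_fix hτ) x).2 hx
      have := h1 _ hx'
      rwa [hrow _ hx', Equiv.apply_symm_apply] at this
    · have := h2 y hy
      rwa [hcol y hy] at this
  · rintro ⟨h1, h2⟩
    refine ⟨fun x hx => ?_, fun y hy => ?_⟩
    · rw [hrow x hx]
      exact h1 _ ((tau_mem_iff hτ x).2 hx)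
    · rw [hcol y hy]
      exact h2 y hy

lemma splice_inj (hd : Disjoint b b') (hτ : ∀ x, x ∉ b → τ x = x) {H H' : Finset (Edge n)}
    (hGH : sameOff b' G H) (hGH' : sameOff b' G H')
    (heq : splice b' τ G'' H = splice b' τ G'' H') : H = H' := by
  apply ext_nb
  intro x y
  by_cases hc : x ∈ b' ∨ y ∈ b'
  · have key : ∀ K : Finset (Edge n),
        (τ.symm y ∈ nb (splice b' τ G'' K) (τ.symm x) ↔ y ∈ nb K x) := by
      intro K
      have hc' : τ.symm x ∈ b' ∨ τ.symm y ∈ b' := by
        rcases hc with h | h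
        · exact Or.inl ((tau_mem_iff' hd (tau_symm_fix hτ) x).2 h)
        · exact Or.inr ((tau_mem_iff' hd (tau_symm_fix hτ) y).2 h)
      rw [mem_nb_splice, if_pos hc', Equiv.apply_symm_apply, Equiv.apply_symm_apply]
    rw [← key H, ← key H', heq]
  · rw [not_or] at hc
    rw [← sameOff_iff_nb.1 hGH x y hc.1 hc.2, sameOff_iff_nb.1 hGH' x y hc.1 hc.2]

end spec

/-! ### (F1): the permutation `τ` -/

section tau

variable {d : Fin n → ℕ} {b b' : Finset (Fin n)} {G G'' : Finset (Edge n)}

/-- a full row and an empty row of the block force both column sums to be `1` -/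
lemma cols_of_rows {x0 x1 : Fin n} (hb : ∀ x ∈ b, x = x0 ∨ x = x1) (hx0 : x0 ∈ b)
    (hb' : b'.card = 2) (G : Finset (Edge n))
    (h0 : (nb G x0 ∩ b').card = 2) (h1 : (nb G x1 ∩ b').card = 0) :
    ∀ y ∈ b', (nb G y ∩ b).card = 1 := by
  intro y hy
  have e0 : nb G x0 ∩ b' = b' := eq_of_subset_of_card_le inter_subset_right (by rw [h0, hb'])
  have e1 : nb G x1 ∩ b' = ∅ := card_eq_zero.1 h1
  have hy0 : x0 ∈ nb G y := by
    have : y ∈ nb G x0 ∩ b' := by rw [e0]; exact hy
    exact mem_nb_comm.1 (mem_inter.1 this).1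
  have hy1 : x1 ∉ nb G y := by
    intro h
    have : y ∈ nb G x1 ∩ b' := mem_inter.2 ⟨mem_nb_comm.1 h, hy⟩
    rw [e1] at this
    exact notMem_empty _ this
  have : nb G y ∩ b = {x0} := by
    ext w
    rw [mem_inter, mem_singleton]
    constructor
    · rintro ⟨hw1, hw2⟩
      rcases hb w hw2 with rfl | rfl
      · rfl
      · exact absurd hw1 hy1
    · rintro rfl
      exact ⟨hy0, hx0⟩
  rw [this, card_singleton]

/-- (F1) inside a `sameOffM b b'`-class the block row sums are equal or swapped: there is a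
permutation `τ` fixing the complement of `b` with `r_G (τ x) = r_{G''} x` on `b`. -/
lemma exists_tau (hb : b ∈ pairs n) (hb' : b' ∈ pairs n) (hd : Disjoint b b')
    (hG : G ∈ realizations d) (hG'' : G'' ∈ realizations d) (h : sameOffM b b' G G'') :
    ∃ τ : Equiv.Perm (Fin n), (∀ x, x ∉ b → τ x = x) ∧
      ∀ v ∈ b, (nb G (τ v) ∩ b').card = (nb G'' v ∩ b').card := by
  have hbc : b.card = 2 := by simpa [pairs, mem_powersetCard] using hb
  have hbc' : b'.card = 2 := by simpa [pairs, mem_powersetCard] using hb'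
  obtain ⟨a, a', haa', rfl⟩ := card_eq_two.1 hbc
  -- the column sums agree
  have hcol : ∀ y ∈ b', (nb G y ∩ {a, a'}).card = (nb G'' y ∩ {a, a'}).card := fun y hy =>
    card_nb_inter_eq hG hG'' h.1 (disjoint_right.1 hd hy)
  -- the sums of the two rows agree
  have hsum : (nb G a ∩ b').card + (nb G a' ∩ b').card
      = (nb G'' a ∩ b').card + (nb G'' a' ∩ b').card := by
    have s1 := sum_rows_eq_sum_cols {a, a'} b' G
    have s2 := sum_rows_eq_sum_cols {a, a'} b' G''
    rw [sum_pair haa'] at s1 s2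
    rw [s1, s2]
    exact sum_congr rfl hcol
  have hle : ∀ (K : Finset (Edge n)) (x : Fin n), (nb K x ∩ b').card ≤ 2 := fun K x =>
    hbc' ▸ card_le_card inter_subset_right
  by_cases h1 : (nb G a ∩ b').card = (nb G'' a ∩ b').card
  · refine ⟨1, fun x _ => rfl, fun v hv => ?_⟩
    rcases mem_insert.1 hv with rfl | hv
    · exact h1
    · rw [mem_singleton] at hv
      subst hv
      simp only [Equiv.Perm.coe_one, id]
      omega
  by_cases h2 : (nb G a' ∩ b').card = (nb G'' a ∩ b').card
  · refine ⟨Equiv.swap a a', fun x hx => ?_, fun v hv => ?_⟩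
    · rw [mem_insert, mem_singleton, not_or] at hx
      exact Equiv.swap_apply_of_ne_of_ne hx.1 hx.2
    · rcases mem_insert.1 hv with rfl | hv
      · rw [Equiv.swap_apply_left]
        exact h2
      · rw [mem_singleton] at hv
        subst hv
        rw [Equiv.swap_apply_right]
        omega
  exfalso
  have hxa := hle G a
  have hxa' := hle G a'
  have hya := hle G'' a
  have hya' := hle G'' a'
  have hMs := h.2
  rw [Ms_iff_nb hd, Ms_iff_nb hd] at hMs
  have hswap : ∀ x ∈ ({a, a'} : Finset (Fin n)), x = a' ∨ x = a := by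
    intro x hx
    rcases mem_insert.1 hx with rfl | hx
    · exact Or.inr rfl
    · exact Or.inl (mem_singleton.1 hx)
  have hcases : ((nb G a ∩ b').card = 1 ∧ (nb G a' ∩ b').card = 1 ∧
        (((nb G'' a ∩ b').card = 2 ∧ (nb G'' a' ∩ b').card = 0) ∨
          ((nb G'' a ∩ b').card = 0 ∧ (nb G'' a' ∩ b').card = 2))) ∨
      ((nb G'' a ∩ b').card = 1 ∧ (nb G'' a' ∩ b').card = 1 ∧
        (((nb G a ∩ b').card = 2 ∧ (nb G a' ∩ b').card = 0) ∨
          ((nb G a ∩ b').card = 0 ∧ (nb G a' ∩ b').card = 2))) := by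
    omega
  rcases hcases with ⟨r1, r2, hc⟩ | ⟨r1, r2, hc⟩
  · -- `G` has rows `(1,1)`, `G''` has a full row and an empty row
    have hcols : ∀ y ∈ b', (nb G'' y ∩ {a, a'}).card = 1 := by
      rcases hc with ⟨c1, c2⟩ | ⟨c1, c2⟩
      · exact cols_of_rows (by simp) (by simp) hbc' G'' c1 c2
      · exact cols_of_rows hswap (by simp) hbc' G'' c2 c1
    have hMG : (∀ x ∈ ({a, a'} : Finset (Fin n)), (nb G x ∩ b').card = 1) ∧
        (∀ y ∈ b', (nb G y ∩ {a, a'}).card = 1) := by
      refine ⟨fun x hx => ?_, fun y hy => by rw [hcol y hy]; exact hcols y hy⟩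
      rcases mem_insert.1 hx with rfl | hx
      · exact r1
      · rw [mem_singleton] at hx
        subst hx
        exact r2
    have := (hMs.1 hMG).1 a (by simp)
    omega
  · -- `G''` has rows `(1,1)`, `G` has a full row and an empty row
    have hcols : ∀ y ∈ b', (nb G y ∩ {a, a'}).card = 1 := by
      rcases hc with ⟨c1, c2⟩ | ⟨c1, c2⟩
      · exact cols_of_rows (by simp) (by simp) hbc' G c1 c2
      · exact cols_of_rows hswap (by simp) hbc' G c2 c1
    have hMG : (∀ x ∈ ({a, a'} : Finset (Fin n)), (nb G'' x ∩ b').card = 1) ∧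
        (∀ y ∈ b', (nb G'' y ∩ {a, a'}).card = 1) := by
      refine ⟨fun x hx => ?_, fun y hy => by rw [← hcol y hy]; exact hcols y hy⟩
      rcases mem_insert.1 hx with rfl | hx
      · exact r1
      · rw [mem_singleton] at hx
        subst hx
        exact r2
    have := (hMs.2 hMG).1 a (by simp)
    omega

end tau

/-! ### the transport -/

/-- **Lemma C, graph half**: the class transport for `P_b` against `E_b'`. -/
theorem transport_couple (d : Fin n → ℕ) {b b' : Finset (Fin n)} (hb : b ∈ pairs n)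
    (hb' : b' ∈ pairs n) (hd : Disjoint b b') :
    SAbs.Transport (realizations d) (sameOffM b b') (sameOff b') := by
  intro G hG G'' hG'' h
  obtain ⟨τ, hτ, hrow⟩ := exists_tau hb hb' hd hG hG'' h
  refine ⟨splice b' τ G'', ?_, ?_⟩
  · intro H hH hGH
    exact ⟨splice_mem hd hτ hG hG'' hH h.1 hGH hrow, sameOff_splice_right,
      sameOff_splice_left hτ h.1 hGH, (Ms_splice hd hτ).symm⟩
  · intro H _ H' _ hGH hGH' heq
    exact splice_inj hd hτ hGH hGH' heq

end Crest.Agent.S0453R.Sp21
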