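import Mathlib
import Crest.Prelude.Def_SwitchChain
import Crest.Agent.S0453.Avg

/-!
Row 299 / S0453 — bridges for the overlapping part `O` of Caputo's identity (helper20).

Three equivalent-strength shapes of the 3-vertex lemma (T), from weakest-looking to the target
`(G1)` of the driver's interface (board post 1020):

* per class (`hcls`): on every `T`-class `C`:
    `|C| ∑_C f² − (∑_C f)² ≤ |C| ∑_{b ⊂ T} ∑_{G ∈ C} (f G − E_b f G)²`;
* operator form (T-op): `∑_Ω (f − P_T f)² ≤ ∑_{b ⊂ T} ∑_Ω (f − E_b f)²`   (`X_T ≥ I − P_T`);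
* (G1): `0 ≤ ∑_{b ≠ b' ⊂ T} ∑_Ω (f − E_b f)(f − E_b' f)`                    (`X_T² ≥ X_T`).

`Top_of_class : per class → (T-op)`, `G1_of_Top : (T-op) → (G1)`, `G1_of_class` = both.
The abstract versions (`avgOn_sub_sq_le_of_class`, `cross_nonneg_of_op`) work for any finset `Ω`,
any family of relations `r b` finer than a relation `rT`.
-/

set_option autoImplicit false
open Finset

namespace Crest.Agent.S0453R

open Crest.SwitchChain

section abstract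

variable {α γ : Type*} {Ω : Finset α}

/-- `|C| ∑_C (f − mean_C f)² = |C| ∑_C f² − (∑_C f)²` -/
lemma card_mul_sum_sq_sub_mean (C : Finset α) (f : α → ℝ) :
    (C.card : ℝ) * ∑ y ∈ C, (f y - (∑ z ∈ C, f z) / (C.card : ℝ)) ^ 2
      = (C.card : ℝ) * ∑ y ∈ C, f y ^ 2 - (∑ y ∈ C, f y) ^ 2 := by
  rcases C.eq_empty_or_nonempty with rfl | hC
  · simp
  have hc : (C.card : ℝ) ≠ 0 := by exact_mod_cast hC.card_pos.ne'
  have e1 : ∑ y ∈ C, (f y - (∑ z ∈ C, f z) / (C.card : ℝ)) ^ 2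
      = ∑ z ∈ C, f z ^ 2 - 2 * ((∑ z ∈ C, f z) / (C.card : ℝ)) * ∑ z ∈ C, f z
        + (C.card : ℝ) * ((∑ z ∈ C, f z) / (C.card : ℝ)) ^ 2 := by
    have : ∀ y ∈ C, (f y - (∑ z ∈ C, f z) / (C.card : ℝ)) ^ 2
        = f y ^ 2 - 2 * ((∑ z ∈ C, f z) / (C.card : ℝ)) * f y
          + ((∑ z ∈ C, f z) / (C.card : ℝ)) ^ 2 := fun y _ => by ring
    rw [sum_congr rfl this, sum_add_distrib, sum_sub_distrib, ← mul_sum, sum_const, nsmul_eq_mul]
  rw [e1]
  field_simp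
  ring

/-- per-class variance bounds add up: if on every class `C` of `r`
`|C| ∑_C f² − (∑_C f)² ≤ |C| ∑_{y ∈ C} g y`, then `∑_Ω (f − E f)² ≤ ∑_Ω g`. -/
lemma avgOn_sub_sq_le_of_class {r : α → α → Prop} [DecidableRel r] (h : EquivOn Ω r)
    (f g : α → ℝ)
    (hcls : ∀ x ∈ Ω, ((Ω.filter (r x)).card : ℝ) * ∑ y ∈ Ω.filter (r x), f y ^ 2
        - (∑ y ∈ Ω.filter (r x), f y) ^ 2
        ≤ ((Ω.filter (r x)).card : ℝ) * ∑ y ∈ Ω.filter (r x), g y) :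
    ∑ x ∈ Ω, (f x - avgOn Ω r f x) ^ 2 ≤ ∑ x ∈ Ω, g x := by
  refine Crest.Agent.S0453.Caputo20.sum_sq_sub_avgOn_le Ω r h.refl h.symm h.trans f g
    fun x hx => ?_
  have hc := card_class_pos h hx
  have h1 := card_mul_sum_sq_sub_mean (Ω.filter (r x)) f
  have h2 := hcls x hx
  rw [← h1] at h2
  exact le_of_mul_le_mul_left h2 hc

variable [DecidableEq γ]

/-- **`X ≥ I − P` implies `X² ≥ X`** for class averages: `r b` (`b ∈ B`) equivalence relations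
on `Ω`, all finer than `rT`; if `∑_Ω (f − E_T f)² ≤ ∑_{b ∈ B} ∑_Ω (f − E_b f)²` for all `f`, then
`0 ≤ ∑_{b ≠ b' ∈ B} ∑_Ω (f − E_b f)(f − E_b' f)` for all `f`. -/
theorem cross_nonneg_of_op (B : Finset γ) (r : γ → α → α → Prop) [∀ b, DecidableRel (r b)]
    (rT : α → α → Prop) [DecidableRel rT]
    (hr : ∀ b ∈ B, EquivOn Ω (r b)) (hT : EquivOn Ω rT)
    (hle : ∀ b ∈ B, ∀ x ∈ Ω, ∀ y ∈ Ω, r b x y → rT x y)
    (hop : ∀ f : α → ℝ, ∑ x ∈ Ω, (f x - avgOn Ω rT f x) ^ 2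
        ≤ ∑ b ∈ B, ∑ x ∈ Ω, (f x - avgOn Ω (r b) f x) ^ 2)
    (f : α → ℝ) :
    0 ≤ ∑ b ∈ B, ∑ b' ∈ B.erase b, ∑ x ∈ Ω,
        (f x - avgOn Ω (r b) f x) * (f x - avgOn Ω (r b') f x) := by
  -- g = (I − P_T) f
  obtain ⟨g, hg⟩ : ∃ g : α → ℝ, g = fun x => f x - avgOn Ω rT f x := ⟨_, rfl⟩
  obtain ⟨S, hS⟩ : ∃ S : α → ℝ, S = fun x => ∑ b ∈ B, (f x - avgOn Ω (r b) f x) := ⟨_, rfl⟩
  obtain ⟨q, hq⟩ : ∃ q : ℝ, q = ∑ b ∈ B, ∑ x ∈ Ω, (f x - avgOn Ω (r b) f x) ^ 2 := ⟨_, rfl⟩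
  have h1 : ∀ b ∈ B, ∀ x ∈ Ω, g x - avgOn Ω (r b) g x = f x - avgOn Ω (r b) f x := by
    intro b hb x hx
    have : avgOn Ω (r b) g x = avgOn Ω (r b) f x - avgOn Ω rT f x := by
      rw [hg, avgOn_sub, avgOn_avgOn_of_ge (hr b hb) hT (hle b hb) f hx]
    rw [this, hg]; ring
  have h2 : ∀ x ∈ Ω, avgOn Ω rT g x = 0 := by
    intro x hx
    rw [hg, avgOn_sub, avgOn_idem hT f hx, sub_self]
  have h3 : ∑ x ∈ Ω, g x ^ 2 ≤ q := by
    have := hop g
    have e1 : ∑ x ∈ Ω, (g x - avgOn Ω rT g x) ^ 2 = ∑ x ∈ Ω, g x ^ 2 :=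
      sum_congr rfl fun x hx => by rw [h2 x hx, sub_zero]
    have e2 : ∑ b ∈ B, ∑ x ∈ Ω, (g x - avgOn Ω (r b) g x) ^ 2 = q := by
      rw [hq]
      exact sum_congr rfl fun b hb => sum_congr rfl fun x hx => by rw [h1 b hb x hx]
    rw [e1, e2] at this
    exact this
  have h4 : q = ∑ x ∈ Ω, g x * S x := by
    have e : ∀ b ∈ B, ∑ x ∈ Ω, (f x - avgOn Ω (r b) f x) ^ 2
        = ∑ x ∈ Ω, g x * (f x - avgOn Ω (r b) f x) := by
      intro b hb
      calc ∑ x ∈ Ω, (f x - avgOn Ω (r b) f x) ^ 2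
          = ∑ x ∈ Ω, (g x - avgOn Ω (r b) g x) ^ 2 :=
            sum_congr rfl fun x hx => by rw [h1 b hb x hx]
        _ = ∑ x ∈ Ω, g x * (g x - avgOn Ω (r b) g x) := sum_sq_sub_avgOn (hr b hb) g
        _ = ∑ x ∈ Ω, g x * (f x - avgOn Ω (r b) f x) :=
            sum_congr rfl fun x hx => by rw [h1 b hb x hx]
    rw [hq, sum_congr rfl e, sum_comm]
    refine sum_congr rfl fun x _ => ?_
    rw [hS, mul_sum]
  have hq0 : 0 ≤ q := by
    rw [hq]; exact sum_nonneg fun b _ => sum_nonneg fun x _ => sq_nonneg _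
  have hS0 : 0 ≤ ∑ x ∈ Ω, S x ^ 2 := sum_nonneg fun x _ => sq_nonneg _
  have h5 : q ≤ ∑ x ∈ Ω, S x ^ 2 := by
    have cs := Finset.sum_mul_sq_le_sq_mul_sq Ω g S
    rw [← h4] at cs
    by_contra hlt
    replace hlt := not_le.1 hlt
    have hpos : 0 < q := lt_of_le_of_lt hS0 hlt
    have a1 : (∑ x ∈ Ω, g x ^ 2) * ∑ x ∈ Ω, S x ^ 2 ≤ q * ∑ x ∈ Ω, S x ^ 2 :=
      mul_le_mul_of_nonneg_right h3 hS0
    have a2 : q * ∑ x ∈ Ω, S x ^ 2 < q * q := mul_lt_mul_of_pos_left hlt hpos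
    nlinarith
  have h6 : ∑ x ∈ Ω, S x ^ 2 = q + ∑ b ∈ B, ∑ b' ∈ B.erase b, ∑ x ∈ Ω,
      (f x - avgOn Ω (r b) f x) * (f x - avgOn Ω (r b') f x) := by
    have e : ∀ x ∈ Ω, S x ^ 2 = ∑ b ∈ B, ∑ b' ∈ B,
        (f x - avgOn Ω (r b) f x) * (f x - avgOn Ω (r b') f x) := by
      intro x _
      rw [hS, sq, sum_mul_sum]
    rw [sum_congr rfl e, sum_comm, hq, ← sum_add_distrib]
    refine sum_congr rfl fun b hb => ?_
    rw [sum_comm, ← add_sum_erase B _ hb]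
    congr 1
    exact sum_congr rfl fun x _ => (sq _).symm
  linarith

end abstract

/-! ### The triple statements on `realizations d` -/

variable {n : ℕ} (d : Fin n → ℕ) (T : Finset (Fin n))

/-- per-class form ⟹ operator form `X_T ≥ I − P_T` -/
theorem Top_of_class
    (hcls : ∀ f : Finset (Edge n) → ℝ, ∀ G₀ ∈ realizations d,
      (((realizations d).filter (sameOff T G₀)).card : ℝ)
          * ∑ G ∈ (realizations d).filter (sameOff T G₀), f G ^ 2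
        - (∑ G ∈ (realizations d).filter (sameOff T G₀), f G) ^ 2
      ≤ (((realizations d).filter (sameOff T G₀)).card : ℝ)
          * ∑ b ∈ T.powersetCard 2, ∑ G ∈ (realizations d).filter (sameOff T G₀),
              (f G - E d b f G) ^ 2)
    (f : Finset (Edge n) → ℝ) :
    ∑ G ∈ realizations d, (f G - E d T f G) ^ 2
      ≤ ∑ b ∈ T.powersetCard 2, ∑ G ∈ realizations d, (f G - E d b f G) ^ 2 := by
  rw [sum_comm]
  refine avgOn_sub_sq_le_of_class (sameOff_equivOn _ T) f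
    (fun G => ∑ b ∈ T.powersetCard 2, (f G - E d b f G) ^ 2) fun G₀ hG₀ => ?_
  have := hcls f G₀ hG₀
  rw [sum_comm] at this
  exact this

/-- operator form `X_T ≥ I − P_T` ⟹ `(G1)` (`X_T² ≥ X_T`) -/
theorem G1_of_Top
    (hop : ∀ f : Finset (Edge n) → ℝ, ∑ G ∈ realizations d, (f G - E d T f G) ^ 2
        ≤ ∑ b ∈ T.powersetCard 2, ∑ G ∈ realizations d, (f G - E d b f G) ^ 2)
    (f : Finset (Edge n) → ℝ) :
    0 ≤ ∑ b ∈ T.powersetCard 2, ∑ b' ∈ (T.powersetCard 2).erase b, ∑ G ∈ realizations d,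
        (f G - E d b f G) * (f G - E d b' f G) :=
  cross_nonneg_of_op (T.powersetCard 2) (fun b => sameOff b) (sameOff T)
    (fun b _ => sameOff_equivOn _ b) (sameOff_equivOn _ T)
    (fun _ hb _ _ _ _ h => sameOff_mono (mem_powersetCard.1 hb).1 h) hop f

/-- per-class form ⟹ `(G1)` -/
theorem G1_of_class
    (hcls : ∀ f : Finset (Edge n) → ℝ, ∀ G₀ ∈ realizations d,
      (((realizations d).filter (sameOff T G₀)).card : ℝ)
          * ∑ G ∈ (realizations d).filter (sameOff T G₀), f G ^ 2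
        - (∑ G ∈ (realizations d).filter (sameOff T G₀), f G) ^ 2
      ≤ (((realizations d).filter (sameOff T G₀)).card : ℝ)
          * ∑ b ∈ T.powersetCard 2, ∑ G ∈ (realizations d).filter (sameOff T G₀),
              (f G - E d b f G) ^ 2)
    (f : Finset (Edge n) → ℝ) :
    0 ≤ ∑ b ∈ T.powersetCard 2, ∑ b' ∈ (T.powersetCard 2).erase b, ∑ G ∈ realizations d,
        (f G - E d b f G) * (f G - E d b' f G) :=
  G1_of_Top d T (Top_of_class d T hcls) f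

end Crest.Agent.S0453R
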