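import Mathlib

/-!
Row 299 / S0453, module (T-abs), stage 2 (helper64): the COUNT CHAIN of the 3-box system.

Model (same as helper8's `ThreeBox.lean`): columns `κ` with a sign `sg k = ±1`, a state is a
labelling `p : κ → Fin 3` (the box of each column) with prescribed net charge `ρ i` per box.
`cnt sg i p` = number of `+` columns in box `i`.

`count_stage`: if three functions `ψ i` of the `+`-counts satisfy the eigen-equation
`c · ψ_i(u) = E[ ψ_j(cnt_j) + ψ_k(cnt_k) | cnt_i = u ]` with `|c| > 1`, then every `ψ i` is constant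
on the feasible counts.
-/

set_option autoImplicit false
set_option linter.unusedSectionVars false
open Finset

namespace Crest.Agent.S0453R.ThreeBoxCount

/-! ### A real lemma: monotone likelihood ratio ⇒ Lipschitz bound for the difference of means -/

lemma sym_sum (s : Finset ℕ) (p q ψ : ℕ → ℝ) :
    2 * ((∑ t ∈ s, p t * ψ t) * (∑ t ∈ s, q t) - (∑ t ∈ s, p t) * (∑ t ∈ s, q t * ψ t))
      = ∑ t ∈ s, ∑ t' ∈ s, (p t * q t' - p t' * q t) * (ψ t - ψ t') := by
  have e1 : ∑ t ∈ s, ∑ t' ∈ s, (p t * q t' - p t' * q t) * (ψ t - ψ t')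
      = ∑ t ∈ s, ∑ t' ∈ s, ((p t * ψ t) * q t' - p t * (q t' * ψ t'))
        + ∑ t ∈ s, ∑ t' ∈ s, ((p t' * ψ t') * q t - p t' * (q t * ψ t)) := by
    rw [← Finset.sum_add_distrib]
    refine Finset.sum_congr rfl fun t _ => ?_
    rw [← Finset.sum_add_distrib]
    refine Finset.sum_congr rfl fun t' _ => ?_
    ring
  have e2 : ∑ t ∈ s, ∑ t' ∈ s, ((p t' * ψ t') * q t - p t' * (q t * ψ t))
      = ∑ t ∈ s, ∑ t' ∈ s, ((p t * ψ t) * q t' - p t * (q t' * ψ t')) := Finset.sum_comm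
  have e3 : ∑ t ∈ s, ∑ t' ∈ s, ((p t * ψ t) * q t' - p t * (q t' * ψ t'))
      = (∑ t ∈ s, p t * ψ t) * (∑ t ∈ s, q t) - (∑ t ∈ s, p t) * (∑ t ∈ s, q t * ψ t) := by
    rw [Finset.sum_mul_sum, Finset.sum_mul_sum, ← Finset.sum_sub_distrib]
    refine Finset.sum_congr rfl fun t _ => ?_
    rw [← Finset.sum_sub_distrib]
  rw [e1, e2, e3]
  ring

theorem lr_bound (s : Finset ℕ) (p q ψ : ℕ → ℝ) (L : ℝ)
    (hp : ∀ t ∈ s, 0 ≤ p t) (hq : ∀ t ∈ s, 0 ≤ q t)
    (hlr : ∀ t ∈ s, ∀ t' ∈ s, t < t' → q t' * p t ≤ q t * p t')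
    (hLip : ∀ t ∈ s, ∀ t' ∈ s, t < t' → q t ≠ 0 → p t' ≠ 0 →
      |ψ t' - ψ t| ≤ L * ((t' : ℝ) - t)) :
    |(∑ t ∈ s, p t * ψ t) * (∑ t ∈ s, q t) - (∑ t ∈ s, p t) * (∑ t ∈ s, q t * ψ t)|
      ≤ L * ((∑ t ∈ s, p t * (t : ℝ)) * (∑ t ∈ s, q t)
          - (∑ t ∈ s, p t) * (∑ t ∈ s, q t * (t : ℝ))) := by
  have h1 := sym_sum s p q ψ
  have h2 := sym_sum s p q (fun t => (t : ℝ))
  have key : ∀ t ∈ s, ∀ t' ∈ s,
      |(p t * q t' - p t' * q t) * (ψ t - ψ t')|
        ≤ L * ((p t * q t' - p t' * q t) * ((t : ℝ) - t')) := by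
    intro t ht t' ht'
    rcases lt_trichotomy t t' with h | h | h
    · -- t < t' : weight ≤ 0
      have hw : p t * q t' - p t' * q t ≤ 0 := by
        have := hlr t ht t' ht' h
        nlinarith
      by_cases hz : p t * q t' - p t' * q t = 0
      · rw [hz]; simp
      · have hq0 : q t ≠ 0 := by
          intro h0
          apply hz
          have h3 : 0 ≤ p t * q t' := mul_nonneg (hp t ht) (hq t' ht')
          rw [h0] at hw ⊢
          nlinarith
        have hp0 : p t' ≠ 0 := by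
          intro h0
          apply hz
          have h3 : 0 ≤ p t * q t' := mul_nonneg (hp t ht) (hq t' ht')
          rw [h0] at hw ⊢
          nlinarith
        have hl := hLip t ht t' ht' h hq0 hp0
        rw [abs_mul, abs_of_nonpos hw, abs_sub_comm]
        nlinarith
    · subst h; simp
    · -- t' < t : weight ≥ 0
      have hw : 0 ≤ p t * q t' - p t' * q t := by
        have := hlr t' ht' t ht h
        nlinarith
      by_cases hz : p t * q t' - p t' * q t = 0
      · rw [hz]; simp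
      · have hq0 : q t' ≠ 0 := by
          intro h0
          apply hz
          have h3 : 0 ≤ p t' * q t := mul_nonneg (hp t' ht') (hq t ht)
          rw [h0] at hw ⊢
          nlinarith
        have hp0 : p t ≠ 0 := by
          intro h0
          apply hz
          have h3 : 0 ≤ p t' * q t := mul_nonneg (hp t' ht') (hq t ht)
          rw [h0] at hw ⊢
          nlinarith
        have hl := hLip t' ht' t ht h hq0 hp0
        rw [abs_mul, abs_of_nonneg hw]
        nlinarith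
  have h3 : |∑ t ∈ s, ∑ t' ∈ s, (p t * q t' - p t' * q t) * (ψ t - ψ t')|
      ≤ ∑ t ∈ s, ∑ t' ∈ s, L * ((p t * q t' - p t' * q t) * ((t : ℝ) - t')) := by
    refine (Finset.abs_sum_le_sum_abs _ _).trans (Finset.sum_le_sum fun t ht => ?_)
    refine (Finset.abs_sum_le_sum_abs _ _).trans (Finset.sum_le_sum fun t' ht' => ?_)
    exact key t ht t' ht'
  have h4 : ∑ t ∈ s, ∑ t' ∈ s, L * ((p t * q t' - p t' * q t) * ((t : ℝ) - t'))
      = L * ∑ t ∈ s, ∑ t' ∈ s, (p t * q t' - p t' * q t) * ((t : ℝ) - t') := by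
    rw [Finset.mul_sum]
    refine Finset.sum_congr rfl fun t _ => ?_
    rw [Finset.mul_sum]
  rw [h4, ← h2, ← h1] at h3
  rw [abs_mul, abs_of_pos (by norm_num : (0:ℝ) < 2)] at h3
  linarith


/-! ### The 3-box model -/

section Model

variable {κ : Type*} [Fintype κ] [DecidableEq κ]

/-- states of the 3-box system: labellings with net charge `ρ i` in box `i` -/
def states (sg : κ → ℤ) (ρ : Fin 3 → ℤ) : Finset (κ → Fin 3) :=
  univ.filter fun p => ∀ i, ∑ k, (if p k = i then sg k else 0) = ρ i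

/-- number of columns of sign `e` in box `i` -/
def cntS (sg : κ → ℤ) (e : ℤ) (i : Fin 3) (p : κ → Fin 3) : ℕ :=
  (univ.filter fun k => sg k = e ∧ p k = i).card

/-- number of `+` columns in box `i` -/
def cnt (sg : κ → ℤ) (i : Fin 3) (p : κ → Fin 3) : ℕ :=
  (univ.filter fun k => sg k = 1 ∧ p k = i).card

lemma cnt_eq (sg : κ → ℤ) (i : Fin 3) (p : κ → Fin 3) : cnt sg i p = cntS sg 1 i p := rfl

lemma cntS_eq_sum (sg : κ → ℤ) (e : ℤ) (i : Fin 3) (p : κ → Fin 3) :
    (cntS sg e i p : ℤ) = ∑ k, if sg k = e ∧ p k = i then (1 : ℤ) else 0 := by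
  unfold cntS
  rw [Finset.card_filter]
  push_cast
  rfl

lemma charge_eq (sg : κ → ℤ) (hsg : ∀ k, sg k = 1 ∨ sg k = -1) (i : Fin 3) (p : κ → Fin 3) :
    ∑ k, (if p k = i then sg k else 0) = (cntS sg 1 i p : ℤ) - cntS sg (-1) i p := by
  rw [cntS_eq_sum, cntS_eq_sum, ← Finset.sum_sub_distrib]
  refine Finset.sum_congr rfl fun k _ => ?_
  rcases hsg k with h | h <;> by_cases hp : p k = i <;> simp [h, hp]

lemma mem_states (sg : κ → ℤ) (hsg : ∀ k, sg k = 1 ∨ sg k = -1) (ρ : Fin 3 → ℤ)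
    (p : κ → Fin 3) :
    p ∈ states sg ρ ↔ ∀ i, (cntS sg 1 i p : ℤ) - cntS sg (-1) i p = ρ i := by
  unfold states
  rw [mem_filter]
  simp only [mem_univ, true_and]
  exact forall_congr' fun i => by rw [charge_eq sg hsg]

lemma cntS_update (sg : κ → ℤ) (e : ℤ) (c : Fin 3) (p : κ → Fin 3) (x : κ) (b : Fin 3) :
    (cntS sg e c (Function.update p x b) : ℤ)
      = cntS sg e c p + (if sg x = e ∧ b = c then 1 else 0)
          - (if sg x = e ∧ p x = c then 1 else 0) := by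
  rw [cntS_eq_sum, cntS_eq_sum]
  rw [← Finset.add_sum_erase univ _ (mem_univ x),
    ← Finset.add_sum_erase univ (fun k => if sg k = e ∧ p k = c then (1 : ℤ) else 0) (mem_univ x)]
  have : ∑ k ∈ univ.erase x, (if sg k = e ∧ Function.update p x b k = c then (1 : ℤ) else 0)
      = ∑ k ∈ univ.erase x, (if sg k = e ∧ p k = c then (1 : ℤ) else 0) := by
    refine Finset.sum_congr rfl fun k hk => ?_
    rw [Function.update_of_ne (ne_of_mem_erase hk)]
  rw [this, Function.update_self]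
  ring

/-- moving a `+` column `x` and a `-` column `y` from box `a` to box `b` -/
lemma move_pair (sg : κ → ℤ) (p : κ → Fin 3) (x y : κ) (a b : Fin 3)
    (hx : sg x = 1) (hy : sg y = -1) (hpx : p x = a) (hpy : p y = a)
    (e : ℤ) (he : e = 1 ∨ e = -1) (c : Fin 3) :
    (cntS sg e c (Function.update (Function.update p x b) y b) : ℤ)
      = cntS sg e c p + (if b = c then 1 else 0) - (if a = c then 1 else 0) := by
  have hxy : x ≠ y := by
    rintro rfl
    rw [hx] at hy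
    norm_num at hy
  rw [cntS_update, cntS_update, Function.update_of_ne hxy.symm, hpx, hpy, hx, hy]
  rcases he with rfl | rfl <;> by_cases h1 : b = c <;> by_cases h2 : a = c <;> simp [h1, h2]

lemma sum_three {α : Type*} [AddCommMonoid α] (F : Fin 3 → α) (i j k : Fin 3)
    (hij : i ≠ j) (hik : i ≠ k) (hjk : j ≠ k) :
    ∑ l, F l = F i + F j + F k := by
  have : (univ : Finset (Fin 3)) = {i, j, k} := by
    revert i j k; decide
  rw [this, Finset.sum_insert (by simp [hij, hik]), Finset.sum_insert (by simp [hjk]),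
    Finset.sum_singleton, add_assoc]

lemma sum_erase_three {α : Type*} [AddCommMonoid α] (F : Fin 3 → α) (i j k : Fin 3)
    (hij : i ≠ j) (hik : i ≠ k) (hjk : j ≠ k) :
    ∑ l ∈ univ.erase i, F l = F j + F k := by
  have : (univ : Finset (Fin 3)).erase i = {j, k} := by
    revert i j k; decide
  rw [this, Finset.sum_insert (by simp [hjk]), Finset.sum_singleton]

lemma exists_others (i : Fin 3) : ∃ j k : Fin 3, i ≠ j ∧ i ≠ k ∧ j ≠ k := by
  revert i; decide

/-- the three counts of sign `e` add up to the number of columns of sign `e` -/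
lemma cntS_total (sg : κ → ℤ) (e : ℤ) (p : κ → Fin 3) (i j k : Fin 3)
    (hij : i ≠ j) (hik : i ≠ k) (hjk : j ≠ k) :
    cntS sg e i p + cntS sg e j p + cntS sg e k p = (univ.filter fun x => sg x = e).card := by
  rw [← sum_three (fun l => cntS sg e l p) i j k hij hik hjk]
  rw [Finset.card_eq_sum_card_fiberwise (f := p) (t := univ) (fun x _ => mem_univ _)]
  refine Finset.sum_congr rfl fun l _ => ?_
  unfold cntS
  rw [Finset.filter_filter]


/-- states with `cnt i = u` and `cnt j = t` -/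
def lev2 (sg : κ → ℤ) (ρ : Fin 3 → ℤ) (i j : Fin 3) (u t : ℕ) : Finset (κ → Fin 3) :=
  (states sg ρ).filter fun p => cnt sg i p = u ∧ cnt sg j p = t

lemma mem_lev2 (sg : κ → ℤ) (ρ : Fin 3 → ℤ) (i j : Fin 3) (u t : ℕ) (p : κ → Fin 3) :
    p ∈ lev2 sg ρ i j u t ↔ p ∈ states sg ρ ∧ cnt sg i p = u ∧ cnt sg j p = t := by
  unfold lev2; rw [mem_filter]

/-- the image of a state under a pair move is a state, with shifted counts -/
lemma move_pair_mem (sg : κ → ℤ) (hsg : ∀ k, sg k = 1 ∨ sg k = -1) (ρ : Fin 3 → ℤ)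
    (p : κ → Fin 3) (hp : p ∈ states sg ρ) (x y : κ) (a b : Fin 3)
    (hx : sg x = 1) (hy : sg y = -1) (hpx : p x = a) (hpy : p y = a) :
    Function.update (Function.update p x b) y b ∈ states sg ρ := by
  rw [mem_states sg hsg] at hp ⊢
  intro c
  rw [move_pair sg p x y a b hx hy hpx hpy 1 (Or.inl rfl) c,
    move_pair sg p x y a b hx hy hpx hpy (-1) (Or.inr rfl) c]
  have := hp c
  linarith

lemma move_pair_cnt (sg : κ → ℤ) (p : κ → Fin 3) (x y : κ) (a b : Fin 3)
    (hx : sg x = 1) (hy : sg y = -1) (hpx : p x = a) (hpy : p y = a) (c : Fin 3) :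
    (cnt sg c (Function.update (Function.update p x b) y b) : ℤ)
      = cnt sg c p + (if b = c then 1 else 0) - (if a = c then 1 else 0) :=
  move_pair sg p x y a b hx hy hpx hpy 1 (Or.inl rfl) c

lemma card_move (sg : κ → ℤ) (hsg : ∀ k, sg k = 1 ∨ sg k = -1) (ρ : Fin 3 → ℤ)
    (i j k : Fin 3) (hij : i ≠ j) (hik : i ≠ k) (hjk : j ≠ k) (u t : ℕ)
    (x y : κ) (hx : sg x = 1) (hy : sg y = -1) :
    ((lev2 sg ρ i j u t).filter fun p => p x = k ∧ p y = k).card
      = ((lev2 sg ρ i j (u + 1) t).filter fun p => p x = i ∧ p y = i).card := by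
  have hxy : x ≠ y := by
    rintro rfl
    rw [hx] at hy
    norm_num at hy
  refine Finset.card_bij' (fun p _ => Function.update (Function.update p x i) y i)
    (fun p _ => Function.update (Function.update p x k) y k) ?_ ?_ ?_ ?_
  · intro p hp
    rw [mem_filter, mem_lev2] at hp ⊢
    obtain ⟨⟨hps, hu, ht⟩, hpx, hpy⟩ := hp
    refine ⟨⟨move_pair_mem sg hsg ρ p hps x y k i hx hy hpx hpy, ?_, ?_⟩, ?_, ?_⟩
    · have := move_pair_cnt sg p x y k i hx hy hpx hpy i
      rw [if_pos rfl, if_neg hik.symm] at this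
      omega
    · have := move_pair_cnt sg p x y k i hx hy hpx hpy j
      rw [if_neg hij, if_neg hjk.symm] at this
      omega
    · rw [Function.update_of_ne hxy, Function.update_self]
    · rw [Function.update_self]
  · intro p hp
    rw [mem_filter, mem_lev2] at hp ⊢
    obtain ⟨⟨hps, hu, ht⟩, hpx, hpy⟩ := hp
    refine ⟨⟨move_pair_mem sg hsg ρ p hps x y i k hx hy hpx hpy, ?_, ?_⟩, ?_, ?_⟩
    · have := move_pair_cnt sg p x y i k hx hy hpx hpy i
      rw [if_pos rfl, if_neg hik.symm] at this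
      omega
    · have := move_pair_cnt sg p x y i k hx hy hpx hpy j
      rw [if_neg hij, if_neg hjk.symm] at this
      omega
    · rw [Function.update_of_ne hxy, Function.update_self]
    · rw [Function.update_self]
  · intro p hp
    rw [mem_filter] at hp
    obtain ⟨-, hpx, hpy⟩ := hp
    funext z
    by_cases hzy : z = y
    · subst hzy; rw [Function.update_self, hpy]
    · by_cases hzx : z = x
      · subst hzx
        rw [Function.update_of_ne hzy, Function.update_self, hpx]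
      · rw [Function.update_of_ne hzy, Function.update_of_ne hzx, Function.update_of_ne hzy,
          Function.update_of_ne hzx]
  · intro p hp
    rw [mem_filter] at hp
    obtain ⟨-, hpx, hpy⟩ := hp
    funext z
    by_cases hzy : z = y
    · subst hzy; rw [Function.update_self, hpy]
    · by_cases hzx : z = x
      · subst hzx
        rw [Function.update_of_ne hzy, Function.update_self, hpx]
      · rw [Function.update_of_ne hzy, Function.update_of_ne hzx, Function.update_of_ne hzy,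
          Function.update_of_ne hzx]

/-- triple counting: `∑_p cnt⁺_c(p) · cnt⁻_c(p)` as a sum over marked pairs -/
lemma sum_marked (sg : κ → ℤ) (S : Finset (κ → Fin 3)) (c : Fin 3) :
    ∑ p ∈ S, cntS sg 1 c p * cntS sg (-1) c p
      = ∑ x, ∑ y, if sg x = 1 ∧ sg y = -1 then (S.filter fun p => p x = c ∧ p y = c).card
          else 0 := by
  have h1 : ∀ p, cntS sg 1 c p * cntS sg (-1) c p
      = ∑ x, ∑ y, if (sg x = 1 ∧ sg y = -1) ∧ (p x = c ∧ p y = c) then 1 else 0 := by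
    intro p
    unfold cntS
    rw [Finset.card_filter, Finset.card_filter, Finset.sum_mul_sum]
    refine Finset.sum_congr rfl fun x _ => Finset.sum_congr rfl fun y _ => ?_
    by_cases h1 : sg x = 1 <;> by_cases h2 : p x = c <;> by_cases h3 : sg y = -1 <;>
      by_cases h4 : p y = c <;> simp [h1, h2, h3, h4]
  rw [Finset.sum_congr rfl fun p _ => h1 p, Finset.sum_comm]
  refine Finset.sum_congr rfl fun x _ => ?_
  rw [Finset.sum_comm]
  refine Finset.sum_congr rfl fun y _ => ?_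
  by_cases h : sg x = 1 ∧ sg y = -1
  · rw [if_pos h, Finset.card_filter]
    refine Finset.sum_congr rfl fun p _ => ?_
    simp [h]
  · rw [if_neg h]
    refine Finset.sum_eq_zero fun p _ => ?_
    simp [h]

/-- **Marked-pair identity.** -/
lemma marked_pair (sg : κ → ℤ) (hsg : ∀ k, sg k = 1 ∨ sg k = -1) (ρ : Fin 3 → ℤ)
    (i j k : Fin 3) (hij : i ≠ j) (hik : i ≠ k) (hjk : j ≠ k) (u t : ℕ) :
    ∑ p ∈ lev2 sg ρ i j u t, cntS sg 1 k p * cntS sg (-1) k p
      = ∑ p ∈ lev2 sg ρ i j (u + 1) t, cntS sg 1 i p * cntS sg (-1) i p := by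
  rw [sum_marked, sum_marked]
  refine Finset.sum_congr rfl fun x _ => Finset.sum_congr rfl fun y _ => ?_
  by_cases h : sg x = 1 ∧ sg y = -1
  · rw [if_pos h, if_pos h]
    exact card_move sg hsg ρ i j k hij hik hjk u t x y h.1 h.2
  · rw [if_neg h, if_neg h]


/-! ### Level sets -/

/-- states with `cnt i = u` -/
def lev (sg : κ → ℤ) (ρ : Fin 3 → ℤ) (i : Fin 3) (u : ℕ) : Finset (κ → Fin 3) :=
  (states sg ρ).filter fun p => cnt sg i p = u

lemma mem_lev (sg : κ → ℤ) (ρ : Fin 3 → ℤ) (i : Fin 3) (u : ℕ) (p : κ → Fin 3) :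
    p ∈ lev sg ρ i u ↔ p ∈ states sg ρ ∧ cnt sg i p = u := by
  unfold lev; rw [mem_filter]

lemma lev_filter (sg : κ → ℤ) (ρ : Fin 3 → ℤ) (i j : Fin 3) (u t : ℕ) :
    (lev sg ρ i u).filter (fun p => cnt sg j p = t) = lev2 sg ρ i j u t := by
  unfold lev lev2; rw [Finset.filter_filter]

lemma cnt_lt (sg : κ → ℤ) (j : Fin 3) (p : κ → Fin 3) : cnt sg j p < Fintype.card κ + 1 :=
  Nat.lt_succ_of_le (Finset.card_le_univ _)

lemma sum_lev (sg : κ → ℤ) (ρ : Fin 3 → ℤ) (i j : Fin 3) (u : ℕ) (F : ℕ → ℝ) :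
    ∑ p ∈ lev sg ρ i u, F (cnt sg j p)
      = ∑ t ∈ range (Fintype.card κ + 1), ((lev2 sg ρ i j u t).card : ℝ) * F t := by
  rw [← Finset.sum_fiberwise_of_maps_to' (g := fun p => cnt sg j p)
    (t := range (Fintype.card κ + 1)) (fun p _ => mem_range.mpr (cnt_lt sg j p)) F]
  refine Finset.sum_congr rfl fun t _ => ?_
  rw [Finset.sum_const, nsmul_eq_mul, lev_filter]

lemma card_lev (sg : κ → ℤ) (ρ : Fin 3 → ℤ) (i j : Fin 3) (u : ℕ) :
    ((lev sg ρ i u).card : ℝ)
      = ∑ t ∈ range (Fintype.card κ + 1), ((lev2 sg ρ i j u t).card : ℝ) := by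
  have := sum_lev sg ρ i j u (fun _ => 1)
  simpa using this

/-- number of `+` columns -/
def plusCard (sg : κ → ℤ) : ℕ := (univ.filter fun x => sg x = 1).card

lemma wcnt_of_mem (sg : κ → ℤ) (hsg : ∀ k, sg k = 1 ∨ sg k = -1) (ρ : Fin 3 → ℤ)
    (p : κ → Fin 3) (hp : p ∈ states sg ρ) (i : Fin 3) :
    (cntS sg (-1) i p : ℤ) = (cnt sg i p : ℤ) - ρ i := by
  have := (mem_states sg hsg ρ p).mp hp i
  rw [cnt_eq]
  linarith

lemma cnt_third (sg : κ → ℤ) (p : κ → Fin 3) (i j k : Fin 3)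
    (hij : i ≠ j) (hik : i ≠ k) (hjk : j ≠ k) :
    (cnt sg k p : ℤ) = (plusCard sg : ℤ) - cnt sg i p - cnt sg j p := by
  have := cntS_total sg 1 p i j k hij hik hjk
  simp only [cnt_eq, plusCard]
  omega

/-- the identity behind the monotone likelihood ratio -/
lemma level_ratio (sg : κ → ℤ) (hsg : ∀ k, sg k = 1 ∨ sg k = -1) (ρ : Fin 3 → ℤ)
    (i j k : Fin 3) (hij : i ≠ j) (hik : i ≠ k) (hjk : j ≠ k) (u t : ℕ) :
    ((lev2 sg ρ i j u t).card : ℤ) * (((plusCard sg : ℤ) - u - t)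
        * ((plusCard sg : ℤ) - u - t - ρ k))
      = ((lev2 sg ρ i j (u + 1) t).card : ℤ) * (((u : ℤ) + 1) * ((u : ℤ) + 1 - ρ i)) := by
  have h := congrArg (Nat.cast : ℕ → ℤ) (marked_pair sg hsg ρ i j k hij hik hjk u t)
  push_cast at h
  have hl : ∑ p ∈ lev2 sg ρ i j u t, (cntS sg 1 k p : ℤ) * (cntS sg (-1) k p : ℤ)
      = ∑ _p ∈ lev2 sg ρ i j u t, (((plusCard sg : ℤ) - u - t)
        * ((plusCard sg : ℤ) - u - t - ρ k)) := by
    refine Finset.sum_congr rfl fun p hp => ?_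
    rw [mem_lev2] at hp
    obtain ⟨hps, hu, ht⟩ := hp
    have h3 := cnt_third sg p i j k hij hik hjk
    rw [hu, ht] at h3
    rw [wcnt_of_mem sg hsg ρ p hps k, ← cnt_eq, h3]
  have hr : ∑ p ∈ lev2 sg ρ i j (u + 1) t, (cntS sg 1 i p : ℤ) * (cntS sg (-1) i p : ℤ)
      = ∑ _p ∈ lev2 sg ρ i j (u + 1) t, (((u : ℤ) + 1) * ((u : ℤ) + 1 - ρ i)) := by
    refine Finset.sum_congr rfl fun p hp => ?_
    rw [mem_lev2] at hp
    obtain ⟨hps, hu, ht⟩ := hp
    rw [wcnt_of_mem sg hsg ρ p hps i, ← cnt_eq, hu]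
    push_cast
    ring
  rw [hl, hr, Finset.sum_const, Finset.sum_const, nsmul_eq_mul, nsmul_eq_mul] at h
  exact h

lemma rho_le (sg : κ → ℤ) (hsg : ∀ k, sg k = 1 ∨ sg k = -1) (ρ : Fin 3 → ℤ)
    (i : Fin 3) (u : ℕ) (h : (lev sg ρ i u).Nonempty) : ρ i ≤ u := by
  obtain ⟨p, hp⟩ := h
  rw [mem_lev] at hp
  have := wcnt_of_mem sg hsg ρ p hp.1 i
  rw [hp.2] at this
  have h0 : (0 : ℤ) ≤ (cntS sg (-1) i p : ℤ) := Int.natCast_nonneg _
  linarith

/-- **Monotone likelihood ratio** of the count of box `j` between the levels `u`, `u+1` of box `i`. -/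
lemma mlr (sg : κ → ℤ) (hsg : ∀ k, sg k = 1 ∨ sg k = -1) (ρ : Fin 3 → ℤ)
    (i j k : Fin 3) (hij : i ≠ j) (hik : i ≠ k) (hjk : j ≠ k) (u : ℕ)
    (hu : (lev sg ρ i u).Nonempty) (t t' : ℕ) (htt : t < t') :
    ((lev2 sg ρ i j (u + 1) t').card : ℝ) * ((lev2 sg ρ i j u t).card : ℝ)
      ≤ ((lev2 sg ρ i j (u + 1) t).card : ℝ) * ((lev2 sg ρ i j u t').card : ℝ) := by
  have hρ := rho_le sg hsg ρ i u hu
  have e1 := level_ratio sg hsg ρ i j k hij hik hjk u t
  have e2 := level_ratio sg hsg ρ i j k hij hik hjk u t'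
  set a : ℤ := ((lev2 sg ρ i j u t).card : ℤ) with ha
  set a' : ℤ := ((lev2 sg ρ i j u t').card : ℤ) with ha'
  set b : ℤ := ((lev2 sg ρ i j (u + 1) t).card : ℤ) with hb
  set b' : ℤ := ((lev2 sg ρ i j (u + 1) t').card : ℤ) with hb'
  have ha0 : 0 ≤ a := Int.natCast_nonneg _
  have ha0' : 0 ≤ a' := Int.natCast_nonneg _
  have hC : 0 < ((u : ℤ) + 1) * ((u : ℤ) + 1 - ρ i) := by
    apply mul_pos <;> linarith [Int.natCast_nonneg u]
  have main : b' * a ≤ b * a' := by
    by_cases hz : a = 0 ∨ a' = 0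
    · -- both products vanish
      have h1 : b' * a * (((u : ℤ) + 1) * ((u : ℤ) + 1 - ρ i)) = 0 := by
        rcases hz with h | h
        · rw [h]; ring
        · have : b' * (((u : ℤ) + 1) * ((u : ℤ) + 1 - ρ i)) = 0 := by rw [← e2, h]; ring
          calc b' * a * (((u : ℤ) + 1) * ((u : ℤ) + 1 - ρ i))
              = a * (b' * (((u : ℤ) + 1) * ((u : ℤ) + 1 - ρ i))) := by ring
            _ = 0 := by rw [this]; ring
      have h2 : b * a' * (((u : ℤ) + 1) * ((u : ℤ) + 1 - ρ i)) = 0 := by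
        rcases hz with h | h
        · have : b * (((u : ℤ) + 1) * ((u : ℤ) + 1 - ρ i)) = 0 := by rw [← e1, h]; ring
          calc b * a' * (((u : ℤ) + 1) * ((u : ℤ) + 1 - ρ i))
              = a' * (b * (((u : ℤ) + 1) * ((u : ℤ) + 1 - ρ i))) := by ring
            _ = 0 := by rw [this]; ring
        · rw [h]; ring
      have h3 : b' * a = 0 := by
        rcases mul_eq_zero.mp h1 with h | h
        · exact h
        · exact absurd h hC.ne'
      have h4 : b * a' = 0 := by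
        rcases mul_eq_zero.mp h2 with h | h
        · exact h
        · exact absurd h hC.ne'
      rw [h3, h4]
    · rw [not_or] at hz
      obtain ⟨hz1, hz2⟩ := hz
      -- level (u, t') is nonempty: the counts of box k there are nonnegative
      have hne : (lev2 sg ρ i j u t').Nonempty := by
        rw [← Finset.card_pos]
        have h6 : (0 : ℤ) < a' := lt_of_le_of_ne ha0' (Ne.symm hz2)
        rw [ha'] at h6
        exact_mod_cast h6
      obtain ⟨p, hp⟩ := hne
      rw [mem_lev2] at hp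
      obtain ⟨hps, hpu, hpt⟩ := hp
      have h3 := cnt_third sg p i j k hij hik hjk
      rw [hpu, hpt] at h3
      have h4 := wcnt_of_mem sg hsg ρ p hps k
      rw [h3] at h4
      have hA' : (0 : ℤ) ≤ (plusCard sg : ℤ) - u - t' := by rw [← h3]; exact Int.natCast_nonneg _
      have hB' : (0 : ℤ) ≤ (plusCard sg : ℤ) - u - t' - ρ k := by
        rw [← h4]; exact Int.natCast_nonneg _
      have htt' : (t : ℤ) < t' := by exact_mod_cast htt
      have hmono : ((plusCard sg : ℤ) - u - t') * ((plusCard sg : ℤ) - u - t' - ρ k)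
          ≤ ((plusCard sg : ℤ) - u - t) * ((plusCard sg : ℤ) - u - t - ρ k) := by
        apply mul_le_mul <;> linarith
      have h5 : b' * a * (((u : ℤ) + 1) * ((u : ℤ) + 1 - ρ i))
          ≤ b * a' * (((u : ℤ) + 1) * ((u : ℤ) + 1 - ρ i)) := by
        calc b' * a * (((u : ℤ) + 1) * ((u : ℤ) + 1 - ρ i))
            = a * (b' * (((u : ℤ) + 1) * ((u : ℤ) + 1 - ρ i))) := by ring
          _ = a * (a' * (((plusCard sg : ℤ) - u - t') * ((plusCard sg : ℤ) - u - t' - ρ k))) := by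
              rw [e2]
          _ = (a * a') * (((plusCard sg : ℤ) - u - t') * ((plusCard sg : ℤ) - u - t' - ρ k)) := by
              ring
          _ ≤ (a * a') * (((plusCard sg : ℤ) - u - t) * ((plusCard sg : ℤ) - u - t - ρ k)) :=
              mul_le_mul_of_nonneg_left hmono (mul_nonneg ha0 ha0')
          _ = a' * (a * (((plusCard sg : ℤ) - u - t) * ((plusCard sg : ℤ) - u - t - ρ k))) := by
              ring
          _ = a' * (b * (((u : ℤ) + 1) * ((u : ℤ) + 1 - ρ i))) := by rw [e1]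
          _ = b * a' * (((u : ℤ) + 1) * ((u : ℤ) + 1 - ρ i)) := by ring
      exact le_of_mul_le_mul_right h5 hC
  have : ((b' * a : ℤ) : ℝ) ≤ ((b * a' : ℤ) : ℝ) := by exact_mod_cast main
  simp only [ha, ha', hb, hb'] at this
  push_cast at this
  exact this


/-! ### Feasible counts form an interval -/

lemma step_down (sg : κ → ℤ) (hsg : ∀ k, sg k = 1 ∨ sg k = -1) (ρ : Fin 3 → ℤ)
    (i : Fin 3) (u : ℕ) (h : (lev sg ρ i (u + 1)).Nonempty) (hρ : ρ i ≤ u) :
    (lev sg ρ i u).Nonempty := by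
  obtain ⟨p, hp⟩ := h
  rw [mem_lev] at hp
  obtain ⟨hps, hu⟩ := hp
  -- a `+` column in box `i`
  have hx : ∃ x, sg x = 1 ∧ p x = i := by
    have : 0 < cnt sg i p := by omega
    obtain ⟨x, hx⟩ := Finset.card_pos.mp this
    exact ⟨x, (mem_filter.mp hx).2⟩
  -- a `-` column in box `i`
  have hy : ∃ y, sg y = -1 ∧ p y = i := by
    have h1 := wcnt_of_mem sg hsg ρ p hps i
    rw [hu] at h1
    push_cast at h1
    have : 0 < cntS sg (-1) i p := by omega
    obtain ⟨y, hy⟩ := Finset.card_pos.mp this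
    exact ⟨y, (mem_filter.mp hy).2⟩
  obtain ⟨x, hx1, hx2⟩ := hx
  obtain ⟨y, hy1, hy2⟩ := hy
  obtain ⟨j, k, hij, -, -⟩ := exists_others i
  refine ⟨Function.update (Function.update p x j) y j, ?_⟩
  rw [mem_lev]
  refine ⟨move_pair_mem sg hsg ρ p hps x y i j hx1 hy1 hx2 hy2, ?_⟩
  have := move_pair_cnt sg p x y i j hx1 hy1 hx2 hy2 i
  rw [if_neg hij.symm, if_pos rfl] at this
  omega

lemma interval (sg : κ → ℤ) (hsg : ∀ k, sg k = 1 ∨ sg k = -1) (ρ : Fin 3 → ℤ)
    (i : Fin 3) (u v : ℕ) (hu : (lev sg ρ i u).Nonempty) (huv : u ≤ v) :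
    ∀ d : ℕ, (lev sg ρ i (v + d)).Nonempty → (lev sg ρ i v).Nonempty := by
  have hρ := rho_le sg hsg ρ i u hu
  intro d
  induction d with
  | zero => intro h; simpa using h
  | succ d ih =>
    intro h
    apply ih
    have h' : (lev sg ρ i (v + d + 1)).Nonempty := by
      have : v + (d + 1) = v + d + 1 := by ring
      rwa [this] at h
    apply step_down sg hsg ρ i (v + d) h'
    have : (u : ℤ) ≤ ((v + d : ℕ) : ℤ) := by exact_mod_cast le_trans huv (Nat.le_add_right v d)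
    linarith

lemma lip_chain (sg : κ → ℤ) (hsg : ∀ k, sg k = 1 ∨ sg k = -1) (ρ : Fin 3 → ℤ)
    (ψ : Fin 3 → ℕ → ℝ) (L : ℝ)
    (hL : ∀ i u, (lev sg ρ i u).Nonempty → (lev sg ρ i (u + 1)).Nonempty →
      |ψ i (u + 1) - ψ i u| ≤ L)
    (i : Fin 3) (t : ℕ) (ht : (lev sg ρ i t).Nonempty) :
    ∀ d : ℕ, (lev sg ρ i (t + d)).Nonempty → |ψ i (t + d) - ψ i t| ≤ L * d := by
  intro d
  induction d with
  | zero => intro _; simp
  | succ d ih =>
    intro h
    have h' : (lev sg ρ i (t + d + 1)).Nonempty := by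
      have : t + (d + 1) = t + d + 1 := by ring
      rwa [this] at h
    have hd : (lev sg ρ i (t + d)).Nonempty :=
      interval sg hsg ρ i t (t + d) ht (Nat.le_add_right t d) 1 h'
    have h1 := ih hd
    have h2 := hL i (t + d) hd h'
    have e : ψ i (t + (d + 1)) - ψ i t
        = (ψ i (t + d + 1) - ψ i (t + d)) + (ψ i (t + d) - ψ i t) := by
      have : t + (d + 1) = t + d + 1 := by ring
      rw [this]; ring
    rw [e]
    calc |(ψ i (t + d + 1) - ψ i (t + d)) + (ψ i (t + d) - ψ i t)|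
        ≤ |ψ i (t + d + 1) - ψ i (t + d)| + |ψ i (t + d) - ψ i t| := abs_add_le _ _
      _ ≤ L + L * d := add_le_add h2 h1
      _ = L * ((d + 1 : ℕ) : ℝ) := by push_cast; ring

/-! ### The contraction step -/

/-- one half of the contraction: the contribution of box `j` -/
lemma half_bound (sg : κ → ℤ) (hsg : ∀ k, sg k = 1 ∨ sg k = -1) (ρ : Fin 3 → ℤ)
    (ψ : Fin 3 → ℕ → ℝ) (L : ℝ)
    (hL : ∀ i u, (lev sg ρ i u).Nonempty → (lev sg ρ i (u + 1)).Nonempty →
      |ψ i (u + 1) - ψ i u| ≤ L)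
    (i j k : Fin 3) (hij : i ≠ j) (hik : i ≠ k) (hjk : j ≠ k) (u : ℕ)
    (h0 : (lev sg ρ i u).Nonempty) :
    |(∑ p ∈ lev sg ρ i u, ψ j (cnt sg j p)) * ((lev sg ρ i (u + 1)).card : ℝ)
        - ((lev sg ρ i u).card : ℝ) * (∑ p ∈ lev sg ρ i (u + 1), ψ j (cnt sg j p))|
      ≤ L * ((∑ p ∈ lev sg ρ i u, (cnt sg j p : ℝ)) * ((lev sg ρ i (u + 1)).card : ℝ)
        - ((lev sg ρ i u).card : ℝ) * (∑ p ∈ lev sg ρ i (u + 1), (cnt sg j p : ℝ))) := by
  have hb := lr_bound (range (Fintype.card κ + 1))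
    (fun t => ((lev2 sg ρ i j u t).card : ℝ)) (fun t => ((lev2 sg ρ i j (u + 1) t).card : ℝ))
    (ψ j) L (fun t _ => Nat.cast_nonneg _) (fun t _ => Nat.cast_nonneg _)
    (fun t _ t' _ htt => mlr sg hsg ρ i j k hij hik hjk u h0 t t' htt)
    (by
      intro t _ t' _ htt hq hp
      -- both `t` and `t'` are feasible counts of box `j`
      have h1 : (lev sg ρ j t).Nonempty := by
        have : (lev2 sg ρ i j (u + 1) t).Nonempty := by
          rw [← Finset.card_pos]
          exact Nat.pos_of_ne_zero fun h => hq (by simp [h])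
        obtain ⟨p, hp⟩ := this
        rw [mem_lev2] at hp
        exact ⟨p, (mem_lev sg ρ j t p).mpr ⟨hp.1, hp.2.2⟩⟩
      have h2 : (lev sg ρ j t').Nonempty := by
        have : (lev2 sg ρ i j u t').Nonempty := by
          rw [← Finset.card_pos]
          exact Nat.pos_of_ne_zero fun h => hp (by simp [h])
        obtain ⟨p, hp⟩ := this
        rw [mem_lev2] at hp
        exact ⟨p, (mem_lev sg ρ j t' p).mpr ⟨hp.1, hp.2.2⟩⟩
      obtain ⟨d, rfl⟩ := Nat.exists_eq_add_of_lt htt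
      have h3 : (lev sg ρ j (t + (d + 1))).Nonempty := by
        have : t + d + 1 = t + (d + 1) := by ring
        rwa [this] at h2
      have := lip_chain sg hsg ρ ψ L hL j t h1 (d + 1) h3
      have e : t + d + 1 = t + (d + 1) := by ring
      rw [e]
      calc |ψ j (t + (d + 1)) - ψ j t| ≤ L * ((d + 1 : ℕ) : ℝ) := this
        _ = L * (((t + (d + 1) : ℕ) : ℝ) - (t : ℝ)) := by push_cast; ring)
  rw [← sum_lev sg ρ i j u (ψ j), ← sum_lev sg ρ i j (u + 1) (ψ j),
    ← sum_lev sg ρ i j u (fun t => (t : ℝ)), ← sum_lev sg ρ i j (u + 1) (fun t => (t : ℝ)),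
    ← card_lev sg ρ i j u, ← card_lev sg ρ i j (u + 1)] at hb
  exact hb

/-- the eigen-equation contracts the consecutive differences -/
lemma contraction (sg : κ → ℤ) (hsg : ∀ k, sg k = 1 ∨ sg k = -1) (ρ : Fin 3 → ℤ)
    (ψ : Fin 3 → ℕ → ℝ) (c : ℝ)
    (heq : ∀ i u, c * ψ i u * ((lev sg ρ i u).card : ℝ)
        = ∑ p ∈ lev sg ρ i u, ∑ j ∈ univ.erase i, ψ j (cnt sg j p))
    (L : ℝ)
    (hL : ∀ i u, (lev sg ρ i u).Nonempty → (lev sg ρ i (u + 1)).Nonempty →
      |ψ i (u + 1) - ψ i u| ≤ L)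
    (i : Fin 3) (u : ℕ) (h0 : (lev sg ρ i u).Nonempty) (h1 : (lev sg ρ i (u + 1)).Nonempty) :
    |c| * |ψ i (u + 1) - ψ i u| ≤ L := by
  obtain ⟨j, k, hij, hik, hjk⟩ := exists_others i
  have hN : (0 : ℝ) < ((lev sg ρ i u).card : ℝ) := by exact_mod_cast Finset.card_pos.mpr h0
  have hN' : (0 : ℝ) < ((lev sg ρ i (u + 1)).card : ℝ) := by
    exact_mod_cast Finset.card_pos.mpr h1
  have bj := half_bound sg hsg ρ ψ L hL i j k hij hik hjk u h0
  have bk := half_bound sg hsg ρ ψ L hL i k j hik hij hjk.symm u h0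
  -- the eigen-equations on the two levels
  have E0 : c * ψ i u * ((lev sg ρ i u).card : ℝ)
      = ∑ p ∈ lev sg ρ i u, ψ j (cnt sg j p) + ∑ p ∈ lev sg ρ i u, ψ k (cnt sg k p) := by
    rw [heq i u, ← Finset.sum_add_distrib]
    exact Finset.sum_congr rfl fun p _ => sum_erase_three _ i j k hij hik hjk
  have E1 : c * ψ i (u + 1) * ((lev sg ρ i (u + 1)).card : ℝ)
      = ∑ p ∈ lev sg ρ i (u + 1), ψ j (cnt sg j p)
        + ∑ p ∈ lev sg ρ i (u + 1), ψ k (cnt sg k p) := by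
    rw [heq i (u + 1), ← Finset.sum_add_distrib]
    exact Finset.sum_congr rfl fun p _ => sum_erase_three _ i j k hij hik hjk
  -- the means: `cnt j + cnt k = M - cnt i`
  have M0 : ∑ p ∈ lev sg ρ i u, (cnt sg j p : ℝ) + ∑ p ∈ lev sg ρ i u, (cnt sg k p : ℝ)
      = ((plusCard sg : ℝ) - u) * ((lev sg ρ i u).card : ℝ) := by
    rw [← Finset.sum_add_distrib, mul_comm, ← nsmul_eq_mul, ← Finset.sum_const]
    refine Finset.sum_congr rfl fun p hp => ?_
    rw [mem_lev] at hp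
    have h3 := cnt_third sg p i j k hij hik hjk
    rw [hp.2] at h3
    have h4 : ((cnt sg k p : ℤ) : ℝ) = (((plusCard sg : ℤ) - u - cnt sg j p : ℤ) : ℝ) := by
      rw [h3]
    push_cast at h4
    linarith
  have M1 : ∑ p ∈ lev sg ρ i (u + 1), (cnt sg j p : ℝ)
        + ∑ p ∈ lev sg ρ i (u + 1), (cnt sg k p : ℝ)
      = ((plusCard sg : ℝ) - u - 1) * ((lev sg ρ i (u + 1)).card : ℝ) := by
    rw [← Finset.sum_add_distrib, mul_comm, ← nsmul_eq_mul, ← Finset.sum_const]
    refine Finset.sum_congr rfl fun p hp => ?_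
    rw [mem_lev] at hp
    have h3 := cnt_third sg p i j k hij hik hjk
    rw [hp.2] at h3
    have h4 : ((cnt sg k p : ℤ) : ℝ) = (((plusCard sg : ℤ) - (u + 1 : ℕ) - cnt sg j p : ℤ) : ℝ) := by
      rw [h3]
    push_cast at h4
    linarith
  set N : ℝ := ((lev sg ρ i u).card : ℝ) with hNdef
  set N' : ℝ := ((lev sg ρ i (u + 1)).card : ℝ) with hN'def
  set Aj : ℝ := ∑ p ∈ lev sg ρ i u, ψ j (cnt sg j p)
  set Ak : ℝ := ∑ p ∈ lev sg ρ i u, ψ k (cnt sg k p)
  set Aj' : ℝ := ∑ p ∈ lev sg ρ i (u + 1), ψ j (cnt sg j p)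
  set Ak' : ℝ := ∑ p ∈ lev sg ρ i (u + 1), ψ k (cnt sg k p)
  set Tj : ℝ := ∑ p ∈ lev sg ρ i u, (cnt sg j p : ℝ)
  set Tk : ℝ := ∑ p ∈ lev sg ρ i u, (cnt sg k p : ℝ)
  set Tj' : ℝ := ∑ p ∈ lev sg ρ i (u + 1), (cnt sg j p : ℝ)
  set Tk' : ℝ := ∑ p ∈ lev sg ρ i (u + 1), (cnt sg k p : ℝ)
  have key : |c * (ψ i (u + 1) - ψ i u) * (N * N')| ≤ L * (N * N') := by
    have e : c * (ψ i (u + 1) - ψ i u) * (N * N')
        = -((Aj * N' - N * Aj') + (Ak * N' - N * Ak')) := by
      have : c * (ψ i (u + 1) - ψ i u) * (N * N')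
          = (c * ψ i (u + 1) * N') * N - (c * ψ i u * N) * N' := by ring
      rw [this, E0, E1]; ring
    rw [e, abs_neg]
    calc |(Aj * N' - N * Aj') + (Ak * N' - N * Ak')|
        ≤ |Aj * N' - N * Aj'| + |Ak * N' - N * Ak'| := abs_add_le _ _
      _ ≤ L * (Tj * N' - N * Tj') + L * (Tk * N' - N * Tk') := add_le_add bj bk
      _ = L * ((Tj + Tk) * N' - N * (Tj' + Tk')) := by ring
      _ = L * (N * N') := by rw [M0, M1]; ring
  have hNN : 0 < N * N' := mul_pos hN hN'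
  rw [abs_mul, abs_mul, abs_of_pos hNN] at key
  exact le_of_mul_le_mul_right key hNN

/-- **Stage 2 of the 3-box lemma (count chain).**  If the count functions `ψ i` satisfy the
eigen-equation with `|c| > 1`, they are constant on the feasible counts. -/
theorem count_stage (sg : κ → ℤ) (hsg : ∀ k, sg k = 1 ∨ sg k = -1) (ρ : Fin 3 → ℤ)
    (ψ : Fin 3 → ℕ → ℝ) (c : ℝ) (hc : 1 < |c|)
    (heq : ∀ i u, c * ψ i u * (((states sg ρ).filter fun p => cnt sg i p = u).card : ℝ)
        = ∑ p ∈ (states sg ρ).filter (fun p => cnt sg i p = u),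
            ∑ j ∈ univ.erase i, ψ j (cnt sg j p)) :
    ∀ i, ∀ p ∈ states sg ρ, ∀ q ∈ states sg ρ, ψ i (cnt sg i p) = ψ i (cnt sg i q) := by
  have heq' : ∀ i u, c * ψ i u * ((lev sg ρ i u).card : ℝ)
      = ∑ p ∈ lev sg ρ i u, ∑ j ∈ univ.erase i, ψ j (cnt sg j p) := heq
  -- all consecutive feasible differences vanish
  have key : ∀ i u, (lev sg ρ i u).Nonempty → (lev sg ρ i (u + 1)).Nonempty →
      |ψ i (u + 1) - ψ i u| ≤ 0 := by
    classical
    set D : Finset (Fin 3 × ℕ) := (univ ×ˢ range (Fintype.card κ + 1)).filter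
      (fun q => (lev sg ρ q.1 q.2).Nonempty ∧ (lev sg ρ q.1 (q.2 + 1)).Nonempty) with hD
    have hmemD : ∀ i u, (lev sg ρ i u).Nonempty → (lev sg ρ i (u + 1)).Nonempty →
        (i, u) ∈ D := by
      intro i u h0 h1
      rw [hD, mem_filter, mem_product]
      refine ⟨⟨mem_univ _, ?_⟩, h0, h1⟩
      obtain ⟨p, hp⟩ := h0
      rw [mem_lev] at hp
      rw [mem_range, ← hp.2]
      exact cnt_lt sg i p
    intro i u h0 h1
    have hDne : D.Nonempty := ⟨(i, u), hmemD i u h0 h1⟩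
    obtain ⟨q0, hq0, hmax⟩ := D.exists_max_image
      (fun q => |ψ q.1 (q.2 + 1) - ψ q.1 q.2|) hDne
    have hL : ∀ i u, (lev sg ρ i u).Nonempty → (lev sg ρ i (u + 1)).Nonempty →
        |ψ i (u + 1) - ψ i u| ≤ |ψ q0.1 (q0.2 + 1) - ψ q0.1 q0.2| :=
      fun i u h0 h1 => hmax (i, u) (hmemD i u h0 h1)
    rw [hD, mem_filter] at hq0
    have hcon := contraction sg hsg ρ ψ c heq' _ hL q0.1 q0.2 hq0.2.1 hq0.2.2
    have hnn : 0 ≤ |ψ q0.1 (q0.2 + 1) - ψ q0.1 q0.2| := abs_nonneg _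
    have hz : |ψ q0.1 (q0.2 + 1) - ψ q0.1 q0.2| ≤ 0 := by nlinarith
    exact (hL i u h0 h1).trans hz
  intro i
  -- if `cnt i p ≤ cnt i q` the values agree
  have main : ∀ p ∈ states sg ρ, ∀ q ∈ states sg ρ, cnt sg i p ≤ cnt sg i q →
      ψ i (cnt sg i p) = ψ i (cnt sg i q) := by
    intro p hp q hq hle
    obtain ⟨d, hd⟩ := Nat.exists_eq_add_of_le hle
    have h0 : (lev sg ρ i (cnt sg i p)).Nonempty := ⟨p, (mem_lev sg ρ i _ p).mpr ⟨hp, rfl⟩⟩
    have h1 : (lev sg ρ i (cnt sg i p + d)).Nonempty :=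
      ⟨q, (mem_lev sg ρ i _ q).mpr ⟨hq, hd⟩⟩
    have := lip_chain sg hsg ρ ψ 0 key i (cnt sg i p) h0 d h1
    rw [zero_mul] at this
    have h2 : ψ i (cnt sg i p + d) - ψ i (cnt sg i p) = 0 := abs_nonpos_iff.mp this
    rw [hd]
    linarith
  intro p hp q hq
  rcases le_total (cnt sg i p) (cnt sg i q) with h | h
  · exact main p hp q hq h
  · exact (main q hq p hp h).symm

end Model

end Crest.Agent.S0453R.ThreeBoxCount
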