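import Mathlib

/-!
Row 299 / S0453, module [T-GRAPH] (helper4): generic transport of sums of class averages along a
bijection between two finite sets carrying families of classes.
-/

set_option autoImplicit false
open Finset

namespace Crest.Agent.S0453R

/-- Generic transport: `Φ : C → S` is a bijection with inverse `Ψ`, and for every index `i` the
`i`-class of `a ∈ C` corresponds to the `i`-class of `Φ a` (which lies inside `S`).  Then every sum
over `C` of an expression in `f a` and the class averages of `f` equals the corresponding sum over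
`S` for `f ∘ Ψ`. -/
theorem transport_sum {α β ι : Type*} [DecidableEq α] [DecidableEq β]
    (C : Finset α) (S : Finset β) (Φ : α → β) (Ψ : β → α)
    (hΦ : ∀ a ∈ C, Φ a ∈ S) (hΨ : ∀ b ∈ S, Ψ b ∈ C)
    (hΨΦ : ∀ a ∈ C, Ψ (Φ a) = a) (hΦΨ : ∀ b ∈ S, Φ (Ψ b) = b)
    (clsA : ι → α → Finset α) (clsB : ι → β → Finset β)
    (hclsA : ∀ i, ∀ a ∈ C, ∀ a', a' ∈ clsA i a ↔ a' ∈ C ∧ Φ a' ∈ clsB i (Φ a))
    (hclsB : ∀ i, ∀ b ∈ S, clsB i b ⊆ S)
    (f : α → ℝ) (P : ℝ → (ι → ℝ) → ℝ) :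
    ∑ a ∈ C, P (f a) (fun i => (∑ a' ∈ clsA i a, f a') / ((clsA i a).card : ℝ)) =
      ∑ b ∈ S, P (f (Ψ b))
        (fun i => (∑ b' ∈ clsB i b, f (Ψ b')) / ((clsB i b).card : ℝ)) := by
  have key : ∀ i, ∀ a ∈ C, clsA i a = (clsB i (Φ a)).image Ψ := by
    intro i a ha
    ext a'
    rw [hclsA i a ha, mem_image]
    constructor
    · rintro ⟨ha', h⟩
      exact ⟨Φ a', h, hΨΦ a' ha'⟩
    · rintro ⟨b, hb, rfl⟩
      have hbS := hclsB i (Φ a) (hΦ a ha) hb
      exact ⟨hΨ b hbS, by rw [hΦΨ b hbS]; exact hb⟩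
  have inj : ∀ i, ∀ a ∈ C, Set.InjOn Ψ (clsB i (Φ a) : Set β) := by
    intro i a ha b hb b' hb' h
    have h2 := congrArg Φ h
    rwa [hΦΨ b (hclsB i _ (hΦ a ha) hb), hΦΨ b' (hclsB i _ (hΦ a ha) hb')] at h2
  refine sum_nbij' Φ Ψ hΦ hΨ hΨΦ hΦΨ ?_
  intro a ha
  rw [hΨΦ a ha]
  congr 1
  funext i
  rw [key i a ha, sum_image (inj i a ha), card_image_of_injOn (inj i a ha)]

end Crest.Agent.S0453R
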