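import Mathlib
import Crest.Prelude.Def_SwitchChain
import Crest.Agent.S0453.MatDefs
import Crest.Agent.S0453.Transport

/-!
Row 299 / S0453, module (T-transport) (helper4).

A triple class of realizations (everything frozen except the edges touching three vertices
`τ 0, τ 1, τ 2`) is in bijection with a class of `3 × K` zero-one matrices with prescribed row and
column sums (`K = Option (Fin n)`: one column per vertex, plus one pseudo-column for the three inner
edges), and the pair classes inside the triple class correspond to "one row fixed".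
Hence the abstract three-row inequality `ThreeRowStmt` gives the fibrewise form of
`A_ab + A_bc + A_ac ≥ I - P_T`.
-/

set_option autoImplicit false
open Finset

namespace Crest.Agent.S0453R

open Crest.SwitchChain

variable {n : ℕ}

/-! ### adjacency -/

/-- adjacency in an edge set -/
def Adj (G : Finset (Edge n)) (u v : Fin n) : Prop := ∃ e ∈ G, e.1 = s(u, v)

instance (G : Finset (Edge n)) (u v : Fin n) : Decidable (Adj G u v) := by
  unfold Adj; infer_instance

lemma Adj.symm {G : Finset (Edge n)} {u v : Fin n} (h : Adj G u v) : Adj G v u := by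
  obtain ⟨e, he, h⟩ := h
  exact ⟨e, he, by rw [h, Sym2.eq_swap]⟩

lemma adj_comm {G : Finset (Edge n)} {u v : Fin n} : Adj G u v ↔ Adj G v u :=
  ⟨Adj.symm, Adj.symm⟩

lemma Adj.ne {G : Finset (Edge n)} {u v : Fin n} (h : Adj G u v) : u ≠ v := by
  obtain ⟨e, -, h⟩ := h
  intro huv
  apply e.2
  rw [h, huv]
  exact Sym2.mk_isDiag_iff.mpr rfl

lemma not_adj_self {G : Finset (Edge n)} {u : Fin n} : ¬ Adj G u u := fun h => h.ne rfl

lemma mem_iff_adj {G : Finset (Edge n)} {e : Edge n} {u v : Fin n} (h : e.1 = s(u, v)) :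
    e ∈ G ↔ Adj G u v := by
  constructor
  · intro he; exact ⟨e, he, h⟩
  · rintro ⟨e', he', h'⟩
    have : e' = e := Subtype.ext (h'.trans h.symm)
    exact this ▸ he'

lemma ext_adj {G G' : Finset (Edge n)} (h : ∀ u v, Adj G u v ↔ Adj G' u v) : G = G' := by
  ext e
  obtain ⟨u, v, huv⟩ : ∃ u v, e.1 = s(u, v) := by
    induction' hx : e.1 using Sym2.ind with u v
    exact ⟨u, v, rfl⟩
  rw [mem_iff_adj huv, mem_iff_adj huv, h]

lemma deg_eq_card_adj (G : Finset (Edge n)) (v : Fin n) :
    deg G v = (univ.filter fun u => Adj G v u).card := by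
  symm
  unfold deg
  refine Finset.card_bij (fun u hu => (⟨s(v, u), by
      have := (mem_filter.mp hu).2
      simpa using this.ne⟩ : Edge n)) ?_ ?_ ?_
  · intro u hu
    obtain ⟨e, he, h⟩ := (mem_filter.mp hu).2
    rw [mem_filter]
    refine ⟨?_, by simp⟩
    have : e = ⟨s(v, u), by rw [← h]; exact e.2⟩ := Subtype.ext h
    rw [← this]; exact he
  · intro u1 h1 u2 h2 h
    have h' := congrArg Subtype.val h
    simp only [Sym2.eq_iff] at h'
    rcases h' with ⟨-, h'⟩ | ⟨h1', h2'⟩
    · exact h'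
    · rw [h2', ← h1']
  · intro e he
    obtain ⟨heG, hv⟩ := mem_filter.mp he
    obtain ⟨u, hu⟩ := Sym2.mem_iff_exists.mp hv
    exact ⟨u, by simpa using ⟨e, heG, hu⟩, Subtype.ext hu.symm⟩

/-- the graph of a relation -/
noncomputable def ofRel (R : Fin n → Fin n → Prop) : Finset (Edge n) := by
  classical exact univ.filter fun e => ∃ u v, e.1 = s(u, v) ∧ R u v

lemma adj_ofRel {R : Fin n → Fin n → Prop} (hsymm : ∀ u v, R u v → R v u) (hirr : ∀ u, ¬ R u u)
    (u v : Fin n) : Adj (ofRel R) u v ↔ R u v := by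
  classical
  constructor
  · rintro ⟨e, he, h⟩
    simp only [ofRel, mem_filter, mem_univ, true_and] at he
    obtain ⟨u', v', h', hR⟩ := he
    rw [h] at h'
    rcases Sym2.eq_iff.mp h' with ⟨rfl, rfl⟩ | ⟨rfl, rfl⟩
    · exact hR
    · exact hsymm _ _ hR
  · intro hR
    have hne : u ≠ v := by rintro rfl; exact hirr _ hR
    refine ⟨⟨s(u, v), by simpa using hne⟩, ?_, rfl⟩
    simp only [ofRel, mem_filter, mem_univ, true_and]
    exact ⟨u, v, rfl, hR⟩

/-! ### classes -/

/-- the edges of `G` touching no vertex of `A` -/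
def off (A : Finset (Fin n)) (G : Finset (Edge n)) : Finset (Edge n) :=
  G.filter fun e => ∀ v ∈ A, v ∉ e.1

lemma off_eq_iff {A : Finset (Fin n)} {G G' : Finset (Edge n)} :
    off A G = off A G' ↔ ∀ u v, u ∉ A → v ∉ A → (Adj G u v ↔ Adj G' u v) := by
  constructor
  · intro h u v hu hv
    have key : ∀ H H' : Finset (Edge n), off A H = off A H' → Adj H u v → Adj H' u v := by
      rintro H H' hH ⟨e, he, huv⟩
      have : e ∈ off A H := by
        rw [off, mem_filter]
        refine ⟨he, fun w hw => ?_⟩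
        rw [huv, Sym2.mem_iff]
        rintro (rfl | rfl)
        · exact hu hw
        · exact hv hw
      rw [hH, off, mem_filter] at this
      exact ⟨e, this.1, huv⟩
    exact ⟨key G G' h, key G' G h.symm⟩
  · intro h
    ext e
    obtain ⟨u, v, huv⟩ : ∃ u v, e.1 = s(u, v) := by
      induction' hx : e.1 using Sym2.ind with u v
      exact ⟨u, v, rfl⟩
    simp only [off, mem_filter]
    constructor
    · rintro ⟨he, hav⟩
      refine ⟨?_, hav⟩
      have hu : u ∉ A := fun hu => hav u hu (by rw [huv]; simp)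
      have hv : v ∉ A := fun hv => hav v hv (by rw [huv]; simp)
      exact (mem_iff_adj huv).mpr ((h u v hu hv).mp ((mem_iff_adj huv).mp he))
    · rintro ⟨he, hav⟩
      refine ⟨?_, hav⟩
      have hu : u ∉ A := fun hu => hav u hu (by rw [huv]; simp)
      have hv : v ∉ A := fun hv => hav v hv (by rw [huv]; simp)
      exact (mem_iff_adj huv).mpr ((h u v hu hv).mpr ((mem_iff_adj huv).mp he))

/-- the class of `G`: realizations of `d` agreeing with `G` off the vertex set `A` -/
def offClass (d : Fin n → ℕ) (A : Finset (Fin n)) (G : Finset (Edge n)) :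
    Finset (Finset (Edge n)) :=
  (realizations d).filter fun G' => off A G' = off A G

/-- average of `f` over the class of `G` -/
noncomputable def offAvg (d : Fin n → ℕ) (A : Finset (Fin n)) (f : Finset (Edge n) → ℝ)
    (G : Finset (Edge n)) : ℝ :=
  (∑ G' ∈ offClass d A G, f G') / ((offClass d A G).card : ℝ)

/-- the vertex set of a triple -/
def triT (τ : Fin 3 → Fin n) : Finset (Fin n) := univ.image τ

/-- the pair opposite to `τ i` -/
def pairT (τ : Fin 3 → Fin n) (i : Fin 3) : Finset (Fin n) := {τ (i + 1), τ (i + 2)}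

/-! ### the matrix of a graph relative to a triple -/

section Triple

variable (τ : Fin 3 → Fin n)

/-- membership in the triple -/
def inT (u : Fin n) : Prop := ∃ i, τ i = u

instance : DecidablePred (inT τ) := by
  intro u; unfold inT; infer_instance

/-- the matrix of `G`: row `i` = adjacency of `τ i` to the outside vertices, pseudo-column `none` =
absence of the inner edge opposite to `τ i` -/
def mat (G : Finset (Edge n)) : Fin 3 → Option (Fin n) → Bool := fun i k =>
  match k with
  | some w => decide (¬ inT τ w ∧ Adj G (τ i) w)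
  | none => decide (¬ Adj G (τ (i + 1)) (τ (i + 2)))

@[simp] lemma mat_some {G : Finset (Edge n)} {i : Fin 3} {w : Fin n} :
    mat τ G i (some w) = true ↔ ¬ inT τ w ∧ Adj G (τ i) w := by
  simp [mat]

@[simp] lemma mat_none {G : Finset (Edge n)} {i : Fin 3} :
    mat τ G i none = true ↔ ¬ Adj G (τ (i + 1)) (τ (i + 2)) := by
  simp [mat]

/-- the relation rebuilt from a matrix and the frozen part of `G0` -/
def relOf (G0 : Finset (Edge n)) (x : Fin 3 → Option (Fin n) → Bool) (u v : Fin n) : Prop :=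
  (¬ inT τ u ∧ ¬ inT τ v ∧ Adj G0 u v) ∨
  (∃ i, u = τ i ∧ ¬ inT τ v ∧ x i (some v) = true) ∨
  (∃ i, v = τ i ∧ ¬ inT τ u ∧ x i (some u) = true) ∨
  (∃ i, ((u = τ (i + 1) ∧ v = τ (i + 2)) ∨ (u = τ (i + 2) ∧ v = τ (i + 1))) ∧ x i none = false)

variable {τ}

lemma relOf_symm {G0 : Finset (Edge n)} {x : Fin 3 → Option (Fin n) → Bool} (u v : Fin n)
    (h : relOf τ G0 x u v) : relOf τ G0 x v u := by
  rcases h with ⟨hu, hv, h⟩ | ⟨i, hu, hv, h⟩ | ⟨i, hv, hu, h⟩ | ⟨i, h, hx⟩
  · exact Or.inl ⟨hv, hu, h.symm⟩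
  · exact Or.inr (Or.inr (Or.inl ⟨i, hu, hv, h⟩))
  · exact Or.inr (Or.inl ⟨i, hv, hu, h⟩)
  · refine Or.inr (Or.inr (Or.inr ⟨i, ?_, hx⟩))
    rcases h with ⟨h1, h2⟩ | ⟨h1, h2⟩
    · exact Or.inr ⟨h2, h1⟩
    · exact Or.inl ⟨h2, h1⟩

lemma fin3_succ_ne (i : Fin 3) : i + 1 ≠ i + 2 := by revert i; decide

lemma mem_T (i : Fin 3) : inT τ (τ i) := ⟨i, rfl⟩

lemma relOf_irrefl (hτ : Function.Injective τ) {G0 : Finset (Edge n)}
    {x : Fin 3 → Option (Fin n) → Bool} (u : Fin n) : ¬ relOf τ G0 x u u := by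
  rintro (⟨-, -, h⟩ | ⟨i, hu, hv, -⟩ | ⟨i, hv, hu, -⟩ | ⟨i, h, -⟩)
  · exact not_adj_self h
  · exact hv (hu ▸ mem_T i)
  · exact hu (hv ▸ mem_T i)
  · rcases h with ⟨h1, h2⟩ | ⟨h1, h2⟩
    · exact fin3_succ_ne i (hτ (h1.symm.trans h2))
    · exact fin3_succ_ne i (hτ (h2.symm.trans h1))

lemma relOf_out_out {G0 : Finset (Edge n)} {x : Fin 3 → Option (Fin n) → Bool} {u v : Fin n}
    (hu : ¬ inT τ u) (hv : ¬ inT τ v) : relOf τ G0 x u v ↔ Adj G0 u v := by
  constructor
  · rintro (⟨-, -, h⟩ | ⟨i, hu', -, -⟩ | ⟨i, hv', -, -⟩ | ⟨i, h, -⟩)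
    · exact h
    · exact absurd (hu' ▸ mem_T i) hu
    · exact absurd (hv' ▸ mem_T i) hv
    · rcases h with ⟨h1, -⟩ | ⟨h1, -⟩
      · exact absurd (h1 ▸ mem_T _) hu
      · exact absurd (h1 ▸ mem_T _) hu
  · intro h; exact Or.inl ⟨hu, hv, h⟩

lemma relOf_T_out (hτ : Function.Injective τ) {G0 : Finset (Edge n)}
    {x : Fin 3 → Option (Fin n) → Bool} {i : Fin 3} {v : Fin n}
    (hv : ¬ inT τ v) : relOf τ G0 x (τ i) v ↔ x i (some v) = true := by
  constructor
  · rintro (⟨hu, -, -⟩ | ⟨j, hu', -, h⟩ | ⟨j, hv', -, -⟩ | ⟨j, h, -⟩)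
    · exact absurd (mem_T i) hu
    · rw [hτ hu']; exact h
    · exact absurd (hv' ▸ mem_T j) hv
    · rcases h with ⟨-, h2⟩ | ⟨-, h2⟩
      · exact absurd (h2 ▸ mem_T _) hv
      · exact absurd (h2 ▸ mem_T _) hv
  · intro h; exact Or.inr (Or.inl ⟨i, rfl, hv, h⟩)

lemma relOf_T_T (hτ : Function.Injective τ) {G0 : Finset (Edge n)}
    {x : Fin 3 → Option (Fin n) → Bool} {a b : Fin 3} :
    relOf τ G0 x (τ a) (τ b) ↔
      ∃ i, ((a = i + 1 ∧ b = i + 2) ∨ (a = i + 2 ∧ b = i + 1)) ∧ x i none = false := by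
  constructor
  · rintro (⟨hu, -, -⟩ | ⟨j, -, hv, -⟩ | ⟨j, -, hu, -⟩ | ⟨j, h, hx⟩)
    · exact absurd (mem_T a) hu
    · exact absurd (mem_T b) hv
    · exact absurd (mem_T a) hu
    · refine ⟨j, ?_, hx⟩
      rcases h with ⟨h1, h2⟩ | ⟨h1, h2⟩
      · exact Or.inl ⟨hτ h1, hτ h2⟩
      · exact Or.inr ⟨hτ h1, hτ h2⟩
  · rintro ⟨i, h, hx⟩
    refine Or.inr (Or.inr (Or.inr ⟨i, ?_, hx⟩))
    rcases h with ⟨h1, h2⟩ | ⟨h1, h2⟩
    · exact Or.inl ⟨by rw [h1], by rw [h2]⟩
    · exact Or.inr ⟨by rw [h1], by rw [h2]⟩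

/-! ### degree bookkeeping -/

lemma colSum_mat_some_of_mem {G : Finset (Edge n)} {w : Fin n} (hw : inT τ w) :
    colSum (mat τ G) (some w) = 0 := by
  rw [colSum, card_eq_zero, filter_eq_empty_iff]
  intro i _ h
  exact ((mat_some τ).mp h).1 hw

variable (τ) in
/-- number of neighbours outside the triple -/
def outDeg (G : Finset (Edge n)) (w : Fin n) : ℕ :=
  (univ.filter fun u => ¬ inT τ u ∧ Adj G w u).card

lemma deg_out (hτ : Function.Injective τ) (G : Finset (Edge n)) {w : Fin n}
    (hw : ¬ inT τ w) : deg G w = outDeg τ G w + colSum (mat τ G) (some w) := by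
  rw [deg_eq_card_adj, outDeg]
  have hsplit : (univ.filter fun u => Adj G w u) =
      (univ.filter fun u => ¬ inT τ u ∧ Adj G w u) ∪
        (univ.filter fun i => mat τ G i (some w) = true).image τ := by
    ext u
    rw [mem_union, mem_filter, mem_filter, mem_image]
    constructor
    · rintro ⟨-, h⟩
      by_cases hu : inT τ u
      · right
        obtain ⟨i, rfl⟩ := hu
        exact ⟨i, mem_filter.mpr ⟨mem_univ _, (mat_some τ).mpr ⟨hw, h.symm⟩⟩, rfl⟩
      · left; exact ⟨mem_univ _, hu, h⟩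
    · rintro (⟨-, -, h⟩ | ⟨i, hi, rfl⟩)
      · exact ⟨mem_univ _, h⟩
      · exact ⟨mem_univ _, ((mat_some τ).mp (mem_filter.mp hi).2).2.symm⟩
  have hdisj : Disjoint (univ.filter fun u => ¬ inT τ u ∧ Adj G w u)
      ((univ.filter fun i => mat τ G i (some w) = true).image τ) := by
    rw [disjoint_left]
    intro u hu hu'
    obtain ⟨i, -, rfl⟩ := mem_image.mp hu'
    exact (mem_filter.mp hu).2.1 (mem_T i)
  rw [hsplit, card_union_of_disjoint hdisj, card_image_of_injective _ hτ, colSum]

lemma deg_T (hτ : Function.Injective τ) (G : Finset (Edge n)) (i : Fin 3) :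
    rowSum (mat τ G) i + 2 = deg G (τ i) + colSum (mat τ G) none := by
  have hdeg : deg G (τ i) = outDeg τ G (τ i) + ∑ j, if Adj G (τ i) (τ j) then 1 else 0 := by
    rw [deg_eq_card_adj, outDeg]
    have hsplit : (univ.filter fun u => Adj G (τ i) u) =
        (univ.filter fun u => ¬ inT τ u ∧ Adj G (τ i) u) ∪
          (univ.filter fun j => Adj G (τ i) (τ j)).image τ := by
      ext u
      rw [mem_union, mem_filter, mem_filter, mem_image]
      constructor
      · rintro ⟨-, h⟩
        by_cases hu : inT τ u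
        · right
          obtain ⟨j, rfl⟩ := hu
          exact ⟨j, mem_filter.mpr ⟨mem_univ _, h⟩, rfl⟩
        · left; exact ⟨mem_univ _, hu, h⟩
      · rintro (⟨-, -, h⟩ | ⟨j, hj, rfl⟩)
        · exact ⟨mem_univ _, h⟩
        · exact ⟨mem_univ _, (mem_filter.mp hj).2⟩
    have hdisj : Disjoint (univ.filter fun u => ¬ inT τ u ∧ Adj G (τ i) u)
        ((univ.filter fun j => Adj G (τ i) (τ j)).image τ) := by
      rw [disjoint_left]
      intro u hu hu'
      obtain ⟨j, -, rfl⟩ := mem_image.mp hu'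
      exact (mem_filter.mp hu).2.1 (mem_T j)
    rw [hsplit, card_union_of_disjoint hdisj, card_image_of_injective _ hτ]
    congr 1
    rw [card_filter]
  have hrow : rowSum (mat τ G) i =
      (if ¬ Adj G (τ (i + 1)) (τ (i + 2)) then 1 else 0) + outDeg τ G (τ i) := by
    rw [rowSum_eq_sum, Fintype.sum_option, outDeg, card_filter]
    simp only [mat_none, mat_some]
  have hcol : colSum (mat τ G) none = ∑ j : Fin 3, if ¬ Adj G (τ (j + 1)) (τ (j + 2)) then 1 else 0 := by
    rw [colSum_eq_sum]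
    simp only [mat_none]
  rw [hdeg, hrow, hcol, Fin.sum_univ_three, Fin.sum_univ_three]
  have h00 : ¬ Adj G (τ 0) (τ 0) := not_adj_self
  have h11 : ¬ Adj G (τ 1) (τ 1) := not_adj_self
  have h22 : ¬ Adj G (τ 2) (τ 2) := not_adj_self
  have h10 : Adj G (τ 1) (τ 0) ↔ Adj G (τ 0) (τ 1) := adj_comm
  have h21 : Adj G (τ 2) (τ 1) ↔ Adj G (τ 1) (τ 2) := adj_comm
  have h02 : Adj G (τ 0) (τ 2) ↔ Adj G (τ 2) (τ 0) := adj_comm
  fin_cases i <;> simp only [Fin.isValue, Fin.zero_eta, Fin.mk_one, Fin.reduceFinMk, Fin.reduceAdd,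
      zero_add, h00, h11, h22, h10, h21, h02, if_false] <;>
    by_cases y0 : Adj G (τ 1) (τ 2) <;> by_cases y1 : Adj G (τ 2) (τ 0) <;>
    by_cases y2 : Adj G (τ 0) (τ 1) <;> simp [y0, y1, y2] <;> omega

end Triple

/-! ### the bijection between a triple class and a matrix class -/

section Bij

variable {τ : Fin 3 → Fin n} {d : Fin n → ℕ} {G0 : Finset (Edge n)}

lemma mem_triT {u : Fin n} : u ∈ triT τ ↔ inT τ u := by
  simp [triT, inT]

lemma mem_pairT {i : Fin 3} {u : Fin n} : u ∈ pairT τ i ↔ u = τ (i + 1) ∨ u = τ (i + 2) := by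
  simp [pairT]

lemma mem_offClass {A : Finset (Fin n)} {G G' : Finset (Edge n)} :
    G' ∈ offClass d A G ↔ (∀ v, deg G' v = d v) ∧ off A G' = off A G := by
  simp [offClass, realizations]

lemma adj_of_mem_class {G : Finset (Edge n)} (hG : G ∈ offClass d (triT τ) G0) {u v : Fin n}
    (hu : ¬ inT τ u) (hv : ¬ inT τ v) : Adj G u v ↔ Adj G0 u v :=
  off_eq_iff.mp (mem_offClass.mp hG).2 u v (by rwa [mem_triT]) (by rwa [mem_triT])

lemma outDeg_congr {G G' : Finset (Edge n)}
    (h : ∀ u v, ¬ inT τ u → ¬ inT τ v → (Adj G u v ↔ Adj G' u v)) {w : Fin n}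
    (hw : ¬ inT τ w) : outDeg τ G w = outDeg τ G' w := by
  unfold outDeg
  congr 1
  apply filter_congr
  intro u _
  constructor
  · rintro ⟨hu, h'⟩; exact ⟨hu, (h w u hw hu).mp h'⟩
  · rintro ⟨hu, h'⟩; exact ⟨hu, (h w u hw hu).mpr h'⟩

/-- two graphs agreeing off the triple and having the same degrees have the same margins -/
lemma margins_of_deg (hτ : Function.Injective τ) {G G' : Finset (Edge n)}
    (hoff : ∀ u v, ¬ inT τ u → ¬ inT τ v → (Adj G u v ↔ Adj G' u v))
    (hdeg : ∀ v, deg G v = deg G' v) :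
    (∀ i, rowSum (mat τ G) i = rowSum (mat τ G') i) ∧
      ∀ k, colSum (mat τ G) k = colSum (mat τ G') k := by
  have hsome : ∀ w, colSum (mat τ G) (some w) = colSum (mat τ G') (some w) := by
    intro w
    by_cases hw : inT τ w
    · rw [colSum_mat_some_of_mem hw, colSum_mat_some_of_mem hw]
    · have h1 := deg_out hτ G hw
      have h2 := deg_out hτ G' hw
      have h3 := outDeg_congr hoff hw
      have h4 := hdeg w
      omega
  have hnone : colSum (mat τ G) none = colSum (mat τ G') none := by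
    have e1 := sum_rowSum (mat τ G)
    have e2 := sum_rowSum (mat τ G')
    rw [Fintype.sum_option, Fin.sum_univ_three] at e1 e2
    have hs : ∑ w, colSum (mat τ G) (some w) = ∑ w, colSum (mat τ G') (some w) :=
      sum_congr rfl fun w _ => hsome w
    have a0 := deg_T hτ G 0
    have a1 := deg_T hτ G 1
    have a2 := deg_T hτ G 2
    have b0 := deg_T hτ G' 0
    have b1 := deg_T hτ G' 1
    have b2 := deg_T hτ G' 2
    have d0 := hdeg (τ 0)
    have d1 := hdeg (τ 1)
    have d2 := hdeg (τ 2)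
    omega
  refine ⟨fun i => ?_, fun k => ?_⟩
  · have a := deg_T hτ G i
    have b := deg_T hτ G' i
    have c := hdeg (τ i)
    omega
  · cases k with
    | none => exact hnone
    | some w => exact hsome w

/-- two graphs agreeing off the triple and having the same margins have the same degrees -/
lemma deg_of_margins (hτ : Function.Injective τ) {G G' : Finset (Edge n)}
    (hoff : ∀ u v, ¬ inT τ u → ¬ inT τ v → (Adj G u v ↔ Adj G' u v))
    (hrow : ∀ i, rowSum (mat τ G) i = rowSum (mat τ G') i)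
    (hcol : ∀ k, colSum (mat τ G) k = colSum (mat τ G') k) (v : Fin n) :
    deg G v = deg G' v := by
  by_cases hv : inT τ v
  · obtain ⟨i, rfl⟩ := hv
    have a := deg_T hτ G i
    have b := deg_T hτ G' i
    have c := hrow i
    have e := hcol none
    omega
  · have h1 := deg_out hτ G hv
    have h2 := deg_out hτ G' hv
    have h3 := outDeg_congr hoff hv
    have h4 := hcol (some v)
    omega

lemma mat_mem_matClass (hτ : Function.Injective τ) (hG0 : G0 ∈ realizations d)
    {G : Finset (Edge n)} (hG : G ∈ offClass d (triT τ) G0) :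
    mat τ G ∈ matClass (rowSum (mat τ G0)) (colSum (mat τ G0)) := by
  have hd0 : ∀ v, deg G0 v = d v := by simpa [realizations] using hG0
  have hd : ∀ v, deg G v = d v := (mem_offClass.mp hG).1
  have := margins_of_deg hτ (fun u v hu hv => adj_of_mem_class hG hu hv)
    (fun v => (hd v).trans (hd0 v).symm)
  simp only [matClass, mem_filter, mem_univ, true_and]
  exact this

variable (τ G0) in
/-- the graph rebuilt from a matrix and the frozen part of `G0` -/
noncomputable def gr (x : Fin 3 → Option (Fin n) → Bool) : Finset (Edge n) :=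
  ofRel (relOf τ G0 x)

lemma adj_gr (hτ : Function.Injective τ) {x : Fin 3 → Option (Fin n) → Bool} (u v : Fin n) :
    Adj (gr τ G0 x) u v ↔ relOf τ G0 x u v :=
  adj_ofRel relOf_symm (relOf_irrefl hτ) u v

lemma fin3_opp (i j : Fin 3) :
    ((i + 1 = j + 1 ∧ i + 2 = j + 2) ∨ (i + 1 = j + 2 ∧ i + 2 = j + 1)) ↔ j = i := by
  revert i j; decide

lemma fin3_exists_opp (a b : Fin 3) (h : a ≠ b) :
    ∃ i : Fin 3, (a = i + 1 ∧ b = i + 2) ∨ (a = i + 2 ∧ b = i + 1) := by
  revert a b; decide

lemma mat_gr (hτ : Function.Injective τ) {x : Fin 3 → Option (Fin n) → Bool}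
    (hx : ∀ w, inT τ w → ∀ i, x i (some w) = false) : mat τ (gr τ G0 x) = x := by
  funext i k
  rw [Bool.eq_iff_iff]
  cases k with
  | none =>
    rw [mat_none, adj_gr hτ, relOf_T_T hτ]
    constructor
    · intro h
      by_contra hx'
      exact h ⟨i, Or.inl ⟨rfl, rfl⟩, by simpa using hx'⟩
    · rintro h ⟨j, hj, hxj⟩
      have hji := (fin3_opp i j).mp hj
      subst hji
      rw [h] at hxj
      exact Bool.noConfusion hxj
  | some w =>
    rw [mat_some]
    by_cases hw : inT τ w
    · simp [hw, hx w hw i]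
    · rw [adj_gr hτ, relOf_T_out hτ hw]
      simp [hw]

lemma entries_false_of_mem {x : Fin 3 → Option (Fin n) → Bool}
    (hx : x ∈ matClass (rowSum (mat τ G0)) (colSum (mat τ G0))) :
    ∀ w, inT τ w → ∀ i, x i (some w) = false := by
  intro w hw i
  have hc : colSum x (some w) = 0 := by
    rw [(mem_filter.mp hx).2.2 (some w), colSum_mat_some_of_mem hw]
  rw [colSum, card_eq_zero, filter_eq_empty_iff] at hc
  simpa using hc (mem_univ i)

lemma gr_mem (hτ : Function.Injective τ) (hG0 : G0 ∈ realizations d)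
    {x : Fin 3 → Option (Fin n) → Bool}
    (hx : x ∈ matClass (rowSum (mat τ G0)) (colSum (mat τ G0))) :
    gr τ G0 x ∈ offClass d (triT τ) G0 := by
  have hoff : ∀ u v, ¬ inT τ u → ¬ inT τ v → (Adj (gr τ G0 x) u v ↔ Adj G0 u v) := by
    intro u v hu hv
    rw [adj_gr hτ, relOf_out_out hu hv]
  have hmat := mat_gr (G0 := G0) hτ (entries_false_of_mem hx)
  have hx' := (mem_filter.mp hx).2
  have hdeg := deg_of_margins hτ hoff (by rw [hmat]; exact hx'.1) (by rw [hmat]; exact hx'.2)
  have hd0 : ∀ v, deg G0 v = d v := by simpa [realizations] using hG0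
  rw [mem_offClass]
  refine ⟨fun v => (hdeg v).trans (hd0 v), ?_⟩
  rw [off_eq_iff]
  intro u v hu hv
  exact hoff u v (by rwa [mem_triT] at hu) (by rwa [mem_triT] at hv)

lemma gr_mat (hτ : Function.Injective τ) {G : Finset (Edge n)}
    (hG : G ∈ offClass d (triT τ) G0) : gr τ G0 (mat τ G) = G := by
  apply ext_adj
  intro u v
  rw [adj_gr hτ]
  by_cases hu : inT τ u <;> by_cases hv : inT τ v
  · obtain ⟨a, rfl⟩ := hu
    obtain ⟨b, rfl⟩ := hv
    rw [relOf_T_T hτ]
    constructor
    · rintro ⟨i, h, hx⟩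
      have hadj : Adj G (τ (i + 1)) (τ (i + 2)) := by
        by_contra hcon
        have := (mat_none τ).mpr hcon
        rw [hx] at this
        exact Bool.noConfusion this
      rcases h with ⟨rfl, rfl⟩ | ⟨rfl, rfl⟩
      · exact hadj
      · exact hadj.symm
    · intro h
      have hab : a ≠ b := fun hab => h.ne (by rw [hab])
      obtain ⟨i, hi⟩ := fin3_exists_opp a b hab
      refine ⟨i, hi, ?_⟩
      have hadj : Adj G (τ (i + 1)) (τ (i + 2)) := by
        rcases hi with ⟨rfl, rfl⟩ | ⟨rfl, rfl⟩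
        · exact h
        · exact h.symm
      by_contra hcon
      have : mat τ G i none = true := by simpa using hcon
      exact (mat_none τ).mp this hadj
  · obtain ⟨a, rfl⟩ := hu
    rw [relOf_T_out hτ hv, mat_some]
    exact ⟨fun h => h.2, fun h => ⟨hv, h⟩⟩
  · obtain ⟨b, rfl⟩ := hv
    rw [adj_comm (G := G)]
    constructor
    · intro h
      exact ((mat_some τ).mp ((relOf_T_out hτ hu).mp (relOf_symm _ _ h))).2
    · intro h
      exact relOf_symm _ _ ((relOf_T_out hτ hu).mpr ((mat_some τ).mpr ⟨hu, h⟩))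
  · rw [relOf_out_out hu hv]
    exact (adj_of_mem_class hG hu hv).symm

lemma fin3_ne_succ (i : Fin 3) : i ≠ i + 1 := by revert i; decide

lemma fin3_ne_succ2 (i : Fin 3) : i ≠ i + 2 := by revert i; decide

lemma fin3_cases (i j : Fin 3) (h : j ≠ i) : j = i + 1 ∨ j = i + 2 := by
  revert i j; decide

/-- inside a triple class, the pair class of the pair opposite to `τ i` is "row `i` fixed" -/
lemma pairClass_iff (hτ : Function.Injective τ) (hG0 : G0 ∈ realizations d)
    {G : Finset (Edge n)} (hG : G ∈ offClass d (triT τ) G0) (i : Fin 3)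
    (G' : Finset (Edge n)) :
    G' ∈ offClass d (pairT τ i) G ↔ G' ∈ offClass d (triT τ) G0 ∧
      mat τ G' ∈ rowClass (matClass (rowSum (mat τ G0)) (colSum (mat τ G0))) i (mat τ G) := by
  have hTi : τ i ∉ pairT τ i := by
    rw [mem_pairT]
    push Not
    exact ⟨fun h => fin3_ne_succ i (hτ h), fun h => fin3_ne_succ2 i (hτ h)⟩
  have hout : ∀ w, ¬ inT τ w → w ∉ pairT τ i := by
    intro w hw hw'
    rcases mem_pairT.mp hw' with rfl | rfl
    · exact hw (mem_T _)
    · exact hw (mem_T _)
  constructor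
  · intro h
    obtain ⟨hdeg, hoff⟩ := mem_offClass.mp h
    have hoff' := off_eq_iff.mp hoff
    have hG'C : G' ∈ offClass d (triT τ) G0 := by
      rw [mem_offClass]
      refine ⟨hdeg, off_eq_iff.mpr ?_⟩
      intro u v hu hv
      rw [mem_triT] at hu hv
      rw [hoff' u v (hout u hu) (hout v hv)]
      exact adj_of_mem_class hG hu hv
    refine ⟨hG'C, ?_⟩
    have hS' := mat_mem_matClass hτ hG0 hG'C
    have hS := mat_mem_matClass hτ hG0 hG
    rw [rowClass, mem_filter]
    refine ⟨hS', ?_⟩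
    have hsome : ∀ w, mat τ G' i (some w) = mat τ G i (some w) := by
      intro w
      rw [Bool.eq_iff_iff, mat_some, mat_some]
      by_cases hw : inT τ w
      · simp [hw]
      · rw [hoff' (τ i) w hTi (hout w hw)]
    funext k
    cases k with
    | some w => exact hsome w
    | none =>
      have r' := (mem_filter.mp hS').2.1 i
      have r := (mem_filter.mp hS).2.1 i
      rw [rowSum_eq_sum, Fintype.sum_option] at r r'
      have hs : ∑ w, (if mat τ G' i (some w) = true then 1 else 0) =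
          ∑ w, (if mat τ G i (some w) = true then 1 else 0) :=
        sum_congr rfl fun w _ => by rw [hsome w]
      cases h1 : mat τ G' i none <;> cases h2 : mat τ G i none <;>
        simp only [h1, h2, if_true, if_false, Bool.false_eq_true] at r r' ⊢ <;> omega
  · rintro ⟨hG'C, hrow⟩
    rw [rowClass, mem_filter] at hrow
    have hrow' := hrow.2
    rw [mem_offClass]
    refine ⟨(mem_offClass.mp hG'C).1, off_eq_iff.mpr ?_⟩
    intro u v hu hv
    have key : ∀ w, inT τ w → w ∉ pairT τ i → w = τ i := by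
      rintro w ⟨j, rfl⟩ hw
      rw [mem_pairT] at hw
      push Not at hw
      by_contra hji
      have hji' : j ≠ i := fun h => hji (by rw [h])
      rcases fin3_cases i j hji' with rfl | rfl
      · exact hw.1 rfl
      · exact hw.2 rfl
    by_cases hu' : inT τ u <;> by_cases hv' : inT τ v
    · rw [key u hu' hu, key v hv' hv]
      exact ⟨fun h => absurd h not_adj_self, fun h => absurd h not_adj_self⟩
    · rw [key u hu' hu]
      have := congrFun hrow' (some v)
      rw [Bool.eq_iff_iff, mat_some, mat_some] at this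
      constructor
      · intro h; exact (this.mp ⟨hv', h⟩).2
      · intro h; exact (this.mpr ⟨hv', h⟩).2
    · rw [key v hv' hv, adj_comm (G := G'), adj_comm (G := G)]
      have := congrFun hrow' (some u)
      rw [Bool.eq_iff_iff, mat_some, mat_some] at this
      constructor
      · intro h; exact (this.mp ⟨hu', h⟩).2
      · intro h; exact (this.mpr ⟨hu', h⟩).2
    · rw [adj_of_mem_class hG'C hu' hv', adj_of_mem_class hG hu' hv']

/-- **Part A.**  Every sum over a triple class of an expression in `f G` and the three pair-class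
averages of `f` equals the corresponding sum over the matrix class. -/
theorem triple_transport (hτ : Function.Injective τ) (hG0 : G0 ∈ realizations d)
    (f : Finset (Edge n) → ℝ) (P : ℝ → (Fin 3 → ℝ) → ℝ) :
    ∑ G ∈ offClass d (triT τ) G0, P (f G) (fun i => offAvg d (pairT τ i) f G) =
      ∑ x ∈ matClass (rowSum (mat τ G0)) (colSum (mat τ G0)),
        P (f (gr τ G0 x)) (fun i => rowAvg (matClass (rowSum (mat τ G0)) (colSum (mat τ G0))) i
          (fun x => f (gr τ G0 x)) x) :=
  transport_sum (offClass d (triT τ) G0) (matClass (rowSum (mat τ G0)) (colSum (mat τ G0)))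
    (mat τ) (gr τ G0)
    (fun _ hG => mat_mem_matClass hτ hG0 hG) (fun _ hx => gr_mem hτ hG0 hx)
    (fun _ hG => gr_mat hτ hG) (fun _ hx => mat_gr hτ (entries_false_of_mem hx))
    (fun i G => offClass d (pairT τ i) G)
    (fun i x => rowClass (matClass (rowSum (mat τ G0)) (colSum (mat τ G0))) i x)
    (fun i _ hG G' => pairClass_iff hτ hG0 hG i G') (fun _ _ _ => filter_subset _ _) f P

end Bij

end Crest.Agent.S0453R
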